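import Mathlib

/-!
Bellman inductions on an abstract finite rooted tree (pure real inequalities).

PLAN (all by strong induction on `ht` over vertices with `G`; the root is one more step with mass 3/2).
Write `A = Σ lam * X c`. All of `L, S, L2, H, Tt` are `≥ 0` on `G` (induction; `S ≤ L`).
1. With `X c = u c ^ 2 * S c`: `u c ^ 2 * Tt c ≥ X c ^ 3 / 12`. Step: with `l i = lam u L ≥ x i = lam u² S`,
   `(1+Σl)(1+Σx) - Σ l x ≥ (1+A)² - lam² Σ X²`; let `Q = Σ lam X²`, then `lam Σ X³ ≥ Q²/A`, `Q ≥ A²`,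
   `lam² ΣX² ≤ min (A², Q/2)`; the needed inequality `u G₂ + (1/12) lam ΣX³ ≥ (1/12) u⁴ (1+A)³` follows from
   `u = 1` (`u⁴ ≤ u`; multiply the `u = 1` case by `u`); cases `Q ≤ 3A²/2` and `Q ≥ 3A²/2`.
   Hence `(S m - 1)³ ≤ 27 H m` (also at the root), so `S m ≤ 1 + H m / ω² + 6 ω` for all `ω > 0`.
2. Simultaneous induction: Th(m): `∀ ω>0, L m ≤ 4 + H m / ω² + 96 ω` and
   Q(m): `∀ π ∈ [0,1], ω>0, π L m ≤ 2 π² S m + π H m / ω² + (4 + 96 ω)/2`. First Q(m) for `π ≥ 1/2` from Q of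
   the children (`H m ≥ Σ lam u c H c`), then Th(m) from `π = 1` with `ω₁ = 5ω/4`, `ω₂ = 3ω`, then Q(m) for
   `π < 1/2` from Th(m). Conclude `L m ^ 3 ≤ C (1 + H m)` (choose `ω` proportional to `L m`).
3. Th2(m): `∀ τ>0, L2 m ≤ C (τ² + (1 + H m)/τ)`; R(m,k): `L2 m ≤ k L m + C τ² min 1 (L m/(k+1)) + C (1+H m)/τ`.
   R(m,k+1) from R(c,k) (`Σ lam u min 1 (L c/(k+1)) ≤ min 1 ((L m - 1)/(k+1)) ≤ min 1 (L m/(k+2))`),
   Th2(m) from R(m,K) with `K = ⌈8 L m⌉`, `τ ↦ 2τ` and `L m ² ≤ C' (τ² + (1+H m)/τ)`, R(m,0) from Th2(m).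
   Conclude `L2 ^ 3 ≤ C (1+H)²`.
4. `Jn m ≤ C (1 + H m)` directly from 2.
-/

open Finset

namespace Vale.Agent.P161.C

namespace Bell

theorem ind {V : Type} {ch : V → Finset V} {G : V → Prop} {ht : V → ℕ}
    (hG : ∀ m, G m → ∀ c ∈ ch m, G c) (hht : ∀ m, G m → ∀ c ∈ ch m, ht c < ht m)
    {P : V → Prop} (h : ∀ m, G m → (∀ c ∈ ch m, P c) → P m) : ∀ m, G m → P m := by
  have key : ∀ n, ∀ m, ht m = n → G m → P m := by
    intro n
    induction n using Nat.strong_induction_on with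
    | _ n ih =>
      intro m hm hg
      refine h m hg fun c hc => ih (ht c) ?_ c rfl (hG m hg c hc)
      rw [← hm]; exact hht m hg c hc
  exact fun m hg => key _ m rfl hg

theorem sum_sq_le {V : Type} (s : Finset V) (l x : V → ℝ) (hl : ∀ c ∈ s, 0 ≤ l c)
    (hx : ∀ c ∈ s, 0 ≤ x c) : ∑ c ∈ s, l c * x c ≤ (∑ c ∈ s, l c) * ∑ c ∈ s, x c := by
  rw [Finset.sum_mul]
  exact Finset.sum_le_sum fun c hc =>
    mul_le_mul_of_nonneg_left (Finset.single_le_sum hx hc) (hl c hc)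

/-- monotonicity of the two-point term in the first family. -/
theorem mono_G {V : Type} (s : Finset V) (l x : V → ℝ) (hlx : ∀ c ∈ s, x c ≤ l c)
    (hx : ∀ c ∈ s, 0 ≤ x c) :
    (1 + ∑ c ∈ s, x c) ^ 2 - ∑ c ∈ s, x c * x c ≤
      (1 + ∑ c ∈ s, l c) * (1 + ∑ c ∈ s, x c) - ∑ c ∈ s, l c * x c := by
  have h1 := sum_sq_le s (fun c => l c - x c) x (fun c hc => sub_nonneg.2 (hlx c hc)) hx
  have h2 : ∑ c ∈ s, x c ≤ ∑ c ∈ s, l c := Finset.sum_le_sum hlx
  simp only [sub_mul, Finset.sum_sub_distrib] at h1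
  nlinarith

theorem cube_step {V : Type} (s : Finset V) (lam : ℝ) (X : V → ℝ) (h0 : 0 ≤ lam)
    (h1 : lam ≤ 1 / 2) (hm : s.card * lam ≤ 1) (hX : ∀ c ∈ s, 0 ≤ X c) :
    (1 + ∑ c ∈ s, lam * X c) ^ 3 / 12 ≤
      (1 + ∑ c ∈ s, lam * X c) ^ 2 - ∑ c ∈ s, lam * X c * (lam * X c) +
        (∑ c ∈ s, lam * X c ^ 3) / 12 := by
  set A := ∑ c ∈ s, lam * X c with hA
  set Q := ∑ c ∈ s, lam * X c ^ 2 with hQ
  set P := ∑ c ∈ s, lam * X c ^ 3 with hP
  set W := ∑ c ∈ s, lam * X c * (lam * X c) with hW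
  have hA0 : 0 ≤ A := Finset.sum_nonneg fun c hc => mul_nonneg h0 (hX c hc)
  have hQ0 : 0 ≤ Q := Finset.sum_nonneg fun c hc => mul_nonneg h0 (sq_nonneg _)
  have hW1 : W ≤ A * A :=
    sum_sq_le s _ _ (fun c hc => mul_nonneg h0 (hX c hc)) (fun c hc => mul_nonneg h0 (hX c hc))
  have hW2 : W = lam * Q := by
    rw [hW, hQ, Finset.mul_sum]
    exact Finset.sum_congr rfl fun c _ => by ring
  have hQA : A ^ 2 ≤ Q := by
    have : 0 ≤ ∑ c ∈ s, lam * (X c - A) ^ 2 :=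
      Finset.sum_nonneg fun c _ => mul_nonneg h0 (sq_nonneg _)
    have e : ∑ c ∈ s, lam * (X c - A) ^ 2 = Q - 2 * A * A + s.card * lam * A ^ 2 := by
      have : ∀ c ∈ s, lam * (X c - A) ^ 2 = lam * X c ^ 2 - 2 * A * (lam * X c) + lam * A ^ 2 :=
        fun c _ => by ring
      rw [Finset.sum_congr rfl this, Finset.sum_add_distrib, Finset.sum_sub_distrib,
        ← Finset.mul_sum _ _ (2 * A), Finset.sum_const, nsmul_eq_mul]
      ring
    have := mul_le_mul_of_nonneg_right hm (sq_nonneg A)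
    nlinarith
  have hPt : ∀ t : ℝ, 2 * t * Q - t ^ 2 * A ≤ P := by
    intro t
    have : 0 ≤ ∑ c ∈ s, lam * (X c * (X c - t) ^ 2) :=
      Finset.sum_nonneg fun c hc => mul_nonneg h0 (mul_nonneg (hX c hc) (sq_nonneg _))
    have e : ∑ c ∈ s, lam * (X c * (X c - t) ^ 2) = P - 2 * t * Q + t ^ 2 * A := by
      have : ∀ c ∈ s, lam * (X c * (X c - t) ^ 2) =
          lam * X c ^ 3 - 2 * t * (lam * X c ^ 2) + t ^ 2 * (lam * X c) := fun c _ => by ring
      rw [Finset.sum_congr rfl this, Finset.sum_add_distrib, Finset.sum_sub_distrib,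
        ← Finset.mul_sum _ _ (2 * t), ← Finset.mul_sum _ _ (t ^ 2)]
    linarith
  rcases le_total Q (3 * A ^ 2 / 2) with h | h
  · have h3 := hPt A
    have h4 : A ^ 3 ≤ P := by nlinarith [mul_le_mul_of_nonneg_left hQA hA0]
    have h5 : W ≤ Q / 2 := by rw [hW2]; nlinarith
    nlinarith
  · have h3 := hPt (3 * A / 2)
    have h4 : 9 / 4 * A ^ 3 ≤ P := by nlinarith [mul_le_mul_of_nonneg_left h hA0]
    have h5 : 0 ≤ A * (A - 2) ^ 2 := mul_nonneg hA0 (sq_nonneg _)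
    nlinarith

theorem cube_mean {V : Type} (s : Finset V) (lam : ℝ) (X : V → ℝ) (h0 : 0 ≤ lam)
    (hm : s.card * lam ≤ 3 / 2) (hX : ∀ c ∈ s, 0 ≤ X c) :
    (∑ c ∈ s, lam * X c) ^ 3 ≤ 9 / 4 * ∑ c ∈ s, lam * X c ^ 3 := by
  set A := ∑ c ∈ s, lam * X c with hA
  set P := ∑ c ∈ s, lam * X c ^ 3 with hP
  have hA0 : 0 ≤ A := Finset.sum_nonneg fun c hc => mul_nonneg h0 (hX c hc)
  set t := 2 / 3 * A with ht
  have ht0 : 0 ≤ t := by positivity
  have : 0 ≤ ∑ c ∈ s, lam * ((X c - t) ^ 2 * (X c + 2 * t)) :=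
    Finset.sum_nonneg fun c hc =>
      mul_nonneg h0 (mul_nonneg (sq_nonneg _) (add_nonneg (hX c hc) (by positivity)))
  have e : ∑ c ∈ s, lam * ((X c - t) ^ 2 * (X c + 2 * t)) =
      P - 3 * t ^ 2 * A + s.card * lam * (2 * t ^ 3) := by
    have : ∀ c ∈ s, lam * ((X c - t) ^ 2 * (X c + 2 * t)) =
        lam * X c ^ 3 - 3 * t ^ 2 * (lam * X c) + lam * (2 * t ^ 3) := fun c _ => by ring
    rw [Finset.sum_congr rfl this, Finset.sum_add_distrib, Finset.sum_sub_distrib,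
      ← Finset.mul_sum _ _ (3 * t ^ 2), Finset.sum_const, nsmul_eq_mul]
    ring
  have h2 := mul_le_mul_of_nonneg_right hm (show 0 ≤ 2 * t ^ 3 by positivity)
  have h3 : 3 * t ^ 2 * A - 3 * t ^ 3 = 4 / 9 * A ^ 3 := by rw [ht]; ring
  linarith

theorem of_cube {A H ω : ℝ} (hH : 0 ≤ H) (h : A ^ 3 ≤ 27 * H) (hω : 0 < ω) :
    A ≤ H / ω ^ 2 + 6 * ω := by
  have h1 : 0 ≤ H / ω ^ 2 := by positivity
  rcases le_total A (6 * ω) with h2 | h2
  · linarith
  · have h3 : A ≤ H / ω ^ 2 := by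
      rw [le_div_iff₀ (by positivity)]
      have hA : 0 ≤ A := by linarith
      have h4 : (6 * ω) ^ 2 ≤ A ^ 2 := pow_le_pow_left₀ (by positivity) h2 2
      nlinarith [mul_le_mul_of_nonneg_left h4 hA]
    linarith

theorem L_cube {L H : ℝ} (hH : 0 ≤ H) (hL : 1 ≤ L)
    (h : ∀ ω > 0, L ≤ 4 + 3 * (H / ω ^ 2) + 96 * ω) : L ^ 3 ≤ 442368 * (1 + H) := by
  rcases le_total L 16 with h1 | h1
  · have : L ^ 3 ≤ 16 ^ 3 := pow_le_pow_left₀ (by linarith) h1 3
    nlinarith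
  · have h2 := h (L / 192) (by positivity)
    have hL0 : 0 < L := by linarith
    have h3 : L / 12 ≤ H / (L / 192) ^ 2 := by linarith
    rw [le_div_iff₀ (by positivity)] at h3
    nlinarith

theorem L_sq {L h τ K : ℝ} (hK : 1 ≤ K) (hh : 0 ≤ h) (hL : 1 ≤ L) (h3 : L ^ 3 ≤ K * h)
    (hτ : 0 < τ) : L ^ 2 ≤ K * (τ ^ 2 + h / τ) := by
  have h1 : 0 ≤ h / τ := by positivity
  rcases le_total L τ with h2 | h2
  · have : L ^ 2 ≤ τ ^ 2 := pow_le_pow_left₀ (by linarith) h2 2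
    nlinarith [sq_nonneg τ]
  · have h4 : L ^ 2 ≤ K * (h / τ) := by
      rw [← mul_div_assoc, le_div_iff₀ hτ]
      nlinarith [mul_le_mul_of_nonneg_left h2 (sq_nonneg L)]
    nlinarith [sq_nonneg τ]

theorem L2_cube {M h D : ℝ} (hD : 0 < D) (hh : 0 < h) (hM : 0 < M)
    (H : ∀ τ > 0, M ≤ D * (τ ^ 2 + h / τ)) : M ^ 3 ≤ 8 * D ^ 3 * h ^ 2 := by
  have h1 := H (2 * D * h / M) (by positivity)
  have e : D * ((2 * D * h / M) ^ 2 + h / (2 * D * h / M)) = 4 * D ^ 3 * h ^ 2 / M ^ 2 + M / 2 := by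
    field_simp
    ring
  rw [e] at h1
  have h2 : M / 2 ≤ 4 * D ^ 3 * h ^ 2 / M ^ 2 := by linarith
  rw [le_div_iff₀ (by positivity)] at h2
  nlinarith

theorem min_step {L : ℝ} (k : ℕ) :
    min 1 ((L - 1) / (k + 1)) ≤ min 1 (L / ((k + 1 : ℕ) + 1)) := by
  have hk : (0 : ℝ) < k + 1 := by positivity
  push_cast
  rcases le_total L (k + 2) with h | h
  · refine min_le_min le_rfl ?_
    rw [div_le_div_iff₀ hk (by positivity)]
    nlinarith
  · refine le_min (min_le_left _ _) ((min_le_left _ _).trans ?_)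
    rw [le_div_iff₀ (by positivity)]
    linarith

theorem mass {V : Type} (s : Finset V) {lam M a : ℝ} (u : V → ℝ) (h0 : 0 ≤ lam) (ha : 0 ≤ a)
    (hm : s.card * lam ≤ M) (hu : ∀ c ∈ s, u c ≤ 1) : ∑ c ∈ s, lam * u c * a ≤ M * a := by
  calc ∑ c ∈ s, lam * u c * a ≤ ∑ c ∈ s, lam * a :=
        Finset.sum_le_sum fun c hc => by
          have := mul_le_mul_of_nonneg_left (hu c hc) (mul_nonneg h0 ha)
          nlinarith
    _ = s.card * lam * a := by rw [Finset.sum_const, nsmul_eq_mul]; ring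
    _ ≤ M * a := mul_le_mul_of_nonneg_right hm ha

end Bell

theorem bell_main : ∃ C : ℝ, 1 ≤ C ∧ ∀ {V : Type} (r : V) (ch : V → Finset V) (G : V → Prop)
    (ht : V → ℕ) (lam θ : ℝ) (u L S L2 H Tt Jn : V → ℝ),
    0 ≤ lam → lam ≤ 1 / 2 → 0 ≤ θ → θ ≤ 3 / 4 →
    (∀ m, m = r ∨ G m → ∀ c ∈ ch m, G c) → (∀ m, G m → ∀ c ∈ ch m, ht c < ht m) →
    (∀ m, G m → (ch m).card * lam ≤ 1) → (ch r).card * lam ≤ 3 / 2 →
    (∀ m, G m → 0 ≤ u m ∧ u m ≤ 1) →
    (∀ m, m = r ∨ G m → L m = 1 + ∑ c ∈ ch m, lam * u c * L c) →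
    (∀ m, m = r ∨ G m → S m = 1 + ∑ c ∈ ch m, lam * u c ^ 2 * S c) →
    (∀ m, m = r ∨ G m → L2 m = L m + ∑ c ∈ ch m, lam * u c * L2 c) →
    (∀ m, m = r ∨ G m → H m = ∑ c ∈ ch m, lam * u c * Tt c) →
    (∀ m, G m → u m * (L m * S m - ∑ c ∈ ch m, lam * u c * L c * (lam * u c ^ 2 * S c)) + H m ≤ Tt m) →
    (∀ m, m = r ∨ G m → Jn m ≤ L m ^ 3 + θ * ∑ c ∈ ch m, lam * u c * Jn c) →
    L r ^ 3 ≤ C * (1 + H r) ∧ L2 r ^ 3 ≤ C * (1 + H r) ^ 2 ∧ Jn r ≤ C * (1 + H r) := by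
  refine ⟨8 * (36 * 442368) ^ 3, by norm_num, ?_⟩
  intro V r ch G ht lam θ u L S L2 H Tt Jn h0 h1 t0 t1 hG hht hm hmr hu hL hS hL2 hH hT hJ
  have hG' : ∀ m, G m → ∀ c ∈ ch m, G c := fun m hg => hG m (Or.inr hg)
  have hm' : ∀ m, m = r ∨ G m → (ch m).card * lam ≤ 3 / 2 := by
    rintro m (rfl | hg)
    · exact hmr
    · linarith [hm m hg]
  -- step 0
  have base : ∀ m, m = r ∨ G m → (∀ c ∈ ch m, (1 ≤ S c ∧ S c ≤ L c ∧ L c ≤ L2 c ∧ 0 ≤ H c) ∧
      H c ≤ Tt c) → 1 ≤ S m ∧ S m ≤ L m ∧ L m ≤ L2 m ∧ 0 ≤ H m := by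
    intro m hmm ih
    have huc := fun c hc => hu c (hG m hmm c hc)
    refine ⟨?_, ?_, ?_, ?_⟩
    · rw [hS m hmm]
      have : 0 ≤ ∑ c ∈ ch m, lam * u c ^ 2 * S c := Finset.sum_nonneg fun c hc =>
        mul_nonneg (mul_nonneg h0 (sq_nonneg _)) (by linarith [(ih c hc).1.1])
      linarith
    · rw [hS m hmm, hL m hmm]
      refine add_le_add le_rfl (Finset.sum_le_sum fun c hc => ?_)
      obtain ⟨⟨a1, a2, -, -⟩, -⟩ := ih c hc
      obtain ⟨b1, b2⟩ := huc c hc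
      have : u c ^ 2 * S c ≤ u c * L c := by
        have := mul_le_mul_of_nonneg_left a2 b1
        have := mul_le_mul_of_nonneg_left b2 (mul_nonneg b1 (show 0 ≤ S c by linarith))
        nlinarith
      have := mul_le_mul_of_nonneg_left this h0
      linarith
    · rw [hL2 m hmm]
      have : 0 ≤ ∑ c ∈ ch m, lam * u c * L2 c := Finset.sum_nonneg fun c hc => by
        obtain ⟨⟨a1, a2, a3, -⟩, -⟩ := ih c hc
        exact mul_nonneg (mul_nonneg h0 (huc c hc).1) (by linarith)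
      linarith
    · rw [hH m hmm]
      exact Finset.sum_nonneg fun c hc => by
        obtain ⟨⟨-, -, -, a4⟩, a5⟩ := ih c hc
        exact mul_nonneg (mul_nonneg h0 (huc c hc).1) (by linarith)
  have posG : ∀ m, G m → (1 ≤ S m ∧ S m ≤ L m ∧ L m ≤ L2 m ∧ 0 ≤ H m) ∧ H m ≤ Tt m := by
    refine Bell.ind hG' hht fun m hg ih => ⟨base m (Or.inr hg) ih, ?_⟩
    have huc := fun c hc => hu c (hG' m hg c hc)
    have hl : ∀ c ∈ ch m, 0 ≤ lam * u c * L c := fun c hc => by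
      obtain ⟨⟨a1, a2, -, -⟩, -⟩ := ih c hc
      exact mul_nonneg (mul_nonneg h0 (huc c hc).1) (by linarith)
    have hx : ∀ c ∈ ch m, 0 ≤ lam * u c ^ 2 * S c := fun c hc => by
      obtain ⟨⟨a1, a2, -, -⟩, -⟩ := ih c hc
      exact mul_nonneg (mul_nonneg h0 (sq_nonneg _)) (by linarith)
    have k1 := Bell.sum_sq_le (ch m) _ _ hl hx
    have k2 := Finset.sum_nonneg hl
    have k3 := Finset.sum_nonneg hx
    have k4 := hT m hg
    have k5 : 0 ≤ L m * S m - ∑ c ∈ ch m, lam * u c * L c * (lam * u c ^ 2 * S c) := by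
      rw [hL m (Or.inr hg), hS m (Or.inr hg)]
      nlinarith
    have := mul_nonneg (hu m hg).1 k5
    linarith
  have pos : ∀ m, m = r ∨ G m → 1 ≤ S m ∧ S m ≤ L m ∧ L m ≤ L2 m ∧ 0 ≤ H m :=
    fun m hmm => base m hmm fun c hc => posG c (hG m hmm c hc)
  have hHc : ∀ m, m = r ∨ G m → ∑ c ∈ ch m, lam * u c * H c ≤ H m := by
    intro m hmm
    rw [hH m hmm]
    exact Finset.sum_le_sum fun c hc => mul_le_mul_of_nonneg_left (posG c (hG m hmm c hc)).2
      (mul_nonneg h0 (hu c (hG m hmm c hc)).1)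
  -- step 1
  have s1a : ∀ m, m = r ∨ G m → (∀ c ∈ ch m, (u c ^ 2 * S c) ^ 3 / 12 ≤ u c ^ 2 * Tt c) →
      (∑ c ∈ ch m, lam * (u c ^ 2 * S c) ^ 3) / 12 ≤ H m := by
    intro m hmm ih
    rw [hH m hmm, Finset.sum_div]
    refine Finset.sum_le_sum fun c hc => ?_
    have hc' := hG m hmm c hc
    obtain ⟨⟨-, -, -, a4⟩, a5⟩ := posG c hc'
    obtain ⟨b1, b2⟩ := hu c hc'
    have k1 : u c ^ 2 * Tt c ≤ u c * Tt c := by
      have := mul_le_mul_of_nonneg_left b2 (mul_nonneg b1 (show 0 ≤ Tt c by linarith))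
      nlinarith
    have := mul_le_mul_of_nonneg_left ((ih c hc).trans k1) h0
    linarith
  have s1 : ∀ m, G m → (u m ^ 2 * S m) ^ 3 / 12 ≤ u m ^ 2 * Tt m := by
    refine Bell.ind hG' hht fun m hg ih => ?_
    have hmm : m = r ∨ G m := Or.inr hg
    have k0 := s1a m hmm ih
    have hX : ∀ c ∈ ch m, 0 ≤ u c ^ 2 * S c := fun c hc =>
      mul_nonneg (sq_nonneg _) (by linarith [(posG c (hG' m hg c hc)).1.1])
    have k1 := Bell.cube_step (ch m) lam (fun c => u c ^ 2 * S c) h0 h1 (hm m hg) hX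
    have k2 := Bell.mono_G (ch m) (fun c => lam * u c * L c) (fun c => lam * (u c ^ 2 * S c))
      (fun c hc => by
        obtain ⟨⟨a1, a2, -, -⟩, -⟩ := posG c (hG' m hg c hc)
        obtain ⟨b1, b2⟩ := hu c (hG' m hg c hc)
        have : u c ^ 2 * S c ≤ u c * L c := by
          have := mul_le_mul_of_nonneg_left a2 b1
          have := mul_le_mul_of_nonneg_left b2 (mul_nonneg b1 (show 0 ≤ S c by linarith))
          nlinarith
        have := mul_le_mul_of_nonneg_left this h0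
        linarith)
      (fun c hc => mul_nonneg h0 (hX c hc))
    have eS : S m = 1 + ∑ c ∈ ch m, lam * (u c ^ 2 * S c) := by
      rw [hS m hmm]; simp only [mul_assoc]
    have k4 := hT m hg
    have eW : ∑ c ∈ ch m, lam * u c * L c * (lam * u c ^ 2 * S c) =
        ∑ c ∈ ch m, lam * u c * L c * (lam * (u c ^ 2 * S c)) := by simp only [mul_assoc]
    rw [eW] at k4
    beta_reduce at k1 k2
    rw [← eS] at k1 k2
    rw [← hL m hmm] at k2
    obtain ⟨b1, b2⟩ := hu m hg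
    obtain ⟨a1, -, -, a4⟩ := pos m hmm
    set W := L m * S m - ∑ c ∈ ch m, lam * u c * L c * (lam * (u c ^ 2 * S c)) with hW
    have k5 : S m ^ 3 / 12 ≤ W + H m := by linarith
    have k6 : u m * (S m ^ 3 / 12) ≤ Tt m := by
      have := mul_le_mul_of_nonneg_left k5 b1
      have := mul_le_mul_of_nonneg_left b2 a4
      nlinarith
    have k7 : u m ^ 4 ≤ u m := by
      have : u m ^ 3 ≤ 1 := pow_le_one₀ b1 b2
      nlinarith
    have k8 : u m ^ 4 * (S m ^ 3 / 12) ≤ Tt m :=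
      (mul_le_mul_of_nonneg_right k7 (by positivity)).trans k6
    have := mul_le_mul_of_nonneg_left k8 (sq_nonneg (u m))
    calc (u m ^ 2 * S m) ^ 3 / 12 = u m ^ 2 * (u m ^ 4 * (S m ^ 3 / 12)) := by ring
      _ ≤ _ := this
  have sS : ∀ m, m = r ∨ G m → ∀ ω > 0, S m - 1 ≤ H m / ω ^ 2 + 6 * ω := by
    intro m hmm ω hω
    refine Bell.of_cube (pos m hmm).2.2.2 ?_ hω
    have k0 := s1a m hmm fun c hc => s1 c (hG m hmm c hc)
    have hX : ∀ c ∈ ch m, 0 ≤ u c ^ 2 * S c := fun c hc =>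
      mul_nonneg (sq_nonneg _) (by linarith [(posG c (hG m hmm c hc)).1.1])
    have k1 := Bell.cube_mean (ch m) lam (fun c => u c ^ 2 * S c) h0 (hm' m hmm) hX
    have eS : S m - 1 = ∑ c ∈ ch m, lam * (u c ^ 2 * S c) := by
      rw [hS m hmm]; simp only [mul_assoc]; ring
    rw [eS]
    beta_reduce at k1
    linarith
  -- step 2
  have s2a : ∀ m M, m = r ∨ G m → (ch m).card * lam ≤ M →
      (∀ c ∈ ch m, ∀ π, 0 ≤ π → π ≤ 1 → ∀ ω > 0,
        π * L c ≤ 2 * π ^ 2 * S c + π * (H c / ω ^ 2) + (2 + 48 * ω)) →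
      ∀ π, 0 ≤ π → π ≤ 1 → ∀ ω > 0,
        π * L m ≤ π + 2 * π ^ 2 * (S m - 1) + π * (H m / ω ^ 2) + M * (2 + 48 * ω) := by
    intro m M hmm hM ih π p0 p1 ω hω
    have huc := fun c hc => hu c (hG m hmm c hc)
    have k1 : ∑ c ∈ ch m, π * (lam * u c * L c) ≤ ∑ c ∈ ch m, (2 * π ^ 2 * (lam * u c ^ 2 * S c) +
        π / ω ^ 2 * (lam * u c * H c) + lam * 1 * (2 + 48 * ω)) := by
      refine Finset.sum_le_sum fun c hc => ?_
      obtain ⟨b1, b2⟩ := huc c hc
      have := ih c hc (π * u c) (mul_nonneg p0 b1) (mul_le_one₀ p1 b1 b2) ω hω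
      have := mul_le_mul_of_nonneg_left this h0
      calc π * (lam * u c * L c) = lam * (π * u c * L c) := by ring
        _ ≤ _ := this
        _ = _ := by ring
    rw [Finset.sum_add_distrib, Finset.sum_add_distrib, ← Finset.mul_sum, ← Finset.mul_sum,
      ← Finset.mul_sum] at k1
    have k2 := Bell.mass (ch m) (a := 2 + 48 * ω) (fun _ => (1 : ℝ)) h0 (by positivity) hM
      (fun _ _ => le_rfl)
    have k3 := mul_le_mul_of_nonneg_left (hHc m hmm) (show 0 ≤ π / ω ^ 2 by positivity)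
    have e1 : ∑ c ∈ ch m, lam * u c * L c = L m - 1 := by rw [hL m hmm]; ring
    have e2 : ∑ c ∈ ch m, lam * u c ^ 2 * S c = S m - 1 := by rw [hS m hmm]; ring
    rw [e1, e2] at k1
    have e3 : π / ω ^ 2 * H m = π * (H m / ω ^ 2) := by ring
    linarith
  have s2 : ∀ m, G m → (∀ ω > 0, L m ≤ 4 + H m / ω ^ 2 + 96 * ω) ∧
      ∀ π, 0 ≤ π → π ≤ 1 → ∀ ω > 0,
        π * L m ≤ 2 * π ^ 2 * S m + π * (H m / ω ^ 2) + (2 + 48 * ω) := by
    refine Bell.ind hG' hht fun m hg ih => ?_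
    have hmm : m = r ∨ G m := Or.inr hg
    have k0 := s2a m 1 hmm (hm m hg) fun c hc => (ih c hc).2
    have a4 := (pos m hmm).2.2.2
    have th : ∀ ω > 0, L m ≤ 4 + H m / ω ^ 2 + 96 * ω := by
      intro ω hω
      have k1 := k0 1 zero_le_one le_rfl (5 * ω / 4) (by positivity)
      have k2 := sS m hmm (3 * ω) (by positivity)
      have e1 : H m / (5 * ω / 4) ^ 2 = 16 / 25 * (H m / ω ^ 2) := by field_simp; ring
      have e2 : H m / (3 * ω) ^ 2 = 1 / 9 * (H m / ω ^ 2) := by field_simp; ring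
      have : 0 ≤ H m / ω ^ 2 := by positivity
      rw [e1] at k1
      rw [e2] at k2
      linarith
    refine ⟨th, fun π p0 p1 ω hω => ?_⟩
    rcases le_total π (1 / 2) with h | h
    · have k1 := mul_le_mul_of_nonneg_left (th ω hω) p0
      have k2 : 0 ≤ 2 * π ^ 2 * S m :=
        mul_nonneg (by positivity) (by linarith [(pos m hmm).1])
      nlinarith
    · have k1 := k0 π p0 p1 ω hω
      nlinarith
  have Lc : ∀ m, m = r ∨ G m → L m ^ 3 ≤ 442368 * (1 + H m) := by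
    intro m hmm
    obtain ⟨a1, a2, a3, a4⟩ := pos m hmm
    refine Bell.L_cube a4 (by linarith) fun ω hω => ?_
    have k0 := s2a m (3 / 2) hmm (hm' m hmm) (fun c hc => (s2 c (hG m hmm c hc)).2) 1
      zero_le_one le_rfl ω hω
    have k2 := sS m hmm ω hω
    linarith
  have Ls : ∀ m, m = r ∨ G m → ∀ τ > 0, L m ^ 2 ≤ 442368 * (τ ^ 2 + (1 + H m) / τ) := by
    intro m hmm τ hτ
    obtain ⟨a1, a2, a3, a4⟩ := pos m hmm
    exact Bell.L_sq (by norm_num) (by linarith) (by linarith) (Lc m hmm) hτ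
  have h1H : ∀ m M, m = r ∨ G m → (ch m).card * lam ≤ M →
      ∑ c ∈ ch m, lam * u c * (1 + H c) ≤ M + H m := by
    intro m M hmm hM
    have k2 := Bell.mass (ch m) (a := 1) u h0 zero_le_one hM
      (fun c hc => (hu c (hG m hmm c hc)).2)
    have k3 := hHc m hmm
    simp only [mul_add, Finset.sum_add_distrib]
    linarith
  -- step 3
  set K : ℝ := 18 * 442368 with hK
  have K0 : 0 < K := by norm_num
  have s3 : ∀ m, G m → ∀ (k : ℕ), ∀ τ > 0,
      L2 m ≤ k * L m + K * τ ^ 2 * min 1 (L m / (k + 1)) + K * ((1 + H m) / τ) := by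
    refine Bell.ind hG' hht fun m hg ih => ?_
    have hmm : m = r ∨ G m := Or.inr hg
    obtain ⟨a1, a2, a3, a4⟩ := pos m hmm
    have huc := fun c hc => hu c (hG m hmm c hc)
    have st : ∀ (k : ℕ), ∀ τ > 0, L2 m ≤ (k + 1 : ℕ) * L m +
        K * τ ^ 2 * min 1 (L m / ((k + 1 : ℕ) + 1)) + K * ((1 + H m) / τ) := by
      intro k τ hτ
      have k1 : ∑ c ∈ ch m, lam * u c * L2 c ≤ ∑ c ∈ ch m, (k * (lam * u c * L c) +
          K * τ ^ 2 * (lam * u c * min 1 (L c / (k + 1))) + K / τ * (lam * u c * (1 + H c))) := by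
        refine Finset.sum_le_sum fun c hc => ?_
        have := mul_le_mul_of_nonneg_left (ih c hc k τ hτ) (mul_nonneg h0 (huc c hc).1)
        refine this.trans (le_of_eq ?_)
        ring
      rw [Finset.sum_add_distrib, Finset.sum_add_distrib, ← Finset.mul_sum, ← Finset.mul_sum,
        ← Finset.mul_sum] at k1
      have e1 : ∑ c ∈ ch m, lam * u c * L c = L m - 1 := by rw [hL m hmm]; ring
      have k2 : ∑ c ∈ ch m, lam * u c * min 1 (L c / (k + 1)) ≤ min 1 ((L m - 1) / (k + 1)) := by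
        refine le_min ?_ ?_
        · have k2 := Bell.mass (ch m) (a := 1) u h0 zero_le_one (hm m hg)
            (fun c hc => (huc c hc).2)
          refine le_trans (Finset.sum_le_sum fun c hc => ?_) (k2.trans (by norm_num))
          exact mul_le_mul_of_nonneg_left (min_le_left _ _) (mul_nonneg h0 (huc c hc).1)
        · rw [← e1, Finset.sum_div]
          refine Finset.sum_le_sum fun c hc => ?_
          rw [mul_div_assoc]
          exact mul_le_mul_of_nonneg_left (min_le_right _ _) (mul_nonneg h0 (huc c hc).1)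
      have k3 := mul_le_mul_of_nonneg_left (k2.trans (Bell.min_step k))
        (show 0 ≤ K * τ ^ 2 by positivity)
      have k4 := mul_le_mul_of_nonneg_left (h1H m 1 hmm (hm m hg)) (show 0 ≤ K / τ by positivity)
      rw [e1] at k1
      have e3 : K / τ * (1 + H m) = K * ((1 + H m) / τ) := by ring
      have k5 : (0 : ℝ) ≤ k := Nat.cast_nonneg k
      rw [hL2 m hmm]
      have e4 : ((k + 1 : ℕ) : ℝ) * L m = k * L m + L m := by push_cast; ring
      rw [e4]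
      nlinarith
    intro k τ hτ
    rcases k with _ | k
    · have hL1 : 1 ≤ L m := by linarith
      obtain ⟨n, hn1, hn2⟩ : ∃ n : ℕ, 8 * L m ≤ n + 2 ∧ (n : ℝ) + 1 ≤ 9 * L m := by
        refine ⟨⌊8 * L m⌋₊, ?_, ?_⟩
        · linarith [Nat.lt_floor_add_one (8 * L m)]
        · linarith [Nat.floor_le (show 0 ≤ 8 * L m by linarith)]
      have k1 := st n (2 * τ) (by positivity)
      have k2 : min 1 (L m / ((n + 1 : ℕ) + 1)) ≤ 1 / 8 := by
        refine (min_le_right _ _).trans ?_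
        rw [div_le_iff₀ (by positivity)]
        push_cast
        linarith
      have k3 := mul_le_mul_of_nonneg_left k2 (show 0 ≤ K * (2 * τ) ^ 2 by positivity)
      have k4 := Ls m hmm τ hτ
      have k5 : ((n + 1 : ℕ) : ℝ) * L m ≤ 9 * L m ^ 2 := by
        push_cast
        nlinarith
      have e1 : (1 + H m) / (2 * τ) = 1 / 2 * ((1 + H m) / τ) := by field_simp
      have e2 : min 1 (L m / (((0 : ℕ) : ℝ) + 1)) = 1 := by
        rw [min_eq_left]; simpa using hL1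
      rw [e1] at k1
      rw [e2]
      simp only [hK] at *
      push_cast
      nlinarith
    · exact st k τ hτ
  have L2r : ∀ τ > 0, L2 r ≤ 2 * K * (τ ^ 2 + (1 + H r) / τ) := by
    intro τ hτ
    have hmm : r = r ∨ G r := Or.inl rfl
    obtain ⟨a1, a2, a3, a4⟩ := pos r hmm
    have huc := fun c hc => hu c (hG r hmm c hc)
    have k1 : ∑ c ∈ ch r, lam * u c * L2 c ≤ ∑ c ∈ ch r, (lam * u c * (K * τ ^ 2) +
        K / τ * (lam * u c * (1 + H c))) := by
      refine Finset.sum_le_sum fun c hc => ?_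
      have k0 := s3 c (hG r hmm c hc) 0 τ hτ
      have k2 := mul_le_mul_of_nonneg_left (min_le_left 1 (L c / (((0 : ℕ) : ℝ) + 1)))
        (show 0 ≤ K * τ ^ 2 by positivity)
      have k3 : L2 c ≤ K * τ ^ 2 + K * ((1 + H c) / τ) := by
        simp only [Nat.cast_zero, zero_mul] at k0 k2
        linarith
      have := mul_le_mul_of_nonneg_left k3 (mul_nonneg h0 (huc c hc).1)
      refine this.trans (le_of_eq ?_)
      ring
    rw [Finset.sum_add_distrib, ← Finset.mul_sum] at k1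
    have k2 := Bell.mass (ch r) (a := K * τ ^ 2) u h0 (by positivity) hmr (fun c hc => (huc c hc).2)
    have k4 := mul_le_mul_of_nonneg_left (h1H r (3 / 2) hmm hmr) (show 0 ≤ K / τ by positivity)
    have k5 := Ls r hmm τ hτ
    have k6 : K / τ * (3 / 2 + H r) ≤ 3 / 2 * K * ((1 + H r) / τ) := by
      have : 0 ≤ K / τ * H r := by positivity
      have e : 3 / 2 * K * ((1 + H r) / τ) = K / τ * (3 / 2 + H r) + 1 / 2 * (K / τ * H r) := by
        ring
      linarith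
    have k7 : L r ≤ L r ^ 2 := by nlinarith
    have k8 : 0 ≤ τ ^ 2 := sq_nonneg τ
    have k9 : 0 ≤ (1 + H r) / τ := by positivity
    rw [hL2 r hmm]
    simp only [hK] at *
    linarith
  -- step 4
  have s4a : ∀ m M, m = r ∨ G m → (ch m).card * lam ≤ M →
      (∀ c ∈ ch m, Jn c ≤ 4 * 442368 * (1 + H c)) → 0 ≤ M →
      Jn m ≤ 442368 * (1 + H m) + 3 * 442368 * (M + H m) := by
    intro m M hmm hM ih M0
    have huc := fun c hc => hu c (hG m hmm c hc)
    have k1 : ∑ c ∈ ch m, lam * u c * Jn c ≤ 4 * 442368 * ∑ c ∈ ch m, lam * u c * (1 + H c) := by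
      rw [Finset.mul_sum]
      refine Finset.sum_le_sum fun c hc => ?_
      have := mul_le_mul_of_nonneg_left (ih c hc) (mul_nonneg h0 (huc c hc).1)
      linarith
    have k2 := h1H m M hmm hM
    have k3 : ∑ c ∈ ch m, lam * u c * Jn c ≤ 4 * 442368 * (M + H m) := by linarith
    have k4 := mul_le_mul_of_nonneg_left k3 t0
    have a4 := (pos m hmm).2.2.2
    have k5 := mul_le_mul_of_nonneg_right t1 (show 0 ≤ 4 * 442368 * (M + H m) by positivity)
    have k6 := hJ m hmm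
    have k7 := Lc m hmm
    linarith
  have s4 : ∀ m, G m → Jn m ≤ 4 * 442368 * (1 + H m) := by
    refine Bell.ind hG' hht fun m hg ih => ?_
    have := s4a m 1 (Or.inr hg) (hm m hg) ih zero_le_one
    linarith
  have hmm : r = r ∨ G r := Or.inl rfl
  obtain ⟨a1, a2, a3, a4⟩ := pos r hmm
  refine ⟨?_, ?_, ?_⟩
  · have := Lc r hmm
    nlinarith
  · have := Bell.L2_cube (D := 2 * K) (h := 1 + H r) (M := L2 r) (by positivity) (by linarith)
      (by linarith) L2r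
    refine this.trans (le_of_eq ?_)
    rw [hK]; norm_num
  · have := s4a r (3 / 2) hmm hmr (fun c hc => s4 c (hG r hmm c hc)) (by norm_num)
    nlinarith

end Vale.Agent.P161.C
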