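import Vale.Agent.P161.C.Upd

/-!
Carleson type bounds, all by `ch_induction` on sums over `Bel m` with root `y` (`sum_Bel`, `dist_ch`, `Pr_mul`);
`u c = Pr m c / θ ∈ [0,1]`, `lam = θ²`, `card (ch m) * lam ≤ 1` for `m ≠ y`, `≤ 3/2` at the root.

PLAN. `carleson`: (a) `Σ_{x∈Bel m} Pr m x² M(x)² ≤ 96 + 4 M(m)²` (`mg_step`; `u²(A + 24B(1-u)) ≤ A` for `A = 24 B`);
(b) `Σ_{x∈Bel m} Pr m x² Σ_{c∈ch x} (1 - u c) ≤ 1/lam ≤ 2(d-1)` (`1 - u + u² ≤ 1`);
(c) `Nn x ≤ M(x)² + M(par x)² + Σ_{c∈ch x} M(c)²`, `M(c)² ≤ M(x)² + 24 (1 - u c)`, and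
`Σ_{c∈ch p} Pr y c² ≤ (3/2) Pr y p²`; (d) `Σ lam^(2 dist) ≤ 3`.
`transport`: `Lr x ≤ L x + lam Lr (par x)` (`dist_not_ch`, `Pr_mul`), where `L x` is the sum over `Bel x`; then
`Σ_{x∈Bel m} Pr m x² Lr x ≤ 2 L2 m + 2 Lr m`.
`antichain`: `a m = Σ_{y'∈B∩Bel m} θ^dist m y' Pr m y' ≤ 1`; if all of them are at distance `≥ j` from `m`
then `(j+1) a m ≤ L m`.
`near_cv`: for `x'` adjacent to `x` and `w` beyond `x'`: `cv x' w ² ≤ V(x') Pr x' w θ^dist x' w` and `var_le`;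
otherwise `cv x' w ≤ Pr x w` (`cv_symm`, `cv_mul`).
-/

open Finset
open scoped Classical

namespace Vale.Agent.P161.C

variable {V : Type} {d : ℕ} {E : Env V} {s : Finset (V × ℕ)} {x : V × ℕ → ℝ} {y w : V}

theorem Nn_le (h : Ok d E) : 0 ≤ Nn E s x y ∧ Nn E s x y ≤ d + 1 := by
  refine ⟨sum_nonneg fun v _ => sq_nonneg _, ?_⟩
  have h1 := sum_le_card_nsmul (E.D.filter fun v => E.T.dist y v ≤ 1)
    (fun v => mg E s x v ^ 2) 1 fun v _ => (sq_le_one_iff_abs_le_one _).2 (mg_abs h)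
  have h2 : ((E.D.filter fun v => E.T.dist y v ≤ 1).card : ℝ) ≤ d + 1 := by
    exact_mod_cast card_near h.tree h.reg
  rw [nsmul_eq_mul, mul_one] at h1
  exact h1.trans h2

theorem rec_sq (h : Ok d E) {m : V} (hm : m ∈ E.D) (F : V → ℝ) :
    ∑ v ∈ Bel E.T E.D y m, Pr E s x m v ^ 2 * F v =
      F m + ∑ c ∈ ch E.T E.D y m, Pr E s x m c ^ 2 * ∑ v ∈ Bel E.T E.D y c, Pr E s x c v ^ 2 * F v := by
  rw [sum_Bel h.tree h.cvx hm, Pr_self h hm, one_pow, one_mul]
  congr 1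
  refine sum_congr rfl fun c hc => ?_
  rw [mul_sum]
  refine sum_congr rfl fun v hv => ?_
  rw [Pr_mul h hm (mem_Bel.1 hv).1 (dist_ch h.tree hc (mem_Bel.1 hv).2).2.1]
  ring

theorem rec_th (h : Ok d E) {m : V} (hm : m ∈ E.D) (F : ℕ → V → ℝ) :
    ∑ v ∈ Bel E.T E.D y m, F (E.T.dist m v) v * (E.θ ^ E.T.dist m v * Pr E s x m v) =
      F 0 m + ∑ c ∈ ch E.T E.D y m, E.θ * Pr E s x m c *
        ∑ v ∈ Bel E.T E.D y c, F (E.T.dist c v + 1) v * (E.θ ^ E.T.dist c v * Pr E s x c v) := by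
  rw [sum_Bel h.tree h.cvx hm, Pr_self h hm, SimpleGraph.dist_self, pow_zero, one_mul, mul_one]
  congr 1
  refine sum_congr rfl fun c hc => ?_
  rw [mul_sum]
  refine sum_congr rfl fun v hv => ?_
  obtain ⟨h1, h2, -⟩ := dist_ch h.tree hc (mem_Bel.1 hv).2
  rw [Pr_mul h hm (mem_Bel.1 hv).1 h2, h1]
  ring

theorem ch_lam (h : Ok d E) (m : V) : ((ch E.T E.D y m).card : ℝ) * E.θ ^ 2 ≤ 3 / 2 := by
  have h1 : ((ch E.T E.D y m).card : ℝ) ≤ d := by exact_mod_cast card_ch_root h.reg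
  nlinarith [h.hi, h.half, sq_nonneg E.θ]

theorem ch_lam' (h : Ok d E) {m : V} (hm : m ≠ y) :
    ((ch E.T E.D y m).card : ℝ) * E.θ ^ 2 ≤ 1 := by
  have h1 : ((ch E.T E.D y m).card : ℝ) + 1 ≤ d := by exact_mod_cast card_ch h.tree h.reg hm
  nlinarith [h.hi, h.half, sq_nonneg E.θ]

theorem sum_ch_le {m : V} {f : V → ℝ} {a b : ℝ} (hb : ((ch E.T E.D y m).card : ℝ) * E.θ ^ 2 ≤ b)
    (ha : 0 ≤ a) (hf : ∀ c ∈ ch E.T E.D y m, f c ≤ E.θ ^ 2 * a) :
    ∑ c ∈ ch E.T E.D y m, f c ≤ b * a := by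
  have := sum_le_card_nsmul _ _ _ hf
  rw [nsmul_eq_mul, ← mul_assoc] at this
  exact this.trans (mul_le_mul_of_nonneg_right hb ha)

theorem sum_insert_le' {ι : Type*} {f : ι → ℝ} (hf : ∀ i, 0 ≤ f i) (a : ι) (t : Finset ι) :
    ∑ i ∈ insert a t, f i ≤ f a + ∑ i ∈ t, f i := by
  by_cases h : a ∈ t
  · rw [insert_eq_of_mem h]; linarith [hf a]
  · rw [sum_insert h]

theorem Nn_split (h : Ok d E) {p m : V} (hm : m ∈ ch E.T E.D y p) :
    Nn E s x m ≤ mg E s x m ^ 2 + (mg E s x p ^ 2 + ∑ c ∈ ch E.T E.D y m, mg E s x c ^ 2) := by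
  obtain ⟨m1, m2, m3⟩ := mem_ch.1 hm
  have hs : (E.D.filter fun v => E.T.dist m v ≤ 1) ⊆ insert m (insert p (ch E.T E.D y m)) := by
    intro v hv
    obtain ⟨v1, v2⟩ := mem_filter.1 hv
    simp only [mem_insert]
    rcases Nat.le_one_iff_eq_zero_or_eq_one.1 v2 with h4 | h4
    · exact Or.inl (h.tree.connected.dist_eq_zero_iff.1 h4).symm
    have ha := SimpleGraph.dist_eq_one_iff_adj.1 h4
    have h5 := adj_dist h.tree ha y
    rw [E.T.dist_comm (u := v), E.T.dist_comm (u := m)] at h5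
    rcases h5 with h5 | h5
    · exact Or.inr (Or.inr (mem_ch.2 ⟨v1, ha, h5⟩))
    · refine Or.inr (Or.inl (btw_inj h.tree (x := y) (w := m) ?_ (btw_of_ch hm) (by omega)))
      unfold Btw
      rw [E.T.dist_comm (u := v)]
      omega
  refine (sum_le_sum_of_subset_of_nonneg hs fun v _ _ => sq_nonneg _).trans ?_
  refine (sum_insert_le' (fun v => sq_nonneg _) _ _).trans ?_
  exact add_le_add le_rfl (sum_insert_le' (fun v => sq_nonneg _) _ _)

theorem carleson (h : Ok d E) (hy : y ∈ E.D) :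
    ∑ v ∈ E.D, Pr E s x y v ^ 2 * (Nn E s x v + (E.θ ^ 2) ^ E.T.dist y v) ≤ 1000 * d := by
  have hθ := h.pos
  have hd : (3 : ℝ) ≤ d := by exact_mod_cast h.hd
  have k : ∀ m ∈ E.D, ∀ p, m ∈ ch E.T E.D y p → ∑ v ∈ Bel E.T E.D y m, Pr E s x m v ^ 2 * Nn E s x v ≤
      144 * (d + 1) + 4 * (d + 2) * mg E s x m ^ 2 + mg E s x p ^ 2 := by
    refine ch_induction (r := y) (T := E.T) fun m hm ih p hp => ?_
    rw [rec_sq h hm]
    have h1 := Nn_split h (s := s) (x := x) hp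
    have M0 := sq_nonneg (mg E s x m)
    have h2 : ∑ c ∈ ch E.T E.D y m, (mg E s x c ^ 2 + Pr E s x m c ^ 2 *
        ∑ v ∈ Bel E.T E.D y c, Pr E s x c v ^ 2 * Nn E s x v - 3 / 4 * mg E s x m ^ 2) ≤
        1 * (144 * (d + 1) + (3 * (d + 2) + 1) * mg E s x m ^ 2) := by
      refine sum_ch_le (ch_lam' h (ch_ne hp)) (by positivity) fun c hc => ?_
      obtain ⟨c1, c2, c3⟩ := mem_ch.1 hc
      have a1 := mg_step h (s := s) (x := x) hm c1 c2
      obtain ⟨a2, a3⟩ := Pr_adj h (s := s) (x := x) hm c1 c2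
      have a4 := ih c hc m hc
      obtain ⟨u, hu⟩ : ∃ u, Pr E s x m c = E.θ * u := ⟨Pr E s x m c / E.θ, by field_simp⟩
      rw [hu] at a1 a2 a3 ⊢
      rw [mul_div_cancel_left₀ _ hθ.ne'] at a1
      have u0 : 0 ≤ u := by
        by_contra hn
        nlinarith
      have u1 : u ≤ 1 := by
        by_contra hn
        nlinarith
      have lo := h.lo
      generalize ∑ v ∈ Bel E.T E.D y c, Pr E s x c v ^ 2 * Nn E s x v = S at *
      generalize mg E s x m ^ 2 = M at *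
      generalize mg E s x c ^ 2 = N at *
      have l0 : 0 ≤ E.θ ^ 2 := sq_nonneg _
      rw [mul_pow]
      generalize E.θ ^ 2 = l at *
      have uu : u ^ 2 ≤ 1 := by nlinarith
      have uu' : u ^ 2 ≤ u := by nlinarith
      have b1 : S ≤ 144 * (d + 1) + 96 * (d + 2) * (1 - u) + (3 * (d + 2) + 1) * M := by nlinarith
      have b2 : u ^ 2 * S ≤ 144 * (d + 1) * u + 96 * (d + 2) * (1 - u) + (3 * (d + 2) + 1) * M := by
        have e1 : u ^ 2 * (144 * (d + 1)) ≤ u * (144 * (d + 1)) := by gcongr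
        have e2 : u ^ 2 * (96 * (d + 2) * (1 - u) + (3 * (d + 2) + 1) * M) ≤
            1 * (96 * (d + 2) * (1 - u) + (3 * (d + 2) + 1) * M) := by
          have : 0 ≤ 1 - u := by linarith
          gcongr
        have e3 : u ^ 2 * S ≤ u ^ 2 * (144 * (d + 1) + 96 * (d + 2) * (1 - u) +
          (3 * (d + 2) + 1) * M) := by gcongr
        linarith
      have b3 : l * (u ^ 2 * S) ≤ l * (144 * (d + 1) * u + 96 * (d + 2) * (1 - u) +
          (3 * (d + 2) + 1) * M) := by gcongr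
      have b4 : 24 * (1 - u) ≤ 24 * (1 - u) * (2 * (l * (d - 1))) :=
        le_mul_of_one_le_right (by linarith) lo
      nlinarith
    have h3 : ((ch E.T E.D y m).card : ℝ) ≤ d := by exact_mod_cast card_ch_root h.reg
    rw [sum_sub_distrib, sum_add_distrib, sum_const, nsmul_eq_mul] at h2
    have h4 : ((ch E.T E.D y m).card : ℝ) * (3 / 4 * mg E s x m ^ 2) ≤
      d * (3 / 4 * mg E s x m ^ 2) := by gcongr
    nlinarith
  have k1 := rec_sq h (s := s) (x := x) (y := y) hy (Nn E s x)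
  rw [Bel_root] at k1
  have k2 : ∑ c ∈ ch E.T E.D y y, Pr E s x y c ^ 2 *
      ∑ v ∈ Bel E.T E.D y c, Pr E s x c v ^ 2 * Nn E s x v ≤
      3 / 2 * (144 * (d + 1) + 4 * (d + 2) + 1) := by
    refine sum_ch_le (ch_lam h y) (by positivity) fun c hc => ?_
    obtain ⟨c1, c2, c3⟩ := mem_ch.1 hc
    obtain ⟨a2, a3⟩ := Pr_adj h (s := s) (x := x) hy c1 c2
    have a4 := k c c1 y hc
    have a5 := mg_lt h (s := s) (x := x) c1
    have a6 := mg_lt h (s := s) (x := x) hy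
    have a7 : ∑ v ∈ Bel E.T E.D y c, Pr E s x c v ^ 2 * Nn E s x v ≤
      144 * (d + 1) + 4 * (d + 2) + 1 := by nlinarith
    calc _ ≤ Pr E s x y c ^ 2 * (144 * (d + 1) + 4 * (d + 2) + 1) := by gcongr
      _ ≤ _ := by gcongr
  have k3 : ∑ v ∈ E.D, Pr E s x y v ^ 2 * (E.θ ^ 2) ^ E.T.dist y v ≤ 4 := by
    have r1 : E.θ ^ 2 * E.θ ^ 2 * (d - 1) ≤ 1 / 2 := by
      nlinarith [h.hi, h.half, sq_nonneg E.θ, h.lo]
    have q := sum_pow_dist h.tree h.reg (le_trans (by norm_num) h.hd) (r := E.θ ^ 2 * E.θ ^ 2)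
      (by positivity) (by linarith) E.D y
    refine (sum_le_sum fun v hv => ?_).trans (q.trans ?_)
    · have p0 := Pr_nonneg h (s := s) (x := x) hy hv
      have p1 := Pr_le h (s := s) (x := x) hy hv
      rw [mul_pow]
      refine mul_le_mul_of_nonneg_right ?_ (by positivity)
      rw [← pow_mul, mul_comm 2, pow_mul]
      gcongr
    · rw [div_le_iff₀ (by linarith)]; linarith
  have k4 := (Nn_le h (s := s) (x := x) (y := y)).2
  simp only [mul_add, sum_add_distrib]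
  linarith

theorem Lr_child (h : Ok d E) {p c : V} (hp : p ∈ E.D) (hc : c ∈ ch E.T E.D y p) :
    Lr E s x c ≤ ∑ v ∈ Bel E.T E.D y c, E.θ ^ E.T.dist c v * Pr E s x c v + E.θ ^ 2 * Lr E s x p := by
  have hθ := h.pos
  obtain ⟨c1, c2, c3⟩ := mem_ch.1 hc
  unfold Lr Bel
  rw [sum_filter, mul_sum, ← sum_add_distrib]
  refine sum_le_sum fun v hv => ?_
  have p0 := Pr_nonneg h (s := s) (x := x) hp hv
  split_ifs with hb
  · exact le_add_of_nonneg_right (by positivity)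
  · obtain ⟨h1, h2⟩ := dist_not_ch h.tree hc hb
    obtain ⟨a2, a3⟩ := Pr_adj h (s := s) (x := x) c1 hp c2.symm
    rw [Pr_mul h c1 hv h2, h1, zero_add]
    calc _ ≤ E.θ ^ (E.T.dist p v + 1) * (E.θ * Pr E s x p v) := by gcongr
      _ = _ := by ring

theorem transport (h : Ok d E) (hy : y ∈ E.D) :
    ∑ v ∈ E.D, Pr E s x y v ^ 2 * Lr E s x v ≤ 10 * L2 E s x y := by
  have hθ := h.pos
  have k : ∀ m ∈ E.D, ∑ v ∈ Bel E.T E.D y m, Pr E s x m v ^ 2 * Lr E s x v ≤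
      4 * ∑ v ∈ Bel E.T E.D y m, (1 + (E.T.dist m v : ℝ)) * (E.θ ^ E.T.dist m v * Pr E s x m v) +
        4 * Lr E s x m := by
    refine ch_induction (r := y) (T := E.T) fun m hm ih => ?_
    have L1 := (one_le_Lr h (s := s) (x := x) hm).1
    rw [rec_sq h hm, rec_th h hm fun j _ => 1 + (j : ℝ)]
    have h2 : ∑ c ∈ ch E.T E.D y m, (Pr E s x m c ^ 2 *
        ∑ v ∈ Bel E.T E.D y c, Pr E s x c v ^ 2 * Lr E s x v - 4 * (E.θ * Pr E s x m c *
        ∑ v ∈ Bel E.T E.D y c, (1 + ((E.T.dist c v + 1 : ℕ) : ℝ)) *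
          (E.θ ^ E.T.dist c v * Pr E s x c v))) ≤ 3 / 2 * (2 * Lr E s x m) := by
      refine sum_ch_le (ch_lam h m) (by positivity) fun c hc => ?_
      obtain ⟨c1, c2, c3⟩ := mem_ch.1 hc
      obtain ⟨a2, a3⟩ := Pr_adj h (s := s) (x := x) hm c1 c2
      have a4 := ih c hc
      have a5 := Lr_child h (s := s) (x := x) hm hc
      have e : ∑ v ∈ Bel E.T E.D y c, (1 + ((E.T.dist c v + 1 : ℕ) : ℝ)) *
          (E.θ ^ E.T.dist c v * Pr E s x c v) =
          ∑ v ∈ Bel E.T E.D y c, (1 + (E.T.dist c v : ℝ)) * (E.θ ^ E.T.dist c v * Pr E s x c v) +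
          ∑ v ∈ Bel E.T E.D y c, E.θ ^ E.T.dist c v * Pr E s x c v := by
        rw [← sum_add_distrib]
        exact sum_congr rfl fun v _ => by push_cast; ring
      have n1 : 0 ≤ ∑ v ∈ Bel E.T E.D y c, (1 + (E.T.dist c v : ℝ)) *
          (E.θ ^ E.T.dist c v * Pr E s x c v) := sum_nonneg fun v hv => by
        have := Pr_nonneg h (s := s) (x := x) c1 (mem_Bel.1 hv).1
        positivity
      have n2 : 0 ≤ ∑ v ∈ Bel E.T E.D y c, E.θ ^ E.T.dist c v * Pr E s x c v :=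
        sum_nonneg fun v hv => by
          have := Pr_nonneg h (s := s) (x := x) c1 (mem_Bel.1 hv).1
          positivity
      rw [e]
      generalize ∑ v ∈ Bel E.T E.D y c, (1 + (E.T.dist c v : ℝ)) *
          (E.θ ^ E.T.dist c v * Pr E s x c v) = A at *
      generalize ∑ v ∈ Bel E.T E.D y c, E.θ ^ E.T.dist c v * Pr E s x c v = B at *
      generalize ∑ v ∈ Bel E.T E.D y c, Pr E s x c v ^ 2 * Lr E s x v = S at *
      generalize Pr E s x m c = P at *
      have hf := h.half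
      have b1 : S ≤ 4 * (A + B) + 2 * Lr E s x m := by nlinarith
      have b2 : P ^ 2 * S ≤ P ^ 2 * (4 * (A + B) + 2 * Lr E s x m) := by gcongr
      have b3 : P ^ 2 * (A + B) ≤ E.θ * P * (A + B) := by
        have : P ^ 2 ≤ E.θ * P := by nlinarith
        gcongr
      have b4 : P ^ 2 * (2 * Lr E s x m) ≤ E.θ ^ 2 * (2 * Lr E s x m) := by gcongr
      linarith
    rw [sum_sub_distrib, ← mul_sum] at h2
    simp only [Nat.cast_zero]
    linarith
  have k1 := k y hy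
  rw [Bel_root] at k1
  obtain ⟨l1, l2, -⟩ := one_le_Lr h (s := s) (x := x) hy
  have e : ∑ v ∈ E.D, (1 + (E.T.dist y v : ℝ)) * (E.θ ^ E.T.dist y v * Pr E s x y v) =
    L2 E s x y := rfl
  rw [e] at k1
  linarith

theorem antichain (h : Ok d E) (hw : w ∈ E.D) {B : Finset V} (hB : B ⊆ E.D) {k : ℕ}
    (hk : ∀ v ∈ B, k ≤ E.T.dist w v) (ha : ∀ v ∈ B, ∀ v' ∈ B, Btw E.T w v v' → v = v') :
    (k + 1) * ∑ v ∈ B, E.θ ^ E.T.dist w v * Pr E s x w v ≤ 2 * Lr E s x w := by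
  have hθ := h.pos
  let a : V → ℝ := fun m => ∑ v ∈ Bel E.T E.D w m,
    (if v ∈ B then 1 else 0) * (E.θ ^ E.T.dist m v * Pr E s x m v)
  let L : V → ℝ := fun m => ∑ v ∈ Bel E.T E.D w m, 1 * (E.θ ^ E.T.dist m v * Pr E s x m v)
  have ra : ∀ m ∈ E.D, a m = (if m ∈ B then 1 else 0) +
      ∑ c ∈ ch E.T E.D w m, E.θ * Pr E s x m c * a c := fun m hm =>
    rec_th h hm fun _ v => if v ∈ B then 1 else 0
  have rL : ∀ m ∈ E.D, L m = 1 + ∑ c ∈ ch E.T E.D w m, E.θ * Pr E s x m c * L c := fun m hm =>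
    rec_th h hm fun _ _ => 1
  have a1 : ∀ m ∈ E.D, m ∈ B → a m = 1 := by
    intro m hm hb
    rw [ra m hm, if_pos hb, sum_eq_zero, add_zero]
    intro c hc
    rw [show a c = 0 from sum_eq_zero fun v hv => ?_, mul_zero]
    rw [if_neg, zero_mul]
    intro hv'
    obtain ⟨h1, -, h3⟩ := dist_ch h.tree hc (mem_Bel.1 hv).2
    rw [ha m hb v hv' h3, SimpleGraph.dist_self] at h1
    omega
  have a2 : ∀ m ∈ E.D, ∀ b : ℝ, 1 ≤ b → ((ch E.T E.D w m).card : ℝ) * E.θ ^ 2 ≤ b →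
      (∀ c ∈ ch E.T E.D w m, a c ≤ 1) → a m ≤ b := by
    intro m hm b hb h1 h2
    by_cases hb' : m ∈ B
    · rw [a1 m hm hb']; exact hb
    rw [ra m hm, if_neg hb', zero_add, ← mul_one b]
    refine sum_ch_le h1 zero_le_one fun c hc => ?_
    obtain ⟨c1, c2, c3⟩ := mem_ch.1 hc
    obtain ⟨p2, p3⟩ := Pr_adj h (s := s) (x := x) hm c1 c2
    calc _ ≤ E.θ * Pr E s x m c * 1 := mul_le_mul_of_nonneg_left (h2 c hc) (by positivity)
      _ ≤ E.θ * E.θ * 1 := by gcongr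
      _ = _ := by ring
  have a3 : ∀ m ∈ E.D, m ≠ w → a m ≤ 1 :=
    ch_induction (r := w) (T := E.T) fun m hm ih hne =>
      a2 m hm 1 le_rfl (ch_lam' h hne) fun c hc => ih c hc (ch_ne hc)
  have a4 : ∀ m ∈ E.D, a m ≤ 2 := fun m hm =>
    a2 m hm 2 one_le_two ((ch_lam h m).trans (by norm_num)) fun c hc =>
      a3 c (mem_ch.1 hc).1 (ch_ne hc)
  have a5 : ∀ j : ℕ, ∀ m ∈ E.D, (∀ v ∈ B, Btw E.T w m v → j ≤ E.T.dist m v) →
      (j + 1) * a m ≤ 2 * L m := by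
    intro j
    induction j with
    | zero =>
      intro m hm _
      rw [Nat.cast_zero, zero_add, one_mul, mul_sum]
      refine sum_le_sum fun v hv => ?_
      have := Pr_nonneg h (s := s) (x := x) hm (mem_Bel.1 hv).1
      have : 0 ≤ E.θ ^ E.T.dist m v * Pr E s x m v := by positivity
      split_ifs <;> linarith
    | succ j ih =>
      intro m hm hj
      have hb : m ∉ B := fun hb => by
        have := hj m hb (btw_right _ _)
        rw [SimpleGraph.dist_self] at this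
        omega
      have e := ra m hm
      rw [if_neg hb, zero_add] at e
      have b1 : (j + 1) * a m ≤ 2 * ∑ c ∈ ch E.T E.D w m, E.θ * Pr E s x m c * L c := by
        rw [e, mul_sum, mul_sum]
        refine sum_le_sum fun c hc => ?_
        obtain ⟨c1, c2, c3⟩ := mem_ch.1 hc
        obtain ⟨p2, p3⟩ := Pr_adj h (s := s) (x := x) hm c1 c2
        have q := ih c c1 fun v hv hb' => by
          obtain ⟨h1, -, h3⟩ := dist_ch h.tree hc hb'
          have := hj v hv h3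
          omega
        have := mul_le_mul_of_nonneg_left q (mul_nonneg hθ.le p2)
        linarith
      have := a4 m hm
      rw [rL m hm]
      push_cast
      linarith
  have a6 := a5 k w hw fun v hv _ => hk v hv
  have e1 : a w = ∑ v ∈ B, E.θ ^ E.T.dist w v * Pr E s x w v := by
    simp only [a, Bel_root, ite_mul, one_mul, zero_mul]
    rw [← sum_filter, filter_mem_eq_inter, inter_eq_right.2 hB]
  have e2 : L w = Lr E s x w := by simp only [L, Bel_root, one_mul, Lr]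
  rwa [e1, e2] at a6

theorem near_cv (h : Ok d E) (hy : y ∈ E.D) :
    ∑ w ∈ E.D, ∑ v ∈ E.D with E.T.dist y v ≤ 1, cv E s x v w ^ 2 ≤ 100 * d ^ 2 * Lr E s x y := by
  have hθ := h.pos
  have hd : (3 : ℝ) ≤ d := by exact_mod_cast h.hd
  have k : ∀ w ∈ E.D, ∀ v ∈ E.D.filter fun v => E.T.dist y v ≤ 1,
      cv E s x v w ^ 2 ≤ 24 * d * (E.θ ^ E.T.dist y w * Pr E s x y w) := by
    intro w hw v hv
    obtain ⟨v1, v2⟩ := mem_filter.1 hv
    have p0 := Pr_nonneg h (s := s) (x := x) hy hw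
    have p1 := Pr_le h (s := s) (x := x) hy hw
    have c0 := cv_nonneg h (s := s) (x := x) v1 hw
    have easy : Btw E.T v y w → cv E s x v w ^ 2 ≤ 24 * d * (E.θ ^ E.T.dist y w * Pr E s x y w) := by
      intro hb
      have e := cv_mul h (s := s) (x := x) v1 hw hb
      have q1 : cv E s x v y ≤ 1 := (cv_le_Pr h v1 hy).trans ((Pr_le h v1 hy).trans
        (pow_le_one₀ hθ.le h.lt_one.le))
      have q2 : cv E s x v w ≤ Pr E s x y w := by rw [e]; exact mul_le_of_le_one_left p0 q1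
      calc _ ≤ Pr E s x y w ^ 2 := by gcongr
        _ ≤ 1 * (E.θ ^ E.T.dist y w * Pr E s x y w) := by rw [sq, one_mul]; gcongr
        _ ≤ _ := by gcongr; linarith
    rcases Nat.le_one_iff_eq_zero_or_eq_one.1 v2 with h4 | h4
    · rw [← h.tree.connected.dist_eq_zero_iff.1 h4] at easy ⊢
      exact easy (btw_left _ _)
    have ha := SimpleGraph.dist_eq_one_iff_adj.1 h4
    have hc : v ∈ ch E.T E.D y y := mem_ch.2 ⟨v1, ha, by rw [h4, SimpleGraph.dist_self]⟩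
    by_cases hb : Btw E.T y v w
    · have e1 := cv_eq h (s := s) (x := x) (v := w) v1
      have e2 := Pr_mul h (s := s) (x := x) hy hw hb
      have e3 := (dist_ch h.tree hc hb).1
      have q1 := var_le h (s := s) (x := x) hy v1 ha
      have q2 := Pr_nonneg h (s := s) (x := x) v1 hw
      have q3 := Pr_le h (s := s) (x := x) v1 hw
      have q4 := mg_lt h (s := s) (x := x) v1
      have q5 := sq_nonneg (mg E s x v)
      have q6 := Pr_nonneg h (s := s) (x := x) hy v1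
      have lo := h.lo
      rw [e1, e2, e3, pow_succ E.θ]
      have t0 : 0 ≤ E.θ ^ E.T.dist v w := by positivity
      generalize E.θ ^ E.T.dist v w = t at *
      have W0 : 0 ≤ 1 - mg E s x v ^ 2 := by linarith
      have W1 : 1 - mg E s x v ^ 2 ≤ 1 := by linarith
      generalize 1 - mg E s x v ^ 2 = W at *
      generalize Pr E s x v w = P at *
      generalize Pr E s x y v = R at *
      have b1 : W ≤ 24 * d * (E.θ * R) := by
        calc W ≤ 2 * (E.θ ^ 2 * (d - 1)) * W := le_mul_of_one_le_left W0 lo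
          _ = 2 * (d - 1) * E.θ * (E.θ * W) := by ring
          _ ≤ 2 * d * E.θ * (12 * R) := by gcongr; linarith
          _ = _ := by ring
      calc (W * P) ^ 2 = W * W * (P * P) := by ring
        _ ≤ 1 * (24 * d * (E.θ * R)) * (t * P) := by gcongr
        _ = _ := by ring
    · exact easy (dist_not_ch h.tree hc hb).2
  have h2 : ((E.D.filter fun v => E.T.dist y v ≤ 1).card : ℝ) ≤ d + 1 := by
    exact_mod_cast card_near h.tree h.reg
  unfold Lr
  rw [mul_sum]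
  refine sum_le_sum fun w hw => ?_
  have p0 := Pr_nonneg h (s := s) (x := x) hy hw
  refine (sum_le_card_nsmul _ _ _ (k w hw)).trans ?_
  rw [nsmul_eq_mul, ← mul_assoc]
  refine mul_le_mul_of_nonneg_right ?_ (by positivity)
  nlinarith

theorem near_cv_le (h : Ok d E) (hy : y ∈ E.D) (hw : w ∈ E.D) :
    ∑ v ∈ E.D with E.T.dist y v ≤ 1, cv E s x v w ^ 2 ≤ 4 * d ^ 2 * (E.θ ^ 2) ^ E.T.dist y w := by
  have hθ := h.pos
  have hd : (3 : ℝ) ≤ d := by exact_mod_cast h.hd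
  have k : ∀ v ∈ E.D.filter fun v => E.T.dist y v ≤ 1,
      cv E s x v w ^ 2 ≤ 2 * d * (E.θ ^ 2) ^ E.T.dist y w := by
    intro v hv
    obtain ⟨v1, v2⟩ := mem_filter.1 hv
    have c0 := cv_nonneg h (s := s) (x := x) v1 hw
    have c1 := (cv_le_Pr h (s := s) (x := x) v1 hw).trans (Pr_le h v1 hw)
    have t := h.tree.connected.dist_triangle (u := y) (v := v) (w := w)
    have l1 : (E.θ ^ 2) ^ (E.T.dist v w + 1) ≤ (E.θ ^ 2) ^ E.T.dist y w :=
      pow_le_pow_of_le_one (by positivity) (by linarith [h.half]) (by omega)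
    calc _ ≤ (E.θ ^ E.T.dist v w) ^ 2 := by gcongr
      _ = (E.θ ^ 2) ^ E.T.dist v w := by rw [← pow_mul, ← pow_mul, mul_comm]
      _ ≤ 2 * (E.θ ^ 2 * (d - 1)) * (E.θ ^ 2) ^ E.T.dist v w :=
        le_mul_of_one_le_left (by positivity) h.lo
      _ = 2 * (d - 1) * (E.θ ^ 2) ^ (E.T.dist v w + 1) := by ring
      _ ≤ _ := by gcongr; linarith
  have h2 : ((E.D.filter fun v => E.T.dist y v ≤ 1).card : ℝ) ≤ d + 1 := by
    exact_mod_cast card_near h.tree h.reg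
  refine (sum_le_card_nsmul _ _ _ k).trans ?_
  rw [nsmul_eq_mul, ← mul_assoc]
  refine mul_le_mul_of_nonneg_right ?_ (by positivity)
  nlinarith

end Vale.Agent.P161.C
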