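import Vale.Agent.P161.C.Gen

/-!
Poisson clocks, the Mecke formula, a Dynkin inequality and a Gronwall lemma.

PLAN. `mecke`: `P143.resample (kc e)`; for fixed `ω` put `a = tau ω v k` (unchanged by the update),
`g q = h q (update ω (kc e) (exp (-(q - a))))`. Left: `∫ u, h (a - log u) (update u) = ∫ u, g (a - log u)
= ∫_{q > a} exp (-(q-a)) g q` (`lintegral_image_eq_lintegral_abs_deriv_mul`). Right, after Tonelli:
`∫ u, 1{q ≤ a - log u} h q (update u) = g q * vol {u | u ≤ exp (-(q-a))}` (`u = 0` is a null set).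
`tail`: `mecke` with `h q = 1{q ≤ r}` summed over `k < L` gives `Σ_k P(tk (v,k) ≤ r) ≤ r`, and `tau` is monotone.
`dynkin`: a.s. `tk ω` is injective; `telescope` with the lower set
`S = {e ∈ E | tk e < r ∧ ∀ v' ∈ D, v' ≠ e.1 → tk e ≤ tau v' L}` (equal to `St r` on `alive r`); take
expectations, resample the label coordinate of `e` in the right sum (`X_congr`) to get `LF`, apply `mecke` to both
sums with `h q ω = 1{q < r} 1{∀ v' ≠ e.1, q ≤ tau v' L} * (F or LF)(St q, Xs q)`; for `q > 0` and `alive q`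
each `w ∈ D` has exactly one `k w < L` with `tau w k < q ≤ tau w (k+1)`; use `gen`; cancel the finite term
`∫∫ card * F`.
`gronwall`: `ψ = ⨆ i q, φ i q / (a i * exp (2 C q))` is finite and `ψ ≤ A + ψ / 2`.
-/

open MeasureTheory Function Finset Set
open scoped Classical unitInterval ENNReal

namespace Vale.Agent.P161.C

variable {V β : Type} [Zero β] [MeasurableSpace β]

/-- Coordinate of the clock label of an event. -/
def kc (e : V × ℕ) : V × ℕ := (e.1, 2 * e.2)

/-- Coordinate of the observation label of an event. -/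
def lc (e : V × ℕ) : V × ℕ := (e.1, 2 * e.2 + 1)

noncomputable def tau (ω : V × ℕ → I) (v : V) (k : ℕ) : ℝ :=
  ∑ i ∈ range k, -Real.log (ω (kc (v, i)))

/-- The time of the event `e`. -/
noncomputable def tk (ω : V × ℕ → I) (e : V × ℕ) : ℝ := tau ω e.1 (e.2 + 1)

def lb (ω : V × ℕ → I) (e : V × ℕ) : I := ω (lc e)

def alive (D : Finset V) (L : ℕ) (q : ℝ) : Set (V × ℕ → I) := {ω | ∀ v ∈ D, q ≤ tau ω v L}

theorem lc_inj : Injective (lc : V × ℕ → V × ℕ) := by
  intro a b h
  simp only [lc, Prod.mk.injEq] at h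
  exact Prod.ext h.1 (by omega)

theorem kc_inj : Injective (kc : V × ℕ → V × ℕ) := by
  intro a b h
  simp only [kc, Prod.mk.injEq] at h
  exact Prod.ext h.1 (by omega)

theorem kc_ne_lc (e e' : V × ℕ) : kc e ≠ lc e' := by
  intro h
  simp only [kc, lc, Prod.mk.injEq] at h
  omega

theorem tau_mono (ω : V × ℕ → I) (v : V) : Monotone (tau ω v) := by
  refine monotone_nat_of_le_succ fun k => ?_
  unfold tau
  rw [sum_range_succ]
  have := Real.log_nonpos (ω (kc (v, k))).2.1 (ω (kc (v, k))).2.2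
  linarith

theorem tau_zero (ω : V × ℕ → I) (v : V) : tau ω v 0 = 0 := by simp [tau]

theorem tau_nonneg (ω : V × ℕ → I) (v : V) (k : ℕ) : 0 ≤ tau ω v k :=
  (tau_zero ω v).symm.le.trans (tau_mono ω v (Nat.zero_le k))

theorem tau_congr {ω ω' : V × ℕ → I} {v : V} {k : ℕ} (h : ∀ i < k, ω (kc (v, i)) = ω' (kc (v, i))) :
    tau ω v k = tau ω' v k :=
  sum_congr rfl fun i hi => by rw [h i (mem_range.1 hi)]

theorem tau_update_lc (ω : V × ℕ → I) (e : V × ℕ) (u : I) : tau (update ω (lc e) u) = tau ω := by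
  funext v k
  exact tau_congr fun i _ => update_of_ne (kc_ne_lc _ _) _ _

theorem tau_update_kc (ω : V × ℕ → I) (e : V × ℕ) (u : I) {v : V} {k : ℕ}
    (h : v = e.1 → k ≤ e.2) : tau (update ω (kc e) u) v k = tau ω v k := by
  refine tau_congr fun i hi => update_of_ne (fun h' => ?_) _ _
  have h1 := kc_inj h'
  subst h1
  exact absurd (h rfl) (not_le.2 hi)

theorem tk_update_kc (ω : V × ℕ → I) (e : V × ℕ) (u : I) :
    tk (update ω (kc e) u) e = tau ω e.1 e.2 - Real.log u := by
  rw [tk, tau, sum_range_succ, update_self, ← tau, tau_update_kc ω e u fun _ => le_rfl]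
  ring

theorem resample' {K : Type} [inst : DecidableEq K] (i : K) {F : (K → I) → ℝ≥0∞}
    (hF : Measurable F) :
    ∫⁻ ω, F ω ∂P143.iid K = ∫⁻ ω, ∫⁻ u : I, F (update ω i u) ∂volume ∂P143.iid K := by
  obtain rfl : inst = fun a b => Classical.propDecidable (a = b) := Subsingleton.elim _ _
  exact P143.resample i hF

instance iid_prob (K : Type) : IsProbabilityMeasure (P143.iid K) := by
  unfold P143.iid
  infer_instance

theorem tk_update_lc (ω : V × ℕ → I) (e : V × ℕ) (u : I) : tk (update ω (lc e) u) = tk ω := by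
  funext i
  rw [tk, tk, tau_update_lc]

theorem measurable_tau (v : V) (k : ℕ) : Measurable fun ω : V × ℕ → I => tau ω v k := by
  unfold tau
  refine Finset.measurable_sum _ fun i _ => ?_
  have : Measurable fun ω : V × ℕ → I => Real.log (ω (kc (v, i))) :=
    Real.measurable_log.comp (measurable_subtype_coe.comp (measurable_pi_apply _))
  exact this.neg

theorem measurable_tk (e : V × ℕ) : Measurable fun ω : V × ℕ → I => tk ω e := measurable_tau _ _

theorem measurable_alive (D : Finset V) (L : ℕ) :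
    MeasurableSet {p : ℝ × (V × ℕ → I) | p.2 ∈ alive D L p.1} := by
  have : {p : ℝ × (V × ℕ → I) | p.2 ∈ alive D L p.1} = ⋂ v ∈ D, {p | p.1 ≤ tau p.2 v L} := by
    ext p
    simp [alive]
  rw [this]
  exact Finset.measurableSet_biInter _ fun v _ =>
    measurableSet_le measurable_fst ((measurable_tau v L).comp measurable_snd)

theorem measurableSet_alive (D : Finset V) (L : ℕ) (q : ℝ) : MeasurableSet (alive D L q) :=
  measurable_prodMk_left (x := q) (measurable_alive D L)

theorem tk_ne_null {a b : V × ℕ} (h : a ≠ b) (hle : a.2 ≤ b.2) :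
    P143.iid (V × ℕ) {ω | tk ω a = tk ω b} = 0 := by
  have hm : MeasurableSet {ω : V × ℕ → I | tk ω a = tk ω b} :=
    measurableSet_eq_fun (measurable_tk a) (measurable_tk b)
  rw [← lintegral_indicator_one hm, resample' (kc b) (measurable_one.indicator hm)]
  refine (lintegral_congr fun ω => ?_).trans lintegral_zero
  have h1 : ∀ u, tk (update ω (kc b) u) a = tk ω a := fun u =>
    tau_update_kc ω b u fun h' => by
      have : a.2 ≠ b.2 := fun h'' => h (Prod.ext h' h'')
      omega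
  have h2 : ∀ u, Set.indicator {ω : V × ℕ → I | tk ω a = tk ω b} (1 : (V × ℕ → I) → ℝ≥0∞)
      (update ω (kc b) u) =
      Set.indicator {u : I | tk ω a = tau ω b.1 b.2 - Real.log u} 1 u := fun u => by
    simp only [Set.indicator, Set.mem_setOf_eq, h1, tk_update_kc, Pi.one_apply]
  simp only [h2]
  refine le_antisymm (lintegral_indicator_one_le _ |>.trans (le_of_eq ?_)) zero_le
  refine measure_mono_null (t := {0} ∪ {u : I | (u : ℝ) = Real.exp (tau ω b.1 b.2 - tk ω a)})
    (fun u hu => ?_) (measure_union_null (measure_singleton _) (Set.Subsingleton.measure_zero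
      (fun x hx y hy => Subtype.ext (hx.trans hy.symm)) _))
  by_cases h0 : u = 0
  · exact Or.inl h0
  · have h3 : (0 : ℝ) < u := lt_of_le_of_ne u.2.1 fun h' => h0 (Subtype.ext h'.symm)
    right
    rw [Set.mem_setOf_eq] at hu ⊢
    rw [hu, sub_sub_cancel, Real.exp_log h3]

theorem ae_tk_inj [Countable V] : ∀ᵐ ω ∂P143.iid (V × ℕ), Injective (tk ω : V × ℕ → ℝ) := by
  simp only [Injective, ae_all_iff]
  intro a b
  by_cases h : a = b
  · simp [h]
  have : P143.iid (V × ℕ) {ω | tk ω a = tk ω b} = 0 := by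
    rcases le_total a.2 b.2 with h1 | h1
    · exact tk_ne_null h h1
    · simpa only [eq_comm] using tk_ne_null (Ne.symm h) h1
  filter_upwards [measure_eq_zero_iff_ae_notMem.1 this] with ω h1 h2
  exact absurd h2 h1

theorem mecke_one {a : ℝ} (ha : 0 ≤ a) {G : ℝ → I → ℝ≥0∞}
    (hc : ∀ q (u u' : I), q ≤ a - Real.log u → q ≤ a - Real.log u' → G q u = G q u') :
    ∫⁻ u : I, G (a - Real.log u) u = ∫⁻ q in Ioi (0 : ℝ),
      ∫⁻ u : I, Set.indicator {u : I | a < q ∧ q ≤ a - Real.log u} (G q) u := by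
  let φ : ℝ → I := fun q => projIcc 0 1 zero_le_one (Real.exp (a - q))
  have hφ : ∀ q, a ≤ q → (φ q : ℝ) = Real.exp (a - q) := fun q hq => by
    simp only [φ]
    rw [projIcc_of_mem _ ⟨(Real.exp_pos _).le, Real.exp_le_one_iff.2 (by linarith)⟩]
  have hφ' : ∀ q, a ≤ q → q ≤ a - Real.log (φ q) := fun q hq => by
    rw [hφ q hq, Real.log_exp]; linarith
  let g : ℝ → ℝ≥0∞ := fun q => G q (φ q)
  have L1 : ∫⁻ u : I, G (a - Real.log u) u = ∫⁻ x in Ioo (0 : ℝ) 1, g (a - Real.log x) := by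
    have : ∀ u : I, G (a - Real.log u) u = g (a - Real.log u) := fun u =>
      hc _ _ _ le_rfl (hφ' _ (by linarith [Real.log_nonpos u.2.1 u.2.2]))
    simp only [this]
    rw [unitInterval.volume_def, lintegral_subtype_comap measurableSet_Icc
      (fun x => g (a - Real.log x)), Measure.restrict_congr_set Ioo_ae_eq_Icc]
  have im : (fun q => Real.exp (a - q)) '' Ioi a = Ioo (0 : ℝ) 1 := by
    ext x
    constructor
    · rintro ⟨q, hq, rfl⟩
      exact ⟨Real.exp_pos _, Real.exp_lt_one_iff.2 (by linarith [Set.mem_Ioi.1 hq])⟩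
    · intro hx
      refine ⟨a - Real.log x, ?_, ?_⟩
      · have := Real.log_neg hx.1 hx.2
        exact Set.mem_Ioi.2 (by linarith)
      · simp only [sub_sub_cancel, Real.exp_log hx.1]
  have L2 : ∫⁻ x in Ioo (0 : ℝ) 1, g (a - Real.log x) =
      ∫⁻ q in Ioi a, ENNReal.ofReal (Real.exp (a - q)) * g q := by
    rw [← im, lintegral_image_eq_lintegral_abs_deriv_mul measurableSet_Ioi
      (f' := fun q => -Real.exp (a - q))
      (fun q _ => by
        have := ((hasDerivAt_id q).const_sub a).exp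
        simpa using this.hasDerivWithinAt)
      (fun x _ y _ h => by
        have := Real.exp_injective h
        linarith)]
    refine lintegral_congr fun q => ?_
    rw [abs_neg, abs_of_pos (Real.exp_pos _), Real.log_exp, sub_sub_cancel]
  rw [L1, L2]
  have R1 : ∀ q, ∫⁻ u : I, Set.indicator {u : I | a < q ∧ q ≤ a - Real.log u} (G q) u =
      Set.indicator (Ioi a) (fun q => ENNReal.ofReal (Real.exp (a - q)) * g q) q := by
    intro q
    by_cases hq : a < q
    · have e1 : {u : I | a < q ∧ q ≤ a - Real.log u} = Ioc 0 (φ q) := by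
        ext u
        simp only [Set.mem_setOf_eq, Set.mem_Ioc, hq, true_and, ← Subtype.coe_lt_coe,
          ← Subtype.coe_le_coe, hφ q hq.le, Set.Icc.coe_zero]
        constructor
        · intro h
          have h0 : (0 : ℝ) < u := lt_of_le_of_ne u.2.1 fun h' => by
            rw [← h', Real.log_zero] at h; linarith
          exact ⟨h0, (Real.log_le_iff_le_exp h0).1 (by linarith)⟩
        · intro h
          have := (Real.log_le_iff_le_exp h.1).2 h.2
          linarith
      have e2 : ∀ u : I, Set.indicator {u : I | a < q ∧ q ≤ a - Real.log u} (G q) u =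
          Set.indicator (Ioc 0 (φ q)) (fun _ => g q) u := fun u => by
        rw [← e1]
        by_cases hu : u ∈ {u : I | a < q ∧ q ≤ a - Real.log u}
        · rw [Set.indicator_of_mem hu, Set.indicator_of_mem hu]
          exact hc _ _ _ hu.2 (hφ' q hq.le)
        · rw [Set.indicator_of_notMem hu, Set.indicator_of_notMem hu]
      simp only [e2]
      rw [lintegral_indicator_const measurableSet_Ioc, Set.indicator_of_mem (Set.mem_Ioi.2 hq),
        unitInterval.volume_Ioc, hφ q hq.le, mul_comm]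
      simp
    · rw [Set.indicator_of_notMem (fun h => hq (Set.mem_Ioi.1 h))]
      simp [hq]
  simp only [R1]
  rw [lintegral_indicator measurableSet_Ioi, Measure.restrict_restrict measurableSet_Ioi,
    Set.inter_eq_left.2 (Ioi_subset_Ioi ha)]

theorem measurableSet_win (e : V × ℕ) :
    MeasurableSet {p : ℝ × (V × ℕ → I) | tau p.2 e.1 e.2 < p.1 ∧ p.1 ≤ tk p.2 e} :=
  (measurableSet_lt ((measurable_tau _ _).comp measurable_snd) measurable_fst).inter
    (measurableSet_le measurable_fst ((measurable_tk e).comp measurable_snd))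

theorem mecke (e : V × ℕ) {h : ℝ → (V × ℕ → I) → ℝ≥0∞} (mh : Measurable (uncurry h))
    (hc : ∀ q ω u u', q ≤ tk (update ω (kc e) u) e → q ≤ tk (update ω (kc e) u') e →
      h q (update ω (kc e) u) = h q (update ω (kc e) u')) :
    ∫⁻ ω, h (tk ω e) ω ∂P143.iid (V × ℕ) = ∫⁻ q in Ioi (0 : ℝ),
      ∫⁻ ω in {ω | tau ω e.1 e.2 < q ∧ q ≤ tk ω e}, h q ω ∂P143.iid (V × ℕ) := by
  have mH : Measurable fun p : ℝ × (V × ℕ → I) => Set.indicator
      {p : ℝ × (V × ℕ → I) | tau p.2 e.1 e.2 < p.1 ∧ p.1 ≤ tk p.2 e} (uncurry h) p :=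
    mh.indicator (measurableSet_win e)
  have R1 : ∀ q, ∫⁻ ω in {ω | tau ω e.1 e.2 < q ∧ q ≤ tk ω e}, h q ω ∂P143.iid (V × ℕ) =
      ∫⁻ ω, ∫⁻ u : I, Set.indicator
        {p : ℝ × (V × ℕ → I) | tau p.2 e.1 e.2 < p.1 ∧ p.1 ≤ tk p.2 e} (uncurry h)
          (q, update ω (kc e) u) ∂volume ∂P143.iid (V × ℕ) := by
    intro q
    have hm : MeasurableSet {ω : V × ℕ → I | tau ω e.1 e.2 < q ∧ q ≤ tk ω e} :=
      measurable_prodMk_left (x := q) (measurableSet_win e)
    rw [← lintegral_indicator hm]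
    exact resample' (kc e) (mH.comp (measurable_prodMk_left (x := q)))
  simp only [R1]
  rw [lintegral_lintegral_swap, resample' (kc e) (F := fun ω => h (tk ω e) ω)
    (mh.comp ((measurable_tk e).prodMk measurable_id))]
  · refine lintegral_congr fun ω => ?_
    simp only [tk_update_kc]
    rw [mecke_one (tau_nonneg ω e.1 e.2) (G := fun q u => h q (update ω (kc e) u))
      (fun q u u' h1 h2 => hc q ω u u' (by rwa [tk_update_kc]) (by rwa [tk_update_kc]))]
    refine lintegral_congr fun q => lintegral_congr fun u => ?_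
    simp only [Set.indicator, Set.mem_setOf_eq, tk_update_kc,
      tau_update_kc ω e u (v := e.1) (k := e.2) fun _ => le_rfl, uncurry]
  · refine Measurable.aemeasurable ?_
    exact Measurable.lintegral_prod_right' (f := fun x : (ℝ × (V × ℕ → I)) × I => Set.indicator
      {p : ℝ × (V × ℕ → I) | tau p.2 e.1 e.2 < p.1 ∧ p.1 ≤ tk p.2 e} (uncurry h)
        (x.1.1, update x.1.2 (kc e) x.2))
      (mH.comp (measurable_fst.fst.prodMk
        (measurable_update'.comp (measurable_fst.snd.prodMk measurable_snd))))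

theorem lintegral_Ioo_eq (r : ℝ) (g : ℝ → ℝ≥0∞) :
    ∫⁻ q in Ioo 0 r, g q = ∫⁻ q in Ioi (0 : ℝ), Set.indicator (Iio r) g q := by
  rw [lintegral_indicator measurableSet_Iio, Measure.restrict_restrict measurableSet_Iio,
    Iio_inter_Ioi]

theorem tk_lt_eq (e : V × ℕ) (r : ℝ) : P143.iid (V × ℕ) {ω | tk ω e < r} =
    ∫⁻ q in Ioo 0 r, P143.iid (V × ℕ) {ω | tau ω e.1 e.2 < q ∧ q ≤ tk ω e} := by
  have hm : MeasurableSet {ω : V × ℕ → I | tk ω e < r} :=
    measurableSet_lt (measurable_tk e) measurable_const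
  have := mecke e (h := fun q _ => Set.indicator (Iio r) 1 q)
    ((measurable_one.indicator measurableSet_Iio).comp measurable_fst) fun _ _ _ _ _ _ => rfl
  rw [← lintegral_indicator_one hm, lintegral_Ioo_eq]
  refine Eq.trans (lintegral_congr fun ω => rfl) (this.trans (lintegral_congr fun q => ?_))
  rw [setLIntegral_const]
  by_cases hq : q ∈ Iio r
  · rw [Set.indicator_of_mem hq, Set.indicator_of_mem hq, Pi.one_apply, one_mul]
  · rw [Set.indicator_of_notMem hq, Set.indicator_of_notMem hq, zero_mul]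

theorem tail_one (e : V × ℕ) (q : ℝ) : P143.iid (V × ℕ) {ω | tk ω e < q} ≤ ENNReal.ofReal q := by
  rw [tk_lt_eq, ← sub_zero q, ← Real.volume_Ioo, ← setLIntegral_one, sub_zero]
  exact lintegral_mono fun _ => prob_le_one

theorem tail (D : Finset V) {L : ℕ} (hL : 0 < L) {r : ℝ} (hr : 0 ≤ r) :
    P143.iid (V × ℕ) (alive D L r)ᶜ ≤ ENNReal.ofReal (D.card * r / L) := by
  have hv : ∀ v : V, P143.iid (V × ℕ) {ω | tau ω v L < r} ≤ ENNReal.ofReal (r / L) := by
    intro v
    have hm : ∀ (k : ℕ) (q : ℝ),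
        MeasurableSet {ω : V × ℕ → I | tau ω v k < q ∧ q ≤ tk ω (v, k)} := fun k q =>
      measurable_prodMk_left (x := q) (measurableSet_win (v, k))
    have h1 : (L : ℝ≥0∞) * P143.iid (V × ℕ) {ω | tau ω v L < r} ≤
        ∑ k ∈ range L, P143.iid (V × ℕ) {ω | tk ω (v, k) < r} := by
      have := card_nsmul_le_sum (range L) (fun k => P143.iid (V × ℕ) {ω | tk ω (v, k) < r})
        (P143.iid (V × ℕ) {ω | tau ω v L < r}) fun k hk => measure_mono fun ω hω =>
          lt_of_le_of_lt (tau_mono ω v (Nat.succ_le_of_lt (mem_range.1 hk))) hω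
      simpa using this
    have h2 : ∑ k ∈ range L, P143.iid (V × ℕ) {ω | tk ω (v, k) < r} ≤ ENNReal.ofReal r := by
      simp only [tk_lt_eq]
      have mm : ∀ k : ℕ, Measurable fun q : ℝ =>
          P143.iid (V × ℕ) {ω | tau ω v k < q ∧ q ≤ tk ω (v, k)} := fun k =>
        measurable_measure_prodMk_left (measurableSet_win (v, k))
      rw [← lintegral_finset_sum _ fun k _ => mm k]
      rw [← sub_zero r, ← Real.volume_Ioo, ← setLIntegral_one, sub_zero]
      refine lintegral_mono fun q => ?_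
      change ∑ k ∈ range L, P143.iid (V × ℕ) {ω | tau ω v k < q ∧ q ≤ tk ω (v, k)} ≤ 1
      rw [← measure_biUnion_finset _ fun k _ => hm k q]
      · exact prob_le_one
      · intro i _ j _ hij
        refine Set.disjoint_left.2 fun ω h1 h2 => ?_
        rcases lt_or_gt_of_ne hij with h | h
        · have := tau_mono ω v (Nat.succ_le_of_lt h)
          exact absurd (h2.1.trans_le h1.2) (not_lt.2 this)
        · have := tau_mono ω v (Nat.succ_le_of_lt h)
          exact absurd (h1.1.trans_le h2.2) (not_lt.2 this)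
    have hL' : (0 : ℝ) < L := by exact_mod_cast hL
    rw [ENNReal.ofReal_div_of_pos hL', ENNReal.ofReal_natCast,
      ENNReal.le_div_iff_mul_le (Or.inl (by exact_mod_cast hL.ne')) (Or.inl (by simp)), mul_comm]
    exact h1.trans h2
  have : (alive D L r)ᶜ = ⋃ v ∈ D, {ω | tau ω v L < r} := by
    ext ω
    simp [alive]
  rw [this]
  refine (measure_biUnion_finset_le _ _).trans ((sum_le_card_nsmul _ _ _ fun v _ => hv v).trans ?_)
  rw [mul_div_assoc, ENNReal.ofReal_mul (Nat.cast_nonneg _), ENNReal.ofReal_natCast, nsmul_eq_mul]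

/-- The set of events of `D × range L` before time `q`. -/
noncomputable def St (D : Finset V) (L : ℕ) (q : ℝ) (ω : V × ℕ → I) : Finset (V × ℕ) :=
  pre (D ×ˢ range L) (tk ω) q

noncomputable def Xs (Γ : Rule V β) (D : Finset V) (L : ℕ) (q : ℝ) (ω : V × ℕ → I) : V × ℕ → β :=
  X Γ (D ×ˢ range L) (tk ω) (lb ω) q

theorem measurable_SX {Γ : Rule V β} (hΓ : MRule Γ)
    {F : Finset (V × ℕ) → (V × ℕ → β) → ℝ≥0∞} (mF : ∀ s, Measurable (F s)) (D : Finset V) (L : ℕ) :
    Measurable fun p : ℝ × (V × ℕ → I) => F (St D L p.1 p.2) (Xs Γ D L p.1 p.2) :=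
  measurable_state (Ω := ℝ × (V × ℕ → I)) hΓ (τ := fun p => tk p.2) (ζ := fun p => lb p.2)
    (ρ := fun p => p.1) (fun e => (measurable_tk e).comp measurable_snd)
    (fun _ => (measurable_pi_apply _).comp measurable_snd) measurable_fst mF

theorem tk_update_of_lt (ω : V × ℕ → I) (e : V × ℕ) {u : I} {q : ℝ}
    (hq : q ≤ tk (update ω (kc e) u) e) {i : V × ℕ} (hi : tk (update ω (kc e) u) i < q) (u' : I) :
    tk (update ω (kc e) u') i = tk ω i := by
  refine tau_update_kc ω e u' fun h => ?_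
  by_contra h'
  have := tau_mono (update ω (kc e) u) e.1 (show e.2 + 1 ≤ i.2 + 1 by omega)
  rw [tk, h] at hi
  exact absurd (hi.trans_le hq) (not_lt.2 this)

theorem St_update (D : Finset V) (L : ℕ) (ω : V × ℕ → I) (e : V × ℕ) {u u' : I} {q : ℝ}
    (hq : q ≤ tk (update ω (kc e) u) e) (hq' : q ≤ tk (update ω (kc e) u') e) :
    St D L q (update ω (kc e) u) = St D L q (update ω (kc e) u') := by
  ext i
  simp only [St, mem_pre]
  refine and_congr_right fun _ => ⟨fun h => ?_, fun h => ?_⟩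
  · rw [tk_update_of_lt ω e hq h u', ← tk_update_of_lt ω e hq h u]
    exact h
  · rw [tk_update_of_lt ω e hq' h u, ← tk_update_of_lt ω e hq' h u']
    exact h

omit [MeasurableSpace β] in
theorem Xs_update (Γ : Rule V β) (D : Finset V) (L : ℕ) (ω : V × ℕ → I) (e : V × ℕ) {u u' : I}
    {q : ℝ} (hq : q ≤ tk (update ω (kc e) u) e) (hq' : q ≤ tk (update ω (kc e) u') e) :
    Xs Γ D L q (update ω (kc e) u) = Xs Γ D L q (update ω (kc e) u') := by
  refine X_congr (St_update D L ω e hq hq') (fun i hi j hj => ?_) fun i _ => ?_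
  · rw [tk_update_of_lt ω e hq (mem_pre.1 hi).2 u, tk_update_of_lt ω e hq (mem_pre.1 hi).2 u',
      tk_update_of_lt ω e hq (mem_pre.1 hj).2 u, tk_update_of_lt ω e hq (mem_pre.1 hj).2 u']
  · rw [lb, lb, update_of_ne (kc_ne_lc _ _).symm, update_of_ne (kc_ne_lc _ _).symm]

theorem alive_update {D : Finset V} {L : ℕ} (ω : V × ℕ → I) {e : V × ℕ} (he : e.2 < L) {u u' : I}
    {q : ℝ} (hq' : q ≤ tk (update ω (kc e) u') e) (h : update ω (kc e) u ∈ alive D L q) :
    update ω (kc e) u' ∈ alive D L q := by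
  intro v hv
  by_cases hve : v = e.1
  · rw [hve]
    exact hq'.trans (tau_mono _ _ (Nat.succ_le_of_lt he))
  · have := h v hv
    rw [tau_update_kc ω e _ fun h' => absurd h' hve] at this ⊢
    exact this

/-- Times before `r` at which the clocks are alive. -/
def NN (D : Finset V) (L : ℕ) (r : ℝ) : Set (ℝ × (V × ℕ → I)) :=
  {p | p.1 < r ∧ p.2 ∈ alive D L p.1}

/-- The window of the event `e`. -/
def win (e : V × ℕ) : Set (ℝ × (V × ℕ → I)) := {p | tau p.2 e.1 e.2 < p.1 ∧ p.1 ≤ tk p.2 e}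

theorem measurableSet_NN (D : Finset V) (L : ℕ) (r : ℝ) : MeasurableSet (NN D L r) :=
  (measurableSet_lt measurable_fst measurable_const).inter (measurable_alive D L)

/-- Product of Lebesgue measure on positive times and the labels. -/
noncomputable def mu (V : Type) : Measure (ℝ × (V × ℕ → I)) :=
  (volume.restrict (Ioi (0 : ℝ))).prod (P143.iid (V × ℕ))

theorem lintegral_mu {A : Set (ℝ × (V × ℕ → I))} (hA : MeasurableSet A)
    {H : ℝ × (V × ℕ → I) → ℝ≥0∞} (hH : Measurable H) :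
    ∫⁻ p, A.indicator H p ∂mu V =
      ∫⁻ q in Ioi (0 : ℝ), ∫⁻ ω in {ω | (q, ω) ∈ A}, H (q, ω) ∂P143.iid (V × ℕ) := by
  rw [mu, lintegral_prod _ (hH.indicator hA).aemeasurable]
  refine lintegral_congr fun q => ?_
  have hm : MeasurableSet {ω : V × ℕ → I | (q, ω) ∈ A} := measurable_prodMk_left (x := q) hA
  rw [← lintegral_indicator hm]
  rfl

theorem lintegral_NN (D : Finset V) (L : ℕ) (r : ℝ) {H : ℝ × (V × ℕ → I) → ℝ≥0∞}
    (hH : Measurable H) : ∫⁻ p, (NN D L r).indicator H p ∂mu V =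
      ∫⁻ q in Ioo 0 r, ∫⁻ ω in alive D L q, H (q, ω) ∂P143.iid (V × ℕ) := by
  rw [lintegral_mu (measurableSet_NN D L r) hH, lintegral_Ioo_eq]
  refine lintegral_congr fun q => ?_
  by_cases hq : q < r
  · rw [Set.indicator_of_mem (Set.mem_Iio.2 hq)]
    have : {ω : V × ℕ → I | (q, ω) ∈ NN D L r} = alive D L q := by
      ext ω
      simp [NN, hq]
    rw [this]
  · rw [Set.indicator_of_notMem (fun h => hq (Set.mem_Iio.1 h))]
    have : {ω : V × ℕ → I | (q, ω) ∈ NN D L r} = ∅ := by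
      ext ω
      simp [NN, hq]
    rw [this, Measure.restrict_empty, lintegral_zero_measure]

theorem mecke_state {Γ : Rule V β} (hΓ : MRule Γ)
    {F : Finset (V × ℕ) → (V × ℕ → β) → ℝ≥0∞} (mF : ∀ s, Measurable (F s)) (D : Finset V) (L : ℕ)
    (r : ℝ) {e : V × ℕ} (he : e.2 < L) :
    ∫⁻ ω, (NN D L r).indicator (fun p => F (St D L p.1 p.2) (Xs Γ D L p.1 p.2)) (tk ω e, ω)
      ∂P143.iid (V × ℕ) = ∫⁻ p, (win e).indicator
        ((NN D L r).indicator fun p => F (St D L p.1 p.2) (Xs Γ D L p.1 p.2)) p ∂mu V := by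
  have mH := (measurable_SX hΓ mF D L).indicator (measurableSet_NN D L r)
  rw [lintegral_mu (A := win e) (measurableSet_win e) mH]
  refine mecke e (h := fun q ω =>
    (NN D L r).indicator (fun p => F (St D L p.1 p.2) (Xs Γ D L p.1 p.2)) (q, ω)) mH ?_
  intro q ω u u' h1 h2
  by_cases h : (q, update ω (kc e) u) ∈ NN D L r
  · rw [Set.indicator_of_mem h, Set.indicator_of_mem
      (show (q, update ω (kc e) u') ∈ NN D L r from ⟨h.1, alive_update ω he h2 h.2⟩)]
    simp only [St_update D L ω e h1 h2, Xs_update Γ D L ω e h1 h2]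
  · rw [Set.indicator_of_notMem h, Set.indicator_of_notMem
      (show (q, update ω (kc e) u') ∉ NN D L r from fun h' => h ⟨h'.1, alive_update ω he h1 h'.2⟩)]

theorem exists_win {D : Finset V} {L : ℕ} {q : ℝ} {ω : V × ℕ → I} (hq : 0 < q)
    (h : ω ∈ alive D L q) : ∃ k : V → ℕ, (∀ w ∈ D, k w < L ∧ (q, ω) ∈ win (w, k w)) ∧
      ∀ w ∈ D, ∀ j, (q, ω) ∈ win (w, j) → j = k w := by
  have k0 : ∀ w, ∃ k, w ∈ D → k < L ∧ (q, ω) ∈ win (w, k) := by
    intro w
    by_cases hw : w ∈ D
    · have ex : ∃ n, q ≤ tau ω w n := ⟨L, h w hw⟩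
      have h1 := Nat.find_spec ex
      have h2 : Nat.find ex ≤ L := Nat.find_min' ex (h w hw)
      obtain ⟨k, hk⟩ : ∃ k, Nat.find ex = k + 1 := Nat.exists_eq_succ_of_ne_zero fun h0 => by
        rw [h0, tau_zero] at h1
        exact absurd hq (not_lt.2 h1)
      refine ⟨k, fun _ => ⟨by omega, lt_of_not_ge (Nat.find_min ex (by omega)), ?_⟩⟩
      rw [hk] at h1
      exact h1
    · exact ⟨0, fun h => absurd h hw⟩
  choose k hk using k0
  refine ⟨k, hk, fun w hw j hj => ?_⟩
  have h1 := (hk w hw).2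
  rcases lt_trichotomy j (k w) with h2 | h2 | h2
  · exact absurd (h1.1.trans_le hj.2) (not_lt.2 (tau_mono ω w (Nat.succ_le_of_lt h2)))
  · exact h2
  · exact absurd (hj.1.trans_le h1.2) (not_lt.2 (tau_mono ω w (Nat.succ_le_of_lt h2)))

theorem sum_win {D : Finset V} {L : ℕ} {p : ℝ × (V × ℕ → I)} {k : V → ℕ}
    (h1 : ∀ w ∈ D, k w < L ∧ p ∈ win (w, k w)) (h2 : ∀ w ∈ D, ∀ j, p ∈ win (w, j) → j = k w)
    (G : V × ℕ → ℝ × (V × ℕ → I) → ℝ≥0∞) :
    ∑ e ∈ D ×ˢ Finset.range L, (win e).indicator (G e) p = ∑ w ∈ D, G (w, k w) p := by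
  rw [sum_product]
  refine sum_congr rfl fun w hw => ?_
  rw [sum_eq_single (k w), Set.indicator_of_mem (h1 w hw).2]
  · intro j _ hj
    exact Set.indicator_of_notMem (fun h => hj (h2 w hw j h)) _
  · intro h
    exact absurd (mem_range.2 (h1 w hw).1) h

theorem dynkin [Countable V] {Γ : Rule V β} (hΓ : MRule Γ)
    {F Gain Loss : Finset (V × ℕ) → (V × ℕ → β) → ℝ≥0∞} (mF : ∀ s, Measurable (F s))
    (mG : ∀ s, Measurable (Gain s)) (mL : ∀ s, Measurable (Loss s)) {B : ℝ≥0∞} (hB : B ≠ ⊤)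
    (bF : ∀ s x, F s x ≤ B) (D : Finset V) (L : ℕ) (r : ℝ)
    (gen : ∀ ω, Injective (tk ω : V × ℕ → ℝ) → ∀ q, q < r → ∀ k : V → ℕ,
      (∀ w ∈ D, k w < L ∧ (w, k w) ∉ St D L q ω ∧ ∀ j < k w, (w, j) ∈ St D L q ω) →
      ∑ w ∈ D, LF Γ F (w, k w) (St D L q ω) (Xs Γ D L q ω) + Gain (St D L q ω) (Xs Γ D L q ω) ≤
        D.card * F (St D L q ω) (Xs Γ D L q ω) + Loss (St D L q ω) (Xs Γ D L q ω)) :
    ∫⁻ ω in alive D L r, F (St D L r ω) (Xs Γ D L r ω) ∂P143.iid (V × ℕ) +
      ∫⁻ q in Ioo 0 r, ∫⁻ ω in alive D L q, Gain (St D L q ω) (Xs Γ D L q ω) ∂P143.iid (V × ℕ) ≤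
      F ∅ 0 + ∫⁻ q in Ioo 0 r,
        ∫⁻ ω in alive D L q, Loss (St D L q ω) (Xs Γ D L q ω) ∂P143.iid (V × ℕ) := by
  set E : Finset (V × ℕ) := D ×ˢ Finset.range L with hE
  let SX : (Finset (V × ℕ) → (V × ℕ → β) → ℝ≥0∞) → ℝ × (V × ℕ → I) → ℝ≥0∞ :=
    fun G => (NN D L r).indicator fun p => G (St D L p.1 p.2) (Xs Γ D L p.1 p.2)
  have mSX : ∀ {G : Finset (V × ℕ) → (V × ℕ → β) → ℝ≥0∞}, (∀ s, Measurable (G s)) →
      Measurable (SX G) := fun mG => (measurable_SX hΓ mG D L).indicator (measurableSet_NN D L r)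
  have mtk : ∀ e : V × ℕ, Measurable fun ω : V × ℕ → I => (tk ω e, ω) := fun e =>
    (measurable_tk e).prodMk measurable_id
  -- the value after the event
  let Af : V × ℕ → (V × ℕ → I) → ℝ≥0∞ := fun e ω => (NN D L r).indicator
    (fun p => F (insert e (St D L p.1 p.2)) (update (Xs Γ D L p.1 p.2) e
      (Γ e (St D L p.1 p.2) (Xs Γ D L p.1 p.2) (lb p.2 e)))) (tk ω e, ω)
  have mAf : ∀ e, Measurable (Af e) := by
    intro e
    refine (Measurable.indicator ?_ (measurableSet_NN D L r)).comp (mtk e)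
    exact measurable_pick (E := E) (Ω := ℝ × (V × ℕ → I)) (τ := fun p => tk p.2)
      (ρ := fun p => p.1) (fun e => (measurable_tk e).comp measurable_snd) measurable_fst
      (G := fun s p => F (insert e s) (update (rs s (gW Γ E (tk p.2) (lb p.2))) e
        (Γ e s (rs s (gW Γ E (tk p.2) (lb p.2))) (lb p.2 e)))) fun s => by
        have m1 : Measurable fun p : ℝ × (V × ℕ → I) => rs s (gW Γ E (tk p.2) (lb p.2)) :=
          measurable_rs s (measurable_it hΓ (τ := fun p : ℝ × (V × ℕ → I) => tk p.2)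
            (ζ := fun p => lb p.2) (fun e => (measurable_tk e).comp measurable_snd)
            (fun _ => (measurable_pi_apply _).comp measurable_snd) _)
        have m2 : Measurable fun p : ℝ × (V × ℕ → I) => lb p.2 e :=
          (measurable_pi_apply _).comp measurable_snd
        exact (mF _).comp (measurable_update'.comp (m1.prodMk ((hΓ e s).comp (m1.prodMk m2))))
  -- telescoping
  have T1 : ∀ ω, Injective (tk ω : V × ℕ → ℝ) →
      (alive D L r).indicator (fun ω => F (St D L r ω) (Xs Γ D L r ω)) ω +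
        ∑ e ∈ E, SX F (tk ω e, ω) ≤ F ∅ 0 + ∑ e ∈ E, Af e ω := by
    intro ω hω
    have tel := telescope (Γ := Γ) (z := lb ω) hω.injOn
      (S := E.filter fun e => (tk ω e, ω) ∈ NN D L r) (filter_subset _ _)
      (fun e he i hi hlt => mem_filter.2 ⟨hi, hlt.trans (mem_filter.1 he).2.1,
        fun v hv => hlt.le.trans ((mem_filter.1 he).2.2 v hv)⟩) F
    rw [sum_filter, sum_filter] at tel
    have e1 : ∑ e ∈ E, SX F (tk ω e, ω) = ∑ e ∈ E, if (tk ω e, ω) ∈ NN D L r then
        F (pre E (tk ω) (tk ω e)) (X Γ E (tk ω) (lb ω) (tk ω e)) else 0 :=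
      sum_congr rfl fun e _ => Set.indicator_apply _ _ _
    have e2 : ∑ e ∈ E, Af e ω = ∑ e ∈ E, if (tk ω e, ω) ∈ NN D L r then
        F (insert e (pre E (tk ω) (tk ω e))) (update (X Γ E (tk ω) (lb ω) (tk ω e)) e
          (Γ e (pre E (tk ω) (tk ω e)) (X Γ E (tk ω) (lb ω) (tk ω e)) (lb ω e))) else 0 :=
      sum_congr rfl fun e _ => Set.indicator_apply _ _ _
    rw [e1, e2, ← tel]
    refine add_le_add_left ?_ _
    by_cases ha : ω ∈ alive D L r
    · have : (E.filter fun e => (tk ω e, ω) ∈ NN D L r) = St D L r ω := by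
        ext e
        rw [St, mem_pre, mem_filter]
        exact and_congr_right fun _ => ⟨fun h => h.1, fun h => ⟨h, fun v hv => h.le.trans (ha v hv)⟩⟩
      rw [Set.indicator_of_mem ha, this]
      exact le_rfl
    · rw [Set.indicator_of_notMem ha]
      exact zero_le
  have T2 : ∫⁻ ω in alive D L r, F (St D L r ω) (Xs Γ D L r ω) ∂P143.iid (V × ℕ) +
      ∑ e ∈ E, ∫⁻ ω, SX F (tk ω e, ω) ∂P143.iid (V × ℕ) ≤
      F ∅ 0 + ∑ e ∈ E, ∫⁻ ω, Af e ω ∂P143.iid (V × ℕ) := by
    have m1 : ∀ e : V × ℕ, Measurable fun ω => SX F (tk ω e, ω) := fun e => (mSX mF).comp (mtk e)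
    rw [← lintegral_finset_sum _ fun e _ => m1 e, ← lintegral_finset_sum _ fun e _ => mAf e,
      ← lintegral_indicator (measurableSet_alive D L r),
      ← lintegral_add_right _ (Finset.measurable_sum _ fun e _ => m1 e)]
    refine (lintegral_mono_ae ((ae_tk_inj (V := V)).mono T1)).trans (le_of_eq ?_)
    rw [lintegral_add_left measurable_const, lintegral_const, measure_univ, mul_one]
  -- resampling the label
  have T3 : ∀ e, ∫⁻ ω, Af e ω ∂P143.iid (V × ℕ) =
      ∫⁻ ω, SX (LF Γ F e) (tk ω e, ω) ∂P143.iid (V × ℕ) := by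
    intro e
    rw [resample' (lc e) (mAf e)]
    refine lintegral_congr fun ω => ?_
    have a1 : ∀ u, (tk ω e, update ω (lc e) u) ∈ NN D L r ↔ (tk ω e, ω) ∈ NN D L r := fun u => by
      simp only [NN, alive, Set.mem_setOf_eq, tau_update_lc]
    have a2 : ∀ u, St D L (tk ω e) (update ω (lc e) u) = St D L (tk ω e) ω := fun u => by
      rw [St, St, tk_update_lc]
    have a3 : ∀ u, Xs Γ D L (tk ω e) (update ω (lc e) u) = Xs Γ D L (tk ω e) ω := fun u => by
      rw [Xs, Xs, tk_update_lc]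
      exact X_congr rfl (fun _ _ _ _ => Iff.rfl) fun j hj =>
        update_of_ne (fun h' => not_mem_pre_self e (lc_inj h' ▸ hj)) _ _
    have a4 : ∀ u, lb (update ω (lc e) u) e = u := fun u => update_self _ _ _
    simp only [Af, SX, tk_update_lc]
    by_cases h : (tk ω e, ω) ∈ NN D L r
    · rw [Set.indicator_of_mem h]
      refine lintegral_congr fun u => ?_
      rw [Set.indicator_of_mem ((a1 u).2 h)]
      simp only [a2, a3, a4]
    · rw [Set.indicator_of_notMem h]
      refine (lintegral_congr fun u => ?_).trans lintegral_zero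
      exact Set.indicator_of_notMem (fun h' => h ((a1 u).1 h')) _
  have fin : ∑ e ∈ E, ∫⁻ ω, SX F (tk ω e, ω) ∂P143.iid (V × ℕ) ≠ ⊤ := by
    refine ENNReal.sum_ne_top.2 fun e _ => ne_top_of_le_ne_top hB ?_
    refine (lintegral_mono (g := fun _ => B) fun ω => ?_).trans (by simp)
    exact Set.indicator_apply_le' (fun _ => bF _ _) fun _ => zero_le
  have mw : ∀ e : V × ℕ, MeasurableSet (win e) := fun e => measurableSet_win e
  have mLF : ∀ e s, Measurable (LF Γ F e s) := fun e s => measurable_LF hΓ mF e s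
  have M1 : ∑ e ∈ E, ∫⁻ ω, SX F (tk ω e, ω) ∂P143.iid (V × ℕ) =
      ∫⁻ p, ∑ e ∈ E, (win e).indicator (SX F) p ∂mu V := by
    rw [lintegral_finset_sum _ fun e _ => (mSX mF).indicator (mw e)]
    exact sum_congr rfl fun e he => mecke_state hΓ mF D L r (mem_range.1 (mem_product.1 he).2)
  have M2 : ∑ e ∈ E, ∫⁻ ω, Af e ω ∂P143.iid (V × ℕ) =
      ∫⁻ p, ∑ e ∈ E, (win e).indicator (SX (LF Γ F e)) p ∂mu V := by
    rw [lintegral_finset_sum _ fun e _ => (mSX (mLF e)).indicator (mw e)]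
    exact sum_congr rfl fun e he => (T3 e).trans
      (mecke_state hΓ (mLF e) D L r (mem_range.1 (mem_product.1 he).2))
  have G1 : ∫⁻ p, ∑ e ∈ E, (win e).indicator (SX (LF Γ F e)) p ∂mu V + ∫⁻ p, SX Gain p ∂mu V ≤
      ∫⁻ p, ∑ e ∈ E, (win e).indicator (SX F) p ∂mu V + ∫⁻ p, SX Loss p ∂mu V := by
    rw [← lintegral_add_right _ (mSX mG), ← lintegral_add_right _ (mSX mL)]
    refine lintegral_mono_ae ?_
    have b1 : ∀ᵐ p ∂mu V, Injective (tk p.2 : V × ℕ → ℝ) :=
      Measure.quasiMeasurePreserving_snd.ae (ae_tk_inj (V := V))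
    have b2 : ∀ᵐ p ∂mu V, p.1 ∈ Ioi (0 : ℝ) :=
      Measure.quasiMeasurePreserving_fst.ae (ae_restrict_mem measurableSet_Ioi)
    filter_upwards [b1, b2] with p h1 h2
    by_cases h : p ∈ NN D L r
    · obtain ⟨k, k1, k2⟩ := exists_win h2 h.2
      rw [sum_win (p := p) k1 k2 fun e => SX (LF Γ F e), sum_win (p := p) k1 k2 fun _ => SX F]
      simp only [SX, Set.indicator_of_mem h, sum_const, nsmul_eq_mul]
      refine gen p.2 h1 p.1 h.1 k fun w hw => ⟨(k1 w hw).1, fun h' => ?_, fun j hj => ?_⟩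
      · exact absurd (mem_pre.1 h').2 (not_lt.2 (k1 w hw).2.2)
      · exact mem_pre.2 ⟨mem_product.2 ⟨hw, mem_range.2 (hj.trans (k1 w hw).1)⟩,
          (tau_mono p.2 w (Nat.succ_le_of_lt hj)).trans_lt (k1 w hw).2.1⟩
    · have z : ∀ G, SX G p = 0 := fun G => Set.indicator_of_notMem h _
      have z' : ∀ G e, (win e).indicator (SX G) p = 0 := fun G e => by
        rw [Set.indicator_apply_eq_zero]
        exact fun _ => z G
      simp only [z, z', sum_const_zero, add_zero, le_refl]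
  rw [← M1, ← M2, lintegral_NN D L r (measurable_SX hΓ mG D L),
    lintegral_NN D L r (measurable_SX hΓ mL D L)] at G1
  refine (ENNReal.add_le_add_iff_right fin).1 ?_
  calc _ = _ + ∑ e ∈ E, ∫⁻ ω, SX F (tk ω e, ω) ∂P143.iid (V × ℕ) + _ := add_right_comm _ _ _
    _ ≤ F ∅ 0 + ∑ e ∈ E, ∫⁻ ω, Af e ω ∂P143.iid (V × ℕ) + _ := add_le_add_left T2 _
    _ = F ∅ 0 + (∑ e ∈ E, ∫⁻ ω, Af e ω ∂P143.iid (V × ℕ) + _) := add_assoc _ _ _
    _ ≤ F ∅ 0 + _ := add_le_add_right G1 _
    _ = _ := by rw [add_comm (∑ e ∈ E, _), ← add_assoc]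

/-- Clock coordinates from the first argument, the other ones from the second. -/
noncomputable def mix (ω ω' : V × ℕ → I) : V × ℕ → I :=
  fun i => @ite _ (i.2 % 2 = 0) (Classical.propDecidable _) (ω i) (ω' i)

theorem swap_mix {F : (V × ℕ → I) → ℝ≥0∞} (hF : Measurable F) :
    ∫⁻ ω, F ω ∂P143.iid (V × ℕ) =
      ∫⁻ ω, ∫⁻ ω', F (mix ω ω') ∂P143.iid (V × ℕ) ∂P143.iid (V × ℕ) :=
  P143.lintegral_swap (fun i : V × ℕ => i.2 % 2 = 0) hF

theorem tau_mix (ω ω' : V × ℕ → I) : tau (mix ω ω') = tau ω := by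
  funext v k
  exact tau_congr fun i _ => if_pos (by simp [kc])

theorem tk_mix (ω ω' : V × ℕ → I) : tk (mix ω ω') = tk ω := by
  funext e
  rw [tk, tk, tau_mix]

theorem lb_mix (ω ω' : V × ℕ → I) : lb (mix ω ω') = fun i => ω' (lc i) := by
  funext e
  exact if_neg (by simp only [lc]; omega)

/-- Supermartingale lemma with Poisson clocks (freeze the clock coordinates with
`P143.lintegral_swap`, then `chain`; `alive r ⊆ alive q`). -/
theorem chain_alive [Countable V] {Γ : Rule V β} (hΓ : MRule Γ)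
    {F : Finset (V × ℕ) → (V × ℕ → β) → ℝ≥0∞} (mF : ∀ s, Measurable (F s)) (D : Finset V) (L : ℕ)
    {q r : ℝ} (hq : q ≤ r) (h : ∀ e s x, e.1 ∈ D → e ∉ s → LF Γ F e s x ≤ F s x) :
    ∫⁻ ω in alive D L r, F (St D L r ω) (Xs Γ D L r ω) ∂P143.iid (V × ℕ) ≤
      ∫⁻ ω in alive D L q, F (St D L q ω) (Xs Γ D L q ω) ∂P143.iid (V × ℕ) := by
  have key : ∀ q : ℝ, ∫⁻ ω in alive D L q, F (St D L q ω) (Xs Γ D L q ω) ∂P143.iid (V × ℕ) =
      ∫⁻ ω, Set.indicator (alive D L q) (fun ω => ∫⁻ ω', F (pre (D ×ˢ range L) (tk ω) q)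
        (X Γ (D ×ˢ range L) (tk ω) (fun i => ω' (lc i)) q) ∂P143.iid (V × ℕ)) ω
          ∂P143.iid (V × ℕ) := by
    intro q
    have mq : Measurable fun ω => F (St D L q ω) (Xs Γ D L q ω) :=
      measurable_state (Ω := V × ℕ → I) hΓ (τ := fun ω => tk ω) (ζ := fun ω => lb ω)
        (ρ := fun _ => q) measurable_tk (fun _ => measurable_pi_apply _) measurable_const mF
    rw [← lintegral_indicator (measurableSet_alive D L q),
      swap_mix (mq.indicator (measurableSet_alive D L q))]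
    refine lintegral_congr fun ω => ?_
    by_cases hω : ω ∈ alive D L q
    · rw [Set.indicator_of_mem hω]
      refine lintegral_congr fun ω' => ?_
      rw [Set.indicator_of_mem]
      · rw [St, Xs, tk_mix, lb_mix]
      · intro v hv
        rw [tau_mix]
        exact hω v hv
    · rw [Set.indicator_of_notMem hω]
      refine (lintegral_congr fun ω' => ?_).trans lintegral_zero
      refine Set.indicator_of_notMem (fun h' => hω fun v hv => ?_) _
      have := h' v hv
      rwa [tau_mix] at this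
  rw [key, key]
  refine lintegral_mono_ae ?_
  filter_upwards [ae_tk_inj (V := V)] with ω hω
  by_cases h1 : ω ∈ alive D L r
  · rw [Set.indicator_of_mem h1,
      Set.indicator_of_mem (show ω ∈ alive D L q from fun v hv => hq.trans (h1 v hv))]
    exact chain hΓ hω.injOn lc_inj mF hq fun e he _ _ x =>
      h e _ x (mem_product.1 he).1 (not_mem_pre_self e)
  · rw [Set.indicator_of_notMem h1]
    exact zero_le

theorem gronwall {ι : Type} (S : Finset ι) {φ : ι → ℝ → ℝ≥0∞} {a : ι → ℝ} {c : ι → ι → ℝ}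
    {A C r₀ : ℝ} {B : ℝ≥0∞} (hB : B ≠ ⊤) (bφ : ∀ i q, φ i q ≤ B) (a0 : ∀ i, 0 < a i)
    (c0 : ∀ i j, 0 ≤ c i j) (hA : 0 ≤ A) (hC : 0 < C)
    (hc : ∀ i ∈ S, ∑ j ∈ S, c i j * a j ≤ C * a i)
    (h : ∀ i ∈ S, ∀ r, 0 ≤ r → r ≤ r₀ → φ i r ≤ ENNReal.ofReal (A * a i) +
      ∫⁻ q in Ioo 0 r, ∑ j ∈ S, ENNReal.ofReal (c i j) * φ j q) :
    ∀ i ∈ S, ∀ r, 0 ≤ r → r ≤ r₀ → φ i r ≤ ENNReal.ofReal (2 * A * a i * Real.exp (2 * C * r)) := by
  have hint : ∀ K r : ℝ, 0 ≤ K → 0 ≤ r → ∫⁻ q in Ioo 0 r, ENNReal.ofReal (K * C * Real.exp (2 * C * q)) ≤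
      ENNReal.ofReal (K / 2 * Real.exp (2 * C * r)) := by
    intro K r hK hr
    have hc : Continuous fun q : ℝ => K * C * Real.exp (2 * C * q) := by fun_prop
    rw [← ofReal_integral_eq_lintegral_ofReal
      (hc.integrableOn_Icc.mono_set Ioo_subset_Icc_self)
      (Filter.Eventually.of_forall fun q => by positivity), ← integral_Ioc_eq_integral_Ioo,
      ← intervalIntegral.integral_of_le hr,
      intervalIntegral.integral_eq_sub_of_hasDerivAt (f := fun q => K / 2 * Real.exp (2 * C * q))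
        (fun q _ => by
          have := (((hasDerivAt_id q).const_mul (2 * C)).exp).const_mul (K / 2)
          simp only [id, mul_one] at this
          exact this.congr_deriv (by ring)) (hc.intervalIntegrable _ _)]
    refine ENNReal.ofReal_le_ofReal ?_
    have : 0 ≤ K / 2 * Real.exp (2 * C * 0) := by positivity
    linarith
  have step : ∀ p : ℝ, 0 ≤ p →
      (∀ i ∈ S, ∀ r, 0 ≤ r → r ≤ r₀ → φ i r ≤ ENNReal.ofReal (p * a i * Real.exp (2 * C * r))) →
      ∀ i ∈ S, ∀ r, 0 ≤ r → r ≤ r₀ →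
        φ i r ≤ ENNReal.ofReal ((A + p / 2) * a i * Real.exp (2 * C * r)) := by
    intro p hp ih i hi r r0 r1
    have ai := a0 i
    refine (h i hi r r0 r1).trans ?_
    have h1 : ∫⁻ q in Ioo 0 r, ∑ j ∈ S, ENNReal.ofReal (c i j) * φ j q ≤
        ∫⁻ q in Ioo 0 r, ENNReal.ofReal (p * a i * C * Real.exp (2 * C * q)) := by
      refine setLIntegral_mono' measurableSet_Ioo fun q hq => ?_
      calc ∑ j ∈ S, ENNReal.ofReal (c i j) * φ j q
          ≤ ∑ j ∈ S, ENNReal.ofReal (c i j * (p * a j * Real.exp (2 * C * q))) := by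
            refine sum_le_sum fun j hj => ?_
            rw [ENNReal.ofReal_mul (c0 i j)]
            exact mul_le_mul_right (ih j hj q hq.1.le (hq.2.le.trans r1)) _
        _ = ENNReal.ofReal (∑ j ∈ S, c i j * (p * a j * Real.exp (2 * C * q))) := by
            rw [ENNReal.ofReal_sum_of_nonneg fun j _ => by
              have := a0 j; have := c0 i j; positivity]
        _ ≤ _ := by
            refine ENNReal.ofReal_le_ofReal ?_
            have e1 : ∑ j ∈ S, c i j * (p * a j * Real.exp (2 * C * q)) =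
                (p * Real.exp (2 * C * q)) * ∑ j ∈ S, c i j * a j := by
              rw [mul_sum]
              exact sum_congr rfl fun j _ => by ring
            rw [e1]
            have := mul_le_mul_of_nonneg_left (hc i hi)
              (show 0 ≤ p * Real.exp (2 * C * q) by positivity)
            linarith
    refine (add_le_add_right (h1.trans (hint (p * a i) r (by positivity) r0)) _).trans ?_
    rw [← ENNReal.ofReal_add (by positivity) (by positivity)]
    refine ENNReal.ofReal_le_ofReal ?_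
    have e1 : 1 ≤ Real.exp (2 * C * r) := Real.one_le_exp (by positivity)
    have := mul_le_mul_of_nonneg_left e1 (show 0 ≤ A * a i by positivity)
    linarith
  set p₀ : ℝ := ∑ j ∈ S, B.toReal / a j with hp₀
  have p0 : 0 ≤ p₀ := sum_nonneg fun j _ => div_nonneg ENNReal.toReal_nonneg (a0 j).le
  have all : ∀ n : ℕ, ∀ i ∈ S, ∀ r, 0 ≤ r → r ≤ r₀ →
      φ i r ≤ ENNReal.ofReal ((2 * A + p₀ * (1 / 2) ^ n) * a i * Real.exp (2 * C * r)) := by
    intro n
    induction n with
    | zero =>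
      intro i hi r r0 _
      have ai := a0 i
      refine (bφ i r).trans ?_
      rw [← ENNReal.ofReal_toReal hB]
      refine ENNReal.ofReal_le_ofReal ?_
      have e1 : 1 ≤ Real.exp (2 * C * r) := Real.one_le_exp (by positivity)
      have e2 : B.toReal / a i ≤ p₀ := single_le_sum (f := fun j => B.toReal / a j)
        (fun j _ => div_nonneg ENNReal.toReal_nonneg (a0 j).le) hi
      rw [div_le_iff₀ ai] at e2
      have := mul_le_mul_of_nonneg_left e1 (show 0 ≤ (2 * A + p₀) * a i by positivity)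
      have e3 : 0 ≤ A * a i := by positivity
      simp only [pow_zero, mul_one] at this ⊢
      linarith
    | succ n ih =>
      have := step _ (by positivity) ih
      have e1 : A + (2 * A + p₀ * (1 / 2) ^ n) / 2 = 2 * A + p₀ * (1 / 2) ^ (n + 1) := by ring
      rwa [e1] at this
  intro i hi r r0 r1
  have lim : Filter.Tendsto (fun n : ℕ =>
      ENNReal.ofReal ((2 * A + p₀ * (1 / 2) ^ n) * a i * Real.exp (2 * C * r))) Filter.atTop
      (nhds (ENNReal.ofReal ((2 * A + p₀ * 0) * a i * Real.exp (2 * C * r)))) := by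
    refine ENNReal.tendsto_ofReal ?_
    exact ((((tendsto_pow_atTop_nhds_zero_of_lt_one (by norm_num) (by norm_num)).const_mul
      p₀).const_add _).mul_const _).mul_const _
  have := ge_of_tendsto' lim fun n => all n i hi r r0 r1
  simpa using this

end Vale.Agent.P161.C
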