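import Vale.Agent.P161.C.Edge2
import Vale.Agent.P161.C.Mecke

/-!
The revelation process with Poisson clocks: basic properties.

PLAN. `Ym_events`, `Ym_dep`: `X_congr`. `Yb_map`: `X_unique` for the transported values (see `P161.Wf_map` in
Proc.lean for the invariance of `mag` under an automorphism, `ball_map`). `integral_map_aut`: the coordinate
permutation `(v,k) ↦ (g.symm v, k)` preserves `infinitePi` (`Measure.infinitePi_map_piCongrLeft` or
`Measure.eq_infinitePi`). `Ym_cont`: for fixed `ω` every `it .. n e` is continuous in `θ` on `Ico 0 1`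
(`Q` is continuous in `m`, `mag` is a quotient with positive denominator `Zs_pos`), then dominated convergence.
-/

open MeasureTheory Function Finset Filter Topology
open scoped Classical unitInterval

namespace Vale.Agent.P161.C

variable {V : Type}

/-- Magnetisation of `v` at time `r` for the event set `Ev`. -/
noncomputable def Ym (E : Env V) (Ev : Finset (V × ℕ)) (r : ℝ) (v : V) (ω : V × ℕ → I) : ℝ :=
  mg E (pre Ev (tk ω) r) (X (R1 E) Ev (tk ω) (lb ω) r) v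

/-- The same in the ball of radius `R` around `c`, with `L` events per vertex. -/
noncomputable def Yb (T : SimpleGraph V) (θ : ℝ) (c : V) (R L : ℕ) (r : ℝ) (v : V)
    (ω : V × ℕ → I) : ℝ :=
  Ym ⟨T, θ, ball T c R⟩ (ball T c R ×ˢ range L) r v ω

/-- Hypotheses on the tree and the coupling. -/
structure Par2 (T : SimpleGraph V) (d : ℕ) (θ : ℝ) : Prop where
  tree : T.IsTree
  reg : ∀ v, (T.neighborSet v).encard = d
  hd : 3 ≤ d
  pos : 0 < θ
  lo : 1 ≤ 2 * (θ ^ 2 * (d - 1))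
  hi : θ ^ 2 * (d - 1) ≤ 1

theorem Par2.ok {T : SimpleGraph V} {d : ℕ} {θ : ℝ} (P : Par2 T d θ) {D : Finset V} (hD : Cvx T D) :
    Ok d ⟨T, θ, D⟩ := ⟨P.tree, P.reg, P.hd, P.pos, P.lo, P.hi, hD⟩

theorem Par2.okb {T : SimpleGraph V} {d : ℕ} {θ : ℝ} (P : Par2 T d θ) (c : V) (R : ℕ) :
    Ok d ⟨T, θ, ball T c R⟩ := P.ok (cvx_ball P.tree P.reg c R)

variable {d : ℕ} {E : Env V} {Ev Ev' : Finset (V × ℕ)} {r : ℝ} {v : V}

theorem measurable_Ym : Measurable (Ym E Ev r v) :=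
  measurable_state (Ω := V × ℕ → I) mrule_R1 (τ := fun ω => tk ω) (ζ := fun ω => lb ω)
    (ρ := fun _ => r) measurable_tk (fun _ => measurable_pi_apply _) measurable_const
    (F := fun s x => mg E s x v) fun _ => measurable_mg v

theorem Ym_abs (h : Ok d E) (ω : V × ℕ → I) : |Ym E Ev r v ω| ≤ 1 := mg_abs h

theorem Ym_events {ω : V × ℕ → I} (h : Ev ⊆ Ev') (h' : ∀ e ∈ Ev', tk ω e < r → e ∈ Ev) :
    Ym E Ev r v ω = Ym E Ev' r v ω := by
  have h1 : pre Ev (tk ω) r = pre Ev' (tk ω) r := by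
    ext e
    rw [mem_pre, mem_pre]
    exact ⟨fun he => ⟨h he.1, he.2⟩, fun he => ⟨h' e he.1 he.2, he.2⟩⟩
  rw [Ym, Ym, X_congr (z := lb ω) (z' := lb ω) h1 (fun _ _ _ _ => Iff.rfl) fun _ _ => rfl, h1]

theorem Ym_alive {ω : V × ℕ → I} {D : Finset V} {L L' : ℕ} (h : L ≤ L') (ha : ω ∈ alive D L r) :
    Ym E (D ×ˢ range L) r v ω = Ym E (D ×ˢ range L') r v ω := by
  refine Ym_events (product_subset_product_right (range_subset_range.2 h)) fun e he hlt => ?_
  refine mem_product.2 ⟨(mem_product.1 he).1, mem_range.2 (lt_of_not_ge fun hL => ?_)⟩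
  exact absurd (hlt.trans_le (ha e.1 (mem_product.1 he).1))
    (not_lt.2 (tau_mono ω e.1 (hL.trans (Nat.le_succ _))))

theorem Ym_dep : DependsOn (Ym E Ev r v) (Set.range kc ∪ lc '' (Ev : Set (V × ℕ))) := by
  intro x y h
  have h1 : tk x = tk y := by
    funext e
    exact tau_congr fun i _ => h _ (Or.inl ⟨_, rfl⟩)
  rw [Ym, Ym, h1, X_congr (z := lb x) (z' := lb y) rfl (fun _ _ _ _ => Iff.rfl)
    fun e he => h _ (Or.inr ⟨e, (mem_pre.1 he).1, rfl⟩)]

/-- The action of a permutation of the vertices on the events. -/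
def evm (g : V ≃ V) : V × ℕ ≃ V × ℕ := g.prodCongr (Equiv.refl ℕ)

theorem mg_map {T : SimpleGraph V} (g : T ≃g T) (θ : ℝ) (D : Finset V) (s : Finset (V × ℕ))
    (x : V × ℕ → ℝ) (v : V) :
    mg ⟨T, θ, D.map g.toEquiv.toEmbedding⟩ (s.map (evm g.toEquiv).toEmbedding)
      (fun j => x ((evm g.toEquiv).symm j)) (g v) = mg ⟨T, θ, D⟩ s x v := by
  have e1 : ∀ S : Finset V, tl (s.map (evm g.toEquiv).toEmbedding)
      (fld fun j => x ((evm g.toEquiv).symm j)) (S.map g.toEquiv.toEmbedding) = tl s (fld x) S := by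
    intro S
    rw [tl, prod_map]
    refine prod_congr rfl fun i _ => ?_
    have a1 : fld (fun j => x ((evm g.toEquiv).symm j)) ((evm g.toEquiv).toEmbedding i) =
        fld x i := by
      simp only [fld, Equiv.coe_toEmbedding, Equiv.symm_apply_apply]
    rw [a1]
    exact congrArg (fun t => 1 + _ * t) (sp_map g.toEquiv S i.1)
  have e2 : ∀ S : Finset V, sp (S.map g.toEquiv.toEmbedding) (g v) = sp S v :=
    fun S => sp_map g.toEquiv S v
  simp only [mg, mag, mean, Zs_map, e1, e2]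

theorem pre_map (G : V × ℕ ≃ V × ℕ) (Ev : Finset (V × ℕ)) (t : V × ℕ → ℝ) (q : ℝ) :
    pre (Ev.map G.toEmbedding) (fun j => t (G.symm j)) q = (pre Ev t q).map G.toEmbedding := by
  ext j
  simp only [mem_pre, mem_map_equiv]

theorem rs_map (G : V × ℕ ≃ V × ℕ) (s : Finset (V × ℕ)) (W : V × ℕ → ℝ) :
    rs (s.map G.toEmbedding) (fun j => W (G.symm j)) = fun j => rs s W (G.symm j) := by
  funext j
  simp only [rs, mem_map_equiv]

theorem X_map {T : SimpleGraph V} (g : T ≃g T) (θ : ℝ) (D : Finset V) (Ev : Finset (V × ℕ))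
    (t : V × ℕ → ℝ) (z : V × ℕ → I) (q : ℝ) :
    X (R1 ⟨T, θ, D.map g.toEquiv.toEmbedding⟩) (Ev.map (evm g.toEquiv).toEmbedding)
      (fun j => t ((evm g.toEquiv).symm j)) (fun j => z ((evm g.toEquiv).symm j)) q =
      fun j => X (R1 ⟨T, θ, D⟩) Ev t z q ((evm g.toEquiv).symm j) := by
  rw [← X_unique (W := fun j => gW (R1 ⟨T, θ, D⟩) Ev t z ((evm g.toEquiv).symm j)), pre_map, rs_map]
  · rfl
  · intro e _
    obtain ⟨e, rfl⟩ := (evm g.toEquiv).surjective e
    rw [pre_map, rs_map]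
    simp only [Equiv.symm_apply_apply]
    rw [gW_eq]
    exact congrArg (fun m => P143.Q m (z e)) (mg_map g θ D _ _ e.1).symm

theorem Yb_map {T : SimpleGraph V} (hT : T.IsTree) (hreg : ∀ v, (T.neighborSet v).encard = d)
    (g : T ≃g T) (θ : ℝ) (c : V) (R L : ℕ) (r : ℝ) (v : V) (ω : V × ℕ → I) :
    Yb T θ (g c) R L r (g v) (fun j => ω (g.symm j.1, j.2)) = Yb T θ c R L r v ω := by
  have h1 : tk (fun j : V × ℕ => ω (g.symm j.1, j.2)) = fun j => tk ω ((evm g.toEquiv).symm j) := rfl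
  have h2 : lb (fun j : V × ℕ => ω (g.symm j.1, j.2)) = fun j => lb ω ((evm g.toEquiv).symm j) := rfl
  have h3 : (ball T c R).map g.toEquiv.toEmbedding ×ˢ range L =
      (ball T c R ×ˢ range L).map (evm g.toEquiv).toEmbedding := by
    ext j
    simp only [mem_product, mem_map_equiv]
    rfl
  rw [Yb, Yb, Ym, Ym, ball_map hT hreg, h1, h2, h3, X_map, pre_map, mg_map]

theorem integral_map_aut (g : V ≃ V) {F : (V × ℕ → I) → ℝ} (hF : Measurable F) :
    ∫ ω, F (fun j => ω (g j.1, j.2)) ∂P143.iid (V × ℕ) = ∫ ω, F ω ∂P143.iid (V × ℕ) := by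
  have h := Measure.infinitePi_map_piCongrLeft (fun _ : V × ℕ => (volume : Measure I))
    (evm g).symm
  have h1 : ∀ ω : V × ℕ → I, MeasurableEquiv.piCongrLeft (fun _ : V × ℕ => I) (evm g).symm ω =
      fun j => ω (g j.1, j.2) := by
    intro ω
    funext j
    obtain ⟨j, rfl⟩ := (evm g).symm.surjective j
    rw [MeasurableEquiv.coe_piCongrLeft, Equiv.piCongrLeft_apply_apply]
    simp [evm]
  conv_rhs => rw [P143.iid, ← h]
  rw [integral_map (MeasurableEquiv.measurable _).aemeasurable hF.aestronglyMeasurable]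
  simp only [h1]
  rfl

theorem mg_contAt (T : SimpleGraph V) (D : Finset V) (s : Finset (V × ℕ)) (v : V) {θ₀ : ℝ}
    (h0 : 0 < θ₀) (h1 : θ₀ < 1) {x : ℝ → V × ℕ → ℝ} (hx : ∀ i, ContinuousAt (fun θ => x θ i) θ₀) :
    ContinuousAt (fun θ => mg ⟨T, θ, D⟩ s (x θ) v) θ₀ := by
  have k : ∀ f, ContinuousAt (fun θ => Zs T θ D (tl s (fld (x θ))) f) θ₀ := by
    intro f
    unfold Zs wt tl fld
    refine tendsto_finset_sum _ fun S _ => ContinuousAt.mul ?_ (ContinuousAt.mul ?_ continuousAt_const)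
    · exact tendsto_finset_prod _ fun e _ =>
        (by fun_prop : Continuous fun θ : ℝ => (1 + θ * (e.map (sp S)).mul) / 2).continuousAt
    · refine tendsto_finset_prod _ fun j _ => ?_
      have := hx j
      exact (by fun_prop : ContinuousAt
        (fun θ => 1 + max (-1) (min 1 (x θ j)) / 8 * sp S j.1) θ₀)
  exact (k _).div (k _) (Zs_pos h0.le h1 D (tl_pos (fld_abs _))).ne'

theorem Q_cont (u : ℝ) : Continuous fun m => P143.Q m u := by
  unfold P143.Q
  refine Continuous.div (by fun_prop) (by fun_prop) fun m => ?_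
  positivity

theorem rs_contAt (s : Finset (V × ℕ)) {θ₀ : ℝ} {x : ℝ → V × ℕ → ℝ}
    (hx : ∀ i, ContinuousAt (fun θ => x θ i) θ₀) (i : V × ℕ) :
    ContinuousAt (fun θ => rs s (x θ) i) θ₀ := by
  unfold rs
  split_ifs
  exacts [hx i, continuousAt_const]

theorem it_contAt (T : SimpleGraph V) (D : Finset V) (Ev : Finset (V × ℕ)) (t : V × ℕ → ℝ)
    (z : V × ℕ → I) {θ₀ : ℝ} (h0 : 0 < θ₀) (h1 : θ₀ < 1) (n : ℕ) (e : V × ℕ) :
    ContinuousAt (fun θ => it (R1 ⟨T, θ, D⟩) Ev t z n e) θ₀ := by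
  induction n generalizing e with
  | zero => exact continuousAt_const
  | succ n ih =>
    exact (Q_cont (z e)).continuousAt.comp (mg_contAt T D (pre Ev t (t e)) e.1 h0 h1
      (x := fun θ => rs (pre Ev t (t e)) (it (R1 ⟨T, θ, D⟩) Ev t z n)) (rs_contAt _ ih))

theorem Ym_cont (T : SimpleGraph V) (D : Finset V) (Ev : Finset (V × ℕ)) (r : ℝ) (v : V) {θ₀ : ℝ}
    (h0 : 0 < θ₀) (h1 : θ₀ < 1) :
    Tendsto (fun θ => ∫ ω, (Ym ⟨T, θ, D⟩ Ev r v ω - Ym ⟨T, θ₀, D⟩ Ev r v ω) ^ 2 ∂P143.iid (V × ℕ))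
      (𝓝 θ₀) (𝓝 0) := by
  have hb : ∀ θ, 0 < θ → θ < 1 → ∀ ω, |Ym ⟨T, θ, D⟩ Ev r v ω| ≤ 1 := fun θ a b ω =>
    abs_mag_le a.le b D (tl_pos (fld_abs _)) v
  have := tendsto_integral_filter_of_dominated_convergence (μ := P143.iid (V × ℕ)) (l := 𝓝 θ₀)
    (F := fun θ ω => (Ym ⟨T, θ, D⟩ Ev r v ω - Ym ⟨T, θ₀, D⟩ Ev r v ω) ^ 2) (f := fun _ => 0)
    (fun _ => 4)
    (Eventually.of_forall fun θ =>
      ((measurable_Ym.sub measurable_Ym).pow_const 2).aestronglyMeasurable) ?_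
    (integrable_const _) ?_
  · simpa using this
  · filter_upwards [Ioo_mem_nhds h0 h1] with θ hθ
    refine Eventually.of_forall fun ω => ?_
    obtain ⟨a1, a2⟩ := abs_le.1 (hb θ hθ.1 hθ.2 ω)
    obtain ⟨b1, b2⟩ := abs_le.1 (hb θ₀ h0 h1 ω)
    rw [Real.norm_of_nonneg (sq_nonneg _)]
    nlinarith
  · refine Eventually.of_forall fun ω => ?_
    have c : ContinuousAt (fun θ => Ym ⟨T, θ, D⟩ Ev r v ω) θ₀ :=
      mg_contAt T D _ v h0 h1 (x := fun θ => X (R1 ⟨T, θ, D⟩) Ev (tk ω) (lb ω) r)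
        (rs_contAt _ (it_contAt T D Ev _ _ h0 h1 _))
    have := (c.tendsto.sub_const (Ym ⟨T, θ₀, D⟩ Ev r v ω)).pow 2
    simpa using this

/-- Removing the restriction to `alive`. -/
theorem integral_le_alive {F : (V × ℕ → I) → ℝ} (mF : Measurable F) {b : ℝ} (F0 : ∀ ω, 0 ≤ F ω)
    (Fb : ∀ ω, F ω ≤ b) (D : Finset V) {L : ℕ} (hL : 0 < L) (hr : 0 ≤ r) :
    ∫ ω, F ω ∂P143.iid (V × ℕ) ≤
      ∫ ω in alive D L r, F ω ∂P143.iid (V × ℕ) + b * (D.card * r / L) := by
  have hb : 0 ≤ b := (F0 fun _ => 0).trans (Fb _)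
  have hi : Integrable F (P143.iid (V × ℕ)) :=
    Integrable.of_bound mF.aestronglyMeasurable b (Eventually.of_forall fun ω => by
      rw [Real.norm_of_nonneg (F0 ω)]; exact Fb ω)
  rw [← integral_add_compl (measurableSet_alive D L r) hi]
  refine add_le_add_right ?_ _
  have h1 : ∫ ω in (alive D L r)ᶜ, F ω ∂P143.iid (V × ℕ) ≤
      ∫ _ in (alive D L r)ᶜ, b ∂P143.iid (V × ℕ) :=
    integral_mono hi.integrableOn (integrable_const _) Fb
  refine h1.trans ?_
  rw [setIntegral_const, smul_eq_mul, mul_comm]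
  refine mul_le_mul_of_nonneg_left ?_ hb
  exact ENNReal.toReal_le_of_le_ofReal (by positivity) (tail D hL hr)

end Vale.Agent.P161.C
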