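import Vale.Agent.P161.C.GenIneq
import Vale.Agent.P161.C.Sys

/-!
The column estimate: influence of one label on all vertices.

PLAN. `Z, C` from `gen_ineq`. `sh_integral`: `dynkin` for `R1 E` with `F = 2 - (sr y)⁻¹ ∈ [1,2]`,
`Gain = C⁻¹ (Sh + Lr)`, `Loss = C` (convert `LF` to a real integral with `ofReal_integral_eq_lintegral_ofReal`).
`column`: fix `e₀ = (u,k)`, `a, b` with `η = |a - b|` small. Pair rule
`R2 e s x o = (Q (mg s (fst ∘ x) e.1) (if e = e₀ then a else o), Q (mg s (snd ∘ x) e.1) (if e = e₀ then b else o))`;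
by `X_unique` its components are the processes with labels `lb (update ω (lc e₀) a)` and `.. b` (clocks unchanged,
`tk_update_lc`). `X_induction`: if `e₀ ∉ s` the two components agree, and always
`|mg - mg'| ≤ (G+1)^(card s) η ≤ h := (G+1)^(card D * L) η` (`growth`). `dynkin` with `F = Phi2`, `Gain = 0`,
`Loss = C Phi2 + CE h⁴ + 1{e₀ ∉ s, ∀ j<k, (u,j) ∈ s} C η² Sh u`; (for `w = u, k w = k`, `LF` is the source term;
bound `Σ LF ≤ Σ(common label terms) + source`). On `e₀ ∉ St q` the first component is the unperturbed process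
(`X_congr`). Sum over `k < L` (the indicators sum to at most 1), `sh_integral`, `gronwall` (one index):
`Σ_k E Phi2 ≤ 2 (C' (1+r) η² + L CE h⁴ r) exp (2 C r)`. For general `a, b` interpolate with `N` steps,
`(Σ_{i<N} y i)² ≤ N Σ y i²`, and let `N → ∞` (the `h⁴` term is `O(1/N²)`).
-/

open MeasureTheory Function Finset Set
open scoped Classical unitInterval ENNReal

namespace Vale.Agent.P161.C

variable {V : Type} [Countable V]

section Real

variable {β : Type} [Zero β] [MeasurableSpace β]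

omit [Countable V] in
theorem measurable_stx {Γ : Rule V β} (hΓ : MRule Γ) {γ : Type} [MeasurableSpace γ]
    {G : Finset (V × ℕ) → (V × ℕ → β) → γ} (mG : ∀ s, Measurable (G s)) (D : Finset V) (L : ℕ) :
    Measurable fun p : ℝ × (V × ℕ → I) => G (St D L p.1 p.2) (Xs Γ D L p.1 p.2) :=
  measurable_state (τ := fun p : ℝ × (V × ℕ → I) => tk p.2) (ζ := fun p => lb p.2) (ρ := Prod.fst)
    hΓ (fun e => (measurable_tau e.1 (e.2 + 1)).comp measurable_snd)
    (fun e => (measurable_pi_apply (lc e)).comp measurable_snd) measurable_fst mG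

omit [Countable V] in
theorem measurable_st {Γ : Rule V β} (hΓ : MRule Γ) {γ : Type} [MeasurableSpace γ]
    {G : Finset (V × ℕ) → (V × ℕ → β) → γ} (mG : ∀ s, Measurable (G s)) (D : Finset V) (L : ℕ)
    (q : ℝ) : Measurable fun ω : V × ℕ → I => G (St D L q ω) (Xs Γ D L q ω) :=
  measurable_state (τ := fun ω : V × ℕ → I => tk ω) (ζ := fun ω => lb ω) (ρ := fun _ => q)
    hΓ (fun e => measurable_tau e.1 (e.2 + 1)) (fun e => measurable_pi_apply (lc e))
    measurable_const mG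

omit [Countable V] in
theorem measurable_alive_int {Γ : Rule V β} (hΓ : MRule Γ)
    {G : Finset (V × ℕ) → (V × ℕ → β) → ℝ≥0∞} (mG : ∀ s, Measurable (G s)) (D : Finset V) (L : ℕ) :
    Measurable fun q => ∫⁻ ω in alive D L q, G (St D L q ω) (Xs Γ D L q ω) ∂P143.iid (V × ℕ) := by
  have h := ((measurable_stx hΓ mG D L).indicator (measurable_alive D L)).lintegral_prod_right'
    (ν := P143.iid (V × ℕ))
  convert h using 2 with q
  rw [← lintegral_indicator (measurableSet_alive D L q)]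
  rfl

theorem dynkinR {Γ : Rule V β} (hΓ : MRule Γ)
    {F Gain Loss : Finset (V × ℕ) → (V × ℕ → β) → ℝ} (mF : ∀ s, Measurable (F s))
    (mG : ∀ s, Measurable (Gain s)) (mL : ∀ s, Measurable (Loss s)) {B : ℝ}
    (F0 : ∀ s x, 0 ≤ F s x) (bF : ∀ s x, F s x ≤ B) (G0 : ∀ s x, 0 ≤ Gain s x)
    (L0 : ∀ s x, 0 ≤ Loss s x) (D : Finset V) (L : ℕ) (r : ℝ)
    (gen : ∀ ω, Injective (tk ω : V × ℕ → ℝ) → ∀ q, q < r → ∀ k : V → ℕ,
      (∀ w ∈ D, k w < L ∧ (w, k w) ∉ St D L q ω ∧ ∀ j < k w, (w, j) ∈ St D L q ω) →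
      (∑ w ∈ D, ∫ u : I, F (insert (w, k w) (St D L q ω)) (update (Xs Γ D L q ω) (w, k w)
          (Γ (w, k w) (St D L q ω) (Xs Γ D L q ω) u))) + Gain (St D L q ω) (Xs Γ D L q ω) ≤
        D.card * F (St D L q ω) (Xs Γ D L q ω) + Loss (St D L q ω) (Xs Γ D L q ω)) :
    ∫⁻ ω in alive D L r, ENNReal.ofReal (F (St D L r ω) (Xs Γ D L r ω)) ∂P143.iid (V × ℕ) +
      ∫⁻ q in Ioo 0 r, ∫⁻ ω in alive D L q,
        ENNReal.ofReal (Gain (St D L q ω) (Xs Γ D L q ω)) ∂P143.iid (V × ℕ) ≤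
      ENNReal.ofReal (F ∅ 0) + ∫⁻ q in Ioo 0 r, ∫⁻ ω in alive D L q,
        ENNReal.ofReal (Loss (St D L q ω) (Xs Γ D L q ω)) ∂P143.iid (V × ℕ) := by
  refine dynkin hΓ (F := fun s x => ENNReal.ofReal (F s x))
    (Gain := fun s x => ENNReal.ofReal (Gain s x)) (Loss := fun s x => ENNReal.ofReal (Loss s x))
    (fun s => (mF s).ennreal_ofReal) (fun s => (mG s).ennreal_ofReal)
    (fun s => (mL s).ennreal_ofReal) (B := ENNReal.ofReal B) ENNReal.ofReal_ne_top
    (fun s x => ENNReal.ofReal_le_ofReal (bF s x)) D L r fun ω hω q hq k hk => ?_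
  have e : ∀ e s x, LF Γ (fun s x => ENNReal.ofReal (F s x)) e s x =
      ENNReal.ofReal (∫ u : I, F (insert e s) (update x e (Γ e s x u))) := by
    intro e s x
    rw [ofReal_integral_eq_lintegral_ofReal _ (ae_of_all _ fun u => F0 _ _)]
    · rfl
    · refine integrable_bd ((mF _).comp ((measurable_update x).comp
        ((hΓ e s).comp (measurable_const.prodMk measurable_id)))) (B := B) fun u => ?_
      rw [abs_of_nonneg (F0 _ _)]
      exact bF _ _
  simp only [e]
  rw [← ENNReal.ofReal_sum_of_nonneg fun w _ => integral_nonneg fun u => F0 _ _,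
    ← ENNReal.ofReal_add (sum_nonneg fun w _ => integral_nonneg fun u => F0 _ _) (G0 _ _),
    ← ENNReal.ofReal_natCast, ← ENNReal.ofReal_mul (Nat.cast_nonneg _),
    ← ENNReal.ofReal_add (mul_nonneg (Nat.cast_nonneg _) (F0 _ _)) (L0 _ _)]
  exact ENNReal.ofReal_le_ofReal (gen ω hω q hq k hk)

end Real

omit [Countable V] in
theorem int_const_le (D : Finset V) (L : ℕ) (r : ℝ) (c : ℝ≥0∞) :
    ∫⁻ q in Ioo 0 r, ∫⁻ _ω in alive D L q, c ∂P143.iid (V × ℕ) ≤ c * ENNReal.ofReal r := by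
  calc _ ≤ ∫⁻ _q in Ioo 0 r, c := by
        refine lintegral_mono fun q => ?_
        rw [setLIntegral_const]
        exact mul_le_of_le_one_right' prob_le_one
    _ = _ := by rw [setLIntegral_const, Real.volume_Ioo, sub_zero]

theorem sh_integral {d : ℕ} {E : Env V} (h : Ok d E) {Z C : ℝ} (hZ : 1 ≤ Z) (hC : 1 ≤ C) {y : V}
    (hy : y ∈ E.D)
    (hg : ∀ (s : Finset (V × ℕ)) (x : V × ℕ → ℝ) (k : V → ℕ), (∀ w ∈ E.D, (w, k w) ∉ s) →
      (∑ w ∈ E.D, ∫ o : I,
          (2 - (sr E Z (insert (w, k w) s) (update x (w, k w) (P143.Q (mg E s x w) o)) y)⁻¹)) +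
        C⁻¹ * (Sh E Z s x y + Lr E s x y) ≤ E.D.card * (2 - (sr E Z s x y)⁻¹) + C)
    (L : ℕ) {r : ℝ} (hr : 0 ≤ r) :
    ∫⁻ q in Ioo 0 r, ∫⁻ ω in alive E.D L q,
      ENNReal.ofReal (Sh E Z (St E.D L q ω) (Xs (R1 E) E.D L q ω) y +
        Lr E (St E.D L q ω) (Xs (R1 E) E.D L q ω) y) ∂P143.iid (V × ℕ) ≤
      ENNReal.ofReal (2 * C ^ 2 * (1 + r)) := by
  have s1 : ∀ s x, 1 ≤ sr E Z s x y := fun s x =>
    one_le_rt (by linarith [(one_le_Lr (s := s) (x := x) h hy).1])
  have k := dynkinR (Γ := R1 E) mrule_R1 (F := fun s x => 2 - (sr E Z s x y)⁻¹)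
    (Gain := fun s x => C⁻¹ * (Sh E Z s x y + Lr E s x y)) (Loss := fun _ _ => C)
    (fun s => (measurable_sr Z y).inv.const_sub 2)
    (fun s => ((measurable_Sh Z y).add (measurable_Lr y)).const_mul _)
    (fun s => measurable_const) (B := 2)
    (fun s x => by linarith [inv_le_one_of_one_le₀ (s1 s x)])
    (fun s x => by linarith [inv_nonneg.2 (zero_le_one.trans (s1 s x))])
    (fun s x => mul_nonneg (by positivity) (add_nonneg (Sh_nonneg h hZ s x y)
      (zero_le_one.trans (one_le_Lr h hy).1)))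
    (fun _ _ => by linarith) E.D L r fun ω _ q _ k hk => hg _ _ k fun w hw => (hk w hw).2.1
  have k2 := le_add_self.trans k
  have C0 : 0 < C := by linarith
  simp only [ENNReal.ofReal_mul (inv_nonneg.2 C0.le),
    lintegral_const_mul' _ _ ENNReal.ofReal_ne_top] at k2
  have k3 := k2.trans (add_le_add (ENNReal.ofReal_le_ofReal (q := 2)
    (by linarith [inv_nonneg.2 (zero_le_one.trans (s1 ∅ 0))])) (int_const_le E.D L r _))
  rw [← ENNReal.ofReal_mul C0.le, ← ENNReal.ofReal_add zero_le_two (by positivity)] at k3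
  have k4 := mul_le_mul_right k3 (ENNReal.ofReal C)
  rw [← mul_assoc, ← ENNReal.ofReal_mul C0.le, mul_inv_cancel₀ C0.ne', ENNReal.ofReal_one, one_mul,
    ← ENNReal.ofReal_mul C0.le] at k4
  refine k4.trans (ENNReal.ofReal_le_ofReal ?_)
  have : 0 ≤ C * r := by positivity
  nlinarith

theorem lr_integral (d : ℕ) : ∃ C : ℝ, 1 ≤ C ∧ ∀ {E : Env V}, Ok d E → ∀ y ∈ E.D, ∀ (L : ℕ) (r : ℝ),
    0 ≤ r → ∫⁻ q in Ioo 0 r, ∫⁻ ω in alive E.D L q,
      ENNReal.ofReal (Lr E (St E.D L q ω) (Xs (R1 E) E.D L q ω) y) ∂P143.iid (V × ℕ) ≤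
      ENNReal.ofReal (C * (1 + r)) := by
  obtain ⟨Z, C, hZ, hC, hg⟩ := gen_ineq (V := V) d
  refine ⟨2 * C ^ 2, by nlinarith, fun {E} h y hy L r hr => ?_⟩
  refine le_trans ?_ (sh_integral h hZ hC hy ((hg h).2.2 y hy) L hr)
  exact lintegral_mono fun q => lintegral_mono fun ω =>
    ENNReal.ofReal_le_ofReal (le_add_of_nonneg_left (Sh_nonneg h hZ _ _ y))

/-- The rule for two copies with different labels at the event `e₀`. -/
noncomputable def R2 (E : Env V) (e₀ : V × ℕ) (a b : I) : Rule V (ℝ × ℝ) := fun e s x o =>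
  (P143.Q (mg E s (fun i => (x i).1) e.1) (if e = e₀ then a else o : I),
    P143.Q (mg E s (fun i => (x i).2) e.1) (if e = e₀ then b else o : I))

section Pair

variable {E : Env V} {e₀ : V × ℕ} {a b : I}

omit [Countable V]

theorem measurable_fst' : Measurable fun (x : V × ℕ → ℝ × ℝ) i => (x i).1 := by fun_prop

theorem measurable_snd' : Measurable fun (x : V × ℕ → ℝ × ℝ) i => (x i).2 := by fun_prop

theorem mrule_R2 : MRule (R2 E e₀ a b) := by
  intro e s
  refine Measurable.prodMk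
    (P143.measurable_Q ((measurable_mg e.1).comp (measurable_fst'.comp measurable_fst))
      (measurable_subtype_coe.comp ?_))
    (P143.measurable_Q ((measurable_mg e.1).comp (measurable_snd'.comp measurable_fst))
      (measurable_subtype_coe.comp ?_)) <;> split_ifs <;> fun_prop

theorem fst_X (Ev : Finset (V × ℕ)) (t : V × ℕ → ℝ) (z : V × ℕ → I) (q : ℝ) :
    (fun i => (X (R2 E e₀ a b) Ev t z q i).1) = X (R1 E) Ev t (update z e₀ a) q := by
  have k : ∀ s, rs s (fun i => (gW (R2 E e₀ a b) Ev t z i).1) =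
      fun i => (rs s (gW (R2 E e₀ a b) Ev t z) i).1 := by
    intro s
    funext i
    unfold rs
    split_ifs <;> rfl
  rw [← X_unique (W := fun i => (gW (R2 E e₀ a b) Ev t z i).1), k]
  · rfl
  · intro e _
    rw [gW_eq, k, update_apply]
    rfl

theorem snd_X (Ev : Finset (V × ℕ)) (t : V × ℕ → ℝ) (z : V × ℕ → I) (q : ℝ) :
    (fun i => (X (R2 E e₀ a b) Ev t z q i).2) = X (R1 E) Ev t (update z e₀ b) q := by
  have k : ∀ s, rs s (fun i => (gW (R2 E e₀ a b) Ev t z i).2) =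
      fun i => (rs s (gW (R2 E e₀ a b) Ev t z) i).2 := by
    intro s
    funext i
    unfold rs
    split_ifs <;> rfl
  rw [← X_unique (W := fun i => (gW (R2 E e₀ a b) Ev t z i).2), k]
  · rfl
  · intro e _
    rw [gW_eq, k, update_apply]
    rfl

theorem X_update_of_notMem {Ev : Finset (V × ℕ)} {t : V × ℕ → ℝ} {z : V × ℕ → I} {q : ℝ}
    (h : e₀ ∉ pre Ev t q) : X (R1 E) Ev t (update z e₀ a) q = X (R1 E) Ev t z q :=
  X_congr rfl (fun _ _ _ _ => Iff.rfl) fun e he => update_of_ne (by rintro rfl; exact h he) _ _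

theorem fst_update (x : V × ℕ → ℝ × ℝ) (e : V × ℕ) (y : ℝ × ℝ) :
    (fun i => (update x e y i).1) = update (fun i => (x i).1) e y.1 := by
  funext i
  by_cases h : i = e
  · subst h; simp
  · simp [update_of_ne h]

theorem snd_update (x : V × ℕ → ℝ × ℝ) (e : V × ℕ) (y : ℝ × ℝ) :
    (fun i => (update x e y i).2) = update (fun i => (x i).2) e y.2 := by
  funext i
  by_cases h : i = e
  · subst h; simp
  · simp [update_of_ne h]

theorem lb_update (ω : V × ℕ → I) (e : V × ℕ) (a : I) :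
    lb (update ω (lc e) a) = update (lb ω) e a :=
  update_comp_eq_of_injective ω lc_inj e a

theorem pair_close {G : ℝ} (hG : 1 ≤ G)
    (hg : ∀ (s : Finset (V × ℕ)) (x x' : V × ℕ → ℝ) (w : V) (k : ℕ) (a b : I) (η : ℝ), w ∈ E.D →
      (w, k) ∉ s → (∀ v ∈ E.D, |mg E s x v - mg E s x' v| ≤ η) → ∀ v ∈ E.D,
        |mg E (insert (w, k) s) (update x (w, k) (P143.Q (mg E s x w) a)) v -
          mg E (insert (w, k) s) (update x' (w, k) (P143.Q (mg E s x' w) b)) v| ≤
          G * η + |(a : ℝ) - b|) {L : ℕ} {ω : V × ℕ → I} (hω : Injective (tk ω : V × ℕ → ℝ))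
    (q : ℝ) : ∀ v ∈ E.D, |mg E (St E.D L q ω) (fun i => (Xs (R2 E e₀ a b) E.D L q ω i).1) v -
      mg E (St E.D L q ω) (fun i => (Xs (R2 E e₀ a b) E.D L q ω i).2) v| ≤
      (G + 1) ^ (E.D.card * L) * |(a : ℝ) - b| := by
  have k := X_induction (Γ := R2 E e₀ a b) (E := E.D ×ˢ range L) (t := tk ω) (z := lb ω) hω.injOn
    (P := fun s x => ∀ v ∈ E.D, |mg E s (fun i => (x i).1) v - mg E s (fun i => (x i).2) v| ≤
      (G + 1) ^ s.card * |(a : ℝ) - b|) (fun v _ => by simp) ?_ q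
  · intro v hv
    refine (k v hv).trans (mul_le_mul_of_nonneg_right (pow_le_pow_right₀ (by linarith) ?_)
      (abs_nonneg _))
    refine (Finset.card_le_card (filter_subset _ _)).trans ?_
    rw [card_product, card_range]
  · rintro ⟨w, k⟩ he s x hs ih v hv
    rw [fst_update, snd_update, card_insert_of_notMem hs]
    refine (hg s _ _ w k _ _ _ (mem_product.1 he).1 hs ih v hv).trans ?_
    have h1 : |((if (w, k) = e₀ then a else lb ω (w, k) : I) : ℝ) -
        ((if (w, k) = e₀ then b else lb ω (w, k) : I) : ℝ)| ≤ |(a : ℝ) - b| := by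
      split_ifs <;> simp
    have h2 : |(a : ℝ) - b| ≤ (G + 1) ^ s.card * |(a : ℝ) - b| :=
      le_mul_of_one_le_left (abs_nonneg _) (one_le_pow₀ (by linarith))
    rw [pow_succ]
    linarith

theorem sum_first_le (s : Finset (V × ℕ)) (u : V) (L : ℕ) {c : ℝ≥0∞} :
    ∑ k ∈ range L, (if (u, k) ∉ s ∧ ∀ j < k, (u, j) ∈ s then c else 0) ≤ c := by
  rw [← sum_filter, sum_const, nsmul_eq_mul]
  refine mul_le_of_le_one_left' ?_
  rw [Nat.cast_le_one, card_le_one]
  intro i hi j hj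
  obtain ⟨-, i1, i2⟩ := mem_filter.1 hi
  obtain ⟨-, j1, j2⟩ := mem_filter.1 hj
  by_contra hne
  rcases lt_or_gt_of_ne hne with h | h
  exacts [i1 (j2 i h), j1 (i2 j h)]

end Pair

theorem sum_lintegral_le {Ω ι : Type*} [MeasurableSpace Ω] (μ : Measure Ω) (S : Finset ι)
    (f : ι → Ω → ℝ≥0∞) : ∑ i ∈ S, ∫⁻ ω, f i ω ∂μ ≤ ∫⁻ ω, ∑ i ∈ S, f i ω ∂μ := by
  induction S using Finset.induction_on with
  | empty => simp
  | insert i S hi ih =>
    simp only [sum_insert hi]
    exact (add_le_add le_rfl ih).trans (le_lintegral_add _ _)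

theorem halving {T : I → I → ℝ} {K K' δ : ℝ} (hδ : 0 < δ) (hK' : 0 ≤ K')
    (h1 : ∀ a b m, T a b ≤ 2 * T a m + 2 * T m b)
    (h2 : ∀ a b : I, |(a : ℝ) - b| ≤ δ → T a b ≤ K * ((a : ℝ) - b) ^ 2 + K' * ((a : ℝ) - b) ^ 4)
    (a b : I) : T a b ≤ K * ((a : ℝ) - b) ^ 2 := by
  have k : ∀ (n : ℕ) (a b : I), |(a : ℝ) - b| ≤ δ * 2 ^ n →
      T a b ≤ K * ((a : ℝ) - b) ^ 2 + K' * ((a : ℝ) - b) ^ 4 * (1 / 4) ^ n := by
    intro n
    induction n with
    | zero => simpa using h2
    | succ n ih =>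
      intro a b hab
      let m : I := ⟨(a + b) / 2, by linarith [a.2.1, b.2.1], by linarith [a.2.2, b.2.2]⟩
      have e1 : (a : ℝ) - m = (a - b) / 2 := by simp only [m]; ring
      have e2 : (m : ℝ) - b = (a - b) / 2 := by simp only [m]; ring
      have e3 : |((a : ℝ) - b) / 2| ≤ δ * 2 ^ n := by
        rw [abs_div, abs_two]
        rw [pow_succ] at hab
        linarith
      have i1 := ih a m (by rwa [e1])
      have i2 := ih m b (by rwa [e2])
      rw [e1] at i1
      rw [e2] at i2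
      have := h1 a b m
      rw [pow_succ (1 / 4 : ℝ)]
      linarith
  have ab : |(a : ℝ) - b| ≤ 1 := by
    rw [abs_le]; constructor <;> linarith [a.2.1, b.2.1, a.2.2, b.2.2]
  have t1 : Filter.Tendsto (fun n : ℕ => K * ((a : ℝ) - b) ^ 2 + K' * ((a : ℝ) - b) ^ 4 * (1 / 4) ^ n)
      Filter.atTop (nhds (K * ((a : ℝ) - b) ^ 2 + K' * ((a : ℝ) - b) ^ 4 * 0)) :=
    ((tendsto_pow_atTop_nhds_zero_of_lt_one (by norm_num) (by norm_num)).const_mul _).const_add _
  rw [mul_zero, add_zero] at t1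
  refine ge_of_tendsto t1 ?_
  have t2 : Filter.Tendsto (fun n : ℕ => δ * 2 ^ n) Filter.atTop Filter.atTop :=
    (tendsto_pow_atTop_atTop_of_one_lt one_lt_two).const_mul_atTop hδ
  filter_upwards [t2.eventually_ge_atTop 1] with n hn
  exact k n a b (ab.trans hn)

theorem pair_dynkin {d : ℕ} {E : Env V} (h : Ok d E) {Z C CE η : ℝ} (hZ : 1 ≤ Z) (hC : 1 ≤ C)
    (hCE : 0 ≤ CE) {u : V} (hη : η ≤ 1)
    (g1 : ∀ (s : Finset (V × ℕ)) (x x' : V × ℕ → ℝ) (k : V → ℕ) (h : ℝ),
      h ≤ 1 → (∀ w ∈ E.D, (w, k w) ∉ s) → (∀ v ∈ E.D, |mg E s x v - mg E s x' v| ≤ h) →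
      ∑ w ∈ E.D, ∫ o : I, Phi2 E Z u (insert (w, k w) s) (update x (w, k w) (P143.Q (mg E s x w) o))
          (update x' (w, k w) (P143.Q (mg E s x' w) o)) ≤
        (E.D.card + C) * Phi2 E Z u s x x' + CE * h ^ 4)
    (g2 : ∀ (s : Finset (V × ℕ)) (x : V × ℕ → ℝ) (k : ℕ) (a b : I), (u, k) ∉ s →
      Phi2 E Z u (insert (u, k) s) (update x (u, k) (P143.Q (mg E s x u) a))
        (update x (u, k) (P143.Q (mg E s x u) b)) ≤ C * ((a : ℝ) - b) ^ 2 * Sh E Z s x u)
    {L k : ℕ} {a b : I}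
    (g3 : ∀ ω, Injective (tk ω : V × ℕ → ℝ) → ∀ q, ∀ v ∈ E.D,
      |mg E (St E.D L q ω) (fun i => (Xs (R2 E (u, k) a b) E.D L q ω i).1) v -
      mg E (St E.D L q ω) (fun i => (Xs (R2 E (u, k) a b) E.D L q ω i).2) v| ≤ η) (r : ℝ) :
    ∫⁻ ω in alive E.D L r, ENNReal.ofReal (Phi2 E Z u (St E.D L r ω)
        (fun i => (Xs (R2 E (u, k) a b) E.D L r ω i).1)
        (fun i => (Xs (R2 E (u, k) a b) E.D L r ω i).2)) ∂P143.iid (V × ℕ) ≤
      ∫⁻ q in Ioo 0 r, (ENNReal.ofReal C * ∫⁻ ω in alive E.D L q,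
        ENNReal.ofReal (Phi2 E Z u (St E.D L q ω) (fun i => (Xs (R2 E (u, k) a b) E.D L q ω i).1)
          (fun i => (Xs (R2 E (u, k) a b) E.D L q ω i).2)) ∂P143.iid (V × ℕ) +
        ∫⁻ ω in alive E.D L q, (ENNReal.ofReal (CE * η ^ 4) +
          if (u, k) ∉ St E.D L q ω ∧ ∀ j < k, (u, j) ∈ St E.D L q ω then
            ENNReal.ofReal (C * ((a : ℝ) - b) ^ 2) *
              ENNReal.ofReal (Sh E Z (St E.D L q ω) (Xs (R1 E) E.D L q ω) u) else 0)
          ∂P143.iid (V × ℕ)) := by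
  obtain ⟨B, hB⟩ := Phi2_bound h hZ u
  have C0 : 0 ≤ C := by linarith
  have mP : ∀ s, Measurable fun x : V × ℕ → ℝ × ℝ =>
      Phi2 E Z u s (fun i => (x i).1) (fun i => (x i).2) := fun s =>
    Finset.measurable_sum _ fun v _ => (((((measurable_mg v).comp measurable_fst').sub
      ((measurable_mg v).comp measurable_snd')).pow_const 2).const_mul _).mul
      ((measurable_Wt Z v).comp measurable_fst')
  have S0 : ∀ s x, 0 ≤ if (u, k) ∉ s ∧ ∀ j < k, (u, j) ∈ s then
      C * ((a : ℝ) - b) ^ 2 * Sh E Z s x u else 0 := fun s x => by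
    have := Sh_nonneg h hZ s x u
    positivity
  have eq12 : ∀ ω q, (u, k) ∉ St E.D L q ω →
      (fun i => (Xs (R2 E (u, k) a b) E.D L q ω i).1) = Xs (R1 E) E.D L q ω ∧
      (fun i => (Xs (R2 E (u, k) a b) E.D L q ω i).2) = Xs (R1 E) E.D L q ω := fun ω q hq =>
    ⟨(fst_X _ _ _ _).trans (X_update_of_notMem hq), (snd_X _ _ _ _).trans (X_update_of_notMem hq)⟩
  have dy := dynkinR (Γ := R2 E (u, k) a b) mrule_R2
    (F := fun s x => Phi2 E Z u s (fun i => (x i).1) (fun i => (x i).2)) (Gain := fun _ _ => 0)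
    (Loss := fun s x => C * Phi2 E Z u s (fun i => (x i).1) (fun i => (x i).2) + (CE * η ^ 4 +
      if (u, k) ∉ s ∧ ∀ j < k, (u, j) ∈ s then
        C * ((a : ℝ) - b) ^ 2 * Sh E Z s (fun i => (x i).1) u else 0))
    mP (fun _ => measurable_const)
    (fun s => ((mP s).const_mul _).add (Measurable.const_add (by
      split_ifs
      exacts [((measurable_Sh Z u).comp measurable_fst').const_mul _, measurable_const]) _))
    (B := B) (fun s x => (hB _ _ _).1) (fun s x => (hB _ _ _).2.1) (fun _ _ => le_rfl)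
    (fun s x => add_nonneg (mul_nonneg C0 (hB _ _ _).1) (add_nonneg (by positivity) (S0 _ _)))
    E.D L r ?_
  · have P0 : Phi2 E Z u ∅ (fun i => ((0 : V × ℕ → ℝ × ℝ) i).1)
        (fun i => ((0 : V × ℕ → ℝ × ℝ) i).2) = 0 := by simp [Phi2]
    rw [P0, ENNReal.ofReal_zero, zero_add] at dy
    refine (le_self_add.trans dy).trans (lintegral_mono fun q => ?_)
    rw [← lintegral_const_mul' _ _ ENNReal.ofReal_ne_top, ← lintegral_add_left
      ((measurable_st mrule_R2 mP E.D L q).ennreal_ofReal.const_mul _)]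
    refine lintegral_mono fun ω => ?_
    beta_reduce
    rw [ENNReal.ofReal_add (mul_nonneg C0 (hB _ _ _).1) (add_nonneg (by positivity) (S0 _ _)),
      ENNReal.ofReal_mul C0, ENNReal.ofReal_add (by positivity) (S0 _ _)]
    refine add_le_add le_rfl (add_le_add le_rfl ?_)
    split_ifs with hq
    · rw [ENNReal.ofReal_mul (by positivity), (eq12 ω q hq.1).1]
    · simp
  · intro ω hω q _ k' hk'
    have g := g1 (St E.D L q ω) _ _ k' η hη (fun w hw => (hk' w hw).2.1) (g3 ω hω q)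
    simp only [fst_update, snd_update]
    generalize hx : Xs (R2 E (u, k) a b) E.D L q ω = x at *
    generalize hs : St E.D L q ω = s at *
    have key : ∀ w ∈ E.D, ∫ o : I, Phi2 E Z u (insert (w, k' w) s)
        (update (fun i => (x i).1) (w, k' w) (R2 E (u, k) a b (w, k' w) s x o).1)
        (update (fun i => (x i).2) (w, k' w) (R2 E (u, k) a b (w, k' w) s x o).2) ≤
        (∫ o : I, Phi2 E Z u (insert (w, k' w) s)
          (update (fun i => (x i).1) (w, k' w) (P143.Q (mg E s (fun i => (x i).1) w) o))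
          (update (fun i => (x i).2) (w, k' w) (P143.Q (mg E s (fun i => (x i).2) w) o))) +
        if w = u then (if (u, k) ∉ s ∧ ∀ j < k, (u, j) ∈ s then
          C * ((a : ℝ) - b) ^ 2 * Sh E Z s (fun i => (x i).1) u else 0) else 0 := by
      intro w hw
      by_cases he : (w, k' w) = (u, k)
      · obtain ⟨rfl, rfl⟩ := Prod.mk.inj he
        obtain ⟨-, k1, k2⟩ := hk' w hw
        have e := eq12 ω q (hs ▸ k1)
        rw [hx] at e
        simp only [R2, if_true, integral_const, probReal_univ, one_smul]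
        rw [if_pos ⟨k1, k2⟩, e.1, e.2]
        exact (g2 s _ _ a b k1).trans (le_add_of_nonneg_left (integral_nonneg fun o => (hB _ _ _).1))
      · simp only [R2, if_neg he]
        refine le_add_of_nonneg_right ?_
        by_cases hwu : w = u
        · rw [if_pos hwu]; exact S0 _ _
        · rw [if_neg hwu]
    have key2 := sum_le_sum key
    rw [sum_add_distrib, sum_ite_eq'] at key2
    have key3 : (if u ∈ E.D then (if (u, k) ∉ s ∧ ∀ j < k, (u, j) ∈ s then
          C * ((a : ℝ) - b) ^ 2 * Sh E Z s (fun i => (x i).1) u else 0) else 0) ≤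
        if (u, k) ∉ s ∧ ∀ j < k, (u, j) ∈ s then
          C * ((a : ℝ) - b) ^ 2 * Sh E Z s (fun i => (x i).1) u else 0 := by
      by_cases hu : u ∈ E.D
      · rw [if_pos hu]
      · rw [if_neg hu]; exact S0 _ _
    linarith

theorem column (d : ℕ) {r : ℝ} (hr : 0 ≤ r) : ∃ C : ℝ, 1 ≤ C ∧ ∀ {E : Env V}, Ok d E →
    ∀ u ∈ E.D, ∀ (L : ℕ) (a b : I), ∑ k ∈ range L, ∑ v ∈ E.D, om (E.T.dist u v) *
      ∫ ω in alive E.D L r, (Ym E (E.D ×ˢ range L) r v (update ω (lc (u, k)) a) -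
        Ym E (E.D ×ˢ range L) r v (update ω (lc (u, k)) b)) ^ 2 ∂P143.iid (V × ℕ) ≤
      C * ((a : ℝ) - b) ^ 2 := by
  obtain ⟨Z, C, hZ, hC, hg⟩ := gen_ineq (V := V) d
  have C0 : 0 < C := by linarith
  have X1 : 1 ≤ Real.exp (2 * C * r) := Real.one_le_exp (by positivity)
  refine ⟨2 * (C * (2 * C ^ 2 * (1 + r))) * Real.exp (2 * C * r), ?_, fun {E} h u hu L => ?_⟩
  · have a1 : 1 ≤ C ^ 2 := one_le_pow₀ hC
    have a2 : 1 ≤ 2 * C ^ 2 * (1 + r) := by nlinarith
    have a3 : 1 ≤ C * (2 * C ^ 2 * (1 + r)) := by nlinarith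
    nlinarith
  obtain ⟨⟨CE, hCE, g1⟩, g2, g3⟩ := hg h
  obtain ⟨G, hG, hgr⟩ := growth h
  obtain ⟨B, hB⟩ := Phi2_bound h hZ u
  obtain ⟨M, hM⟩ : ∃ M, M = (G + 1) ^ (E.D.card * L) := ⟨_, rfl⟩
  have M0 : 0 < M := by rw [hM]; positivity
  have mY : ∀ k v (a : I), Measurable fun ω =>
      Ym E (E.D ×ˢ range L) r v (update ω (lc (u, k)) a) := fun k v a =>
    measurable_Ym.comp measurable_update_left
  have iY : ∀ k v (a b : I), Integrable (fun ω =>
      (Ym E (E.D ×ˢ range L) r v (update ω (lc (u, k)) a) -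
        Ym E (E.D ×ˢ range L) r v (update ω (lc (u, k)) b)) ^ 2)
      ((P143.iid (V × ℕ)).restrict (alive E.D L r)) := fun k v a b =>
    Integrable.of_bound (((mY k v a).sub (mY k v b)).pow_const 2).aestronglyMeasurable 4
      (ae_of_all _ fun ω => by
        have h1 := abs_le.1 (Ym_abs (Ev := E.D ×ˢ Finset.range L) (r := r) (v := v) h
          (update ω (lc (u, k)) a))
        have h2 := abs_le.1 (Ym_abs (Ev := E.D ×ˢ Finset.range L) (r := r) (v := v) h
          (update ω (lc (u, k)) b))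
        rw [Real.norm_eq_abs, abs_of_nonneg (sq_nonneg _)]
        nlinarith)
  refine halving (δ := M⁻¹) (K' := 2 * (L * (CE * M ^ 4) * r) * Real.exp (2 * C * r))
    (by positivity) (by positivity) (fun a b m => ?_) fun a b hab => ?_
  · rw [mul_sum, mul_sum, ← sum_add_distrib]
    refine sum_le_sum fun k _ => ?_
    rw [mul_sum, mul_sum, ← sum_add_distrib]
    refine sum_le_sum fun v _ => ?_
    rw [mul_left_comm, mul_left_comm 2, ← mul_add]
    refine mul_le_mul_of_nonneg_left ?_ (zero_le_one.trans (one_le_om _))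
    rw [← integral_const_mul, ← integral_const_mul,
      ← integral_add ((iY k v a m).const_mul 2) ((iY k v m b).const_mul 2)]
    refine integral_mono (iY k v a b) (((iY k v a m).const_mul 2).add ((iY k v m b).const_mul 2))
      fun ω => ?_
    beta_reduce
    generalize Ym E (E.D ×ˢ range L) r v (update ω (lc (u, k)) a) = y₁
    generalize Ym E (E.D ×ˢ range L) r v (update ω (lc (u, k)) b) = y₂
    generalize Ym E (E.D ×ˢ range L) r v (update ω (lc (u, k)) m) = y₃
    nlinarith [sq_nonneg (y₁ - 2 * y₃ + y₂)]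
  have hη : M * |(a : ℝ) - b| ≤ 1 := by
    have := mul_le_mul_of_nonneg_left hab M0.le
    rwa [mul_inv_cancel₀ M0.ne'] at this
  let φ : ℕ → ℝ → ℝ≥0∞ := fun k q => ∫⁻ ω in alive E.D L q,
    ENNReal.ofReal (Phi2 E Z u (St E.D L q ω) (fun i => (Xs (R2 E (u, k) a b) E.D L q ω i).1)
      (fun i => (Xs (R2 E (u, k) a b) E.D L q ω i).2)) ∂P143.iid (V × ℕ)
  obtain ⟨A, hA⟩ : ∃ A, A = L * (CE * (M * |(a : ℝ) - b|) ^ 4) * r +
    C * ((a : ℝ) - b) ^ 2 * (2 * C ^ 2 * (1 + r)) := ⟨_, rfl⟩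
  have A0 : 0 ≤ A := by rw [hA]; positivity
  have gr := gronwall (ι := Unit) univ (φ := fun _ q => ∑ k ∈ range L, φ k q) (a := fun _ => 1)
    (c := fun _ _ => C) (A := A) (C := C) (r₀ := r) (B := L * ENNReal.ofReal B)
    (ENNReal.mul_ne_top (ENNReal.natCast_ne_top _) ENNReal.ofReal_ne_top) ?_ (fun _ => one_pos)
    (fun _ _ => C0.le) A0 C0 (fun _ _ => by simp) ?_ () (mem_univ _) r hr le_rfl
  · have e : 2 * (C * (2 * C ^ 2 * (1 + r))) * Real.exp (2 * C * r) * ((a : ℝ) - b) ^ 2 +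
        2 * (L * (CE * M ^ 4) * r) * Real.exp (2 * C * r) * ((a : ℝ) - b) ^ 4 =
        2 * A * 1 * Real.exp (2 * C * r) := by
      rw [hA, mul_pow, show |(a : ℝ) - b| ^ 4 = ((a : ℝ) - b) ^ 4 from Even.pow_abs (by decide) _]
      ring
    rw [e, ← ENNReal.ofReal_le_ofReal_iff (by positivity)]
    refine le_trans ?_ gr
    rw [ENNReal.ofReal_sum_of_nonneg fun k _ => sum_nonneg fun v _ =>
      mul_nonneg (zero_le_one.trans (one_le_om _)) (integral_nonneg fun ω => sq_nonneg _)]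
    refine sum_le_sum fun k _ => ?_
    simp only [← integral_const_mul]
    rw [← integral_finset_sum _ fun v _ => (iY k v a b).const_mul _,
      ofReal_integral_eq_lintegral_ofReal (integrable_finset_sum _ fun v _ =>
        (iY k v a b).const_mul _) (ae_of_all _ fun ω => sum_nonneg fun v _ =>
          mul_nonneg (zero_le_one.trans (one_le_om _)) (sq_nonneg _))]
    refine lintegral_mono fun ω => ENNReal.ofReal_le_ofReal ?_
    refine le_trans (le_of_eq ?_) (hB _ _ _).2.2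
    simp only [Ym, tk_update_lc, lb_update, Xs, fst_X, snd_X, St]
  · intro _ q
    refine (sum_le_card_nsmul _ _ (ENNReal.ofReal B) fun k _ => ?_).trans
      (by rw [card_range, nsmul_eq_mul])
    refine (lintegral_mono fun ω => ENNReal.ofReal_le_ofReal (hB _ _ _).2.1).trans ?_
    rw [setLIntegral_const]
    exact mul_le_of_le_one_right' prob_le_one
  · intro _ _ r' _ hr'
    have mS := measurable_alive_int (Γ := R1 E) mrule_R1
      (G := fun s x => ENNReal.ofReal (L * (CE * (M * |(a : ℝ) - b|) ^ 4)) +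
        ENNReal.ofReal (C * ((a : ℝ) - b) ^ 2) * ENNReal.ofReal (Sh E Z s x u + Lr E s x u))
      (fun s => (((measurable_Sh Z u).add (measurable_Lr u)).ennreal_ofReal.const_mul _).const_add _)
      E.D L
    refine (sum_le_sum fun k _ => pair_dynkin h hZ hC hCE hη (g1 u hu) (g2 u hu) (k := k)
      (fun ω hω q => hM ▸ pair_close hG hgr hω q) r').trans ((sum_lintegral_le _ _ _).trans ?_)
    refine (lintegral_mono (g := fun q => (∫⁻ ω in alive E.D L q,
      (ENNReal.ofReal (L * (CE * (M * |(a : ℝ) - b|) ^ 4)) + ENNReal.ofReal (C * ((a : ℝ) - b) ^ 2) *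
        ENNReal.ofReal (Sh E Z (St E.D L q ω) (Xs (R1 E) E.D L q ω) u +
          Lr E (St E.D L q ω) (Xs (R1 E) E.D L q ω) u)) ∂P143.iid (V × ℕ)) +
        ∑ _j : Unit, ENNReal.ofReal C * ∑ k ∈ range L, φ k q) fun q => ?_).trans ?_
    · beta_reduce
      rw [sum_add_distrib, ← mul_sum, add_comm, Fintype.sum_unique]
      refine add_le_add ((sum_lintegral_le _ _ _).trans (lintegral_mono fun ω => ?_)) le_rfl
      beta_reduce
      rw [sum_add_distrib, sum_const, card_range, nsmul_eq_mul,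
        ENNReal.ofReal_mul (Nat.cast_nonneg L), ENNReal.ofReal_natCast]
      refine add_le_add le_rfl ((sum_first_le _ _ _).trans ?_)
      exact mul_le_mul_right (ENNReal.ofReal_le_ofReal
        (le_add_of_nonneg_right (zero_le_one.trans (one_le_Lr h hu).1))) _
    rw [lintegral_add_left mS]
    refine add_le_add ((lintegral_mono_set (Ioo_subset_Ioo_right hr')).trans ?_) le_rfl
    simp only [lintegral_add_left measurable_const, lintegral_const_mul' _ _ ENNReal.ofReal_ne_top]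
    rw [lintegral_add_right _ ((measurable_alive_int (Γ := R1 E) mrule_R1
      (G := fun s x => ENNReal.ofReal (Sh E Z s x u + Lr E s x u))
      (fun s => ((measurable_Sh Z u).add (measurable_Lr u)).ennreal_ofReal) E.D L).const_mul _),
      lintegral_const_mul' _ _ ENNReal.ofReal_ne_top, mul_one, hA,
      ENNReal.ofReal_add (by positivity) (by positivity),
      ENNReal.ofReal_mul (q := r) (by positivity),
      ENNReal.ofReal_mul (q := 2 * C ^ 2 * (1 + r)) (by positivity)]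
    exact add_le_add (int_const_le _ _ _ _)
      (mul_le_mul_right (sh_integral h hZ hC hu (g3 u hu) L hr) _)

end Vale.Agent.P161.C
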