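import Vale.Agent.P161.Tree

/-!
Rooted structure of a finite convex vertex set `D` of a tree, seen from a root `r`.
-/

open Finset
open scoped Classical

namespace Vale.Agent.P161.C

variable {V : Type} {T : SimpleGraph V} {d : ℕ} {D : Finset V} {r m c v w x y y' : V}

/-- `m` lies on the geodesic from `a` to `b`. -/
def Btw (T : SimpleGraph V) (a m b : V) : Prop := T.dist a m + T.dist m b = T.dist a b

noncomputable def ch (T : SimpleGraph V) (D : Finset V) (r m : V) : Finset V :=
  D.filter fun c => T.Adj m c ∧ T.dist r c = T.dist r m + 1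

noncomputable def Bel (T : SimpleGraph V) (D : Finset V) (r m : V) : Finset V :=
  D.filter fun v => Btw T r m v

theorem btw_left (a b : V) : Btw T a a b := by simp [Btw]

theorem btw_right (a b : V) : Btw T a b b := by simp [Btw]

theorem Btw.symm {a b : V} (h : Btw T a m b) : Btw T b m a := by
  unfold Btw at *
  rw [SimpleGraph.dist_comm (u := b) (v := m), SimpleGraph.dist_comm (u := m) (v := a),
    SimpleGraph.dist_comm (u := b) (v := a)]
  omega

theorem Bel_root : Bel T D r r = D := filter_true_of_mem fun v _ => btw_left r v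

theorem mem_ch : c ∈ ch T D r m ↔ c ∈ D ∧ T.Adj m c ∧ T.dist r c = T.dist r m + 1 := mem_filter

theorem mem_Bel : v ∈ Bel T D r m ↔ v ∈ D ∧ Btw T r m v := mem_filter

theorem adj_dist (hT : T.IsTree) (h : T.Adj m c) (x : V) :
    T.dist c x = T.dist m x + 1 ∨ T.dist m x = T.dist c x + 1 := by
  have h1 := hT.dist_ne_of_adj x h
  have h2 := hT.connected.dist_triangle (u := m) (v := c) (w := x)
  have h3 := hT.connected.dist_triangle (u := c) (v := m) (w := x)
  rw [SimpleGraph.dist_eq_one_iff_adj.2 h] at h2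
  rw [SimpleGraph.dist_eq_one_iff_adj.2 h.symm] at h3
  rw [T.dist_comm (u := x), T.dist_comm (u := x)] at h1
  omega

/-- Both ends of an edge lie between any two vertices on different sides of it. -/
theorem side_btw (hT : T.IsTree) (h : T.Adj m c) (hx : ¬T.dist c x < T.dist m x)
    (hy : T.dist c y < T.dist m y) : Btw T x c y ∧ Btw T x m y := by
  obtain ⟨q, hq⟩ := hT.connected.exists_walk_length_eq_dist x y
  have h1 := dist_add_le q (cross_walk hT h q hx hy)
  have h2 := hT.connected.dist_triangle (u := x) (v := c) (w := y)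
  have h3 := adj_dist hT h x
  have h4 := adj_dist hT h y
  unfold Btw
  rw [T.dist_comm (u := c) (v := x), T.dist_comm (u := m) (v := x)] at *
  omega

/-- The first step from `m` towards a vertex below it. -/
theorem exists_step (hT : T.IsTree) (h : Btw T r m v) (hne : v ≠ m) :
    ∃ c, T.Adj m c ∧ T.dist r c = T.dist r m + 1 ∧ Btw T r c v ∧ Btw T m c v := by
  obtain ⟨c, hc, h1⟩ := exists_parent hT hne
  have h2 := hT.connected.dist_triangle (u := r) (v := c) (w := v)
  have h3 := hT.connected.dist_triangle (u := r) (v := m) (w := c)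
  have h4 := SimpleGraph.dist_eq_one_iff_adj.2 hc.symm
  refine ⟨c, hc.symm, ?_⟩
  unfold Btw at *
  rw [T.dist_comm (u := v), T.dist_comm (u := v)] at h1
  omega

theorem btw_total' (hT : T.IsTree) (h : Btw T x y w) (h' : Btw T x y' w) :
    (Btw T x y y' ∧ Btw T y y' w) ∨ (Btw T x y' y ∧ Btw T y' y w) := by
  obtain ⟨q, hq⟩ := hT.connected.exists_walk_length_eq_dist x y'
  obtain ⟨q', hq'⟩ := hT.connected.exists_walk_length_eq_dist y' w
  have h1 := mem_support_of_btw hT h (q.append q')
  rw [SimpleGraph.Walk.mem_support_append_iff] at h1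
  have t1 := hT.connected.dist_triangle (u := x) (v := y) (w := y')
  have t2 := hT.connected.dist_triangle (u := y') (v := y) (w := w)
  unfold Btw at *
  rcases h1 with h1 | h1
  · have := dist_add_le q h1
    left; omega
  · have := dist_add_le q' h1
    right; omega

/-- Two vertices of a geodesic at the same distance from its start coincide. -/
theorem btw_inj (hT : T.IsTree) (h : Btw T x y w) (h' : Btw T x y' w)
    (e : T.dist x y = T.dist x y') : y = y' := by
  rcases btw_total' hT h h' with h1 | h1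
  · exact hT.connected.dist_eq_zero_iff.1 (by have := h1.1; unfold Btw at this; omega)
  · exact (hT.connected.dist_eq_zero_iff.1 (by have := h1.1; unfold Btw at this; omega)).symm

theorem dist_ch' (hT : T.IsTree) (ha : T.Adj m c) (hd : T.dist r c = T.dist r m + 1)
    (hv : Btw T r c v) : T.dist m v = T.dist c v + 1 ∧ Btw T m c v ∧ Btw T r m v := by
  have h1 := adj_dist hT ha v
  have h2 := hT.connected.dist_triangle (u := r) (v := m) (w := v)
  have h4 := SimpleGraph.dist_eq_one_iff_adj.2 ha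
  unfold Btw at *
  omega

theorem dist_not_ch' (hT : T.IsTree) (ha : T.Adj m c) (hd : T.dist r c = T.dist r m + 1)
    (hv : ¬Btw T r c v) : T.dist c v = T.dist m v + 1 ∧ Btw T c m v := by
  have h1 := adj_dist hT ha v
  have h4 := SimpleGraph.dist_eq_one_iff_adj.2 ha.symm
  have h5 : ¬T.dist c v < T.dist m v := fun h5 => hv (side_btw hT ha (by
    rw [T.dist_comm (u := c), T.dist_comm (u := m)]; omega) h5).1
  unfold Btw
  omega

theorem card_nbr (hreg : ∀ v, (T.neighborSet v).encard = d) (m : V) :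
    ∃ N : Finset V, N.card = d ∧ ∀ c, c ∈ N ↔ T.Adj m c := by
  have hf : (T.neighborSet m).Finite := Set.finite_of_encard_eq_coe (hreg m)
  refine ⟨hf.toFinset, ?_, fun c => by simp⟩
  rw [← Nat.cast_inj (R := ℕ∞), ← Set.encard_coe_eq_coe_finsetCard, Set.Finite.coe_toFinset]
  exact hreg m

theorem sum_Bel (hT : T.IsTree) (hD : Cvx T D) (hm : m ∈ D) (F : V → ℝ) :
    ∑ v ∈ Bel T D r m, F v = F m + ∑ c ∈ ch T D r m, ∑ v ∈ Bel T D r c, F v := by
  have e : Bel T D r m = insert m ((ch T D r m).biUnion fun c => Bel T D r c) := by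
    ext v
    simp only [mem_insert, mem_biUnion, mem_Bel, mem_ch]
    constructor
    · rintro ⟨hv, h⟩
      by_cases hne : v = m
      · exact Or.inl hne
      obtain ⟨c, h1, h2, h3, h4⟩ := exists_step hT h hne
      exact Or.inr ⟨c, ⟨hD m hm v hv c h4, h1, h2⟩, hv, h3⟩
    · rintro (rfl | ⟨c, ⟨-, h1, h2⟩, hv, h3⟩)
      · exact ⟨hm, btw_right _ _⟩
      · exact ⟨hv, (dist_ch' hT h1 h2 h3).2.2⟩
  rw [e, sum_insert, sum_biUnion]
  · intro c hc c' hc' hne
    refine disjoint_left.2 fun v h1 h2 => hne ?_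
    exact btw_inj hT (mem_Bel.1 h1).2 (mem_Bel.1 h2).2
      ((mem_ch.1 hc).2.2.trans (mem_ch.1 hc').2.2.symm)
  · simp only [mem_biUnion, mem_Bel, mem_ch]
    rintro ⟨c, ⟨-, -, h2⟩, -, h3⟩
    unfold Btw at h3
    omega

theorem card_ch (hT : T.IsTree) (hreg : ∀ v, (T.neighborSet v).encard = d) (h : m ≠ r) :
    (ch T D r m).card + 1 ≤ d := by
  obtain ⟨N, h1, h2⟩ := card_nbr hreg m
  obtain ⟨p, hp, h3⟩ := exists_parent hT h.symm
  have h4 : ch T D r m ⊆ N.erase p := fun c hc => by
    obtain ⟨-, a1, a2⟩ := mem_ch.1 hc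
    exact mem_erase.2 ⟨by rintro rfl; omega, (h2 c).2 a1⟩
  have h5 := card_le_card h4
  have h6 := (h2 p).2 hp.symm
  rw [card_erase_of_mem h6] at h5
  have := card_pos.2 ⟨p, h6⟩
  omega

theorem card_ch_root (hreg : ∀ v, (T.neighborSet v).encard = d) : (ch T D r m).card ≤ d := by
  obtain ⟨N, h1, h2⟩ := card_nbr hreg m
  exact h1 ▸ card_le_card fun c hc => (h2 c).2 (mem_ch.1 hc).2.1

theorem card_near (hT : T.IsTree) (hreg : ∀ v, (T.neighborSet v).encard = d) :
    (D.filter fun v => T.dist x v ≤ 1).card ≤ d + 1 := by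
  obtain ⟨N, h1, h2⟩ := card_nbr hreg x
  refine (card_le_card (t := insert x N) fun v hv => ?_).trans (h1 ▸ card_insert_le x N)
  have h3 := (mem_filter.1 hv).2
  rcases Nat.le_one_iff_eq_zero_or_eq_one.1 h3 with h4 | h4
  · exact mem_insert.2 (Or.inl (hT.connected.dist_eq_zero_iff.1 h4).symm)
  · exact mem_insert.2 (Or.inr ((h2 v).2 (SimpleGraph.dist_eq_one_iff_adj.1 h4)))

theorem ch_ht (hc : c ∈ ch T D r m) :
    D.sup (T.dist r) - T.dist r c < D.sup (T.dist r) - T.dist r m := by
  obtain ⟨h1, -, h2⟩ := mem_ch.1 hc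
  have := le_sup (f := T.dist r) h1
  omega

theorem ch_induction {Q : V → Prop} (h : ∀ m ∈ D, (∀ c ∈ ch T D r m, Q c) → Q m) :
    ∀ m ∈ D, Q m := by
  intro m
  induction' hn : D.sup (T.dist r) - T.dist r m using Nat.strong_induction_on with n ih
    generalizing m
  exact fun hm => h m hm fun c hc => ih _ (hn ▸ ch_ht hc) c rfl (mem_ch.1 hc).1

theorem ch_ne (hc : c ∈ ch T D r m) : c ≠ r := by
  rintro rfl
  have := (mem_ch.1 hc).2.2
  rw [SimpleGraph.dist_self] at this
  omega

theorem dist_ch (hT : T.IsTree) (hc : c ∈ ch T D r m) (hv : Btw T r c v) :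
    T.dist m v = T.dist c v + 1 ∧ Btw T m c v ∧ Btw T r m v := by
  exact dist_ch' hT (mem_ch.1 hc).2.1 (mem_ch.1 hc).2.2 hv

theorem dist_not_ch (hT : T.IsTree) (hc : c ∈ ch T D r m) (hv : ¬Btw T r c v) :
    T.dist c v = T.dist m v + 1 ∧ Btw T c m v := by
  exact dist_not_ch' hT (mem_ch.1 hc).2.1 (mem_ch.1 hc).2.2 hv

theorem exists_par' (hT : T.IsTree) (hD : Cvx T D) (hr : r ∈ D) (hv : v ∈ D) (h : v ≠ r) :
    ∃ p ∈ D, v ∈ ch T D r p := by
  obtain ⟨p, hp, h1⟩ := exists_parent hT h.symm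
  refine ⟨p, hD r hr v hv p ?_, mem_ch.2 ⟨hv, hp, h1.symm⟩⟩
  rw [SimpleGraph.dist_eq_one_iff_adj.2 hp, h1]

/-- Induction from the root outwards. -/
theorem root_induction (hT : T.IsTree) (hD : Cvx T D) (hr : r ∈ D) {Q : V → Prop} (h0 : Q r)
    (h : ∀ p ∈ D, ∀ c ∈ ch T D r p, Q p → Q c) : ∀ v ∈ D, Q v := by
  intro v
  induction' hn : T.dist r v using Nat.strong_induction_on with n ih generalizing v
  intro hv
  by_cases hne : v = r
  · exact hne ▸ h0
  obtain ⟨p, hp, hc⟩ := exists_par' hT hD hr hv hne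
  have := (mem_ch.1 hc).2.2
  exact h p hp v hc (ih _ (by omega) p rfl hp)

/-- The geodesic to a child is the geodesic to its parent and the child. -/
theorem btw_ch (hT : T.IsTree) (hc : c ∈ ch T D r m) : Btw T r y c ↔ Btw T r y m ∨ y = c := by
  obtain ⟨-, h1, h2⟩ := mem_ch.1 hc
  have h3 := SimpleGraph.dist_eq_one_iff_adj.2 h1
  constructor
  · intro h
    rcases btw_total' hT h (show Btw T r m c by unfold Btw; omega) with h4 | ⟨h4, h5⟩
    · exact Or.inl h4.1
    · unfold Btw at h5
      by_cases h6 : T.dist y c = 0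
      · exact Or.inr (hT.connected.dist_eq_zero_iff.1 h6)
      · have : m = y := hT.connected.dist_eq_zero_iff.1 (by omega)
        exact Or.inl (this ▸ btw_right _ _)
  · rintro (h | rfl)
    · have t1 := hT.connected.dist_triangle (u := y) (v := m) (w := c)
      have t2 := hT.connected.dist_triangle (u := r) (v := y) (w := c)
      unfold Btw at *
      omega
    · exact btw_right _ _

theorem not_btw_ch (hc : c ∈ ch T D r m) : ¬Btw T r c m := by
  have := (mem_ch.1 hc).2.2
  unfold Btw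
  omega

theorem btw_total (hT : T.IsTree) (h : Btw T x y w) (h' : Btw T x y' w) :
    (Btw T x y y' ∧ Btw T y y' w) ∨ (Btw T x y' y ∧ Btw T y' y w) := by
  exact btw_total' hT h h'

theorem btw_trans (hT : T.IsTree) (h : Btw T x y w) (h' : Btw T y y' w) :
    Btw T x y y' ∧ Btw T x y' w := by
  have t1 := hT.connected.dist_triangle (u := x) (v := y) (w := y')
  have t2 := hT.connected.dist_triangle (u := x) (v := y') (w := w)
  unfold Btw at *
  omega

/-- The median of `r, v, w`. -/
theorem exists_med (hT : T.IsTree) (r v w : V) :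
    ∃ m, Btw T r m v ∧ Btw T r m w ∧ Btw T v m w := by
  have k : ∀ n m, T.dist m v = n → Btw T r m v → Btw T r m w →
      ∃ m, Btw T r m v ∧ Btw T r m w ∧ Btw T v m w := by
    intro n
    induction' n using Nat.strong_induction_on with n ih
    intro m hn h1 h2
    by_cases hne : v = m
    · exact ⟨m, h1, h2, hne ▸ btw_left _ _⟩
    obtain ⟨c, a1, a2, a3, a4⟩ := exists_step hT h1 hne
    have a5 := (dist_ch' hT a1 a2 a3).1
    by_cases h3 : Btw T r c w
    · exact ih _ (by omega) c rfl a3 h3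
    · have a6 := (dist_not_ch' hT a1 a2 h3).1
      exact ⟨m, h1, h2, (side_btw hT a1 (x := w) (y := v) (by omega) (by omega)).2.symm⟩
  exact k _ r rfl (btw_left _ _) (btw_left _ _)

/-- Two vertices below `m` and not below a common child have median `m`. -/
theorem med_eq (hT : T.IsTree) (hD : Cvx T D) (hm : m ∈ D) (hv : v ∈ D) (h1 : Btw T r m v)
    (h2 : Btw T r m w) (h3 : ∀ c ∈ ch T D r m, ¬(Btw T r c v ∧ Btw T r c w)) {m' : V}
    (h4 : Btw T r m' v) (h5 : Btw T r m' w) (h6 : Btw T v m' w) : m' = m := by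
  rcases btw_total' hT h1 h4 with ⟨a1, a2⟩ | ⟨a1, a2⟩
  · by_contra hne
    obtain ⟨c, b1, b2, b3, b4⟩ := exists_step hT a1 hne
    have t1 := hT.connected.dist_triangle (u := c) (v := m') (w := v)
    have t2 := hT.connected.dist_triangle (u := c) (v := m') (w := w)
    have t3 := hT.connected.dist_triangle (u := r) (v := c) (w := v)
    have t4 := hT.connected.dist_triangle (u := r) (v := c) (w := w)
    have c1 : Btw T r c v := by unfold Btw at *; omega
    have c2 : Btw T r c w := by unfold Btw at *; omega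
    exact h3 c (mem_ch.2 ⟨hD m hm v hv c (dist_ch' hT b1 b2 c1).2.1, b1, b2⟩) ⟨c1, c2⟩
  · have t1 := hT.connected.dist_triangle (u := v) (v := m) (w := w)
    refine hT.connected.dist_eq_zero_iff.1 ?_
    unfold Btw at *
    rw [T.dist_comm (u := v) (v := m)] at t1
    rw [T.dist_comm (u := v) (v := m')] at h6
    omega

theorem sum_path_pow (hT : T.IsTree) {θ : ℝ} (h0 : 0 ≤ θ) (h1 : θ ≤ 3 / 4) :
    ∑ y ∈ D.filter (fun y => Btw T r y w), θ ^ T.dist r y ≤ 4 := by
  rw [← sum_image (s := D.filter fun y => Btw T r y w) (g := T.dist r) (f := fun k => θ ^ k)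
    fun a ha b hb e => btw_inj hT (mem_filter.1 (mem_coe.1 ha)).2 (mem_filter.1 (mem_coe.1 hb)).2 e]
  refine ((summable_geometric_of_lt_one h0 (by linarith)).sum_le_tsum _
    fun _ _ => by positivity).trans ?_
  rw [tsum_geometric_of_lt_one h0 (by linarith), inv_le_comm₀ (by linarith) (by norm_num)]
  linarith

/-- Schur test sum. -/
theorem schur_sum (hT : T.IsTree) (hreg : ∀ v, (T.neighborSet v).encard = d) (hd : 3 ≤ d)
    (hD : Cvx T D) (hr : r ∈ D) (hy : y ∈ D) {θ : ℝ} (h0 : 0 < θ) (h1 : θ ^ 2 * (d - 1) ≤ 1) :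
    ∑ y' ∈ D, (11 / 10 * θ ^ 2) ^ T.dist y y' * θ ^ T.dist r y' ≤ 40 * θ ^ T.dist r y := by
  have hd' : (3 : ℝ) ≤ d := by exact_mod_cast hd
  have hθ : θ ≤ 709 / 1000 := by nlinarith
  set a := 11 / 10 * θ ^ 2 with ha
  have a0 : 0 ≤ a := by positivity
  have hx : a * θ * (d - 1) ≤ 39 / 50 := by
    have : a * θ * (d - 1) = 11 / 10 * θ * (θ ^ 2 * (d - 1)) := by rw [ha]; ring
    rw [this]; nlinarith
  have ρ0 : 0 ≤ a * θ := by positivity
  have step : ∀ m ∈ D, ∑ v ∈ Bel T D r m, (a * θ) ^ T.dist m v =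
      1 + ∑ c ∈ ch T D r m, a * θ * ∑ v ∈ Bel T D r c, (a * θ) ^ T.dist c v := by
    intro m hm
    rw [sum_Bel hT hD hm, SimpleGraph.dist_self, pow_zero]
    congr 1
    refine sum_congr rfl fun c hc => ?_
    rw [mul_sum]
    exact sum_congr rfl fun v hv => by rw [(dist_ch hT hc (mem_Bel.1 hv).2).1, pow_succ']
  have W : ∀ m ∈ D, m ≠ r → ∑ v ∈ Bel T D r m, (a * θ) ^ T.dist m v ≤ 5 := by
    refine ch_induction (r := r) (T := T) fun m hm ih hne => ?_
    rw [step m hm]
    have h2 := sum_le_card_nsmul (ch T D r m) _ (a * θ * 5) fun c hc =>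
      mul_le_mul_of_nonneg_left (ih c hc (ch_ne hc)) ρ0
    have h3 : ((ch T D r m).card : ℝ) + 1 ≤ d := by exact_mod_cast card_ch hT hreg hne
    rw [nsmul_eq_mul] at h2
    nlinarith
  refine root_induction hT hD hr (Q := fun y =>
    ∑ y' ∈ D, a ^ T.dist y y' * θ ^ T.dist r y' ≤ 40 * θ ^ T.dist r y) ?_
    (fun p hp c hc ih => ?_) y hy
  · have h2 := step r hr
    rw [Bel_root] at h2
    have h3 := sum_le_card_nsmul (ch T D r r) _ (a * θ * 5) fun c hc =>
      mul_le_mul_of_nonneg_left (W c (mem_ch.1 hc).1 (ch_ne hc)) ρ0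
    have h4 : ((ch T D r r).card : ℝ) ≤ d := by exact_mod_cast card_ch_root hreg
    rw [nsmul_eq_mul] at h3
    simp only [← mul_pow, SimpleGraph.dist_self, pow_zero, h2]
    nlinarith
  · have h2 : ∀ v ∈ D, a ^ T.dist c v * θ ^ T.dist r v ≤
        (if Btw T r c v then θ ^ T.dist r c * (a * θ) ^ T.dist c v else 0) +
          a * (a ^ T.dist p v * θ ^ T.dist r v) := by
      intro v _
      split_ifs with h
      · have : a ^ T.dist c v * θ ^ T.dist r v = θ ^ T.dist r c * (a * θ) ^ T.dist c v := by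
          rw [← show T.dist r c + T.dist c v = T.dist r v from h, pow_add, mul_pow]; ring
        rw [this]
        exact le_add_of_nonneg_right (by positivity)
      · rw [(dist_not_ch hT hc h).1, pow_succ']
        linarith
    refine (sum_le_sum h2).trans ?_
    rw [sum_add_distrib, ← sum_filter, ← mul_sum, ← mul_sum]
    have h3 := mul_le_mul_of_nonneg_left (W c (mem_ch.1 hc).1 (ch_ne hc))
      (show 0 ≤ θ ^ T.dist r c by positivity)
    have h4 := mul_le_mul_of_nonneg_left ih a0
    have h5 : a * (40 * θ ^ T.dist r p) = 44 * θ * θ ^ T.dist r c := by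
      rw [(mem_ch.1 hc).2.2, ha]; ring
    have h6 : 0 ≤ θ ^ T.dist r c := by positivity
    unfold Bel at h3
    nlinarith

end Vale.Agent.P161.C
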