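import Vale.Agent.P161.C.Swap
import Vale.Agent.P161.C.Root

/-!
The spectral radius argument for invariant families of vectors indexed by a regular tree.
-/

open Finset Filter Topology
open scoped Classical InnerProductSpace

namespace Vale.Agent.P161.C.Cv

variable {V : Type} {T : SimpleGraph V} {d : ℕ} {N : V → Finset V}

/-- Sum over the neighbours. -/
def Aop {M : Type} [AddCommMonoid M] (N : V → Finset V) (f : V → M) (v : V) : M := ∑ w ∈ N v, f w

theorem par_unique (hT : T.IsTree) {o v p w : V} (hp : T.Adj p v) (hw : T.Adj w v)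
    (h1 : T.dist o p + 1 = T.dist o v) (h2 : T.dist o w + 1 = T.dist o v) : w = p := by
  by_contra hne
  obtain ⟨q, hq⟩ := hT.connected.exists_walk_length_eq_dist o w
  have d1 := SimpleGraph.dist_eq_one_iff_adj.2 hp
  have d2 := SimpleGraph.dist_eq_one_iff_adj.2 hw
  have d3 : T.dist p w ≠ 0 := fun h => hne ((hT.connected.dist_eq_zero_iff.1 h).symm)
  have d4 := adj_dist hT hp w
  rw [T.dist_comm (u := v) (v := w)] at d4
  have := dist_add_le q (cross_walk hT hp q
    (by rw [T.dist_comm (u := v), T.dist_comm (u := p)]; omega)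
    (by rw [T.dist_comm (u := v)]; omega))
  rw [T.dist_comm (u := v)] at this
  omega

theorem radial (hT : T.IsTree) (hN : ∀ v c, c ∈ N v ↔ T.Adj v c) (hc : ∀ v, (N v).card = d)
    {o v : V} {k : ℕ} (hk : T.dist o v = k + 1) (F : ℕ → ℝ) :
    Aop N (fun w => F (T.dist o w)) v = F k + (d - 1) * F (k + 2) := by
  have hne : o ≠ v := fun h => by rw [h, SimpleGraph.dist_self] at hk; omega
  obtain ⟨p, hp, h1⟩ := exists_parent hT hne
  have pN : p ∈ N v := (hN v p).2 hp.symm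
  rw [Aop, ← add_sum_erase _ _ pN, show T.dist o p = k by omega,
    sum_congr rfl (g := fun _ => F (k + 2)), sum_const, card_erase_of_mem pN, hc, nsmul_eq_mul,
    Nat.cast_sub (by rw [← hc v]; exact card_pos.2 ⟨p, pN⟩), Nat.cast_one]
  intro w hw
  have a1 := (hN v w).1 (mem_erase.1 hw).2
  have a2 := adj_dist hT a1 o
  rw [T.dist_comm (u := w), T.dist_comm (u := v)] at a2
  rcases a2 with a2 | a2
  · rw [a2, hk]
  · exact absurd (par_unique hT hp a1.symm h1 a2.symm) (mem_erase.1 hw).1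

theorem radial_root (hN : ∀ v c, c ∈ N v ↔ T.Adj v c) (hc : ∀ v, (N v).card = d) (o : V)
    (F : ℕ → ℝ) : Aop N (fun w => F (T.dist o w)) o = d * F 1 := by
  rw [Aop, sum_congr rfl (g := fun _ => F 1), sum_const, hc, nsmul_eq_mul]
  intro w hw
  rw [SimpleGraph.dist_eq_one_iff_adj.2 ((hN o w).1 hw)]

theorem up (hT : T.IsTree) (hN : ∀ v c, c ∈ N v ↔ T.Adj v c) (hc : ∀ v, (N v).card = d)
    (hd : 3 ≤ d) {s : ℝ} (s0 : 0 < s) (hs : (d - 1) * s ^ 2 = 1) (o v : V) :
    Aop N (fun w => s ^ T.dist o w) v ≤ 2 / s * s ^ T.dist o v := by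
  have hd' : (3 : ℝ) ≤ d := by exact_mod_cast hd
  rcases hk : T.dist o v with _ | k
  · obtain rfl := hT.connected.dist_eq_zero_iff.1 hk
    rw [radial_root hN hc o fun k => s ^ k, pow_zero, mul_one, pow_one, le_div_iff₀ s0]
    nlinarith [sq_nonneg s]
  · rw [radial hT hN hc hk fun k => s ^ k]
    refine le_of_eq ?_
    have : (d - 1) * s ^ (k + 2) = s ^ k := by
      rw [pow_add, mul_left_comm, hs, mul_one]
    rw [this]
    field_simp
    ring

theorem low (hT : T.IsTree) (hN : ∀ v c, c ∈ N v ↔ T.Adj v c) (hc : ∀ v, (N v).card = d)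
    {t : ℝ} (t0 : 0 < t) (ht : 1 ≤ (d - 1) * t ^ 2) (o v : V) :
    (1 / t + (d - 1) * t) * (((T.dist o v : ℝ) + 1) * t ^ T.dist o v) ≤
      Aop N (fun w => ((T.dist o w : ℝ) + 1) * t ^ T.dist o w) v := by
  rcases hk : T.dist o v with _ | k
  · obtain rfl := hT.connected.dist_eq_zero_iff.1 hk
    rw [radial_root hN hc o fun k => ((k : ℝ) + 1) * t ^ k]
    have : 1 / t ≤ (d - 1) * t := by rw [div_le_iff₀ t0]; nlinarith
    push_cast
    nlinarith
  · rw [radial hT hN hc hk fun k => ((k : ℝ) + 1) * t ^ k]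
    have e : ((k : ℝ) + 1) * t ^ k + (d - 1) * ((((k + 2 : ℕ) : ℝ) + 1) * t ^ (k + 2)) -
        (1 / t + (d - 1) * t) * ((((k + 1 : ℕ) : ℝ) + 1) * t ^ (k + 1)) =
        t ^ k * ((d - 1) * t ^ 2 - 1) := by
      push_cast
      field_simp
      ring
    have : 0 ≤ t ^ k * ((d - 1) * t ^ 2 - 1) := mul_nonneg (by positivity) (by linarith)
    linarith

theorem iter_up {f g : V → ℝ} {K l : ℝ} (hK : 0 ≤ K) (hl : 0 ≤ l) (h1 : ∀ v, f v ≤ K * g v)
    (h2 : ∀ v, Aop N g v ≤ l * g v) (n : ℕ) (v : V) : (Aop N)^[n] f v ≤ K * l ^ n * g v := by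
  induction n generalizing v with
  | zero => simpa using h1 v
  | succ n ih =>
    rw [Function.iterate_succ_apply', Aop]
    refine (sum_le_sum fun w _ => ih w).trans ?_
    rw [← mul_sum, pow_succ, ← mul_assoc, mul_assoc (K * l ^ n)]
    exact mul_le_mul_of_nonneg_left (h2 v) (by positivity)

theorem iter_low {f g : V → ℝ} {K l : ℝ} (hl : 0 ≤ l) (h1 : ∀ v, g v ≤ K * f v)
    (h2 : ∀ v, l * g v ≤ Aop N g v) (n : ℕ) (v : V) : l ^ n * g v ≤ K * (Aop N)^[n] f v := by
  induction n generalizing v with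
  | zero => simpa using h1 v
  | succ n ih =>
    rw [Function.iterate_succ_apply', Aop, mul_sum]
    refine le_trans ?_ (sum_le_sum fun w _ => ih w)
    rw [← mul_sum, pow_succ, mul_assoc]
    exact mul_le_mul_of_nonneg_left (h2 v) (by positivity)

theorem logconvex {a : ℕ → ℝ} {C ρ : ℝ} (a0 : ∀ n, 0 ≤ a n) (hρ : 0 < ρ)
    (h1 : ∀ n, a (n + 1) ^ 2 ≤ a n * a (n + 2)) (h2 : ∀ n, a n ≤ C * ρ ^ n) (k : ℕ) :
    a (k + 1) ≤ ρ * a k := by
  by_contra hlt
  rw [not_le] at hlt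
  have ak : 0 < a k := by
    rcases (a0 k).eq_or_lt with h | h
    · have := h1 k
      rw [← h] at this hlt
      nlinarith
    · exact h
  set r := a (k + 1) / a k with hr
  have rρ : ρ < r := by rw [hr, lt_div_iff₀ ak]; exact hlt
  have r0 : 0 < r := hρ.trans rρ
  have st : ∀ j, r ^ j * a k ≤ a (k + j) ∧ r * a (k + j) ≤ a (k + j + 1) := by
    intro j
    induction j with
    | zero => exact ⟨by simp, by rw [hr, add_zero, div_mul_cancel₀ _ ak.ne']⟩
    | succ j ih =>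
      have b0 : 0 < a (k + j) := lt_of_lt_of_le (by positivity) ih.1
      refine ⟨?_, ?_⟩
      · rw [pow_succ', mul_assoc]
        exact (mul_le_mul_of_nonneg_left ih.1 r0.le).trans ih.2
      · have b1 := h1 (k + j)
        have b2 := mul_le_mul_of_nonneg_left ih.2 (a0 (k + j + 1))
        refine le_of_mul_le_mul_left (a := a (k + j)) ?_ b0
        change a (k + j) * (r * a (k + j + 1)) ≤ a (k + j) * a (k + j + 2)
        nlinarith
  obtain ⟨j, hj⟩ := ((tendsto_pow_atTop_atTop_of_one_lt ((one_lt_div hρ).2 rρ)).eventually_gt_atTop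
    (C * ρ ^ k / a k)).exists
  have b := (st j).1.trans (h2 (k + j))
  rw [div_pow, div_lt_div_iff₀ ak (by positivity)] at hj
  rw [pow_add] at b
  linarith

variable {H : Type} [NormedAddCommGroup H] [InnerProductSpace ℝ H]

/-- Joint invariance of the correlations. -/
def Inv (T : SimpleGraph V) (y z : V → H) : Prop :=
  ∀ g : T ≃g T, ∀ u v, ⟪y (g u), z (g v)⟫_ℝ = ⟪y u, z v⟫_ℝ

theorem Inv.symm {y z : V → H} (h : Inv T y z) : Inv T z y := fun g u v => by
  rw [real_inner_comm, h g v u, real_inner_comm]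

theorem Inv.left (hN : ∀ v c, c ∈ N v ↔ T.Adj v c) {y z : V → H} (h : Inv T y z) :
    Inv T (Aop N y) z := by
  intro g u v
  rw [Aop, Aop, sum_inner, sum_inner]
  symm
  refine sum_equiv g.toEquiv (fun w => ?_) fun w _ => (h g w v).symm
  rw [hN, hN]
  exact g.map_rel_iff.symm

theorem Inv.iter (hN : ∀ v c, c ∈ N v ↔ T.Adj v c) {y z : V → H} (h : Inv T y z) (n : ℕ) :
    Inv T ((Aop N)^[n] y) z := by
  induction n with
  | zero => exact h
  | succ n ih => rw [Function.iterate_succ_apply']; exact ih.left hN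

theorem Inv.adj (hT : T.IsTree) (hreg : ∀ v, (T.neighborSet v).encard = d) {y z : V → H}
    (h : Inv T y z) (o : V) : ⟪Aop N y o, z o⟫_ℝ = ⟪y o, Aop N z o⟫_ℝ := by
  rw [Aop, Aop, sum_inner, inner_sum]
  refine sum_congr rfl fun w _ => ?_
  obtain ⟨g, h1, h2⟩ := exists_swap hT hreg o w
  rw [← h g w o, h1, h2]

theorem shift (hT : T.IsTree) (hreg : ∀ v, (T.neighborSet v).encard = d)
    (hN : ∀ v c, c ∈ N v ↔ T.Adj v c) {y : V → H} (h : Inv T y y) (o : V) (n m : ℕ) :
    ⟪(Aop N)^[n + 1] y o, (Aop N)^[m] y o⟫_ℝ = ⟪(Aop N)^[n] y o, (Aop N)^[m + 1] y o⟫_ℝ := by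
  rw [Function.iterate_succ_apply', Function.iterate_succ_apply']
  exact (((h.iter hN m).symm.iter hN n)).adj hT hreg o

theorem shift_all (hT : T.IsTree) (hreg : ∀ v, (T.neighborSet v).encard = d)
    (hN : ∀ v c, c ∈ N v ↔ T.Adj v c) {y : V → H} (h : Inv T y y) (o : V) (n m : ℕ) :
    ⟪(Aop N)^[n] y o, (Aop N)^[m] y o⟫_ℝ = ⟪y o, (Aop N)^[n + m] y o⟫_ℝ := by
  induction n generalizing m with
  | zero => simp
  | succ n ih => rw [shift hT hreg hN h, ih, show n + (m + 1) = n + 1 + m by omega]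

theorem inner_iter (x : H) (y : V → H) (n : ℕ) (v : V) :
    ⟪x, (Aop N)^[n] y v⟫_ℝ = (Aop N)^[n] (fun w => ⟪x, y w⟫_ℝ) v := by
  induction n generalizing v with
  | zero => rfl
  | succ n ih =>
    rw [Function.iterate_succ_apply', Function.iterate_succ_apply', Aop, Aop, inner_sum]
    exact sum_congr rfl fun w _ => ih w

theorem spectral (hT : T.IsTree) (hreg : ∀ v, (T.neighborSet v).encard = d)
    (hN : ∀ v c, c ∈ N v ↔ T.Adj v c) (hc : ∀ v, (N v).card = d) (hd : 3 ≤ d) {s K : ℝ}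
    (s0 : 0 < s) (hs : (d - 1) * s ^ 2 = 1) {y : V → H} (h : Inv T y y) (o : V) (h1 : ‖y o‖ ≤ 1)
    (hK : 0 ≤ K) (h2 : ∀ v, ⟪y o, y v⟫_ℝ ≤ K * s ^ T.dist o v) (n : ℕ) :
    ‖(Aop N)^[n] y o‖ ≤ (2 / s) ^ n := by
  have key := logconvex (a := fun n => ‖(Aop N)^[n] y o‖ ^ 2) (C := K) (ρ := (2 / s) ^ 2)
    (fun _ => sq_nonneg _) (by positivity) (fun n => ?_) fun n => ?_
  · have : ∀ n, ‖(Aop N)^[n] y o‖ ^ 2 ≤ ((2 / s) ^ n) ^ 2 := by
      intro n
      induction n with
      | zero =>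
        simp only [Function.iterate_zero, id, pow_zero]
        exact pow_le_pow_left₀ (norm_nonneg _) h1 2
      | succ n ih =>
        refine (key n).trans ((mul_le_mul_of_nonneg_left ih (by positivity)).trans (le_of_eq ?_))
        ring
    exact (pow_le_pow_iff_left₀ (norm_nonneg _) (by positivity) two_ne_zero).1 (this n)
  · rw [← real_inner_self_eq_norm_sq ((Aop N)^[n + 1] y o), shift hT hreg hN h, ← mul_pow,
      ← sq_abs]
    exact pow_le_pow_left₀ (abs_nonneg _) (abs_real_inner_le_norm _ _) 2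
  · rw [← real_inner_self_eq_norm_sq, shift_all hT hreg hN h, inner_iter]
    refine (iter_up hK (by positivity) h2 (up hT hN hc hd s0 hs o) _ o).trans (le_of_eq ?_)
    rw [SimpleGraph.dist_self, pow_zero, mul_one, ← pow_mul, two_mul]

theorem iter_tendsto {y : ℕ → V → H} {x : V → H}
    (h : ∀ v, Tendsto (fun R => y R v) atTop (𝓝 (x v))) (n : ℕ) (v : V) :
    Tendsto (fun R => (Aop N)^[n] (y R) v) atTop (𝓝 ((Aop N)^[n] x v)) := by
  induction n generalizing v with
  | zero => exact h v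
  | succ n ih =>
    simp only [Function.iterate_succ_apply', Aop]
    exact tendsto_finset_sum _ fun w _ => ih w

theorem abstract_bound (hT : T.IsTree) (hreg : ∀ v, (T.neighborSet v).encard = d) (hd : 3 ≤ d)
    {θ : ℝ} (h0 : 0 ≤ θ) (o : V) {x : V → H} (hx : ‖x o‖ ≤ 1)
    (hcor : ∀ v, θ ^ T.dist o v ≤ ⟪x o, x v⟫_ℝ) {y : ℕ → V → H} (hinv : ∀ R, Inv T (y R) (y R))
    (hy : ∀ R v, ‖y R v‖ ≤ 1) (hfin : ∀ R v, 2 * R < T.dist o v → ⟪y R o, y R v⟫_ℝ = 0)
    (hlim : ∀ v, Tendsto (fun R => y R v) atTop (𝓝 (x v))) : θ ^ 2 * (d - 1) ≤ 1 := by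
  by_contra hlt
  rw [not_le] at hlt
  choose N hc hN using card_nbr hreg
  have hd' : (3 : ℝ) ≤ d := by exact_mod_cast hd
  have b0 : (0 : ℝ) < d - 1 := by linarith
  set s : ℝ := (√(d - 1))⁻¹ with hsd
  have s0 : 0 < s := inv_pos.2 (Real.sqrt_pos.2 b0)
  have hs : (d - 1) * s ^ 2 = 1 := by
    rw [hsd, inv_pow, Real.sq_sqrt b0.le, mul_inv_cancel₀ b0.ne']
  have s1 : s ≤ 1 := by nlinarith
  have sθ : s < θ := by
    by_contra h
    rw [not_lt] at h
    nlinarith [mul_le_mul h h h0 s0.le]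
  have B : ∀ n, ‖(Aop N)^[n] x o‖ ≤ (2 / s) ^ n := by
    intro n
    refine le_of_tendsto' (iter_tendsto hlim n o).norm fun R => ?_
    refine spectral hT hreg hN hc hd s0 hs (hinv R) o (hy R o) (K := (s ^ (2 * R))⁻¹)
      (by positivity) (fun v => ?_) n
    by_cases hv : 2 * R < T.dist o v
    · rw [hfin R v hv]; positivity
    · refine (real_inner_le_norm _ _).trans ((mul_le_one₀ (hy R o) (norm_nonneg _) (hy R v)).trans ?_)
      rw [inv_mul_eq_div, one_le_div (by positivity)]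
      exact pow_le_pow_of_le_one s0.le s1 (by omega)
  set t : ℝ := (s + θ) / 2 with htd
  have st : s < t := by rw [htd]; linarith
  have tθ : t < θ := by rw [htd]; linarith
  have t0 : 0 < t := s0.trans st
  have θ0 : 0 < θ := t0.trans tθ
  have ht : 1 ≤ (d - 1) * t ^ 2 := by nlinarith [mul_le_mul st.le st.le s0.le t0.le]
  have q0 : 0 ≤ t / θ := by positivity
  have q1 : t / θ < 1 := (div_lt_one θ0).2 tθ
  obtain ⟨K, hK⟩ : ∃ K : ℝ, ∀ k : ℕ, ((k : ℝ) + 1) * (t / θ) ^ k ≤ K := by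
    refine ⟨2 * (1 - t / θ)⁻¹ ^ 2, fun k => ?_⟩
    have a1 := (hasSum_coe_mul_geometric_of_norm_lt_one
      (show ‖t / θ‖ < 1 by rwa [Real.norm_of_nonneg q0])).add (hasSum_geometric_of_lt_one q0 q1)
    have a2 := le_hasSum a1 k fun j _ => by positivity
    have a3 : 1 ≤ (1 - t / θ)⁻¹ := (one_le_inv₀ (by linarith)).2 (by linarith)
    have a4 : t / θ / (1 - t / θ) ^ 2 ≤ (1 - t / θ)⁻¹ ^ 2 := by
      rw [inv_pow, ← one_div]
      exact div_le_div_of_nonneg_right q1.le (sq_nonneg _)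
    nlinarith
  have K0 : 0 ≤ K := le_trans (by simp) (hK 0)
  have L : ∀ n, (1 / t + (d - 1) * t) ^ n ≤ K * (2 / s) ^ n := by
    intro n
    have a1 := iter_low (N := N) (f := fun w => ⟪x o, x w⟫_ℝ) (K := K)
      (g := fun w => ((T.dist o w : ℝ) + 1) * t ^ T.dist o w) (l := 1 / t + (d - 1) * t)
      (by positivity) (fun v => ?_) (low hT hN hc t0 ht o) n o
    · rw [← inner_iter, SimpleGraph.dist_self] at a1
      simp only [Nat.cast_zero, zero_add, pow_zero, mul_one] at a1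
      refine a1.trans (mul_le_mul_of_nonneg_left ((real_inner_le_norm _ _).trans ?_) K0)
      exact (mul_le_of_le_one_left (norm_nonneg _) hx).trans (B n)
    · refine le_trans ?_ (mul_le_mul_of_nonneg_left (hcor v) K0)
      have := mul_le_mul_of_nonneg_right (hK (T.dist o v)) (pow_nonneg h0 (T.dist o v))
      rwa [mul_assoc, ← mul_pow, div_mul_cancel₀ _ θ0.ne'] at this
  have gt : 2 / s < 1 / t + (d - 1) * t := by
    have e : (d : ℝ) - 1 = 1 / s ^ 2 := by rw [eq_div_iff (by positivity)]; exact hs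
    rw [e, ← sub_pos]
    have : 1 / t + 1 / s ^ 2 * t - 2 / s = (t - s) ^ 2 / (t * s ^ 2) := by
      field_simp
      ring
    rw [this]
    have := sub_pos.2 st
    positivity
  obtain ⟨n, hn⟩ := ((tendsto_pow_atTop_atTop_of_one_lt
    ((one_lt_div (by positivity)).2 gt)).eventually_gt_atTop K).exists
  rw [div_pow, lt_div_iff₀ (by positivity)] at hn
  exact absurd (L n) (not_le.2 hn)

end Vale.Agent.P161.C.Cv
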