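import Vale.Agent.P143.Prob

/-!
Efron-Stein type approximation on a product of unit intervals.

PLAN. Operators on bounded measurable `F`: `R e F ω = ∫ u, F (update ω e u)` and
`S e F ω = ∫ u, F (update ω e (projIcc ((1-δ) * ω e + δ * u)))`. Take
`φ = R_A (R_B (S_In Y))` (folds over `toList`). Facts, with `‖·‖` the L2 norm for `iid K`
(use `P143.resample`, in integral form for bounded measurable functions):
* `‖R e F‖ ≤ ‖F‖`, `‖S e F‖² ≤ (1-δ)⁻¹ ‖F‖²` (linear change of variables), so any fold of `S` over a sublist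
  of `In` has squared norm `≤ 2`;
* `‖Y - R e G‖² = ‖Y - R e Y‖² + ‖R e (Y - G)‖²` (variance identity in the coordinate e), hence by induction
  `‖Y - R_A Y‖² ≤ Σ_{e∈A} ‖Y - R e Y‖²`, and `‖Y - R e Y‖² ≤ ∫∫∫ (Y(a) - Y(b))²`;
* `‖Y - R_B Y‖ ≤ 2 ‖Y - Y₀‖` since `R_B Y₀ = Y₀`;
* `Y - S₁ S₂ ⋯ Sₙ Y = (Y - S₁ Y) + S₁ (Y - S₂ ⋯ Sₙ Y)` and `‖Y - S e Y‖² ≤ η`;
* `S e` creates the Lipschitz property in `e` (constant `2/δ`, interval integral), `R e` creates
  independence of `e`, and operators at other coordinates preserve both (`update_comm`).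
-/

open MeasureTheory Function Finset
open scoped unitInterval

namespace Vale.Agent.P161.C

variable {K : Type} [DecidableEq K]

namespace ES

def BM {X : Type*} [MeasurableSpace X] (F : X → ℝ) : Prop := Measurable F ∧ ∃ C, ∀ x, |F x| ≤ C

section
variable {X : Type*} [MeasurableSpace X] {F G : X → ℝ}

theorem BM.int (h : BM F) (μ : Measure X) [IsFiniteMeasure μ] : Integrable F μ := by
  obtain ⟨m, C, hC⟩ := h
  exact Integrable.of_bound m.aestronglyMeasurable C (Filter.Eventually.of_forall hC)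

theorem BM.sub (h : BM F) (h' : BM G) : BM fun x => F x - G x := by
  obtain ⟨m, C, hC⟩ := h
  obtain ⟨m', C', hC'⟩ := h'
  exact ⟨m.sub m', C + C', fun x => (abs_sub _ _).trans (add_le_add (hC x) (hC' x))⟩

theorem BM.const (c : ℝ) : BM fun _ : X => c := ⟨measurable_const, |c|, fun _ => le_rfl⟩

theorem BM.sq (h : BM F) : BM fun x => F x ^ 2 := by
  obtain ⟨m, C, hC⟩ := h
  exact ⟨m.pow_const 2, C ^ 2, fun x => by
    rw [abs_pow]; exact pow_le_pow_left₀ (abs_nonneg _) (hC x) 2⟩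

theorem BM.comp {Y : Type*} [MeasurableSpace Y] (h : BM F) {g : Y → X} (hg : Measurable g) :
    BM fun y => F (g y) := by
  obtain ⟨m, C, hC⟩ := h
  exact ⟨m.comp hg, C, fun y => hC _⟩

theorem abs_int_le {μ : Measure X} [IsProbabilityMeasure μ] {C : ℝ} (h : ∀ x, |F x| ≤ C) : |∫ x, F x ∂μ| ≤ C := by
  simpa using norm_integral_le_of_norm_le_const (μ := μ) (f := F) (C := C) (Filter.Eventually.of_forall h)

theorem BM.prod {Y : Type*} [MeasurableSpace Y] {F : X × Y → ℝ} (h : BM F) (μ : Measure Y)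
    [IsProbabilityMeasure μ] : BM fun x => ∫ y, F (x, y) ∂μ := by
  obtain ⟨m, C, hC⟩ := h
  exact ⟨m.stronglyMeasurable.integral_prod_right'.measurable, C, fun x => abs_int_le fun y => hC _⟩

theorem var_id (h : BM F) (μ : Measure X) [IsProbabilityMeasure μ] (k : ℝ) :
    ∫ x, (F x - k) ^ 2 ∂μ = ∫ x, F x ^ 2 ∂μ - 2 * k * ∫ x, F x ∂μ + k ^ 2 := by
  have : (fun x => (F x - k) ^ 2) = fun x => (F x ^ 2 - 2 * k * F x) + k ^ 2 := by funext x; ring
  have i1 : Integrable (fun x => F x ^ 2 - 2 * k * F x) μ := (h.sq.int μ).sub ((h.int μ).const_mul _)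
  rw [this, integral_add i1 (integrable_const _),
    integral_sub (h.sq.int μ) ((h.int μ).const_mul _), integral_const_mul]
  simp

theorem jensen (h : BM F) (μ : Measure X) [IsProbabilityMeasure μ] : (∫ x, F x ∂μ) ^ 2 ≤ ∫ x, F x ^ 2 ∂μ := by
  have h1 := var_id h μ (∫ x, F x ∂μ)
  have h2 : 0 ≤ ∫ x, (F x - ∫ x, F x ∂μ) ^ 2 ∂μ := integral_nonneg fun x => sq_nonneg _
  nlinarith

theorem int_le (μ : Measure X) [IsFiniteMeasure μ] (h : BM F) (h' : BM G) (hl : ∀ x, F x ≤ G x) :
    ∫ x, F x ∂μ ≤ ∫ x, G x ∂μ := integral_mono (h.int μ) (h'.int μ) hl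

theorem swap {Y : Type*} [MeasurableSpace Y] {F : X × Y → ℝ} (h : BM F) (μ : Measure X) (ν : Measure Y)
    [IsProbabilityMeasure μ] [IsProbabilityMeasure ν] :
    ∫ x, ∫ y, F (x, y) ∂ν ∂μ = ∫ y, ∫ x, F (x, y) ∂μ ∂ν :=
  integral_integral_swap (f := fun x y => F (x, y)) (h.int _)

end

theorem m_upd (e : K) : Measurable fun p : (K → I) × I => update p.1 e p.2 := measurable_update'

theorem resI (e : K) {F : (K → I) → ℝ} (h : BM F) :
    ∫ ω, F ω ∂P143.iid K = ∫ ω, ∫ u : I, F (update ω e u) ∂volume ∂P143.iid K := by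
  have hm : ((P143.iid K).prod (volume : Measure I)).map (fun p => update p.1 e p.2) = P143.iid K := by
    ext s hs
    rw [← lintegral_indicator_one hs, ← lintegral_indicator_one hs,
      lintegral_map (measurable_one.indicator hs) (m_upd e),
      lintegral_prod (fun p : (K → I) × I => s.indicator 1 (update p.1 e p.2))
        ((measurable_one.indicator hs).comp (m_upd e)).aemeasurable,
      P143.resample e (measurable_one.indicator hs)]
    have e1 : ∀ (ω : K → I) (u : I), @update K (fun _ => I) (Classical.decEq K) ω e u = update ω e u := by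
      intro ω u
      rw [Subsingleton.elim (Classical.decEq K) (inferInstance : DecidableEq K)]
    first
      | rfl
      | simp only [e1]
  conv_lhs => rw [← hm]
  rw [integral_map (m_upd e).aemeasurable h.1.aestronglyMeasurable,
    integral_prod _ ((h.comp (m_upd e)).int _)]

noncomputable def T (τ : I × I → I) (e : K) (F : (K → I) → ℝ) (ω : K → I) : ℝ :=
  ∫ u : I, F (update ω e (τ (ω e, u)))

noncomputable def N (F : (K → I) → ℝ) : ℝ := ∫ ω, F ω ^ 2 ∂P143.iid K

variable {τ : I × I → I} {F G : (K → I) → ℝ}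

theorem m_T (mτ : Measurable τ) (e : K) : Measurable fun p : (K → I) × I => update p.1 e (τ (p.1 e, p.2)) :=
  (m_upd e).comp (measurable_fst.prodMk (mτ.comp (by fun_prop)))

theorem bm_T (mτ : Measurable τ) (e : K) (h : BM F) : BM (T τ e F) := (h.comp (m_T mτ e)).prod _

theorem bm_sec (mτ : Measurable τ) (e : K) (h : BM F) (ω : K → I) (a : I) :
    BM fun u : I => F (update ω e (τ (a, u))) :=
  h.comp ((measurable_update ω).comp (mτ.comp (by fun_prop)))

theorem T_sub (mτ : Measurable τ) (e : K) (h : BM F) (h' : BM G) (ω : K → I) :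
    T τ e (fun ω => F ω - G ω) ω = T τ e F ω - T τ e G ω :=
  integral_sub ((bm_sec mτ e h ω _).int _) ((bm_sec mτ e h' ω _).int _)

theorem T_upd (e : K) (F : (K → I) → ℝ) (ω : K → I) (a : I) :
    T τ e F (update ω e a) = ∫ u : I, F (update ω e (τ (a, u))) := by
  simp [T]

theorem N_T (mτ : Measurable τ) {c : ℝ}
    (hc : ∀ g : I → ℝ, BM g → (∀ a, 0 ≤ g a) → ∫ a, ∫ u, g (τ (a, u)) ≤ c * ∫ a, g a) (e : K) (h : BM F) :
    N (T τ e F) ≤ c * N F := by
  unfold N
  rw [resI e (bm_T mτ e h).sq, resI e h.sq, ← integral_const_mul]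
  refine integral_mono (((bm_T mτ e h).sq.comp (m_upd e)).prod _ |>.int _)
    (((h.sq.comp (m_upd e)).prod _ |>.int _).const_mul c) fun ω => ?_
  have b1 : BM fun p : I × I => F (update ω e (τ p)) ^ 2 := h.sq.comp ((measurable_update ω).comp mτ)
  have b2 : BM fun a : I => F (update ω e a) ^ 2 := h.sq.comp (measurable_update ω)
  calc ∫ a : I, T τ e F (update ω e a) ^ 2 ≤ ∫ a : I, ∫ u : I, F (update ω e (τ (a, u))) ^ 2 :=
        int_le _ ((bm_T mτ e h).sq.comp (measurable_update ω)) (b1.prod _) fun a => by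
          rw [T_upd]; exact jensen (bm_sec mτ e h ω a) _
    _ ≤ _ := hc _ b2 fun _ => sq_nonneg _

theorem N_self (mτ : Measurable τ) (e : K) (h : BM F) :
    N (fun ω => F ω - T τ e F ω) ≤
      ∫ a : I, ∫ u : I, ∫ ω, (F (update ω e a) - F (update ω e (τ (a, u)))) ^ 2 ∂P143.iid K := by
  have b0 : BM fun p : ((K → I) × I) × I => (F (update p.1.1 e p.1.2) - F (update p.1.1 e (τ (p.1.2, p.2)))) ^ 2 :=
    ((h.comp ((m_upd e).comp measurable_fst)).sub
      (h.comp ((m_upd e).comp (measurable_fst.fst.prodMk (mτ.comp (by fun_prop)))))).sq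
  have b1 := h.sub (bm_T mτ e h)
  unfold N
  rw [resI e b1.sq]
  calc _ ≤ ∫ ω, (∫ a : I, ∫ u : I, (F (update ω e a) - F (update ω e (τ (a, u)))) ^ 2) ∂P143.iid K := by
        refine int_le _ ((b1.sq.comp (m_upd e)).prod _) ((b0.prod _).prod _) fun ω => ?_
        refine int_le _ (b1.sq.comp (measurable_update ω))
          ((b0.prod _).comp (g := fun a => (ω, a)) (by fun_prop)) fun a => ?_
        have := jensen ((BM.const (F (update ω e a))).sub (bm_sec mτ e h ω a)) volume
        rw [integral_sub (integrable_const _) ((bm_sec mτ e h ω a).int _)] at this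
        rw [T_upd]; simpa using this
    _ = ∫ a : I, ∫ ω, (∫ u : I, (F (update ω e a) - F (update ω e (τ (a, u)))) ^ 2) ∂P143.iid K :=
        swap (b0.prod _) _ _
    _ = _ := by
        congr 1; funext a
        exact swap (b0.comp (g := fun p : (K → I) × I => ((p.1, a), p.2)) (by fun_prop)) _ _

theorem N_pyth (e : K) (h : BM F) (h' : BM G) :
    N (fun ω => F ω - T Prod.snd e G ω) =
      N (fun ω => F ω - T Prod.snd e F ω) + N (T Prod.snd e fun ω => F ω - G ω) := by
  have b1 := h.sub (bm_T measurable_snd e h')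
  have b2 := h.sub (bm_T measurable_snd e h)
  have b3 := bm_T measurable_snd e (h.sub h')
  unfold N
  rw [resI e b1.sq, resI e b2.sq,
    ← integral_add (((b2.sq.comp (m_upd e)).prod _).int _) (b3.sq.int _)]
  congr 1; funext ω
  have b4 : BM fun a : I => F (update ω e a) := h.comp (measurable_update ω)
  simp only [T_upd, T_sub measurable_snd e h h']
  rw [var_id b4, var_id b4]
  simp only [T]; ring

noncomputable def TL (τ : I × I → I) (L : List K) (F : (K → I) → ℝ) : (K → I) → ℝ := L.foldr (T τ) F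

theorem bm_TL (mτ : Measurable τ) (L : List K) (h : BM F) : BM (TL τ L F) := by
  induction L with
  | nil => exact h
  | cons e L ih => exact bm_T mτ e ih

theorem TL_le (L : List K) (h : ∀ ω, |F ω| ≤ 1) (ω : K → I) : |TL τ L F ω| ≤ 1 := by
  induction L generalizing ω with
  | nil => exact h ω
  | cons e L ih => exact abs_int_le fun u => ih _

theorem TL_sub (mτ : Measurable τ) (L : List K) (h : BM F) (h' : BM G) :
    TL τ L (fun ω => F ω - G ω) = fun ω => TL τ L F ω - TL τ L G ω := by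
  induction L with
  | nil => rfl
  | cons e L ih =>
    funext ω
    change T τ e (TL τ L _) ω = _
    rw [ih]; exact T_sub mτ e (bm_TL mτ L h) (bm_TL mτ L h') ω

theorem N_R (e : K) (h : BM F) : N (T Prod.snd e F) ≤ N F := by
  have := N_T (c := 1) measurable_snd (fun g _ _ => by simp) e h
  simpa using this

theorem N_RL (L : List K) (h : BM F) : N (TL Prod.snd L F) ≤ N F := by
  induction L with
  | nil => exact le_rfl
  | cons e L ih => exact (N_R e (bm_TL measurable_snd L h)).trans ih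

theorem N_ES (L : List K) (h : BM F) :
    N (fun ω => F ω - TL Prod.snd L F ω) ≤ (L.map fun e => N fun ω => F ω - T Prod.snd e F ω).sum := by
  induction L with
  | nil => simp [N, TL]
  | cons e L ih =>
    have h1 := N_pyth e h (bm_TL measurable_snd L h)
    have h2 := N_R e (h.sub (bm_TL measurable_snd L h))
    rw [List.map_cons, List.sum_cons]
    change N (fun ω => F ω - T Prod.snd e (TL Prod.snd L F) ω) ≤ _
    linarith

theorem N_comb {H : (K → I) → ℝ} {a b c : ℝ} (h : BM F) (h' : BM G) (h'' : BM H)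
    (hp : ∀ ω, a * H ω ^ 2 ≤ b * F ω ^ 2 + c * G ω ^ 2) : a * N H ≤ b * N F + c * N G := by
  unfold N
  rw [← integral_const_mul, ← integral_const_mul, ← integral_const_mul,
    ← integral_add ((h.sq.int _).const_mul _) ((h'.sq.int _).const_mul _)]
  exact integral_mono ((h''.sq.int _).const_mul _) (((h.sq.int _).const_mul _).add ((h'.sq.int _).const_mul _)) hp

theorem N_tele (mτ : Measurable τ) {c η : ℝ} (c1 : 1 ≤ c) (η0 : 0 ≤ η)
    (hc : ∀ e, ∀ G : (K → I) → ℝ, BM G → N (T τ e G) ≤ c * N G) (L : List K) (h : BM F)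
    (hη : ∀ e ∈ L, N (fun ω => F ω - T τ e F ω) ≤ η) :
    N (fun ω => F ω - TL τ L F ω) ≤ (L.length : ℝ) ^ 2 * c ^ L.length * η := by
  induction L with
  | nil => simp [N, TL]
  | cons e L ih =>
    have i1 := ih fun e he => hη e (List.mem_cons_of_mem _ he)
    have i2 := hη e List.mem_cons_self
    have b := bm_TL mτ L h
    have c2 : 1 ≤ c ^ L.length := one_le_pow₀ c1
    rcases Nat.eq_zero_or_pos L.length with h0 | h0
    · rw [List.length_eq_zero_iff] at h0
      subst h0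
      refine i2.trans ?_
      simp only [List.length_cons, List.length_nil]; norm_num; nlinarith
    obtain ⟨n, hn⟩ : ∃ n : ℝ, n = L.length := ⟨_, rfl⟩
    have n0 : 0 < n := by rw [hn]; exact_mod_cast h0
    have i3 := hc e _ (h.sub b)
    have i4 := N_comb (a := n) (b := n * (n + 1)) (c := n + 1) (h.sub (bm_T mτ e h)) (bm_T mτ e (h.sub b))
      (h.sub (bm_T mτ e b)) fun ω => by
        rw [T_sub mτ e h b]
        nlinarith [sq_nonneg (n * (F ω - T τ e F ω) - (T τ e F ω - T τ e (TL τ L F) ω))]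
    rw [List.length_cons, pow_succ c]
    push_cast
    rw [← hn] at i1 ⊢
    change N (fun ω => F ω - T τ e (TL τ L F) ω) ≤ _
    generalize c ^ L.length = d at *
    apply le_of_mul_le_mul_left _ n0
    have i5 := mul_le_mul_of_nonneg_left i1 (by linarith : 0 ≤ c)
    have i6 := mul_le_mul_of_nonneg_left (i3.trans i5) (by linarith : 0 ≤ n + 1)
    have i7 := mul_le_mul_of_nonneg_left i2 (by positivity : 0 ≤ n * (n + 1))
    have i8 : 1 ≤ d * c := by nlinarith
    have i9 := mul_le_mul_of_nonneg_left i8 (by positivity : 0 ≤ n * (n + 1) * η)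
    nlinarith

noncomputable def sm (δ : ℝ) (p : I × I) : I := Set.projIcc 0 1 zero_le_one ((1 - δ) * p.1 + δ * p.2)

theorem m_sm (δ : ℝ) : Measurable (sm δ) :=
  continuous_projIcc.measurable.comp (by fun_prop)

theorem sm_val {δ : ℝ} (h0 : 0 ≤ δ) (h1 : δ ≤ 1) (a u : I) : (sm δ (a, u) : ℝ) = (1 - δ) * a + δ * u := by
  have := a.2.1; have := a.2.2; have := u.2.1; have := u.2.2
  unfold sm
  rw [Set.projIcc_of_mem _ ⟨by positivity, by nlinarith⟩]

theorem int_I (g : I → ℝ) (k : ℝ → ℝ) :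
    ∫ u : I, g (Set.projIcc 0 1 zero_le_one (k u)) = ∫ t in (0 : ℝ)..1, g (Set.projIcc 0 1 zero_le_one (k t)) := by
  rw [unitInterval.volume_def, integral_subtype_comap measurableSet_Icc
    (fun t => g (Set.projIcc 0 1 zero_le_one (k t))), integral_Icc_eq_integral_Ioc,
    intervalIntegral.integral_of_le zero_le_one]

theorem ii {g : I → ℝ} (h : BM g) (a b : ℝ) :
    IntervalIntegrable (fun t => g (Set.projIcc 0 1 zero_le_one t)) volume a b := by
  have hb := h.comp (continuous_projIcc (h := zero_le_one (α := ℝ))).measurable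
  rw [intervalIntegrable_iff]
  haveI : IsFiniteMeasure (volume.restrict (Set.uIoc a b)) := ⟨by simp [Set.uIoc]⟩
  exact hb.int _

theorem sm_bound {δ : ℝ} (h0 : 0 < δ) (h1 : δ < 1) (g : I → ℝ) (h : BM g) (hg : ∀ a, 0 ≤ g a) :
    ∫ a, ∫ u, g (sm δ (a, u)) ≤ (1 - δ)⁻¹ * ∫ a, g a := by
  rw [swap (h.comp (m_sm δ))]
  refine (int_le _ (((h.comp (m_sm δ)).comp measurable_swap).prod _) (BM.const ((1 - δ)⁻¹ * ∫ a, g a))
    fun u => ?_).trans (by simp)
  have e1 : ∫ a, g a = ∫ t in (0 : ℝ)..1, g (Set.projIcc 0 1 zero_le_one t) := by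
    rw [← int_I g fun t => t]; simp
  have := u.2.1; have := u.2.2
  have h2 : (1 - δ) ≠ 0 := by linarith
  change ∫ a : I, g (Set.projIcc 0 1 zero_le_one ((1 - δ) * a + δ * u)) ≤ _
  rw [int_I g fun t => (1 - δ) * t + δ * u, e1,
    intervalIntegral.integral_comp_mul_add (fun t => g (Set.projIcc 0 1 zero_le_one t)) h2, smul_eq_mul]
  refine mul_le_mul_of_nonneg_left ?_ (inv_nonneg.2 (by linarith))
  exact intervalIntegral.integral_mono_interval (by positivity) (by nlinarith) (by nlinarith)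
    (Filter.Eventually.of_forall fun t => hg _) (ii h _ _)

theorem sm_lip {δ : ℝ} (h0 : 0 < δ) (h1 : δ < 1) {g : I → ℝ} (h : Measurable g) (hg : ∀ a, |g a| ≤ 1) (a b : I) :
    |(∫ u, g (sm δ (a, u))) - ∫ u, g (sm δ (b, u))| ≤ 2 / δ * |(a : ℝ) - b| := by
  have bg : BM g := ⟨h, 1, hg⟩
  have e : ∀ a : I, ∫ u, g (sm δ (a, u)) =
      δ⁻¹ * ∫ t in ((1 - δ) * a)..(δ + (1 - δ) * a), g (Set.projIcc 0 1 zero_le_one t) := fun a => by
    change ∫ u : I, g (Set.projIcc 0 1 zero_le_one ((1 - δ) * a + δ * u)) = _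
    simp only [add_comm ((1 - δ) * (a : ℝ))]
    rw [int_I g fun t => δ * t + (1 - δ) * a,
      intervalIntegral.integral_comp_mul_add (fun t => g (Set.projIcc 0 1 zero_le_one t)) h0.ne', smul_eq_mul]
    simp
  have bd : ∀ x y : ℝ, |∫ t in x..y, g (Set.projIcc 0 1 zero_le_one t)| ≤ |y - x| := fun x y => by
    simpa using intervalIntegral.norm_integral_le_of_norm_le_const (a := x) (b := y) (C := 1)
      (f := fun t => g (Set.projIcc 0 1 zero_le_one t)) fun t _ => hg _
  rw [e, e, ← mul_sub, abs_mul, abs_of_pos (inv_pos.2 h0),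
    intervalIntegral.integral_interval_sub_interval_comm' (ii bg _ _) (ii bg _ _) (ii bg _ _)]
  have b1 := bd (δ + (1 - δ) * b) (δ + (1 - δ) * a)
  have b2 := bd ((1 - δ) * b) ((1 - δ) * a)
  have e1 : |δ + (1 - δ) * a - (δ + (1 - δ) * b)| ≤ |(a : ℝ) - b| := by
    rw [show δ + (1 - δ) * a - (δ + (1 - δ) * b) = (1 - δ) * ((a : ℝ) - b) by ring, abs_mul,
      abs_of_pos (by linarith)]
    nlinarith [abs_nonneg ((a : ℝ) - b)]
  have e2 : |(1 - δ) * a - (1 - δ) * b| ≤ |(a : ℝ) - b| := by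
    rwa [add_sub_add_left_eq_sub] at e1
  rw [div_eq_mul_inv, mul_comm 2, mul_assoc]
  refine mul_le_mul_of_nonneg_left ((abs_sub _ _).trans (by linarith)) (inv_pos.2 h0).le

def Lip (c : ℝ) (e : K) (F : (K → I) → ℝ) : Prop :=
  ∀ ω (a b : I), |F (update ω e a) - F (update ω e b)| ≤ c * |(a : ℝ) - b|

theorem lip_T (mτ : Measurable τ) {c : ℝ} {e e' : K} (he : e ≠ e') (h : BM F) (hl : Lip c e F) :
    Lip c e (T τ e' F) := by
  intro ω a b
  unfold T
  rw [← integral_sub ((bm_sec mτ e' h _ _).int _) ((bm_sec mτ e' h _ _).int _)]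
  refine abs_int_le fun u => ?_
  rw [update_of_ne he.symm, update_of_ne he.symm, update_comm he, update_comm he]
  exact hl _ a b

theorem lip_TL (mτ : Measurable τ) {c : ℝ} {e : K} (L : List K) (he : e ∉ L) (h : BM F) (hl : Lip c e F) :
    Lip c e (TL τ L F) := by
  induction L with
  | nil => exact hl
  | cons e' L ih =>
    rw [List.mem_cons, not_or] at he
    exact lip_T mτ he.1 (bm_TL mτ L h) (ih he.2)

theorem lip_SL {δ : ℝ} (h0 : 0 < δ) (h1 : δ < 1) {e : K} (L : List K) (he : e ∈ L) (m : Measurable F)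
    (h : ∀ ω, |F ω| ≤ 1) : Lip (2 / δ) e (TL (sm δ) L F) := by
  have b : BM F := ⟨m, 1, h⟩
  induction L with
  | nil => simp at he
  | cons e' L ih =>
    by_cases h2 : e = e'
    · subst h2
      intro ω a a'
      change |T (sm δ) e (TL (sm δ) L F) _ - T (sm δ) e (TL (sm δ) L F) _| ≤ _
      rw [T_upd, T_upd]
      exact sm_lip h0 h1 (g := fun a => TL (sm δ) L F (update ω e a))
        ((bm_TL (m_sm δ) L b).1.comp (measurable_update ω)) (fun _ => TL_le L h _) a a'
    · exact lip_T (m_sm δ) h2 (bm_TL (m_sm δ) L b) (ih ((List.mem_cons.1 he).resolve_left h2))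

theorem dep_TL {S : Set K} (L : List K) (h : DependsOn F S) : DependsOn (TL τ L F) S := by
  induction L with
  | nil => exact h
  | cons e L ih =>
    intro x y hxy
    change T τ e _ x = T τ e _ y
    unfold T
    congr 1; funext u
    refine ih fun i hi => ?_
    by_cases h2 : i = e
    · subst h2; simp [hxy i hi]
    · simp [h2, hxy i hi]

theorem dep_RL {S : Set K} (L : List K) (h : DependsOn F S) : DependsOn (TL Prod.snd L F) (S \ {e | e ∈ L}) := by
  induction L with
  | nil => simpa [TL] using h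
  | cons e L ih =>
    intro x y hxy
    change T Prod.snd e _ x = T Prod.snd e _ y
    unfold T
    congr 1; funext u
    refine ih fun i hi => ?_
    by_cases h2 : i = e
    · subst h2; simp
    · simp only [update_of_ne h2]
      exact hxy i ⟨hi.1, fun h3 => hi.2 ((List.mem_cons.1 h3).resolve_left h2)⟩

theorem RL_fix (L : List K) (h : ∀ e ∈ L, ∀ ω u, F (update ω e u) = F ω) : TL Prod.snd L F = F := by
  induction L with
  | nil => rfl
  | cons e L ih =>
    funext ω
    change T Prod.snd e (TL Prod.snd L F) ω = _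
    rw [ih fun e he => h e (List.mem_cons_of_mem _ he)]
    simp [T, h e List.mem_cons_self]

end ES

theorem approx {Y Y₀ : (K → I) → ℝ} (mY : Measurable Y) (bY : ∀ ω, |Y ω| ≤ 1) (mY₀ : Measurable Y₀)
    (bY₀ : ∀ ω, |Y₀ ω| ≤ 1) (In A B : Finset K) (hA : Disjoint In A) (hB : Disjoint In B)
    {δ η : ℝ} (δ0 : 0 < δ) (δ1 : δ * (In.card + 1) ≤ 1 / 2)
    (h₀ : ∀ e ∈ B, ∀ ω u, Y₀ (update ω e u) = Y₀ ω)
    (hη : ∀ e ∈ In, ∀ a b : I, |(a : ℝ) - b| ≤ δ →
      ∫ ω, (Y (update ω e a) - Y (update ω e b)) ^ 2 ∂P143.iid K ≤ η) :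
    ∃ φ : (K → I) → ℝ, Measurable φ ∧ (∀ ω, |φ ω| ≤ 1) ∧
      (∀ S : Set K, DependsOn Y S → DependsOn φ (S \ (↑A ∪ ↑B))) ∧
      (∀ e ∈ In, ∀ ω (a b : I), |φ (update ω e a) - φ (update ω e b)| ≤ 2 / δ * |(a : ℝ) - b|) ∧
      ∫ ω, (Y ω - φ ω) ^ 2 ∂P143.iid K ≤
        3 * (∑ e ∈ A, ∫ a : I, ∫ b : I,
            ∫ ω, (Y (update ω e a) - Y (update ω e b)) ^ 2 ∂P143.iid K) +
          12 * ∫ ω, (Y ω - Y₀ ω) ^ 2 ∂P143.iid K + 6 * (In.card : ℝ) ^ 2 * η := by
  have b : ES.BM Y := ⟨mY, 1, bY⟩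
  have b0 : ES.BM Y₀ := ⟨mY₀, 1, bY₀⟩
  have n0 : (0 : ℝ) ≤ In.card := Nat.cast_nonneg _
  have δ2 : δ < 1 := by nlinarith
  have bS := ES.bm_TL (ES.m_sm δ) In.toList b
  have bB := ES.bm_TL measurable_snd B.toList bS
  have bA := ES.bm_TL measurable_snd A.toList bB
  refine ⟨ES.TL Prod.snd A.toList (ES.TL Prod.snd B.toList (ES.TL (ES.sm δ) In.toList Y)), bA.1,
    ES.TL_le _ (ES.TL_le _ (ES.TL_le _ bY)), fun S hS => ?_, fun e he => ?_, ?_⟩
  · refine (ES.dep_RL A.toList (ES.dep_RL B.toList (ES.dep_TL In.toList hS))).mono fun i hi => ?_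
    simp only [Set.mem_diff, Set.mem_setOf_eq, mem_toList] at hi
    exact ⟨hi.1.1, fun h => h.elim hi.2 hi.1.2⟩
  · exact ES.lip_TL measurable_snd _ (by simpa using disjoint_left.1 hA he) bB
      (ES.lip_TL measurable_snd _ (by simpa using disjoint_left.1 hB he) bS
        (ES.lip_SL δ0 δ2 _ (mem_toList.2 he) mY bY))
  have bYA := ES.bm_TL measurable_snd A.toList b
  have bYB := ES.bm_TL measurable_snd B.toList b
  have n1 : ES.N (fun ω => Y ω - ES.TL Prod.snd A.toList Y ω) ≤ ∑ e ∈ A, ∫ a : I, ∫ b : I,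
      ∫ ω, (Y (update ω e a) - Y (update ω e b)) ^ 2 ∂P143.iid K := by
    refine (ES.N_ES _ b).trans ?_
    rw [sum_map_toList]
    exact sum_le_sum fun e _ => ES.N_self measurable_snd e b
  have n2 : ES.N (fun ω => Y ω - ES.TL Prod.snd B.toList Y ω) ≤ 4 * ES.N fun ω => Y ω - Y₀ ω := by
    have h1 := ES.N_RL B.toList (b.sub b0)
    have h2 := ES.N_comb (a := 1) (b := 2) (c := 2) (b.sub b0) (ES.bm_TL measurable_snd B.toList (b.sub b0))
      (b.sub bYB) fun ω => by
        rw [ES.TL_sub measurable_snd _ b b0, ES.RL_fix (F := Y₀) _ fun e he => h₀ e (mem_toList.1 he)]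
        nlinarith [sq_nonneg (Y ω - Y₀ ω + (ES.TL Prod.snd B.toList Y ω - Y₀ ω))]
    linarith
  have n3 : ES.N (fun ω => Y ω - ES.TL (ES.sm δ) In.toList Y ω) ≤ 2 * (In.card : ℝ) ^ 2 * η := by
    rcases In.eq_empty_or_nonempty with h | ⟨e0, he0⟩
    · subst h; simp [ES.N, ES.TL]
    have η0 : 0 ≤ η := le_trans (integral_nonneg fun _ => sq_nonneg _) (hη e0 he0 0 0 (by simpa using δ0.le))
    have h1 := ES.N_tele (ES.m_sm δ) (c := (1 - δ)⁻¹) (η := η) ((one_le_inv₀ (by linarith)).2 (by linarith)) η0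
      (fun e G hG => ES.N_T (ES.m_sm δ) (ES.sm_bound δ0 δ2) e hG) In.toList b fun e he => by
        refine (ES.N_self (ES.m_sm δ) e b).trans ((le_abs_self _).trans (ES.abs_int_le fun a => ES.abs_int_le fun u => ?_))
        rw [abs_of_nonneg (integral_nonneg fun _ => sq_nonneg _)]
        refine hη e (mem_toList.1 he) _ _ ?_
        rw [ES.sm_val δ0.le δ2.le, show (a : ℝ) - ((1 - δ) * a + δ * u) = δ * (a - u) by ring, abs_mul,
          abs_of_pos δ0]
        have : |(a : ℝ) - u| ≤ 1 := abs_le.2 ⟨by linarith [a.2.1, u.2.2], by linarith [a.2.2, u.2.1]⟩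
        nlinarith
    rw [length_toList] at h1
    have h2 := one_add_mul_le_pow (a := -δ) (by linarith) In.card
    have h3 : ((1 - δ)⁻¹) ^ In.card ≤ 2 := by
      rw [inv_pow, inv_le_comm₀ (pow_pos (by linarith) _) two_pos]
      rw [← sub_eq_add_neg] at h2; nlinarith
    have h4 := mul_le_mul_of_nonneg_left h3 (mul_nonneg (sq_nonneg (In.card : ℝ)) η0)
    nlinarith
  have n4 := ES.N_RL A.toList (b.sub bYB)
  have n5 := (ES.N_RL A.toList (ES.bm_TL measurable_snd B.toList (b.sub bS))).trans (ES.N_RL B.toList (b.sub bS))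
  rw [ES.TL_sub measurable_snd _ b bYB] at n4
  rw [ES.TL_sub measurable_snd _ b bS, ES.TL_sub measurable_snd _ bYB bB] at n5
  have bAB := ES.bm_TL measurable_snd A.toList bYB
  have n6 := ES.N_comb (a := 1) (b := 2) (c := 2) (bYA.sub bAB) (bAB.sub bA) (bYA.sub bA) fun ω => by
    nlinarith [sq_nonneg (ES.TL Prod.snd A.toList Y ω - 2 * ES.TL Prod.snd A.toList (ES.TL Prod.snd B.toList Y) ω
      + ES.TL Prod.snd A.toList (ES.TL Prod.snd B.toList (ES.TL (ES.sm δ) In.toList Y)) ω)]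
  have n7 := ES.N_comb (a := 2) (b := 6) (c := 3) (b.sub bYA) (bYA.sub bA) (b.sub bA) fun ω => by
    nlinarith [sq_nonneg (2 * Y ω - 3 * ES.TL Prod.snd A.toList Y ω
      + ES.TL Prod.snd A.toList (ES.TL Prod.snd B.toList (ES.TL (ES.sm δ) In.toList Y)) ω)]
  unfold ES.N at *
  linarith

end Vale.Agent.P161.C
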