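import Vale.Agent.P161.Main
import Vale.Agent.P161.C.Root

/-!
The free Ising measure exists and is unique.
-/

open MeasureTheory Finset Function
open scoped Classical unitInterval ENNReal

namespace Vale.Agent.P161.C

variable {V : Type} {T : SimpleGraph V} {d : ℕ} {θ : ℝ}

theorem ball_conn (hT : T.IsTree) (hreg : ∀ v, (T.neighborSet v).encard = d) (o : V) (R : ℕ) :
    (T.induce (ball T o R : Set V)).Connected := by
  have ho : o ∈ ball T o R := by simp [mem_ball hT hreg]
  have k : ∀ n v (hv : v ∈ ball T o R), T.dist o v = n →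
      (T.induce (ball T o R : Set V)).Reachable ⟨o, ho⟩ ⟨v, hv⟩ := by
    intro n
    induction n with
    | zero =>
      intro v hv h
      obtain rfl := hT.connected.dist_eq_zero_iff.1 h
      rfl
    | succ n ih =>
      intro v hv h
      obtain ⟨p, hp, h1⟩ := exists_parent hT (v := o) (u := v)
        (by rintro rfl; simp at h)
      have hp' : p ∈ ball T o R := by rw [mem_ball hT hreg] at *; omega
      exact (ih p hp' (by omega)).trans (SimpleGraph.Adj.reachable (by simpa using hp))
  haveI : Nonempty (ball T o R : Set V) := ⟨⟨o, ho⟩⟩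
  exact ⟨fun a b => (k _ a.1 a.2 rfl).symm.trans (k _ b.1 b.2 rfl)⟩

theorem uniq (hT : T.IsTree) (hreg : ∀ v, (T.neighborSet v).encard = d)
    {μ ν : Measure (V → Bool)} (hμ : IsFreeIsing T θ μ) (hν : IsFreeIsing T θ ν) : μ = ν := by
  obtain ⟨o⟩ := hT.connected.nonempty
  have := hμ.1
  have := hν.1
  have k : ∀ R, μ.map (ball T o R).restrict = ν.map (ball T o R).restrict := fun R => by
    refine Measure.ext_of_singleton fun a => ?_
    rw [Measure.map_apply (Finset.measurable_restrict _) (measurableSet_singleton _),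
      Measure.map_apply (Finset.measurable_restrict _) (measurableSet_singleton _)]
    have e : (ball T o R).restrict (π := fun _ => Bool) ⁻¹' {a} = {ξ : V → Bool | ∀ v ∈ ball T o R,
        ξ v = (fun v => if h : v ∈ ball T o R then a ⟨v, h⟩ else true) v} := by
      ext ξ
      simp only [Set.mem_preimage, Set.mem_singleton_iff, Set.mem_setOf_eq, funext_iff]
      exact ⟨fun h v hv => by rw [dif_pos hv]; exact h ⟨v, hv⟩,
        fun h v => by have := h v.1 v.2; rwa [dif_pos v.2] at this⟩
    rw [e, ← measureReal_eq_measureReal_iff (measure_ne_top _ _) (measure_ne_top _ _),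
      hμ.2 _ (ball_conn hT hreg o R), hν.2 _ (ball_conn hT hreg o R)]
  refine IsProjectiveLimit.unique (P := fun J : Finset V => μ.map J.restrict) (fun _ => rfl)
    fun J => ?_
  have hs : J ⊆ ball T o (J.sup (T.dist o)) := fun v hv =>
    (mem_ball hT hreg).2 (le_sup (f := T.dist o) hv)
  beta_reduce
  rw [← Finset.restrict₂_comp_restrict hs,
    ← Measure.map_map (Finset.measurable_restrict₂ hs) (Finset.measurable_restrict _),
    ← Measure.map_map (Finset.measurable_restrict₂ hs) (Finset.measurable_restrict _), k]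

noncomputable def sg (a : ℝ) (u : I) : ℝ := if (u : ℝ) < (1 + a) / 2 then 1 else -1

noncomputable def sv (T : SimpleGraph V) (θ : ℝ) (o : V) (U : V → I) (v : V) : ℝ :=
  ∏ w ∈ ball T o (T.dist o v) with Btw T o w v, sg (if w = o then 0 else θ) (U w)

theorem sg_pm (a : ℝ) (u : I) : sg a u = 1 ∨ sg a u = -1 := by
  unfold sg; split_ifs <;> simp

theorem measurable_sg (a : ℝ) : Measurable (sg a) :=
  Measurable.ite (measurableSet_lt measurable_subtype_coe measurable_const) measurable_const
    measurable_const

theorem measurable_sv (o v : V) : Measurable fun U => sv T θ o U v :=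
  Finset.measurable_prod _ fun w _ => (measurable_sg _).comp (measurable_pi_apply w)

theorem sv_pm (o : V) (U : V → I) (v : V) : sv T θ o U v = 1 ∨ sv T θ o U v = -1 :=
  prod_induction _ (fun y : ℝ => y = 1 ∨ y = -1)
    (by rintro a b (rfl | rfl) (rfl | rfl) <;> simp) (Or.inl rfl) fun _ _ => sg_pm _ _

theorem vol_sg {a c : ℝ} (h0 : 0 ≤ a) (h1 : a < 1) (hc : c = 1 ∨ c = -1) :
    volume {u : I | sg a u = c} = ENNReal.ofReal ((1 + a * c) / 2) := by
  have e : volume {u : I | (u : ℝ) < (1 + a) / 2} = ENNReal.ofReal ((1 + a) / 2) :=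
    unitInterval.volume_Iio ⟨(1 + a) / 2, by linarith, by linarith⟩
  rcases hc with rfl | rfl
  · rw [mul_one, ← e]
    congr 1; ext u; simp only [sg, Set.mem_setOf_eq]; split_ifs with h <;> norm_num [h]
  · have : {u : I | sg a u = -1} = {u : I | (u : ℝ) < (1 + a) / 2}ᶜ := by
      ext u; simp only [sg, Set.mem_setOf_eq, Set.mem_compl_iff]; split_ifs with h <;> norm_num [h]
    rw [this, prob_compl_eq_one_sub (measurableSet_lt measurable_subtype_coe measurable_const), e,
      ← ENNReal.ofReal_one, ← ENNReal.ofReal_sub _ (by linarith)]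
    congr 1; ring

theorem mS [Countable V] (o : V) (D S : Finset V) : MeasurableSet {U | ∀ v ∈ D, sv T θ o U v = sp S v} :=
  measurableSet_setOfPred.2 (Measurable.forall fun v => measurable_const.imp
    (measurableSet_setOfPred.1 (measurableSet_eq_fun (measurable_sv o v) measurable_const)))

theorem point_mass (hT : T.IsTree) (hreg : ∀ v, (T.neighborSet v).encard = d) (h0 : 0 ≤ θ)
    (h1 : θ < 1) {o : V} {D : Finset V} (hD : Cvx T D) (ho : o ∈ D) (S : Finset V) :
    P143.iid V {U | ∀ v ∈ D, sv T θ o U v = sp S v} = ENNReal.ofReal (wt T θ D S / 2) := by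
  have := countable_tree hT hreg
  have spm : ∀ v, sp S v = 1 ∨ sp S v = -1 := fun v => by unfold sp; split_ifs <;> simp
  induction hn : D.card using Nat.strong_induction_on generalizing D with
  | _ n ih =>
    by_cases h2 : {o} = D
    · subst h2
      have e : ∀ U, sv T θ o U o = sg 0 (U o) := fun U => by
        rw [sv, prod_eq_single_of_mem o (by simp [mem_ball hT hreg, btw_left]), if_pos rfl]
        intro w hw h
        have := (mem_ball hT hreg).1 (mem_filter.1 hw).1
        rw [SimpleGraph.dist_self, Nat.le_zero, hT.connected.dist_eq_zero_iff] at this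
        exact absurd this.symm h
      have := (measurePreserving_eval_infinitePi (fun _ : V => (volume : Measure I)) o).measure_preimage
        (measurableSet_eq_fun (measurable_sg 0) (measurable_const (a := sp S o))).nullMeasurableSet
      rw [vol_sg le_rfl one_pos (spm o)] at this
      simpa [e, wt_singleton, P143.iid] using this
    obtain ⟨p, z, z1, z2, p1, hp, e1, c1⟩ := exists_leaf hT (cvx_singleton hT o) hD
      (singleton_subset_iff.2 ho) (singleton_nonempty o) h2
    have zo : z ≠ o := by simpa using z2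
    have e2 : (D.filter fun x => ¬T.dist z x < T.dist p x) = D.erase z := by
      ext x
      have := Finset.ext_iff.1 e1 x
      simp only [mem_filter, mem_singleton, mem_erase] at this ⊢
      tauto
    have oe : o ∈ D.erase z := mem_erase.2 ⟨zo.symm, ho⟩
    have pe : p ∈ D.erase z := mem_erase.2 ⟨hp.ne, p1⟩
    have hz : z ∈ ch T D o p := by
      have := (mem_filter.1 (e2 ▸ oe)).2
      have := adj_dist hT hp o
      rw [SimpleGraph.dist_comm (u := z), SimpleGraph.dist_comm (u := p)] at *
      exact mem_ch.2 ⟨z1, hp, by omega⟩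
    have e3 : ∀ U u, ∀ v ∈ D.erase z, sv T θ o (update U z u) v = sv T θ o U v := fun U u v hv =>
      prod_congr rfl fun w hw => by
        rw [update_of_ne (mem_erase.1 (c1 o oe v hv w (mem_filter.1 hw).2)).1]
    have e4 : ∀ U, sv T θ o U z = sg θ (U z) * sv T θ o U p := fun U => by
      have : (ball T o (T.dist o z)).filter (fun w => Btw T o w z) =
          insert z ((ball T o (T.dist o p)).filter fun w => Btw T o w p) := by
        ext w
        simp only [mem_filter, mem_insert, mem_ball hT hreg, btw_ch hT hz]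
        have := (mem_ch.1 hz).2.2
        unfold Btw
        constructor
        · rintro ⟨-, h | h⟩
          exacts [Or.inr ⟨by omega, h⟩, Or.inl h]
        · rintro (rfl | h)
          exacts [⟨le_rfl, Or.inr rfl⟩, ⟨by omega, Or.inl h.2⟩]
      rw [sv, this, prod_insert (by exact fun h => not_btw_ch hz (mem_filter.1 h).2), if_neg zo, sv]
    have w0 := wt_pos (T := T) h0 h1 (D.erase z) S
    rw [wt_split hT hp p1 z1, e1, e2, wt_singleton, mul_one, mul_div_right_comm,
      ENNReal.ofReal_mul (half_pos w0).le, ← ih _ (hn ▸ card_erase_lt_of_mem z1) c1 oe rfl,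
      ← vol_sg h0 h1 (c := sp S p * sp S z) (by
        rcases spm p with h | h <;> rcases spm z with h' | h' <;> simp [h, h']),
      ← lintegral_indicator_one (mS o D S), P143.resample z (measurable_one.indicator (mS o D S)),
      ← lintegral_indicator_one (mS o _ S), ← lintegral_mul_const _
        (measurable_one.indicator (mS o _ S))]
    refine lintegral_congr fun U => ?_
    have m2 := measurableSet_eq_fun (measurable_sg θ) (measurable_const (a := sp S p * sp S z))
    rw [← lintegral_indicator_one m2, ← lintegral_const_mul _ (measurable_one.indicator m2)]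
    refine lintegral_congr fun u => ?_
    have : (∀ v ∈ D, sv T θ o (update U z u) v = sp S v) ↔
        (∀ v ∈ D.erase z, sv T θ o U v = sp S v) ∧ sg θ u = sp S p * sp S z := by
      conv_lhs => rw [← insert_erase z1, forall_mem_insert, e4, update_self, e3 U u p pe]
      rw [and_comm, forall₂_congr fun v hv => by rw [e3 U u v hv]]
      refine and_congr_right fun h => ?_
      rw [h p pe]
      rcases spm p with h | h <;> simp [h, neg_eq_iff_eq_neg]
    simp only [Set.indicator, Set.mem_setOf_eq, this, Pi.one_apply]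
    split_ifs <;> simp_all

theorem exists_ising (hT : T.IsTree) (hreg : ∀ v, (T.neighborSet v).encard = d) (h0 : 0 ≤ θ)
    (h1 : θ < 1) : ∃ μ : Measure (V → Bool), IsFreeIsing T θ μ := by
  obtain ⟨o⟩ := hT.connected.nonempty
  have := countable_tree hT hreg
  have mΨ : Measurable fun (U : V → I) v => decide (sv T θ o U v = 1) := by
    refine measurable_pi_lambda _ fun v => measurable_to_bool ?_
    refine (congrArg _ ?_).mp (measurableSet_eq_fun (measurable_sv (T := T) (θ := θ) o v)
      (measurable_const (a := 1)))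
    ext x
    simp
  refine ⟨(P143.iid V).map _, Measure.isProbabilityMeasure_map mΨ.aemeasurable, fun D hc η => ?_⟩
  have hD := cvx_of_connected hT hc
  have hne : D.Nonempty := let ⟨v⟩ := hc.nonempty; ⟨v.1, v.2⟩
  obtain ⟨B, hB, ho, hs⟩ : ∃ B, Cvx T B ∧ o ∈ B ∧ D ⊆ B := ⟨_, cvx_ball hT hreg o (D.sup (T.dist o)),
    by simp [mem_ball hT hreg], fun v hv => (mem_ball hT hreg).2 (le_sup (f := T.dist o) hv)⟩
  obtain ⟨S₀, hS₀⟩ : ∃ S₀, S₀ = D.filter fun v => η v = true := ⟨_, rfl⟩
  have e1 : (fun (U : V → I) v => decide (sv T θ o U v = 1)) ⁻¹' {ξ | ∀ v ∈ D, ξ v = η v} =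
      ⋃ S ∈ B.powerset.filter fun S => ∀ v ∈ D, sp S v = sp S₀ v,
        {U | ∀ v ∈ B, sv T θ o U v = sp S v} := by
    have k : ∀ U, ∀ v ∈ D, (decide (sv T θ o U v = 1) = η v ↔ sv T θ o U v = sp S₀ v) :=
      fun U v hv => by
        rcases sv_pm (T := T) (θ := θ) o U v with h | h <;> cases h' : η v <;>
          norm_num [h, h', hS₀, sp, hv]
    ext U
    simp only [Set.mem_preimage, Set.mem_setOf_eq, Set.mem_iUnion, mem_filter, mem_powerset,
      forall₂_congr (k U)]
    refine ⟨fun h => ?_, fun ⟨S, h, h'⟩ v hv => (h' v (hs hv)).trans (h.2 v hv)⟩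
    have : ∀ v ∈ B, sv T θ o U v = sp (B.filter fun v => sv T θ o U v = 1) v := fun v hv => by
      rcases sv_pm (T := T) (θ := θ) o U v with h | h <;> norm_num [h, sp, hv]
    exact ⟨_, ⟨filter_subset _ _, fun v hv => (this v (hs hv)).symm.trans (h v hv)⟩, this⟩
  have inj : ∀ {A S S' : Finset V}, S ⊆ A → S' ⊆ A → (∀ v ∈ A, sp S v = sp S' v) → S = S' :=
    fun {A S S'} hS hS' h => by
      ext v
      by_contra h3
      by_cases h4 : v ∈ A
      · have := h v h4
        unfold sp at this
        split_ifs at this <;> first | tauto | norm_num at this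
      · exact h3 ⟨fun h5 => absurd (hS h5) h4, fun h5 => absurd (hS' h5) h4⟩
  rw [Measure.real, Measure.map_apply mΨ (measurableSet_setOfPred.2 (Measurable.forall fun v =>
      measurable_const.imp (measurableSet_setOfPred.1
        (measurableSet_eq_fun (by fun_prop) measurable_const)))), e1,
    measure_biUnion_finset (fun S hS S' hS' hne => Set.disjoint_left.2 fun U a b => hne
      (inj (mem_powerset.1 (mem_filter.1 hS).1) (mem_powerset.1 (mem_filter.1 hS').1)
        fun v hv => (a v hv).symm.trans (b v hv))) fun S _ => mS o B S,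
    sum_congr rfl fun S _ => point_mass hT hreg h0 h1 hB ho S,
    ← ENNReal.ofReal_sum_of_nonneg fun S _ => (half_pos (wt_pos h0 h1 B S)).le,
    ENNReal.toReal_ofReal (sum_nonneg fun S _ => (half_pos (wt_pos h0 h1 B S)).le), ← sum_div]
  have e2 := consistent (θ := θ) hT hD hB hs hne
    (f := fun S => if ∀ v ∈ D, sp S v = sp S₀ v then 1 else 0) fun S S' h =>
      if_congr (forall₂_congr fun v hv => by rw [h v hv]) rfl rfl
  simp only [mul_ite, mul_one, mul_zero] at e2
  have s0 : S₀ ⊆ D := hS₀ ▸ filter_subset _ _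
  rw [sum_filter, e2, sum_eq_single_of_mem S₀ (mem_powerset.2 s0) fun S hS h =>
    if_neg fun h' => h (inj (mem_powerset.1 hS) s0 h'), if_pos fun _ _ => rfl, div_eq_inv_mul,
    one_div, hS₀]
  congr 1
  refine prod_congr rfl fun e he => ?_
  induction e with
  | h u v =>
    obtain ⟨h1, h2⟩ := mk_mem_sym2_iff.1 (mem_filter.1 he).1
    simp [sp, spin, h1, h2]

end Vale.Agent.P161.C
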