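import Vale.Agent.P161.Main
import Vale.Agent.P161.C.ConvAux
import Vale.Agent.P161.C.Uniq
import Vale.Agent.P161.C.ES

/-!
The converse bound (Sly; Backhausz-Szegedy-Virag): above the reconstruction threshold the free Ising state is not a
factor of IID.
-/

open MeasureTheory Finset Filter Topology
open scoped Classical unitInterval InnerProductSpace ENNReal

namespace Vale.Agent.P161.C

variable {V : Type} {T : SimpleGraph V} {d : ℕ} {θ : ℝ}

namespace Cv

open ES

theorem sp_compl {D S : Finset V} {v : V} (hv : v ∈ D) : sp (D \ S) v = -sp S v := by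
  by_cases h : v ∈ S <;> simp [sp, h, hv]

theorem mag_zero (D : Finset V) {v : V} (hv : v ∈ D) : mag T θ D (tl ∅ 0) v = 0 := by
  have : Zs T θ D (tl ∅ 0) (fun S => sp S v) = -Zs T θ D (tl ∅ 0) fun S => sp S v := by
    unfold Zs
    rw [← sum_neg_distrib]
    refine sum_nbij' (fun S => D \ S) (fun S => D \ S) (fun S _ => mem_powerset.2 sdiff_subset)
      (fun S _ => mem_powerset.2 sdiff_subset)
      (fun S hS => Finset.sdiff_sdiff_eq_self (mem_powerset.1 hS))
      (fun S hS => Finset.sdiff_sdiff_eq_self (mem_powerset.1 hS)) fun S _ => ?_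
    have : wt T θ D (D \ S) = wt T θ D S := by
      refine prod_congr rfl fun e he => ?_
      induction e with
      | h a b =>
        obtain ⟨h1, h2⟩ := mk_mem_sym2_iff.1 (mem_filter.1 he).1
        simp only [Sym2.map_mk, Sym2.mul_mk, sp_compl h1, sp_compl h2, neg_mul_neg]
    simp only [this, sp_compl hv, tl, prod_empty]
    ring
  rw [mag, mean, show Zs T θ D (tl ∅ 0) (fun S => sp S v) = 0 by linarith, zero_div]

theorem cov_zero (hT : T.IsTree) (h0 : 0 ≤ θ) (h1 : θ < 1) {D : Finset V} (hD : Cvx T D) {o : V}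
    (ho : o ∈ D) : ∀ n, ∀ v ∈ D, T.dist o v = n → cov T θ D (tl ∅ 0) o v = θ ^ n := by
  have hx : ∀ j : V × ℕ, |(0 : V × ℕ → ℝ) j| ≤ 1 / 8 := fun j => by simp
  intro n
  induction n with
  | zero =>
    intro v _ h
    obtain rfl := hT.connected.dist_eq_zero_iff.1 h
    rw [cov_self h0 h1 D (tl_pos hx), mag_zero D ho]
    simp
  | succ n ih =>
    intro v hv h
    obtain ⟨p, hp, h2⟩ := exists_parent hT (v := o) (u := v) (by rintro rfl; simp at h)
    have hpD : p ∈ D := hD o ho v hv p (by rw [SimpleGraph.dist_eq_one_iff_adj.2 hp]; omega)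
    obtain ⟨a, m, -, -, e1, e2, e3⟩ := edge hT h0 h1 hp hpD hv ∅ hx
    rw [mag_zero D hpD, zero_mul] at e1
    rw [mag_zero D hv, zero_mul] at e2
    have m0 : m = 0 := by
      have : m * (1 - θ ^ 2) = 0 := by linear_combination θ * e1 - e2
      rcases mul_eq_zero.1 this with h3 | h3
      · exact h3
      · nlinarith
    rw [e3 o (by rw [T.dist_comm (u := v), T.dist_comm (u := p)]; omega), ih p hpD (by omega), m0]
    ring

theorem integral_ising (hT : T.IsTree) (hreg : ∀ v, (T.neighborSet v).encard = d)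
    {μ : Measure (V → Bool)} (hμ : IsFreeIsing T θ μ) (o : V) (R : ℕ) (f : Finset V → ℝ) :
    ∫ ξ, f ((ball T o R).filter fun v => ξ v = true) ∂μ = mean T θ (ball T o R) (tl ∅ 0) f := by
  have := hμ.1
  set D := ball T o R with hD
  have mS : ∀ S : Finset V, MeasurableSet {ξ : V → Bool | ∀ v ∈ D, ξ v = decide (v ∈ S)} :=
    fun S => by
      have : {ξ : V → Bool | ∀ v ∈ D, ξ v = decide (v ∈ S)} =
          ⋂ v ∈ D, (fun ξ : V → Bool => ξ v) ⁻¹' {decide (v ∈ S)} := by
        ext ξ
        simp
      rw [this]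
      exact Finset.measurableSet_biInter _ fun v _ =>
        measurable_pi_apply v (measurableSet_singleton _)
  have e1 : ∀ ξ : V → Bool, f (D.filter fun v => ξ v = true) = ∑ S ∈ D.powerset,
      Set.indicator {ξ : V → Bool | ∀ v ∈ D, ξ v = decide (v ∈ S)} (fun _ => f S) ξ := by
    intro ξ
    rw [sum_eq_single (D.filter fun v => ξ v = true), Set.indicator_of_mem]
    · intro v hv
      simp [hv]
    · intro S hS hne
      refine Set.indicator_of_notMem (fun h => hne ?_) _
      ext v
      rw [mem_filter]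
      exact ⟨fun hv => ⟨mem_powerset.1 hS hv, by simp [h v (mem_powerset.1 hS hv), hv]⟩,
        fun hv => by simpa [h v hv.1] using hv.2⟩
    · intro h
      exact absurd (mem_powerset.2 (filter_subset _ _)) h
  simp only [e1]
  rw [integral_finset_sum _ fun S _ => (integrable_const _).indicator (mS S), mean]
  have e2 : Zs T θ D (tl ∅ 0) (fun _ => 1) = 2 := by
    rw [← total (θ := θ) hT (cvx_ball hT hreg o R) ⟨o, by simp [mem_ball hT hreg]⟩]
    simp [Zs, tl, hD]
  rw [e2, Zs, sum_div]
  refine sum_congr rfl fun S _ => ?_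
  rw [integral_indicator_const _ (mS S), hμ.2 D (ball_conn hT hreg o R), smul_eq_mul]
  have : ∏ e ∈ D.sym2 with e ∈ T.edgeSet,
      (1 + θ * (e.map fun v => spin (decide (v ∈ S))).mul) / 2 = wt T θ D S := by
    refine prod_congr rfl fun e _ => ?_
    have : (fun v => spin (decide (v ∈ S))) = sp S := by
      funext v
      simp [sp, spin]
    rw [this]
  rw [this]
  simp only [tl, prod_empty]
  ring

theorem sp_filter {D : Finset V} {ξ : V → Bool} {v : V} (hv : v ∈ D) :
    sp (D.filter fun v => ξ v = true) v = spin (ξ v) := by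
  simp [sp, spin, hv]

theorem ising_one (hT : T.IsTree) (hreg : ∀ v, (T.neighborSet v).encard = d)
    {μ : Measure (V → Bool)} (hμ : IsFreeIsing T θ μ) (v : V) : ∫ ξ, spin (ξ v) ∂μ = 0 := by
  have hv : v ∈ ball T v 0 := by simp [mem_ball hT hreg]
  have := integral_ising hT hreg hμ v 0 fun S => sp S v
  simp only [sp_filter hv] at this
  exact this.trans (mag_zero _ hv)

theorem ising_two (hT : T.IsTree) (hreg : ∀ v, (T.neighborSet v).encard = d) (h0 : 0 ≤ θ)
    (h1 : θ < 1) {μ : Measure (V → Bool)} (hμ : IsFreeIsing T θ μ) (o v : V) :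
    ∫ ξ, spin (ξ o) * spin (ξ v) ∂μ = θ ^ T.dist o v := by
  have ho : o ∈ ball T o (T.dist o v) := by simp [mem_ball hT hreg]
  have hv : v ∈ ball T o (T.dist o v) := by simp [mem_ball hT hreg]
  have := integral_ising hT hreg hμ o (T.dist o v) fun S => sp S o * sp S v
  simp only [sp_filter hv, sp_filter ho] at this
  rw [this, ← cov_zero hT h0 h1 (cvx_ball hT hreg o _) ho _ v hv rfl, cov, mag_zero _ ho]
  simp

/-- Labels from the first argument on `S`, from the second one elsewhere. -/
noncomputable def mx (S : Finset V) (p : (V → I) × (V → I)) : V → I :=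
  fun i => @ite _ (i ∈ S) (Classical.propDecidable _) (p.1 i) (p.2 i)

theorem measurable_mx (S : Finset V) : Measurable (mx S) :=
  measurable_pi_lambda _ fun i => by unfold mx; split_ifs <;> fun_prop

instance iidp : IsProbabilityMeasure (iid V) := by unfold iid; infer_instance

theorem mp_mx (S : Finset V) : MeasurePreserving (mx S) ((iid V).prod (iid V)) (iid V) := by
  refine ⟨measurable_mx S, Measure.ext fun B hB => ?_⟩
  rw [Measure.map_apply (measurable_mx S) hB, ← lintegral_indicator_one (measurable_mx S hB),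
    ← lintegral_indicator_one hB,
    lintegral_prod _ (measurable_one.indicator (measurable_mx S hB)).aemeasurable]
  exact (P143.lintegral_swap (fun i => i ∈ S) (measurable_one.indicator hB)).symm

theorem integral_mx (S : Finset V) {F : (V → I) → ℝ} (h : BM F) :
    ∫ U, F U ∂iid V = ∫ U, ∫ U', F (mx S (U, U')) ∂iid V ∂iid V := by
  conv_lhs => rw [← (mp_mx S).map_eq]
  rw [integral_map (measurable_mx S).aemeasurable h.1.aestronglyMeasurable,
    integral_prod _ ((h.comp (measurable_mx S)).int _)]

/-- Conditional expectation given the labels on `S`. -/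
noncomputable def cE (S : Finset V) (G : (V → I) → ℝ) (U : V → I) : ℝ :=
  ∫ U', G (mx S (U, U')) ∂iid V

theorem bm_cE (S : Finset V) {G : (V → I) → ℝ} (h : BM G) : BM (cE S G) :=
  (h.comp (measurable_mx S)).prod _

theorem cE_congr {S : Finset V} (G : (V → I) → ℝ) {U W : V → I} (h : ∀ i ∈ S, U i = W i) :
    cE S G U = cE S G W := by
  refine integral_congr_ae (Eventually.of_forall fun U' => congrArg G (funext fun i => ?_))
  unfold mx
  split_ifs with hi
  exacts [h i hi, rfl]

theorem BM.mul' {X : Type*} [MeasurableSpace X] {F G : X → ℝ} (h : BM F) (h' : BM G) :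
    BM fun x => F x * G x := by
  obtain ⟨m, C, hC⟩ := h
  obtain ⟨m', C', hC'⟩ := h'
  refine ⟨m.mul m', C * C', fun x => ?_⟩
  rw [abs_mul]
  exact mul_le_mul (hC x) (hC' x) (abs_nonneg _) ((abs_nonneg _).trans (hC x))

theorem BM.abs' {X : Type*} [MeasurableSpace X] {F : X → ℝ} (h : BM F) : BM fun x => |F x| := by
  obtain ⟨m, C, hC⟩ := h
  exact ⟨m.abs, C, fun x => by rw [abs_abs]; exact hC x⟩

theorem cE_indep {S S' : Finset V} (hd : Disjoint S S') {G G' : (V → I) → ℝ} (h : BM G)
    (h' : BM G') (h0 : ∫ U, G' U ∂iid V = 0) : ∫ U, cE S G U * cE S' G' U ∂iid V = 0 := by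
  rw [integral_mx S (BM.mul' (bm_cE S h) (bm_cE S' h'))]
  have : ∀ U U', cE S G (mx S (U, U')) * cE S' G' (mx S (U, U')) = cE S G U * cE S' G' U' := by
    intro U U'
    rw [cE_congr G (S := S) (U := mx S (U, U')) (W := U) fun i hi => if_pos hi,
      cE_congr G' (S := S') (U := mx S (U, U')) (W := U')
        fun i hi => if_neg (disjoint_right.1 hd hi)]
  simp only [this, integral_const_mul]
  rw [show ∫ U', cE S' G' U' ∂iid V = 0 from (integral_mx S' h').symm.trans h0]
  simp

theorem cE_approx (S : Finset V) {G G₀ : (V → I) → ℝ} (h : BM G) (h₀ : BM G₀)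
    (hb : ∀ U, |G U| ≤ 1) (hdep : ∀ U U', G₀ (mx S (U, U')) = G₀ U) :
    ∫ U, (cE S G U - G U) * (cE S G U - G U) ∂iid V ≤ 4 * ∫ U, |G U - G₀ U| ∂iid V := by
  have b1 := BM.abs' (h.sub h₀)
  have b2 := bm_cE S b1
  have k : ∀ U, (cE S G U - G U) * (cE S G U - G U) ≤
      2 * |G U - G₀ U| + 2 * cE S (fun U => |G U - G₀ U|) U := by
    intro U
    have a1 : |cE S G U| ≤ 1 := abs_int_le fun _ => hb _
    have a2 : |cE S G U - G₀ U| ≤ cE S (fun U => |G U - G₀ U|) U := by
      have i1 : Integrable (fun U' => G (mx S (U, U'))) (iid V) :=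
        (h.comp ((measurable_mx S).comp measurable_prodMk_left)).int _
      have : cE S G U - G₀ U = ∫ U', (G (mx S (U, U')) - G₀ (mx S (U, U'))) ∂iid V := by
        simp only [hdep]
        rw [integral_sub i1 (integrable_const _)]
        simp [cE]
      rw [this]
      exact abs_integral_le_integral_abs
    have a3 : |cE S G U - G U| ≤ 2 := (abs_sub _ _).trans (by linarith [hb U])
    have a4 : |cE S G U - G U| ≤ |cE S G U - G₀ U| + |G U - G₀ U| := by
      rw [abs_sub_comm (G U)]
      exact abs_sub_le _ _ _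
    rw [← abs_mul_abs_self]
    nlinarith [abs_nonneg (cE S G U - G U)]
  refine (integral_mono ((BM.mul' ((bm_cE S h).sub h) ((bm_cE S h).sub h)).int _)
    (((b1.int _).const_mul 2).add ((b2.int _).const_mul 2)) k).trans (le_of_eq ?_)
  simp only [Pi.add_apply]
  rw [integral_add ((b1.int _).const_mul 2) ((b2.int _).const_mul 2), integral_const_mul,
    integral_const_mul, show ∫ U, cE S (fun U => |G U - G₀ U|) U ∂iid V = _ from
      (integral_mx S b1).symm]
  ring

theorem abs_spin (b : Bool) : |spin b| ≤ 1 := by cases b <;> simp [spin]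

theorem bm_spin {b : (V → I) → Bool} (hb : Measurable b) : BM fun U => spin (b U) :=
  ⟨(measurable_from_top (f := spin)).comp hb, 1, fun _ => abs_spin _⟩

theorem exists_cyl {b : (V → I) → Bool} (hb : Measurable b) {ε : ℝ} (hε : 0 < ε) :
    ∃ (J : Finset V) (G₀ : (V → I) → ℝ), BM G₀ ∧ (∀ U W, (∀ i ∈ J, U i = W i) → G₀ U = G₀ W) ∧
      ∫ U, |spin (b U) - G₀ U| ∂iid V ≤ 2 * ε := by
  have hB : MeasurableSet {U | b U = true} := hb (measurableSet_singleton true)
  obtain ⟨t, ht, h1⟩ := exists_measure_symmDiff_lt_of_generateFrom_isSetRing (μ := iid V)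
    isSetRing_measurableCylinders
    ⟨{Set.univ}, Set.countable_singleton _, Set.singleton_subset_iff.2 (univ_mem_measurableCylinders _),
      by simp⟩ generateFrom_measurableCylinders.symm hB (ENNReal.ofReal_pos.2 hε)
  have mt := MeasurableSet.of_mem_measurableCylinders ht
  obtain ⟨J, A, -, rfl⟩ := (mem_measurableCylinders _).1 ht
  have m2 : Measurable fun U : V → I => decide (U ∈ cylinder J A) :=
    measurable_to_bool (by
      have : (fun U : V → I => decide (U ∈ cylinder J A)) ⁻¹' {true} = cylinder J A := by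
        ext U
        simp only [Set.mem_preimage, Set.mem_singleton_iff, decide_eq_true_eq]
      rwa [this])
  refine ⟨J, fun U => spin (decide (U ∈ cylinder J A)), bm_spin m2, fun U W h => ?_, ?_⟩
  · have : J.restrict U = J.restrict W := funext fun i => h i.1 i.2
    simp only [mem_cylinder, this]
  · have ms := mt.symmDiff hB
    have : ∀ U, |spin (b U) - spin (decide (U ∈ cylinder J A))| =
        Set.indicator (symmDiff (cylinder J A) {U | b U = true}) (fun _ => (2 : ℝ)) U := by
      intro U
      by_cases h2 : U ∈ cylinder J A <;> cases h3 : b U <;>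
        simp [spin, Set.indicator, Set.mem_symmDiff, h2, h3] <;> norm_num
    simp only [this]
    rw [integral_indicator_const _ ms, smul_eq_mul, mul_comm]
    exact mul_le_mul_of_nonneg_left (ENNReal.toReal_le_of_le_ofReal hε.le h1.le) zero_le_two

theorem cE_tendsto (hT : T.IsTree) (hreg : ∀ v, (T.neighborSet v).encard = d)
    {b : (V → I) → Bool} (hb : Measurable b) (v : V) :
    Tendsto (fun R => ∫ U, (cE (ball T v R) (fun U => spin (b U)) U - spin (b U)) *
      (cE (ball T v R) (fun U => spin (b U)) U - spin (b U)) ∂iid V) atTop (𝓝 0) := by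
  rw [Metric.tendsto_atTop]
  intro ε hε
  obtain ⟨J, G₀, h1, h2, h3⟩ := exists_cyl hb (show 0 < ε / 16 by positivity)
  refine ⟨J.sup (T.dist v), fun R hR => ?_⟩
  rw [Real.dist_eq, sub_zero, abs_of_nonneg (integral_nonneg fun U => mul_self_nonneg _)]
  refine (cE_approx _ (bm_spin hb) h1 (fun _ => abs_spin _)
    fun U U' => h2 _ _ fun i hi => if_pos ?_).trans_lt (by linarith)
  exact (mem_ball hT hreg).2 ((le_sup (f := T.dist v) hi).trans hR)

/-- The action of a permutation on the labels. -/
def act (g : V ≃ V) (U : V → I) : V → I := fun v => U (g.symm v)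

theorem mp_act (g : V ≃ V) : MeasurePreserving (act g) (iid V) (iid V) := by
  have h1 : (MeasurableEquiv.piCongrLeft (fun _ : V => I) g : (V → I) → V → I) = act g := by
    funext U j
    obtain ⟨j, rfl⟩ := g.surjective j
    rw [MeasurableEquiv.coe_piCongrLeft, Equiv.piCongrLeft_apply_apply]
    simp [act]
  rw [← h1]
  exact ⟨MeasurableEquiv.measurable _,
    Measure.infinitePi_map_piCongrLeft (fun _ : V => (volume : Measure I)) g⟩

theorem integral_act (g : V ≃ V) {F : (V → I) → ℝ} (h : BM F) :
    ∫ U, F U ∂iid V = ∫ U, F (act g U) ∂iid V := by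
  conv_lhs => rw [← (mp_act g).map_eq]
  rw [integral_map (mp_act g).measurable.aemeasurable h.1.aestronglyMeasurable]

theorem cE_act (g : V ≃ V) (S : Finset V) {G G' : (V → I) → ℝ} (h' : BM G')
    (h : ∀ᵐ W ∂iid V, G' (act g W) = G W) :
    ∀ᵐ U ∂iid V, cE (S.map g.toEmbedding) G' (act g U) = cE S G U := by
  have h1 := Measure.ae_ae_of_ae_prod ((mp_mx S).quasiMeasurePreserving.ae h)
  filter_upwards [h1] with U hU
  rw [cE, integral_act g (F := fun U' => G' (mx (S.map g.toEmbedding) (act g U, U')))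
    (h'.comp ((measurable_mx _).comp measurable_prodMk_left))]
  refine integral_congr_ae (hU.mono fun U' h2 => ?_)
  refine Eq.trans (congrArg G' (funext fun i => ?_)) h2
  simp only [Function.comp, mx, act, mem_map_equiv]

/-- The class of a bounded measurable function. -/
noncomputable def vec {F : (V → I) → ℝ} (h : BM F) : Lp ℝ 2 (iid V) :=
  MemLp.toLp F (MemLp.of_bound h.1.aestronglyMeasurable h.2.choose
    (Eventually.of_forall h.2.choose_spec))

theorem vec_ae {F : (V → I) → ℝ} (h : BM F) : vec h =ᵐ[iid V] F := MemLp.coeFn_toLp _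

theorem inner_vec {F G : (V → I) → ℝ} (h : BM F) (h' : BM G) :
    ⟪vec h, vec h'⟫_ℝ = ∫ U, F U * G U ∂iid V := by
  rw [L2.inner_def]
  refine integral_congr_ae ?_
  filter_upwards [vec_ae h, vec_ae h'] with U h1 h2
  rw [h1, h2]
  simp [mul_comm]

theorem norm_vec {F : (V → I) → ℝ} (h : BM F) (hb : ∀ U, |F U| ≤ 1) : ‖vec h‖ ≤ 1 := by
  have h1 : ‖vec h‖ ^ 2 ≤ 1 := by
    rw [← real_inner_self_eq_norm_sq, inner_vec]
    refine (le_abs_self _).trans (abs_int_le fun U => ?_)
    rw [abs_mul]
    exact mul_le_one₀ (hb U) (abs_nonneg _) (hb U)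
  nlinarith [norm_nonneg (vec h)]

theorem vec_sub {F G : (V → I) → ℝ} (h : BM F) (h' : BM G) : vec h - vec h' = vec (h.sub h') := rfl

end Cv

open Cv ES

theorem not_fiid (hT : T.IsTree) (hreg : ∀ v, (T.neighborSet v).encard = d) (hd : 3 ≤ d)
    (h0 : 0 ≤ θ) (h1 : θ < 1) {μ : Measure (V → Bool)} (hμ : IsFreeIsing T θ μ)
    (hf : IsFactorOfIID T μ) : θ ^ 2 * (d - 1) ≤ 1 := by
  obtain ⟨Φ, mΦ, rfl, hg⟩ := hf
  obtain ⟨o⟩ := hT.connected.nonempty
  have mb : ∀ v, Measurable fun U => Φ U v := fun v => (measurable_pi_apply v).comp mΦ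
  have bX : ∀ v, BM fun U => spin (Φ U v) := fun v => bm_spin (mb v)
  have b1 : ∀ v U, |spin (Φ U v)| ≤ 1 := fun _ _ => abs_spin _
  have ms : ∀ v, Measurable fun ξ : V → Bool => spin (ξ v) := fun v =>
    (measurable_from_top (f := spin)).comp (measurable_pi_apply v)
  refine abstract_bound hT hreg hd h0 o (x := fun v => vec (bX v)) (norm_vec _ (b1 o))
    (fun v => ?_) (y := fun R v => vec (bm_cE (ball T v R) (bX v))) (fun R g u v => ?_)
    (fun R v => norm_vec _ fun U => abs_int_le fun _ => b1 v _) (fun R v hv => ?_) fun v => ?_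
  · rw [inner_vec, ← ising_two hT hreg h0 h1 hμ o v,
      integral_map (f := fun ξ : V → Bool => spin (ξ o) * spin (ξ v)) mΦ.aemeasurable
        ((ms o).mul (ms v)).aestronglyMeasurable]
  · have k : ∀ w, ∀ᵐ U ∂iid V, cE (ball T (g w) R) (fun U => spin (Φ U (g w))) (act g.toEquiv U) =
        cE (ball T w R) (fun U => spin (Φ U w)) U := by
      intro w
      rw [ball_map hT hreg]
      refine cE_act g.toEquiv _ (bX _) ((hg g).mono fun W hW => ?_)
      have := congrFun hW (g w)
      simp only [RelIso.symm_apply_apply] at this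
      exact congrArg spin this
    rw [inner_vec, inner_vec,
      integral_act g.toEquiv (BM.mul' (bm_cE _ (bX (g u))) (bm_cE _ (bX (g v))))]
    refine integral_congr_ae ?_
    filter_upwards [k u, k v] with U a1 a2
    rw [a1, a2]
  · rw [inner_vec]
    refine cE_indep (disjoint_left.2 fun w a1 a2 => ?_) (bX o) (bX v) ?_
    · rw [mem_ball hT hreg] at a1 a2
      have := hT.connected.dist_triangle (u := o) (v := w) (w := v)
      rw [T.dist_comm (u := w)] at this
      omega
    · rw [← ising_one hT hreg hμ v, integral_map mΦ.aemeasurable (ms v).aestronglyMeasurable]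
  · rw [tendsto_iff_norm_sub_tendsto_zero]
    have := (cE_tendsto hT hreg (mb v) v).sqrt
    rw [Real.sqrt_zero] at this
    refine this.congr fun R => ?_
    rw [vec_sub, ← inner_vec ((bm_cE (ball T v R) (bX v)).sub (bX v))
      ((bm_cE (ball T v R) (bX v)).sub (bX v)), real_inner_self_eq_norm_sq,
      Real.sqrt_sq (norm_nonneg _)]

end Vale.Agent.P161.C
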