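import Vale.Agent.P143.Prob

/-!
A generic finite sequential process: events `e ∈ E` fire in the order of real keys `t e`; the value
at `e` is `Γ e s x (z e)` where `s` is the set of earlier events and `x` their values.

PLAN. Copy the method of `Vale/Agent/P161/Proc.lean` (`iter_stable`, `Wf_eq`, `measurable_Wf`): `pre E t (t i)`
is a proper subset of `pre E t q` for `i ∈ pre E t q`. For `chain`, induct on the number of events with
`q ≤ t e < q'`: let `e` be the last one, then `pre E t q' = insert e (pre E t (t e))`,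
`X .. q' = update (X .. (t e)) e (Γ e .. (z e))` (`X_insert`), and `P143.resample (κ e)` with `X_congr`.
-/

open MeasureTheory Function Finset
open scoped Classical unitInterval ENNReal

namespace Vale.Agent.P161.C

variable {V β : Type} [Zero β]

abbrev Rule (V β : Type) := V × ℕ → Finset (V × ℕ) → (V × ℕ → β) → I → β

/-- The events of `E` strictly before time `q`. -/
noncomputable def pre (E : Finset (V × ℕ)) (t : V × ℕ → ℝ) (q : ℝ) : Finset (V × ℕ) :=
  E.filter fun i => t i < q

noncomputable def rs (s : Finset (V × ℕ)) (x : V × ℕ → β) : V × ℕ → β :=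
  fun i => if i ∈ s then x i else 0

noncomputable def it (Γ : Rule V β) (E : Finset (V × ℕ)) (t : V × ℕ → ℝ) (z : V × ℕ → I) :
    ℕ → V × ℕ → β
  | 0 => fun _ => 0
  | n + 1 => fun e => Γ e (pre E t (t e)) (rs (pre E t (t e)) (it Γ E t z n)) (z e)

noncomputable def gW (Γ : Rule V β) (E : Finset (V × ℕ)) (t : V × ℕ → ℝ) (z : V × ℕ → I) :
    V × ℕ → β :=
  it Γ E t z (E.card + 1)

/-- The values of the events before time `q`. -/
noncomputable def X (Γ : Rule V β) (E : Finset (V × ℕ)) (t : V × ℕ → ℝ) (z : V × ℕ → I) (q : ℝ) :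
    V × ℕ → β :=
  rs (pre E t q) (gW Γ E t z)

variable {Γ : Rule V β} {E E' : Finset (V × ℕ)} {t t' : V × ℕ → ℝ} {z z' : V × ℕ → I} {q q' : ℝ}

theorem mem_pre {i : V × ℕ} : i ∈ pre E t q ↔ i ∈ E ∧ t i < q := mem_filter

theorem not_mem_pre_self (e : V × ℕ) : e ∉ pre E t (t e) := fun h => lt_irrefl _ (mem_pre.1 h).2

theorem pre_subset {i : V × ℕ} (h : i ∈ pre E t q) : pre E t (t i) ⊆ pre E t q :=
  fun _ hk => mem_pre.2 ⟨(mem_pre.1 hk).1, (mem_pre.1 hk).2.trans (mem_pre.1 h).2⟩

theorem card_pre_lt {i : V × ℕ} (h : i ∈ pre E t q) : (pre E t (t i)).card < (pre E t q).card :=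
  card_lt_card ⟨pre_subset h, fun h' => not_mem_pre_self i (h' h)⟩

theorem rs_congr {s : Finset (V × ℕ)} {x y : V × ℕ → β} (h : ∀ i ∈ s, x i = y i) :
    rs s x = rs s y := by
  funext i
  unfold rs
  split_ifs with hi
  exacts [h i hi, rfl]

theorem rs_empty (x : V × ℕ → β) : rs ∅ x = 0 := by
  funext i
  simp [rs]

theorem rs_insert (s : Finset (V × ℕ)) (x : V × ℕ → β) (e : V × ℕ) :
    rs (insert e s) x = update (rs s x) e (x e) := by
  funext i
  by_cases hi : i = e
  · subst hi
    simp [rs]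
  · simp [rs, hi]

theorem it_stable (n n' : ℕ) (e : V × ℕ) (h : (pre E t (t e)).card < n)
    (h' : (pre E t (t e)).card < n') : it Γ E t z n e = it Γ E t z n' e := by
  induction n generalizing e n' with
  | zero => omega
  | succ n ih =>
    cases n' with
    | zero => omega
    | succ n' =>
      simp only [it]
      rw [rs_congr fun i hi => ih n' i (by have := card_pre_lt hi; omega)
        (by have := card_pre_lt hi; omega)]

theorem gW_eq (e : V × ℕ) : gW Γ E t z e = Γ e (pre E t (t e)) (X Γ E t z (t e)) (z e) := by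
  have hc : (pre E t (t e)).card ≤ E.card := card_le_card (filter_subset _ _)
  have : X Γ E t z (t e) = rs (pre E t (t e)) (it Γ E t z E.card) :=
    rs_congr fun i hi => it_stable _ _ i (by have := card_pre_lt hi; omega)
      (by have := card_pre_lt hi; omega)
  rw [this]
  rfl

/-- Uniqueness of the solution of the recursion, up to time `q`. -/
theorem X_unique {W : V × ℕ → β}
    (h : ∀ e ∈ pre E t q, W e = Γ e (pre E t (t e)) (rs (pre E t (t e)) W) (z e)) :
    rs (pre E t q) W = X Γ E t z q := by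
  have k : ∀ n, ∀ e ∈ pre E t q, (pre E t (t e)).card < n → W e = gW Γ E t z e := by
    intro n
    induction n with
    | zero => intro e _ h0; omega
    | succ n ih =>
      intro e he hn
      rw [h e he, gW_eq, X, rs_congr fun i hi => ih i (pre_subset he hi)
        (by have := card_pre_lt hi; omega)]
  exact rs_congr fun e he => k _ e he (Nat.lt_succ_self _)

/-- Causality. -/
theorem X_congr (h : pre E t q = pre E' t' q') (ht : ∀ e ∈ pre E t q, ∀ e' ∈ pre E t q,
    t e < t e' ↔ t' e < t' e') (hz : ∀ e ∈ pre E t q, z e = z' e) :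
    X Γ E t z q = X Γ E' t' z' q' := by
  have k : ∀ e ∈ pre E t q, pre E t (t e) = pre E' t' (t' e) := by
    intro e he
    ext i
    constructor
    · intro hi
      have h1 := pre_subset he hi
      exact mem_pre.2 ⟨(mem_pre.1 (h ▸ h1)).1, (ht i h1 e he).1 (mem_pre.1 hi).2⟩
    · intro hi
      have h1 : i ∈ pre E t q := h ▸ pre_subset (h ▸ he) hi
      exact mem_pre.2 ⟨(mem_pre.1 h1).1, (ht i h1 e he).2 (mem_pre.1 hi).2⟩
  rw [← X_unique (W := gW Γ E' t' z') fun e he => by rw [gW_eq, k e he, hz e he]; rfl, h]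
  rfl

theorem X_insert {e : V × ℕ} (h : pre E t q = insert e (pre E t (t e))) :
    X Γ E t z q = update (X Γ E t z (t e)) e (Γ e (pre E t (t e)) (X Γ E t z (t e)) (z e)) := by
  rw [← gW_eq (Γ := Γ) (E := E) (t := t) (z := z) e, X, h, rs_insert]
  rfl

theorem exists_last (ht : Set.InjOn t E) {S : Finset (V × ℕ)} (hS : S ⊆ E)
    (hl : ∀ e ∈ S, ∀ i ∈ E, t i < t e → i ∈ S) (hne : S.Nonempty) :
    ∃ e ∈ S, (∀ i ∈ S, t i ≤ t e) ∧ S = insert e (pre E t (t e)) := by
  obtain ⟨e, he, hm⟩ := exists_max_image S t hne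
  refine ⟨e, he, hm, ?_⟩
  ext i
  rw [mem_insert, mem_pre]
  constructor
  · intro hi
    rcases (hm i hi).eq_or_lt with h | h
    · exact Or.inl (ht (hS hi) (hS he) h)
    · exact Or.inr ⟨hS hi, h⟩
  · rintro (rfl | hi)
    exacts [he, hl e he i hi.1 hi.2]

theorem exists_last_pre (ht : Set.InjOn t E) (hne : (pre E t q).Nonempty) :
    ∃ e ∈ pre E t q, (∀ i ∈ pre E t q, t i ≤ t e) ∧ pre E t q = insert e (pre E t (t e)) :=
  exists_last ht (filter_subset _ _)
    (fun _ he _ hi h => mem_pre.2 ⟨hi, h.trans (mem_pre.1 he).2⟩) hne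

/-- Induction along the events in key order. -/
theorem X_induction (ht : Set.InjOn t E) {P : Finset (V × ℕ) → (V × ℕ → β) → Prop} (h0 : P ∅ 0)
    (h : ∀ e ∈ E, ∀ s x, e ∉ s → P s x → P (insert e s) (update x e (Γ e s x (z e)))) (q : ℝ) :
    P (pre E t q) (X Γ E t z q) := by
  induction hn : (pre E t q).card using Nat.strong_induction_on generalizing q with
  | _ n ih =>
    rcases (pre E t q).eq_empty_or_nonempty with h1 | h1
    · rw [X, h1, rs_empty]
      exact h0
    · obtain ⟨e, he, -, h2⟩ := exists_last_pre ht h1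
      rw [X_insert h2, h2]
      exact h e (mem_pre.1 he).1 _ _ (not_mem_pre_self e) (ih _ (hn ▸ card_pre_lt he) _ rfl)

/-- Telescoping along a lower set `S` of events. -/
theorem telescope (ht : Set.InjOn t E) {S : Finset (V × ℕ)} (hS : S ⊆ E)
    (hl : ∀ e ∈ S, ∀ i ∈ E, t i < t e → i ∈ S) (F : Finset (V × ℕ) → (V × ℕ → β) → ℝ≥0∞) :
    F S (rs S (gW Γ E t z)) + ∑ e ∈ S, F (pre E t (t e)) (X Γ E t z (t e)) =
      F ∅ 0 + ∑ e ∈ S, F (insert e (pre E t (t e)))
        (update (X Γ E t z (t e)) e (Γ e (pre E t (t e)) (X Γ E t z (t e)) (z e))) := by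
  induction hn : S.card using Nat.strong_induction_on generalizing S with
  | _ n ih =>
    rcases S.eq_empty_or_nonempty with rfl | h1
    · rw [rs_empty, sum_empty, sum_empty]
    · obtain ⟨e, he, -, h2⟩ := exists_last ht hS hl h1
      have h3 := ih (pre E t (t e)).card (by
        rw [← hn, h2, card_insert_of_notMem (not_mem_pre_self e)]; omega)
        (S := pre E t (t e)) (filter_subset _ _)
        (fun _ he _ hi h => mem_pre.2 ⟨hi, h.trans (mem_pre.1 he).2⟩) rfl
      rw [h2, sum_insert (not_mem_pre_self e), sum_insert (not_mem_pre_self e), rs_insert, gW_eq]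
      change _ + (F _ (rs _ _) + _) = _
      rw [h3]
      exact add_left_comm _ _ _

variable [MeasurableSpace β]

def MRule (Γ : Rule V β) : Prop :=
  ∀ e s, Measurable fun p : (V × ℕ → β) × I => Γ e s p.1 p.2

theorem measurable_pick {Ω γ : Type} [MeasurableSpace Ω] [MeasurableSpace γ]
    {τ : Ω → V × ℕ → ℝ} {ρ : Ω → ℝ} (hτ : ∀ e, Measurable fun ω => τ ω e) (hρ : Measurable ρ)
    {G : Finset (V × ℕ) → Ω → γ} (hG : ∀ s, Measurable (G s)) :
    Measurable fun ω => G (pre E (τ ω) (ρ ω)) ω := by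
  intro B hB
  have : (fun ω => G (pre E (τ ω) (ρ ω)) ω) ⁻¹' B = ⋃ S ∈ E.powerset,
      ((⋂ i ∈ E, {ω | τ ω i < ρ ω ↔ i ∈ S}) ∩ G S ⁻¹' B) := by
    ext ω
    simp only [Set.mem_preimage, Set.mem_iUnion, Set.mem_inter_iff, Set.mem_iInter,
      Set.mem_setOf_eq, exists_prop]
    constructor
    · intro h
      exact ⟨_, mem_powerset.2 (filter_subset _ _),
        fun i hi => ⟨fun h' => mem_pre.2 ⟨hi, h'⟩, fun h' => (mem_pre.1 h').2⟩, h⟩
    · rintro ⟨S, h1, h2, h3⟩
      have : pre E (τ ω) (ρ ω) = S := by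
        ext i
        rw [mem_pre]
        exact ⟨fun h => (h2 i h.1).1 h.2,
          fun h => ⟨mem_powerset.1 h1 h, (h2 i (mem_powerset.1 h1 h)).2 h⟩⟩
      rwa [this]
  rw [this]
  refine Finset.measurableSet_biUnion _ fun S _ => MeasurableSet.inter ?_ (hG S hB)
  refine Finset.measurableSet_biInter _ fun i _ => ?_
  by_cases hi : i ∈ S
  · simpa [hi] using measurableSet_lt (hτ i) hρ
  · simpa [hi] using measurableSet_le hρ (hτ i)

theorem measurable_rs {Ω : Type} [MeasurableSpace Ω] (s : Finset (V × ℕ)) {x : Ω → V × ℕ → β}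
    (hx : ∀ e, Measurable fun ω => x ω e) : Measurable fun ω => rs s (x ω) := by
  refine measurable_pi_lambda _ fun i => ?_
  unfold rs
  split_ifs
  exacts [hx i, measurable_const]

theorem measurable_it {Ω : Type} [MeasurableSpace Ω] (hΓ : MRule Γ)
    {τ : Ω → V × ℕ → ℝ} {ζ : Ω → V × ℕ → I} (hτ : ∀ e, Measurable fun ω => τ ω e)
    (hζ : ∀ e, Measurable fun ω => ζ ω e) (n : ℕ) (e : V × ℕ) :
    Measurable fun ω => it Γ E (τ ω) (ζ ω) n e := by
  induction n generalizing e with
  | zero => exact measurable_const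
  | succ n ih =>
    exact measurable_pick hτ (hτ e)
      (G := fun S ω => Γ e S (rs S (it Γ E (τ ω) (ζ ω) n)) (ζ ω e))
      fun S => (hΓ e S).comp ((measurable_rs S ih).prodMk (hζ e))

theorem measurable_state {Ω γ : Type} [MeasurableSpace Ω] [MeasurableSpace γ] (hΓ : MRule Γ)
    {τ : Ω → V × ℕ → ℝ} {ζ : Ω → V × ℕ → I} {ρ : Ω → ℝ} (hτ : ∀ e, Measurable fun ω => τ ω e)
    (hζ : ∀ e, Measurable fun ω => ζ ω e) (hρ : Measurable ρ)
    {F : Finset (V × ℕ) → (V × ℕ → β) → γ} (hF : ∀ s, Measurable (F s)) :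
    Measurable fun ω => F (pre E (τ ω) (ρ ω)) (X Γ E (τ ω) (ζ ω) (ρ ω)) :=
  measurable_pick hτ hρ (G := fun S ω => F S (rs S (gW Γ E (τ ω) (ζ ω))))
    fun S => (hF S).comp (measurable_rs S (measurable_it hΓ hτ hζ _))

/-- The mean of `F` after the event `e`. -/
noncomputable def LF (Γ : Rule V β) (F : Finset (V × ℕ) → (V × ℕ → β) → ℝ≥0∞) (e : V × ℕ)
    (s : Finset (V × ℕ)) (x : V × ℕ → β) : ℝ≥0∞ :=
  ∫⁻ u : I, F (insert e s) (update x e (Γ e s x u))

theorem measurable_LF (hΓ : MRule Γ) {F : Finset (V × ℕ) → (V × ℕ → β) → ℝ≥0∞}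
    (hF : ∀ s, Measurable (F s)) (e : V × ℕ) (s : Finset (V × ℕ)) : Measurable (LF Γ F e s) :=
  Measurable.lintegral_prod_right'
    (f := fun p : (V × ℕ → β) × I => F (insert e s) (update p.1 e (Γ e s p.1 p.2)))
    ((hF _).comp (measurable_update'.comp (measurable_fst.prodMk (hΓ e s))))

/-- Supermartingale lemma for fixed keys. -/
theorem chain {K : Type} (hΓ : MRule Γ) (ht : Set.InjOn t E) {κ : V × ℕ → K} (hκ : Injective κ)
    {F : Finset (V × ℕ) → (V × ℕ → β) → ℝ≥0∞} (hF : ∀ s, Measurable (F s)) (hq : q ≤ q')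
    (h : ∀ e ∈ E, q ≤ t e → t e < q' → ∀ x, LF Γ F e (pre E t (t e)) x ≤ F (pre E t (t e)) x) :
    ∫⁻ ω, F (pre E t q') (X Γ E t (fun i => ω (κ i)) q') ∂P143.iid K ≤
      ∫⁻ ω, F (pre E t q) (X Γ E t (fun i => ω (κ i)) q) ∂P143.iid K := by
  induction hn : (pre E t q').card using Nat.strong_induction_on generalizing q' with
  | _ n ih =>
    by_cases h1 : ∃ i ∈ pre E t q', q ≤ t i
    · obtain ⟨i, hi, hqi⟩ := h1
      obtain ⟨e, he, hm, h2⟩ := exists_last_pre ht ⟨i, hi⟩
      have hqe : q ≤ t e := hqi.trans (hm i hi)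
      have hlt := (mem_pre.1 he).2
      refine le_trans ?_ (ih _ (hn ▸ card_pre_lt he) hqe
        (fun e' h1 h3 h4 => h e' h1 h3 (h4.trans hlt)) rfl)
      rw [P143.resample (κ e) (measurable_state (Ω := K → I) hΓ (τ := fun _ => t) (ρ := fun _ => q')
        (ζ := fun ω i => ω (κ i)) (fun _ => measurable_const) (fun _ => measurable_pi_apply _)
        measurable_const hF)]
      refine lintegral_mono fun ω => le_trans (le_of_eq ?_) (h e (mem_pre.1 he).1 hqe hlt _)
      refine lintegral_congr fun u => ?_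
      have h3 : X Γ E t (fun i => update ω (κ e) u (κ i)) (t e) =
          X Γ E t (fun i => ω (κ i)) (t e) :=
        X_congr rfl (fun _ _ _ _ => Iff.rfl) fun j hj =>
          update_of_ne (fun h' => not_mem_pre_self e (hκ h' ▸ hj)) _ _
      rw [X_insert h2, h2, h3, update_self]
    · have h2 : pre E t q' = pre E t q := by
        ext i
        rw [mem_pre, mem_pre]
        exact ⟨fun hi => ⟨hi.1, lt_of_not_ge fun h' => h1 ⟨i, mem_pre.2 hi, h'⟩⟩,
          fun hi => ⟨hi.1, hi.2.trans_le hq⟩⟩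
      simp only [X, h2, le_refl]

end Vale.Agent.P161.C
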