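import Vale.Agent.P161.Stab
import Vale.Agent.P161.C.Root
import Vale.Agent.P161.C.Gen

/-!
Definitions shared by the modules on the critical point.
-/

open Finset
open scoped Classical unitInterval

namespace Vale.Agent.P161.C

open Vale.Agent.P143 (Q)

/-- A tree, a coupling and a finite volume. -/
structure Env (V : Type) where
  T : SimpleGraph V
  θ : ℝ
  D : Finset V

variable {V : Type}

structure Ok (d : ℕ) (E : Env V) : Prop where
  tree : E.T.IsTree
  reg : ∀ v, (E.T.neighborSet v).encard = d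
  hd : 3 ≤ d
  pos : 0 < E.θ
  lo : 1 ≤ 2 * (E.θ ^ 2 * (d - 1))
  hi : E.θ ^ 2 * (d - 1) ≤ 1
  cvx : Cvx E.T E.D

theorem Ok.half {d : ℕ} {E : Env V} (h : Ok d E) : E.θ ^ 2 ≤ 1 / 2 := by
  have h3 : (3 : ℝ) ≤ d := by exact_mod_cast h.hd
  nlinarith [h.hi, sq_nonneg E.θ]

theorem Ok.lt_one {d : ℕ} {E : Env V} (h : Ok d E) : E.θ < 1 := by nlinarith [h.half, h.pos]

theorem Ok.le34 {d : ℕ} {E : Env V} (h : Ok d E) : E.θ ≤ 3 / 4 := by nlinarith [h.half, h.pos]

noncomputable def fld (x : V × ℕ → ℝ) : V × ℕ → ℝ := fun i => max (-1) (min 1 (x i)) / 8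

theorem fld_abs (x : V × ℕ → ℝ) (i : V × ℕ) : |fld x i| ≤ 1 / 8 := by
  have h1 : -1 ≤ max (-1) (min 1 (x i)) := le_max_left _ _
  have h2 : max (-1) (min 1 (x i)) ≤ 1 := max_le (by norm_num) (min_le_left _ _)
  unfold fld
  rw [abs_le]; constructor <;> linarith

theorem fld_of_abs {x : V × ℕ → ℝ} {i : V × ℕ} (h : |x i| ≤ 1) : fld x i = x i / 8 := by
  obtain ⟨h1, h2⟩ := abs_le.1 h
  simp [fld, min_eq_right h2, max_eq_right h1]

section

variable (E : Env V) (s : Finset (V × ℕ)) (x : V × ℕ → ℝ)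

/-- Posterior magnetisation after the observations `x` at the events `s`. -/
noncomputable def mg (v : V) : ℝ := mag E.T E.θ E.D (tl s (fld x)) v

noncomputable def cv (v w : V) : ℝ := cov E.T E.θ E.D (tl s (fld x)) v w

/-- Regression coefficient of the spin at `v` on the spin at `y`. -/
noncomputable def Pr (y v : V) : ℝ := cv E s x y v / (1 - mg E s x y ^ 2)

noncomputable def Lr (y : V) : ℝ := ∑ v ∈ E.D, E.θ ^ E.T.dist y v * Pr E s x y v

noncomputable def L2 (y : V) : ℝ :=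
  ∑ v ∈ E.D, (1 + (E.T.dist y v : ℝ)) * (E.θ ^ E.T.dist y v * Pr E s x y v)

noncomputable def Nn (y : V) : ℝ := ∑ v ∈ E.D with E.T.dist y v ≤ 1, mg E s x v ^ 2

end

/-- Eighth root. -/
noncomputable def rt (z : ℝ) : ℝ := z ^ (1 / 8 : ℝ)

noncomputable def Wg (z N : ℝ) : ℝ := 2 - (rt z)⁻¹ + rt z ^ 3 * N

noncomputable def om (k : ℕ) : ℝ := rt (1 + k)

noncomputable def sr (E : Env V) (Z : ℝ) (s : Finset (V × ℕ)) (x : V × ℕ → ℝ) (y : V) : ℝ :=
  rt (Z + Lr E s x y)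

/-- The Lyapunov weight. -/
noncomputable def Wt (E : Env V) (Z : ℝ) (s : Finset (V × ℕ)) (x : V × ℕ → ℝ) (y : V) : ℝ :=
  Wg (Z + Lr E s x y) (Nn E s x y)

noncomputable def Sh (E : Env V) (Z : ℝ) (s : Finset (V × ℕ)) (x : V × ℕ → ℝ) (y : V) : ℝ :=
  ∑ v ∈ E.D, om (E.T.dist y v) * (Wt E Z s x v + sr E Z s x v ^ 3 * (E.θ ^ 2) ^ E.T.dist y v) *
    Pr E s x y v ^ 2

/-- The jump coefficient of an observation `y` at a vertex of magnetisation `m`. -/
noncomputable def al (y m : ℝ) : ℝ := y / 8 / (1 + y / 8 * m)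

/-- The Lyapunov functional of two copies, with spatial weight centred at `u`. -/
noncomputable def Phi2 (E : Env V) (Z : ℝ) (u : V) (s : Finset (V × ℕ)) (x x' : V × ℕ → ℝ) : ℝ :=
  ∑ v ∈ E.D, om (E.T.dist u v) * (mg E s x v - mg E s x' v) ^ 2 * Wt E Z s x v

/-- The revelation rule. -/
noncomputable def R1 (E : Env V) : Rule V ℝ := fun e s x u => Q (mg E s x e.1) u

end Vale.Agent.P161.C
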