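import Vale.Agent.P161.C.Core

/-!
Markov structure of the tilted Ising measure and the update formulas.

PLAN. First generalise `P161.edge` (same proof through `Zs_split`): for adjacent `p, c ∈ D` there are `a, m` with
`|a|,|m| ≤ 1`, the two magnetisation relations, and for EVERY `f : Finset V → ℝ` depending only on the spins on
the `p` side (`¬ dist c v < dist p v`): `mean (f * sp c) - mean f * mag c = ψ (mean (f * sp p) - mean f * mag p)`,
`ψ = θ (1 - m²)/(1 - θ² m²)`; and `cov p c = θ (1-a²)(1-m²)/(1+θ a m)²`.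
`1 - mag p ² = (1-a²)(1-θ²m²)/(1+θam)²`, `1 - mag c ² = (1-m²)(1-θ²a²)/(1+θam)²`.
`mg_lt`: both spin values have positive weight. `Pr_mul`: induction on `dist m v` with `root_induction`/`btw_ch`.
Updates: `mean_insert`, `mag_insert` (`tl s (fld (update x e y)) = tl s (fld x)` as `e ∉ s`).
`Pr_upd_far`: apply the Markov relation to `f = sp p * sp w`, `sp w`, `sp p`, `1`.
`Pr_upd_path`: with `π = Pr m w`, `P = Pr r m`: the Markov relation along the path from `m` to `w` with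
`f = sp r * sp m` gives `cv' r m = cv r m (1 - 2 a M_m π - a² V_m π²)`, and likewise
`V'_r = V_r (1 - a Pπ (1+M_r)) (1 + a Pπ (1-M_r))`. With `Δ = M_m - M_r P`, `Var± = 1 - (Δ ± P)²`:
`P' = P + (π/2) (a Var₊/(1 + a A) - a Var₋/(1 - a B))`, `A = Pπ(1-M_r)`, `B = Pπ(1+M_r)` (field_simp), and
`a/(1+aA) ≤ a - a²A/2`, `-a/(1-aB) ≤ -a - a²B/2`, `Var₊ - Var₋ = -4ΔP`, `Var± ≥ (Pr p m / θ)/12` because
`Δ ± P = M_m + Pr p m * (t - M_p)` with `t = M_p + Pr r p (±1 - M_r) ∈ [-1,1]` (`cond_mean`, induction), the map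
being affine in `t` with values `(m ± θ)/(1 ± θ m)` at `t = ±1`.
-/

open Finset Function
open scoped Classical unitInterval

namespace Vale.Agent.P161.C

variable {V : Type} {d : ℕ} {E : Env V} {s : Finset (V × ℕ)} {x : V × ℕ → ℝ} {p c m r v w y : V}

/-- `f` depends only on the spins in `A`. -/
def DepOn (A : V → Prop) (f : Finset V → ℝ) : Prop :=
  ∀ S S', (∀ v, A v → sp S v = sp S' v) → f S = f S'

theorem edge_gen {T : SimpleGraph V} {θ : ℝ} (hT : T.IsTree) (h0 : 0 ≤ θ) (h1 : θ < 1) {p w : V}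
    (h : T.Adj p w) {D : Finset V}
    (hp : p ∈ D) (hw : w ∈ D) (s : Finset (V × ℕ)) {x : V × ℕ → ℝ} (hx : ∀ j, |x j| ≤ 1 / 8) :
    ∃ a m : ℝ, |a| ≤ 1 ∧ |m| ≤ 1 ∧ mag T θ D (tl s x) p * (1 + θ * a * m) = a + θ * m ∧
      mag T θ D (tl s x) w * (1 + θ * a * m) = m + θ * a ∧
      ∀ f : Finset V → ℝ, DepOn (fun v => ¬T.dist w v < T.dist p v) f →
        mean T θ D (tl s x) (fun S => f S * sp S w) - mean T θ D (tl s x) f * mag T θ D (tl s x) w =
        θ * (1 - m ^ 2) / (1 - θ ^ 2 * m ^ 2) * (mean T θ D (tl s x) (fun S => f S * sp S p) -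
          mean T θ D (tl s x) f * mag T θ D (tl s x) p) := by
  have d1 := SimpleGraph.dist_eq_one_iff_adj.2 h
  have p1 : ¬T.dist w p < T.dist p p := by rw [SimpleGraph.dist_self]; omega
  have w1 : T.dist w w < T.dist p w := by rw [SimpleGraph.dist_self]; omega
  have k := fun F f g hF => Zs_split (θ := θ) hT h hp hw s x (F := F) (f := f) (g := g) hF
  have e0 := k (fun _ => 1) (fun _ => 1) (fun _ => 1) fun _ _ _ _ => by simp
  have ep := k (fun S => sp S p) (fun S => sp S p) (fun _ => 1) fun _ _ a _ => by simp [a p p1]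
  have ew := k (fun S => sp S w) (fun _ => 1) (fun S => sp S w) fun _ _ _ a => by simp [a w w1]
  have ev := fun (f : Finset V → ℝ) (hf : DepOn (fun v => ¬T.dist w v < T.dist p v) f) =>
    k f f (fun _ => 1) fun _ _ a _ => by simp [hf _ _ a]
  have evp := fun (f : Finset V → ℝ) (hf : DepOn (fun v => ¬T.dist w v < T.dist p v) f) =>
    k (fun S => f S * sp S p) (fun S => f S * sp S p) (fun _ => 1)
      fun _ _ a _ => by simp [hf _ _ a, a p p1]
  have evw := fun (f : Finset V → ℝ) (hf : DepOn (fun v => ¬T.dist w v < T.dist p v) f) =>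
    k (fun S => f S * sp S w) f (fun S => sp S w)
      fun _ _ a b => by simp [hf _ _ a, b w w1]
  simp only [one_mul, sp_sq, mul_assoc, mul_one] at e0 ep ew ev evp evw
  have A0 := Zs_pos (T := T) h0 h1 (D.filter fun v => ¬T.dist w v < T.dist p v)
    (tl_pos (s := s.filter fun j => ¬T.dist w j.1 < T.dist p j.1) hx)
  have B0 := Zs_pos (T := T) h0 h1 (D.filter fun v => T.dist w v < T.dist p v)
    (tl_pos (s := s.filter fun j => T.dist w j.1 < T.dist p j.1) hx)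
  have A1 := abs_mag_le (T := T) h0 h1 (D.filter fun v => ¬T.dist w v < T.dist p v)
    (tl_pos (s := s.filter fun j => ¬T.dist w j.1 < T.dist p j.1) hx) p
  have B1 := abs_mag_le (T := T) h0 h1 (D.filter fun v => T.dist w v < T.dist p v)
    (tl_pos (s := s.filter fun j => T.dist w j.1 < T.dist p j.1) hx) w
  simp only [mag, mean] at *
  generalize Zs T θ (D.filter fun v => ¬T.dist w v < T.dist p v)
    (tl (s.filter fun j => ¬T.dist w j.1 < T.dist p j.1) x) = A at *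
  generalize Zs T θ (D.filter fun v => T.dist w v < T.dist p v)
    (tl (s.filter fun j => T.dist w j.1 < T.dist p j.1) x) = B at *
  obtain ⟨a, ha⟩ : ∃ a, a = (A fun S => sp S p) / A fun _ => 1 := ⟨_, rfl⟩
  obtain ⟨m, hm⟩ : ∃ m, m = (B fun S => sp S w) / B fun _ => 1 := ⟨_, rfl⟩
  rw [← ha] at A1
  rw [← hm] at B1
  rw [eq_div_iff A0.ne'] at ha
  rw [eq_div_iff B0.ne'] at hm
  obtain ⟨a1, a2⟩ := abs_le.1 A1
  obtain ⟨m1, m2⟩ := abs_le.1 B1
  have am : -1 ≤ a * m := by nlinarith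
  have z0 : 0 < 1 + θ * a * m := by nlinarith
  have z1 : 0 < 1 - θ ^ 2 * m ^ 2 := by
    have : m ^ 2 ≤ 1 := by nlinarith
    nlinarith [sq_nonneg θ, sq_nonneg m]
  have e1 : Zs T θ D (tl s x) (fun _ => 1) =
      (A fun _ => 1) * (B fun _ => 1) * (1 + θ * a * m) / 2 := by rw [e0, ← ha, ← hm]; ring
  refine ⟨a, m, A1, B1, ?_, ?_, fun f hf => ?_⟩
  · rw [ep, e1, ← ha, ← hm]
    generalize 1 + θ * a * m = z at z0
    field_simp
  · rw [ew, e1, ← ha, ← hm]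
    generalize 1 + θ * a * m = z at z0
    field_simp
  · rw [evw f hf, evp f hf, ev f hf, ep, ew, e1, ← ha, ← hm]
    obtain ⟨z, hz⟩ : ∃ z, z = 1 + θ * a * m := ⟨_, rfl⟩
    obtain ⟨y, hy⟩ : ∃ y, y = 1 - θ ^ 2 * m ^ 2 := ⟨_, rfl⟩
    rw [← hz] at z0 ⊢
    rw [← hy] at z1 ⊢
    field_simp
    rw [hz, hy]
    ring

theorem mag_sq_lt {T : SimpleGraph V} {θ : ℝ} (h0 : 0 ≤ θ) (h1 : θ < 1) {D : Finset V}
    {L : Finset V → ℝ} (hL : ∀ S, 0 < L S) (hv : v ∈ D) : mag T θ D L v ^ 2 < 1 := by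
  have Z0 := Zs_pos (T := T) h0 h1 D hL
  have k : ∀ (ε : ℝ) (S₀ : Finset V), S₀ ⊆ D → |ε| = 1 → ε * sp S₀ v = -1 →
      ε * Zs T θ D L (fun S => sp S v) < Zs T θ D L fun _ => 1 := by
    intro ε S₀ hS hε h
    unfold Zs
    rw [mul_sum]
    refine sum_lt_sum (fun S _ => ?_) ⟨S₀, mem_powerset.2 hS, ?_⟩
    · have a1 : ε * sp S v ≤ 1 := by
        refine (le_abs_self _).trans ?_
        rw [abs_mul, hε, abs_sp, mul_one]
      have a2 := mul_le_mul_of_nonneg_left a1 (mul_pos (wt_pos (T := T) h0 h1 D S) (hL S)).le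
      linarith
    · have a2 := mul_pos (wt_pos (T := T) h0 h1 D S₀) (hL S₀)
      have : ε * (wt T θ D S₀ * (L S₀ * sp S₀ v)) = wt T θ D S₀ * L S₀ * (ε * sp S₀ v) := by ring
      rw [this, h]
      linarith
  have k1 := k 1 ∅ (empty_subset _) abs_one (by simp [sp])
  have k2 := k (-1) {v} (singleton_subset_iff.2 hv) (by simp) (by simp [sp])
  rw [sq_lt_one_iff_abs_lt_one, mag, mean, abs_div, abs_of_pos Z0, div_lt_one Z0, abs_lt]
  constructor <;> linarith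

/-- Posterior mean. -/
noncomputable def mn (E : Env V) (s : Finset (V × ℕ)) (x : V × ℕ → ℝ) (f : Finset V → ℝ) : ℝ :=
  mean E.T E.θ E.D (tl s (fld x)) f

/-- Covariance of `f` with a spin. -/
noncomputable def Kc (E : Env V) (s : Finset (V × ℕ)) (x : V × ℕ → ℝ) (f : Finset V → ℝ) (v : V) :
    ℝ :=
  mn E s x (fun S => f S * sp S v) - mn E s x f * mg E s x v

theorem Kc_sp : Kc E s x (fun S => sp S y) v = cv E s x y v := rfl

theorem mg_abs (h : Ok d E) : |mg E s x v| ≤ 1 := by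
  exact abs_mag_le h.pos.le h.lt_one _ (tl_pos (fld_abs x)) v

theorem mg_lt (h : Ok d E) (hv : v ∈ E.D) : mg E s x v ^ 2 < 1 := by
  exact mag_sq_lt h.pos.le h.lt_one (tl_pos (fld_abs x)) hv

theorem cv_symm : cv E s x v w = cv E s x w v := by
  simp only [cv, cov, mul_comm]

theorem cv_eq (h : Ok d E) (hy : y ∈ E.D) : cv E s x y v = (1 - mg E s x y ^ 2) * Pr E s x y v := by
  have := mg_lt (s := s) (x := x) h hy
  rw [Pr, mul_div_cancel₀]
  linarith

theorem cv_self (h : Ok d E) : cv E s x y y = 1 - mg E s x y ^ 2 :=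
  cov_self h.pos.le h.lt_one _ (tl_pos (fld_abs x)) y

theorem Pr_self (h : Ok d E) (hy : y ∈ E.D) : Pr E s x y y = 1 := by
  have := mg_lt (s := s) (x := x) h hy
  rw [Pr, cv_self h, div_self]
  linarith

theorem edge_full (h : Ok d E) (hp : p ∈ E.D) (hc : c ∈ E.D) (ha : E.T.Adj p c) :
    ∃ a m : ℝ, |a| ≤ 1 ∧ |m| ≤ 1 ∧ mg E s x p * (1 + E.θ * a * m) = a + E.θ * m ∧
      mg E s x c * (1 + E.θ * a * m) = m + E.θ * a ∧
      Pr E s x p c = E.θ * (1 - m ^ 2) / (1 - E.θ ^ 2 * m ^ 2) ∧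
      ∀ f : Finset V → ℝ, DepOn (fun v => ¬E.T.dist c v < E.T.dist p v) f →
        Kc E s x f c = Pr E s x p c * Kc E s x f p := by
  obtain ⟨a, m, a1, m1, e1, e2, e3⟩ := edge_gen h.tree h.pos.le h.lt_one ha hp hc s (fld_abs x)
  have e4 : Pr E s x p c = E.θ * (1 - m ^ 2) / (1 - E.θ ^ 2 * m ^ 2) := by
    have k : Kc E s x (fun S => sp S p) c = _ * Kc E s x (fun S => sp S p) p :=
      e3 (fun S => sp S p) fun S S' hS => hS p (by beta_reduce; rw [SimpleGraph.dist_self]; omega)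
    have := mg_lt (s := s) (x := x) h hp
    rw [Kc_sp, Kc_sp, cv_self h] at k
    rw [Pr, k, mul_div_assoc, div_self, mul_one]
    linarith
  exact ⟨a, m, a1, m1, e1, e2, e4, fun f hf => by rw [e4]; exact e3 f hf⟩

theorem var_eq {θ a m M : ℝ} (z0 : 0 < 1 + θ * a * m) (e : M * (1 + θ * a * m) = a + θ * m) :
    1 - M ^ 2 = (1 - a ^ 2) * (1 - θ ^ 2 * m ^ 2) / (1 + θ * a * m) ^ 2 := by
  rw [eq_div_iff (by positivity)]
  linear_combination (-(M * (1 + θ * a * m)) - (a + θ * m)) * e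

theorem edge_data (h : Ok d E) (hp : p ∈ E.D) (hc : c ∈ E.D) (ha : E.T.Adj p c) :
    ∃ a m : ℝ, |a| ≤ 1 ∧ |m| ≤ 1 ∧ mg E s x p * (1 + E.θ * a * m) = a + E.θ * m ∧
      mg E s x c * (1 + E.θ * a * m) = m + E.θ * a ∧
      Pr E s x p c = E.θ * (1 - m ^ 2) / (1 - E.θ ^ 2 * m ^ 2) ∧
      Pr E s x c p = E.θ * (1 - a ^ 2) / (1 - E.θ ^ 2 * a ^ 2) := by
  obtain ⟨a, m, a1, m1, e1, e2, e3, -⟩ := edge_full (s := s) (x := x) h hp hc ha
  refine ⟨a, m, a1, m1, e1, e2, e3, ?_⟩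
  obtain ⟨z0, -⟩ := z_bound h.pos.le h.half a1 m1
  obtain ⟨-, y1, -, -⟩ := y_bound h.half a1
  obtain ⟨-, y2, -, -⟩ := y_bound h.half m1
  have hc' := mg_lt (s := s) (x := x) h hc
  have k1 := var_eq z0 e1
  have k2 := var_eq (a := m) (m := a) (M := mg E s x c) (by rwa [mul_right_comm])
    (by rwa [mul_right_comm E.θ])
  have m2 : 1 - m ^ 2 ≠ 0 := by
    intro h0
    rw [h0] at k2
    simp only [zero_mul, zero_div] at k2
    linarith
  rw [Pr, cv_symm, cv_eq h hp, e3, k1, k2, mul_right_comm E.θ m a]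
  have y1' : 1 - E.θ ^ 2 * a ^ 2 ≠ 0 := by linarith
  have y2' : 1 - E.θ ^ 2 * m ^ 2 ≠ 0 := by linarith
  generalize 1 + E.θ * a * m = z at *
  generalize 1 - E.θ ^ 2 * a ^ 2 = ya at *
  generalize 1 - E.θ ^ 2 * m ^ 2 = ym at *
  field_simp

/-- The Markov property along a path. -/
theorem markov (h : Ok d E) (hm : m ∈ E.D) : ∀ w ∈ E.D, ∀ f : Finset V → ℝ,
    DepOn (fun v => Btw E.T v m w) f → Kc E s x f w = Pr E s x m w * Kc E s x f m := by
  refine root_induction h.tree h.cvx hm (fun f _ => by rw [Pr_self h hm, one_mul]) ?_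
  intro p hp c hc ih
  obtain ⟨c1, c2, c3⟩ := mem_ch.1 hc
  have hb : Btw E.T m p c := by
    unfold Btw
    rw [SimpleGraph.dist_eq_one_iff_adj.2 c2, c3]
  obtain ⟨a, m', -, -, -, -, -, e⟩ := edge_full (s := s) (x := x) h hp c1 c2
  have key : ∀ f : Finset V → ℝ, DepOn (fun v => Btw E.T v m c) f →
      Kc E s x f c = Pr E s x p c * (Pr E s x m p * Kc E s x f m) := by
    intro f hf
    rw [e f, ih f]
    · exact fun S S' hS => hf S S' fun v hv => hS v (btw_trans h.tree hv hb).1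
    · refine fun S S' hS => hf S S' fun v hv => hS v ?_
      have := (btw_trans h.tree hv hb).2
      unfold Btw at this
      beta_reduce
      rw [SimpleGraph.dist_comm (u := c), SimpleGraph.dist_comm (u := p)]
      omega
  have k := key (fun S => sp S m) fun S S' hS => hS m (btw_left m c)
  rw [Kc_sp, Kc_sp, cv_self h, cv_eq h hm] at k
  have := mg_lt (s := s) (x := x) h hm
  have k2 : Pr E s x m c = Pr E s x p c * Pr E s x m p :=
    mul_left_cancel₀ (a := 1 - mg E s x m ^ 2) (by linarith) (by rw [k]; ring)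
  intro f hf
  rw [key f hf, k2, mul_assoc]

theorem cv_mul' (h : Ok d E) (hm : m ∈ E.D) (hv : v ∈ E.D) (hb : Btw E.T y m v) :
    cv E s x y v = cv E s x y m * Pr E s x m v := by
  have := markov (s := s) (x := x) h hm v hv (fun S => sp S y) fun S S' hS => hS y hb
  rw [Kc_sp, Kc_sp] at this
  rw [this, mul_comm]

theorem Pr_mul (h : Ok d E) (hy : y ∈ E.D) (hv : v ∈ E.D) (hb : Btw E.T y m v) :
    Pr E s x y v = Pr E s x y m * Pr E s x m v := by
  have hm : m ∈ E.D := h.cvx y hy v hv m hb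
  rw [Pr, cv_mul' h hm hv hb, Pr, Pr]
  ring

theorem Pr_adj (h : Ok d E) (hp : p ∈ E.D) (hc : c ∈ E.D) (ha : E.T.Adj p c) :
    0 ≤ Pr E s x p c ∧ Pr E s x p c ≤ E.θ := by
  obtain ⟨a, m, -, m1, -, -, e3, -⟩ := edge_full (s := s) (x := x) h hp hc ha
  rw [e3]
  exact psi_bound h.pos.le h.half m1

theorem btw_of_ch (hc : c ∈ ch E.T E.D r p) : Btw E.T r p c := by
  obtain ⟨-, c2, c3⟩ := mem_ch.1 hc
  unfold Btw
  rw [SimpleGraph.dist_eq_one_iff_adj.2 c2, c3]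

theorem Pr_bound (h : Ok d E) (hy : y ∈ E.D) :
    ∀ v ∈ E.D, 0 ≤ Pr E s x y v ∧ Pr E s x y v ≤ E.θ ^ E.T.dist y v := by
  refine root_induction h.tree h.cvx hy ?_ ?_
  · rw [Pr_self h hy, SimpleGraph.dist_self]
    simp
  · intro p hp c hc ih
    obtain ⟨c1, c2, c3⟩ := mem_ch.1 hc
    obtain ⟨a1, a2⟩ := Pr_adj (s := s) (x := x) h hp c1 c2
    rw [Pr_mul h hy c1 (btw_of_ch hc), c3, pow_succ]
    exact ⟨mul_nonneg ih.1 a1, mul_le_mul ih.2 a2 a1 (pow_nonneg h.pos.le _)⟩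

theorem Pr_nonneg (h : Ok d E) (hy : y ∈ E.D) (hv : v ∈ E.D) : 0 ≤ Pr E s x y v := by
  exact (Pr_bound h hy v hv).1

theorem Pr_le (h : Ok d E) (hy : y ∈ E.D) (hv : v ∈ E.D) : Pr E s x y v ≤ E.θ ^ E.T.dist y v := by
  exact (Pr_bound h hy v hv).2

theorem cv_nonneg (h : Ok d E) (hy : y ∈ E.D) (hv : v ∈ E.D) : 0 ≤ cv E s x y v := by
  rw [cv_eq h hy]
  exact mul_nonneg (by linarith [mg_lt (s := s) (x := x) h hy]) (Pr_nonneg h hy hv)

theorem cv_le_Pr (h : Ok d E) (hy : y ∈ E.D) (hv : v ∈ E.D) : cv E s x y v ≤ Pr E s x y v := by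
  rw [cv_eq h hy]
  exact mul_le_of_le_one_left (Pr_nonneg h hy hv) (by linarith [sq_nonneg (mg E s x y)])

theorem cv_mul (h : Ok d E) (hy : y ∈ E.D) (hv : v ∈ E.D) (hb : Btw E.T y m v) :
    cv E s x y v = cv E s x y m * Pr E s x m v := by
  exact cv_mul' h (h.cvx y hy v hv m hb) hv hb

theorem var_le (h : Ok d E) (hp : p ∈ E.D) (hc : c ∈ E.D) (ha : E.T.Adj p c) :
    E.θ * (1 - mg E s x c ^ 2) ≤ 12 * Pr E s x p c := by
  obtain ⟨a, m, a1, m1, -, e2, e3, -⟩ := edge_full (s := s) (x := x) h hp hc ha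
  obtain ⟨z0, -⟩ := z_bound h.pos.le h.half a1 m1
  obtain ⟨-, y1, y1', -⟩ := y_bound h.half a1
  obtain ⟨m2, y2, y2', -⟩ := y_bound h.half m1
  have k2 := var_eq (a := m) (m := a) (M := mg E s x c) (by rwa [mul_right_comm])
    (by rwa [mul_right_comm E.θ])
  have t1 : E.θ ≤ 71 / 100 := by nlinarith [h.half, h.pos]
  have z1 : 29 / 100 ≤ 1 + E.θ * m * a := by
    have : |m * a| ≤ 1 := by rw [abs_mul]; exact mul_le_one₀ m1 (abs_nonneg _) a1
    have := (abs_le.1 this).1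
    nlinarith [h.pos]
  rw [k2, e3, ← mul_div_assoc, ← mul_div_assoc, div_le_div_iff₀ (by positivity) (by linarith)]
  have b1 : (1 - E.θ ^ 2 * a ^ 2) * (1 - E.θ ^ 2 * m ^ 2) ≤ 12 * (1 + E.θ * m * a) ^ 2 := by
    have : (1 - E.θ ^ 2 * a ^ 2) * (1 - E.θ ^ 2 * m ^ 2) ≤ 1 :=
      mul_le_one₀ y1' (by linarith) y2'
    nlinarith
  have b2 := mul_le_mul_of_nonneg_left b1 (mul_nonneg h.pos.le (by linarith : 0 ≤ 1 - m ^ 2))
  linarith

theorem step_alg {θ a m P C : ℝ} (h0 : 0 < θ) (h1 : θ ^ 2 ≤ 1 / 2) (a1 : |a| ≤ 1) (m1 : |m| ≤ 1)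
    (e1 : P * (1 + θ * a * m) = a + θ * m) (e2 : C * (1 + θ * a * m) = m + θ * a) :
    C ^ 2 ≤ 3 / 4 * P ^ 2 + 24 * (1 - θ * (1 - m ^ 2) / (1 - θ ^ 2 * m ^ 2) / θ) := by
  obtain ⟨z0, -⟩ := z_bound h0.le h1 a1 m1
  obtain ⟨m2, y2, y2', -⟩ := y_bound h1 m1
  have t1 : θ ≤ 71 / 100 := by nlinarith
  obtain ⟨u, hu⟩ : ∃ u, u = θ * |m| := ⟨_, rfl⟩
  have u0 : 0 ≤ u := by rw [hu]; positivity
  have u1 : u ≤ 71 / 100 := by rw [hu]; nlinarith [abs_nonneg m]
  have u2 : u ^ 2 = θ ^ 2 * m ^ 2 := by rw [hu, mul_pow, sq_abs]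
  have z1 : 1 - u ≤ 1 + θ * a * m := by
    have b1 : |a * m| ≤ |m| := by
      rw [abs_mul]; exact mul_le_of_le_one_left (abs_nonneg _) a1
    have := (abs_le.1 b1).1
    rw [hu]; nlinarith
  obtain ⟨g, hg⟩ : ∃ g, g = C - θ * P := ⟨_, rfl⟩
  have g1 : g * (1 + θ * a * m) = m * (1 - θ ^ 2) := by rw [hg]; linear_combination e2 - θ * e1
  have e : 1 - θ * (1 - m ^ 2) / (1 - θ ^ 2 * m ^ 2) / θ =
      m ^ 2 * (1 - θ ^ 2) / (1 - θ ^ 2 * m ^ 2) := by
    have : 1 - θ ^ 2 * m ^ 2 ≠ 0 := by linarith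
    field_simp
    ring
  have g2 : g ^ 2 ≤ 8 * (m ^ 2 * (1 - θ ^ 2) / (1 - θ ^ 2 * m ^ 2)) := by
    rw [← mul_div_assoc, le_div_iff₀ (by linarith)]
    have b1 : 1 - θ ^ 2 * m ^ 2 ≤ 8 * (1 + θ * a * m) ^ 2 := by
      have : (1 - u) ^ 2 ≤ (1 + θ * a * m) ^ 2 := pow_le_pow_left₀ (by linarith) z1 2
      nlinarith
    have b2 := mul_le_mul_of_nonneg_left b1 (sq_nonneg g)
    have b3 : g ^ 2 * (1 + θ * a * m) ^ 2 = m ^ 2 * (1 - θ ^ 2) ^ 2 := by
      rw [← mul_pow, g1, mul_pow]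
    have b4 : m ^ 2 * (1 - θ ^ 2) ^ 2 ≤ m ^ 2 * (1 - θ ^ 2) :=
      mul_le_mul_of_nonneg_left (by nlinarith [sq_nonneg θ]) (sq_nonneg m)
    linarith
  rw [e]
  have c1 : C = θ * P + g := by rw [hg]; ring
  have c2 : θ ^ 2 * P ^ 2 ≤ 1 / 2 * P ^ 2 := mul_le_mul_of_nonneg_right h1 (sq_nonneg P)
  rw [c1]
  nlinarith [sq_nonneg (θ * P - 2 * g)]

theorem mg_step (h : Ok d E) (hp : p ∈ E.D) (hc : c ∈ E.D) (ha : E.T.Adj p c) :
    mg E s x c ^ 2 ≤ 3 / 4 * mg E s x p ^ 2 + 24 * (1 - Pr E s x p c / E.θ) := by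
  obtain ⟨a, m, a1, m1, e1, e2, e3, -⟩ := edge_full (s := s) (x := x) h hp hc ha
  rw [e3]
  exact step_alg h.pos h.half a1 m1 e1 e2

theorem end_alg {θ m : ℝ} (h0 : 0 < θ) (h1 : θ ^ 2 ≤ 1 / 2) (m1 : |m| ≤ 1) :
    ((m + θ) / (1 + θ * m)) ^ 2 ≤ 1 - (1 - m ^ 2) / (1 - θ ^ 2 * m ^ 2) / 12 := by
  obtain ⟨m2, y2, y2', -⟩ := y_bound h1 m1
  obtain ⟨m3, m4⟩ := abs_le.1 m1
  have t1 : θ ≤ 71 / 100 := by nlinarith
  have u1 : θ * m ≤ 71 / 100 := by nlinarith
  have u2 : -(71 / 100) ≤ θ * m := by nlinarith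
  have e : 1 - (1 - m ^ 2) / (1 - θ ^ 2 * m ^ 2) / 12 - ((m + θ) / (1 + θ * m)) ^ 2 =
      (1 - m ^ 2) * (12 * (1 - θ ^ 2) * (1 - θ * m) - (1 + θ * m)) /
        (12 * (1 + θ * m) ^ 2 * (1 - θ * m)) := by
    have a1 : 1 + θ * m ≠ 0 := by linarith
    have a2 : 1 - θ * m ≠ 0 := by linarith
    rw [show 1 - θ ^ 2 * m ^ 2 = (1 + θ * m) * (1 - θ * m) by ring]
    obtain ⟨u, hu⟩ : ∃ u, u = 1 + θ * m := ⟨_, rfl⟩
    obtain ⟨y, hy⟩ : ∃ y, y = 1 - θ * m := ⟨_, rfl⟩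
    rw [← hu] at a1 ⊢
    rw [← hy] at a2 ⊢
    field_simp
    rw [hu, hy]
    ring
  have a3 : 0 < 1 - θ * m := by linarith
  have a4 : 0 < 1 + θ * m := by linarith
  have : 0 ≤ (1 - m ^ 2) * (12 * (1 - θ ^ 2) * (1 - θ * m) - (1 + θ * m)) /
      (12 * (1 + θ * m) ^ 2 * (1 - θ * m)) :=
    div_nonneg (mul_nonneg (by linarith) (by nlinarith)) (by positivity)
  linarith

theorem edge_alg {θ a m P C t : ℝ} (h0 : 0 < θ) (h1 : θ ^ 2 ≤ 1 / 2) (a1 : |a| ≤ 1) (m1 : |m| ≤ 1)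
    (e1 : P * (1 + θ * a * m) = a + θ * m) (e2 : C * (1 + θ * a * m) = m + θ * a) (ht : |t| ≤ 1) :
    (C + θ * (1 - m ^ 2) / (1 - θ ^ 2 * m ^ 2) * (t - P)) ^ 2 ≤
      1 - θ * (1 - m ^ 2) / (1 - θ ^ 2 * m ^ 2) / θ / 12 := by
  obtain ⟨z0, -⟩ := z_bound h0.le h1 a1 m1
  obtain ⟨m3, m4⟩ := abs_le.1 m1
  obtain ⟨t3, t4⟩ := abs_le.1 ht
  have t1 : θ ≤ 71 / 100 := by nlinarith
  have a3 : 0 < 1 - θ * m := by nlinarith
  have a4 : 0 < 1 + θ * m := by nlinarith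
  have k1 := end_alg h0 h1 m1
  have k2 := end_alg (m := -m) h0 h1 (by rwa [abs_neg])
  rw [neg_sq] at k2
  have e : θ * (1 - m ^ 2) / (1 - θ ^ 2 * m ^ 2) / θ = (1 - m ^ 2) / (1 - θ ^ 2 * m ^ 2) := by
    field_simp
  rw [e]
  have e3 : C + θ * (1 - m ^ 2) / (1 - θ ^ 2 * m ^ 2) * (t - P) =
      (1 + t) / 2 * ((m + θ) / (1 + θ * m)) - (1 - t) / 2 * ((-m + θ) / (1 + θ * -m)) := by
    rw [eq_div_of_mul_eq z0.ne' e1, eq_div_of_mul_eq z0.ne' e2,
      show 1 - θ ^ 2 * m ^ 2 = (1 + θ * m) * (1 - θ * m) by ring,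
      show 1 + θ * -m = 1 - θ * m by ring]
    obtain ⟨u, hu⟩ : ∃ u, u = 1 + θ * m := ⟨_, rfl⟩
    obtain ⟨y, hy⟩ : ∃ y, y = 1 - θ * m := ⟨_, rfl⟩
    obtain ⟨z, hz⟩ : ∃ z, z = 1 + θ * a * m := ⟨_, rfl⟩
    rw [← hu] at a4 ⊢
    rw [← hy] at a3 ⊢
    rw [← hz] at z0 ⊢
    field_simp
    rw [hu, hy, hz]
    ring
  rw [e3]
  generalize (m + θ) / (1 + θ * m) = g₁ at *
  generalize (-m + θ) / (1 + θ * -m) = g₂ at *
  generalize 1 - (1 - m ^ 2) / (1 - θ ^ 2 * m ^ 2) / 12 = B at *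
  have b1 := mul_le_mul_of_nonneg_left k1 (by linarith : 0 ≤ (1 + t) / 2)
  have b2 := mul_le_mul_of_nonneg_left k2 (by linarith : 0 ≤ (1 - t) / 2)
  have b3 := mul_nonneg (mul_nonneg (by linarith : 0 ≤ (1 + t) / 2) (by linarith : 0 ≤ (1 - t) / 2))
    (sq_nonneg (g₁ + g₂))
  nlinarith

theorem edge_var (h : Ok d E) (hp : p ∈ E.D) (hc : c ∈ E.D) (ha : E.T.Adj p c) {t : ℝ}
    (ht : |t| ≤ 1) :
    (mg E s x c + Pr E s x p c * (t - mg E s x p)) ^ 2 ≤ 1 - Pr E s x p c / E.θ / 12 := by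
  obtain ⟨a, m, a1, m1, e1, e2, e3, -⟩ := edge_full (s := s) (x := x) h hp hc ha
  rw [e3]
  exact edge_alg h.pos h.half a1 m1 e1 e2 ht

theorem cond_mean (h : Ok d E) (hr : r ∈ E.D) (hv : v ∈ E.D) {t : ℝ} (ht : |t| ≤ 1) :
    |mg E s x v + Pr E s x r v * (t - mg E s x r)| ≤ 1 := by
  refine root_induction (Q := fun v => |mg E s x v + Pr E s x r v * (t - mg E s x r)| ≤ 1)
    h.tree h.cvx hr ?_ ?_ v hv
  · beta_reduce
    rw [Pr_self h hr]
    simpa using ht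
  · intro p hp c hc ih
    obtain ⟨c1, c2, -⟩ := mem_ch.1 hc
    have k := edge_var (s := s) (x := x) h hp c1 c2 ih
    have k2 := div_nonneg (Pr_adj (s := s) (x := x) h hp c1 c2).1 h.pos.le
    rw [← sq_le_one_iff_abs_le_one, Pr_mul h hr c1 (btw_of_ch hc)]
    have : mg E s x c + Pr E s x r p * Pr E s x p c * (t - mg E s x r) = mg E s x c +
        Pr E s x p c * (mg E s x p + Pr E s x r p * (t - mg E s x r) - mg E s x p) := by ring
    rw [this]
    linarith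

theorem al_abs {o m : ℝ} (ho : |o| ≤ 1) (hm : |m| ≤ 1) : |al o m| ≤ 1 / 7 := by
  have h1 : |o / 8| ≤ 1 / 8 := by
    rw [abs_div, abs_of_pos (by norm_num : (0 : ℝ) < 8)]
    linarith
  have h2 := den_bound h1 hm
  rw [al, abs_div, abs_of_pos (a := 1 + _) (by linarith), div_le_iff₀ (by linarith)]
  linarith

variable {k : ℕ}

theorem mn_upd (h : Ok d E) (he : (w, k) ∉ s) {o : ℝ} (ho : |o| ≤ 1) (f : Finset V → ℝ) :
    mn E (insert (w, k) s) (update x (w, k) o) f =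
      mn E s x f + al o (mg E s x w) * Kc E s x f w := by
  have e1 : tl s (fld (update x (w, k) o)) = tl s (fld x) := by
    funext S
    refine prod_congr rfl fun j hj => ?_
    have : j ≠ (w, k) := fun h => he (h ▸ hj)
    simp [fld, update_of_ne this]
  have e2 : fld (update x (w, k) o) (w, k) = o / 8 := by
    rw [fld_of_abs (by simpa using ho)]
    simp
  have h1 : |o / 8| ≤ 1 / 8 := by
    rw [abs_div, abs_of_pos (by norm_num : (0 : ℝ) < 8)]
    linarith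
  have h2 := den_bound h1 (mg_abs (s := s) (x := x) (v := w) h)
  rw [mn, mean_insert h.pos.le h.lt_one _ he (fld_abs _), e1, e2]
  change (mn E s x f + o / 8 * mn E s x fun S => f S * sp S w) / (1 + o / 8 * mg E s x w) = _
  rw [al, Kc]
  generalize o / 8 = ε at *
  have : 1 + ε * mg E s x w ≠ 0 := by linarith
  field_simp
  ring

theorem mg_upd (h : Ok d E) (he : (w, k) ∉ s) {o : ℝ} (ho : |o| ≤ 1) (v : V) :
    mg E (insert (w, k) s) (update x (w, k) o) v =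
      mg E s x v + al o (mg E s x w) * cv E s x v w := by
  exact mn_upd h he ho fun S => sp S v

theorem cv_upd' (h : Ok d E) (he : (w, k) ∉ s) {o : ℝ} (ho : |o| ≤ 1) (v y : V) :
    cv E (insert (w, k) s) (update x (w, k) o) v y = cv E s x v y + al o (mg E s x w) *
      (Kc E s x (fun S => sp S v * sp S y) w - mg E s x v * cv E s x y w -
        mg E s x y * cv E s x v w) - al o (mg E s x w) ^ 2 * (cv E s x v w * cv E s x y w) := by
  have e : ∀ s x, cv E s x v y = mn E s x (fun S => sp S v * sp S y) - mg E s x v * mg E s x y :=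
    fun _ _ => rfl
  rw [e, e, mn_upd h he ho, mg_upd h he ho, mg_upd h he ho]
  ring

theorem cv_upd (h : Ok d E) (he : (w, k) ∉ s) (v y : V) : ∃ k₃ : ℝ, ∀ o : ℝ, |o| ≤ 1 →
    cv E (insert (w, k) s) (update x (w, k) o) v y = cv E s x v y + al o (mg E s x w) * k₃ -
      al o (mg E s x w) ^ 2 * (cv E s x v w * cv E s x y w) := by
  exact ⟨_, fun o ho => cv_upd' h he ho v y⟩

theorem cv_upd_btw (h : Ok d E) (he : (w, k) ∉ s) {o : ℝ} (ho : |o| ≤ 1) (hw : w ∈ E.D)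
    (hm : m ∈ E.D) (hb : Btw E.T v m w) :
    cv E (insert (w, k) s) (update x (w, k) o) v m = cv E s x v m *
      (1 - 2 * (al o (mg E s x w) * Pr E s x m w) * mg E s x m -
        (al o (mg E s x w) * Pr E s x m w) ^ 2 * (1 - mg E s x m ^ 2)) := by
  have k1 := markov (s := s) (x := x) h hm w hw (fun S => sp S v * sp S m) fun S S' hS => by
    beta_reduce
    rw [hS v hb, hS m (btw_left m w)]
  have k2 : Kc E s x (fun S => sp S v * sp S m) m =
      mg E s x v - (cv E s x v m + mg E s x v * mg E s x m) * mg E s x m := by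
    simp only [Kc, mul_assoc, sp_sq, mul_one, cv, cov, mg, mn, mag]
    ring
  rw [cv_upd' h he ho, k1, k2, cv_mul' h hm hw hb, cv_eq (v := w) h hm]
  ring

theorem Pr_upd_far (h : Ok d E) (he : (w, k) ∉ s) {o : ℝ} (ho : |o| ≤ 1) (hw : w ∈ E.D)
    (hm : m ∈ E.D) (hv : v ∈ E.D) (hb : Btw E.T v m w) :
    Pr E (insert (w, k) s) (update x (w, k) o) m v = Pr E s x m v := by
  have k1 := cv_upd_btw (x := x) h he ho hw hm hb
  have k2 := cv_upd_btw (x := x) h he ho hw hm (btw_left m w)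
  have k3 := mg_lt (s := insert (w, k) s) (x := update x (w, k) o) h hm
  have k4 := mg_lt (s := s) (x := x) h hm
  rw [cv_self h, cv_self h] at k2
  rw [Pr, Pr, cv_symm, k1, cv_symm (v := m), k2, mul_div_mul_right]
  intro h0
  rw [h0] at k2
  linarith

theorem path_alg {a q P R M κ : ℝ} (a1 : |a| ≤ 1 / 7) (q0 : 0 ≤ q) (q1 : q ≤ 1) (P0 : 0 ≤ P)
    (P1 : P ≤ 1) (R1 : |R| ≤ 1) (κ0 : 0 ≤ κ) (hρ : |R + a * ((1 - R ^ 2) * (P * q))| ≤ 1)
    (v1 : (M + P * (1 - R)) ^ 2 ≤ 1 - κ / 12) (v2 : (M + P * (-1 - R)) ^ 2 ≤ 1 - κ / 12) :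
    1 - 2 * (a * q) * M - (a * q) ^ 2 * (1 - M ^ 2) ≤
      (1 - 2 * a * (M - R * P) * q - a ^ 2 * q ^ 2 * κ / 24) *
        (1 - 2 * (a * (P * q)) * R - (a * (P * q)) ^ 2 * (1 - R ^ 2)) := by
  obtain ⟨ρ, hρ'⟩ : ∃ ρ, ρ = R + a * ((1 - R ^ 2) * (P * q)) := ⟨_, rfl⟩
  obtain ⟨F, hF⟩ : ∃ F, F = 1 - 2 * (a * (P * q)) * R - (a * (P * q)) ^ 2 * (1 - R ^ 2) := ⟨_, rfl⟩
  rw [← hρ'] at hρ
  obtain ⟨r1, r2⟩ := abs_le.1 hρ
  have F2 : F ≤ 2 := by
    have b1 : |a * (P * q) * R| ≤ 1 / 7 := by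
      rw [abs_mul, abs_mul, abs_of_nonneg (mul_nonneg P0 q0)]
      exact (mul_le_of_le_one_right (by positivity) R1).trans
        ((mul_le_of_le_one_right (abs_nonneg _) (mul_le_one₀ P1 q0 q1)).trans a1)
    have b2 : 0 ≤ (a * (P * q)) ^ 2 * (1 - R ^ 2) :=
      mul_nonneg (sq_nonneg _) (by rw [← sq_abs]; nlinarith [abs_nonneg R])
    have := (abs_le.1 b1).1
    rw [hF]
    linarith
  have b1 := mul_le_mul_of_nonneg_left v1 (by linarith : 0 ≤ (1 - ρ) / 2)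
  have b2 := mul_le_mul_of_nonneg_left v2 (by linarith : 0 ≤ (1 + ρ) / 2)
  have b3 : κ / 12 ≤ 1 - P ^ 2 - (M - R * P) ^ 2 + 2 * (M - R * P) * P * ρ := by nlinarith
  have b4 := mul_le_mul_of_nonneg_left b3 (sq_nonneg (a * q))
  have b5 := mul_le_mul_of_nonneg_left F2 (mul_nonneg (sq_nonneg (a * q)) κ0)
  have e : (1 - 2 * a * (M - R * P) * q) * F - (1 - 2 * (a * q) * M - (a * q) ^ 2 * (1 - M ^ 2)) =
      (a * q) ^ 2 * (1 - P ^ 2 - (M - R * P) ^ 2 + 2 * (M - R * P) * P * ρ) := by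
    rw [hF, hρ']
    ring
  rw [← hF]
  nlinarith

theorem Pr_upd_path (h : Ok d E) (he : (w, k) ∉ s) (hw : w ∈ E.D) (hr : r ∈ E.D) (hp : p ∈ E.D)
    (hm : m ∈ ch E.T E.D r p) (hb : Btw E.T r m w) : ∃ Δ : ℝ, |Δ| ≤ 2 ∧ ∀ o : ℝ, |o| ≤ 1 →
      Pr E (insert (w, k) s) (update x (w, k) o) r m ≤ Pr E s x r m *
        (1 - 2 * al o (mg E s x w) * Δ * Pr E s x m w -
          al o (mg E s x w) ^ 2 * Pr E s x m w ^ 2 * (Pr E s x p m / E.θ) / 24) := by
  obtain ⟨m1, m2, -⟩ := mem_ch.1 hm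
  have P0 := Pr_nonneg (s := s) (x := x) h hr m1
  have P1 : Pr E s x r m ≤ 1 := (Pr_le h hr m1).trans (pow_le_one₀ h.pos.le h.lt_one.le)
  have q0 := Pr_nonneg (s := s) (x := x) h m1 hw
  have q1 : Pr E s x m w ≤ 1 := (Pr_le h m1 hw).trans (pow_le_one₀ h.pos.le h.lt_one.le)
  have Mr := mg_abs (s := s) (x := x) (v := r) h
  have Mm := mg_abs (s := s) (x := x) (v := m) h
  have var : ∀ t : ℝ, |t| ≤ 1 → (mg E s x m + Pr E s x r m * (t - mg E s x r)) ^ 2 ≤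
      1 - Pr E s x p m / E.θ / 12 := by
    intro t ht
    have k := edge_var (s := s) (x := x) h hp m1 m2 (cond_mean (s := s) (x := x) h hr hp ht)
    rw [Pr_mul h hr m1 (btw_of_ch hm)]
    convert k using 2
    ring
  have κ0 := div_nonneg (Pr_adj (s := s) (x := x) h hp m1 m2).1 h.pos.le
  refine ⟨mg E s x m - mg E s x r * Pr E s x r m, ?_, fun o ho => ?_⟩
  · refine (abs_sub _ _).trans ?_
    have : |mg E s x r * Pr E s x r m| ≤ 1 := by
      rw [abs_mul, abs_of_nonneg P0]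
      exact mul_le_one₀ Mr P0 P1
    linarith
  have k1 := cv_upd_btw (x := x) h he ho hw m1 hb
  have k2 := cv_upd_btw (x := x) h he ho hw hr (btw_left r w)
  have k3 := mg_lt (s := insert (w, k) s) (x := update x (w, k) o) h hr
  have k4 := mg_lt (s := s) (x := x) h hr
  have k5 := mg_abs (s := insert (w, k) s) (x := update x (w, k) o) (v := r) h
  have a1 := al_abs ho (mg_abs (s := s) (x := x) (v := w) h)
  rw [mg_upd h he ho, cv_eq h hr, Pr_mul h hr hw hb] at k5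
  rw [cv_self h, cv_self h, Pr_mul h hr hw hb] at k2
  rw [cv_eq (s := s) h hr] at k1
  have k6 : 0 < 1 - 2 * (al o (mg E s x w) * (Pr E s x r m * Pr E s x m w)) * mg E s x r -
      (al o (mg E s x w) * (Pr E s x r m * Pr E s x m w)) ^ 2 * (1 - mg E s x r ^ 2) :=
    pos_of_mul_pos_left (b := 1 - mg E s x r ^ 2) (by rw [mul_comm, ← k2]; linarith) (by linarith)
  have e : Pr E (insert (w, k) s) (update x (w, k) o) r m =
      cv E (insert (w, k) s) (update x (w, k) o) r m /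
        (1 - mg E (insert (w, k) s) (update x (w, k) o) r ^ 2) := rfl
  rw [e, k1, k2, mul_assoc, mul_div_mul_left _ _ (by linarith), div_le_iff₀ k6,
    mul_assoc (Pr E s x r m)]
  refine mul_le_mul_of_nonneg_left ?_ P0
  exact path_alg a1 q0 q1 P0 P1 Mr κ0 k5 (var 1 (by simp)) (var (-1) (by simp))

theorem mg_congr {x' : V × ℕ → ℝ} (hx : ∀ i ∈ s, x i = x' i) : tl s (fld x) = tl s (fld x') := by
  funext S
  refine prod_congr rfl fun j hj => ?_
  simp [fld, hx j hj]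

theorem measurable_mn (f : Finset V → ℝ) : Measurable fun x => mn E s x f := by
  unfold mn mean Zs tl fld
  fun_prop

theorem measurable_mg (v : V) : Measurable fun x => mg E s x v := by
  exact measurable_mn _

theorem measurable_cv (v w : V) : Measurable fun x => cv E s x v w := by
  exact (measurable_mn _).sub ((measurable_mg v).mul (measurable_mg w))

theorem measurable_Pr (v w : V) : Measurable fun x => Pr E s x v w :=
  (measurable_cv v w).div (((measurable_mg v).pow_const 2).const_sub 1)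

theorem measurable_Lr (y : V) : Measurable fun x => Lr E s x y := by
  unfold Lr
  exact Finset.measurable_sum _ fun v _ => (measurable_Pr y v).const_mul _

theorem measurable_sr (Z : ℝ) (y : V) : Measurable fun x => sr E Z s x y :=
  ((measurable_Lr y).const_add Z).pow_const _

theorem measurable_Wt (Z : ℝ) (y : V) : Measurable fun x => Wt E Z s x y := by
  have h1 := measurable_sr (E := E) (s := s) Z y
  have h2 : Measurable fun x => Nn E s x y :=
    Finset.measurable_sum _ fun v _ => (measurable_mg v).pow_const 2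
  exact (h1.inv.const_sub 2).add ((h1.pow_const 3).mul h2)

theorem measurable_Sh (Z : ℝ) (y : V) : Measurable fun x => Sh E Z s x y := by
  unfold Sh
  exact Finset.measurable_sum _ fun v _ => (((measurable_Wt Z v).add
    (((measurable_sr Z v).pow_const 3).mul_const _)).const_mul _).mul
      ((measurable_Pr y v).pow_const 2)

theorem mrule_R1 : MRule (R1 E) := by
  intro e s
  exact P143.measurable_Q ((measurable_mg e.1).comp measurable_fst)
    (measurable_subtype_coe.comp measurable_snd)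

end Vale.Agent.P161.C
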