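import Vale.Agent.P161.C.Core

/-!
One event, one vertex: real inequalities for the Lyapunov weight.

PLAN. `al (Q m u) m = gj 1 m u` (`P161.gj`, `integral_gj`, `gj_lip`); `P143.lintegral_Q`/`cdf` for the second
moment (density at least 7/16 on [-1,1], `|al| ≥ |Q|/9`); `|Q m u - Q m u'| ≤ (16/7)|u-u'|` from `Q_spec`.
Tangent lines (Bernoulli, `Real.rpow_one_add_le_one_add_mul_self`), `s = rt z`, `s' = rt z'`, `s^8 = z`:
`s'³ ≤ s³ + 3(z'-z)/(8 s⁵)`, `-1/s' ≤ -1/s + (z'-z)/(8 s⁹)`. With `f' = 1/(8s⁹)`, `g = s³`, `g' = 3/(8s⁵)`: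
`Wg z' N' ≤ W + a A - a² Γ + a² B`, `A = f'κ + g'κN + 2gμ`, `Γ = f'υ + g'υN/2`,
`B = gν + g'υν + g'|κ|(2|μ| + ν)` (use `N' ≥ N/2 - a²ν` from `μ² ≤ Nν`). `g'υ, g'|κ| ≤ 2g`,
`2g'|κ||μ| ≤ (g'²/g)κ²N + gν`, `|A| ≤ C(W + gν)`, `A² ≤ C W (κ²/s¹⁸ + κ²N/s¹³ + gν)`. Pointwise
`(D+δ)² W' ≤ D²W + 2DWδ + D²A a + [2|D||δ||a||A| ≤ a²D²A²/W + Wδ²] + ... - a²Γ(D²/2 - δ²) + 2a²B(D²+δ²)`;
integrate, the terms linear in `a` and in `δ` vanish.
-/

open MeasureTheory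
open scoped unitInterval

namespace Vale.Agent.P161.C

open Vale.Agent.P143 (Q Q_spec dens_pos cdf cdf_image cdf_deriv cdf_inj Q_cdf)

theorem al_eq_gj (m u : ℝ) : al (Q m u) m = gj 1 m u := by simp [al, gj]

theorem al_den {w m : ℝ} (hw : |w| ≤ 1) (hm : |m| ≤ 1) :
    7 / 8 ≤ 1 + w / 8 * m ∧ 1 + w / 8 * m ≤ 9 / 8 := by
  have : |w * m| ≤ 1 := by rw [abs_mul]; exact mul_le_one₀ hw (abs_nonneg _) hm
  obtain ⟨h1, h2⟩ := abs_le.1 this
  constructor <;> linarith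

theorem integrable_bd {f : I → ℝ} (mf : Measurable f) {B : ℝ} (h : ∀ u, |f u| ≤ B) :
    Integrable f :=
  Integrable.of_bound mf.aestronglyMeasurable B (ae_of_all _ h)

theorem integral_al {m : ℝ} (hm : |m| ≤ 1) : ∫ u : I, al (Q m u) m = 0 := by
  simp only [al_eq_gj]
  exact integral_gj zero_le_one le_rfl hm

theorem integral_al_sq {m : ℝ} (hm : |m| ≤ 1) : 1 / 400 ≤ ∫ u : I, al (Q m u) m ^ 2 := by
  have h1 := unitInterval.measurePreserving_coe.integral_comp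
    unitInterval.measurableEmbedding_coe (fun u => Q m u ^ 2 / 72 / (1 + Q m u / 8 * m))
  have h2 : ∫ u : I, Q m u ^ 2 / 72 / (1 + Q m u / 8 * m) = 1 / 216 := by
    rw [h1, unitInterval, ← cdf_image hm, integral_image_eq_integral_abs_deriv_smul
      measurableSet_Icc (fun w _ => (cdf_deriv m w).hasDerivWithinAt) (cdf_inj hm),
      setIntegral_congr_fun (g := fun w => 1 / 144 * w ^ 2) measurableSet_Icc,
      integral_Icc_eq_integral_Ioc, ← intervalIntegral.integral_of_le (by norm_num),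
      intervalIntegral.integral_const_mul, integral_pow]
    · norm_num
    · intro w hw
      have := dens_pos hm (abs_le.2 hw)
      beta_reduce
      rw [Q_cdf hm hw, abs_of_pos (half_pos this), smul_eq_mul,
        show 1 + w / 8 * m = 1 + m * w / 8 by ring]
      generalize 1 + m * w / 8 = y at this
      field_simp
      ring
  refine le_trans (by norm_num) (h2.symm.le.trans (integral_mono_of_nonneg (ae_of_all _ fun u => ?_)
    (integrable_bd (B := 1) (by unfold al; fun_prop) fun u => ?_) (ae_of_all _ fun u => ?_)))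
  · have := (al_den (Q_spec hm u.2).2 hm).1
    have : 0 < 1 + Q m u / 8 * m := by linarith
    simp only [Pi.zero_apply]
    positivity
  · rw [abs_pow, al_eq_gj]
    exact pow_le_one₀ (abs_nonneg _) (abs_gj zero_le_one le_rfl hm u)
  · obtain ⟨h3, h4⟩ := al_den (Q_spec hm u.2).2 hm
    simp only [al]
    generalize 1 + Q m u / 8 * m = y at *
    have y0 : 0 < y := by linarith
    rw [div_pow, div_le_div_iff₀ y0 (by positivity)]
    nlinarith [mul_nonneg (mul_nonneg (sq_nonneg (Q m u)) y0.le) (sub_nonneg.2 h4)]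

theorem al_lip {m m' : ℝ} (hm : |m| ≤ 1) (hm' : |m'| ≤ 1) (u : I) :
    |al (Q m u) m - al (Q m' u) m'| ≤ |m - m'| := by
  simpa only [al_eq_gj, one_mul] using gj_lip zero_le_one le_rfl hm hm' u

theorem al_lip_u {m : ℝ} (hm : |m| ≤ 1) (u u' : I) :
    |al (Q m u) m - al (Q m u') m| ≤ |(u : ℝ) - u'| := by
  obtain ⟨a1, a2⟩ := Q_spec hm u.2
  obtain ⟨b1, b2⟩ := Q_spec hm u'.2
  obtain ⟨c1, -⟩ := al_den a2 hm
  obtain ⟨c2, -⟩ := al_den b2 hm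
  rw [← a1, ← b1]
  simp only [Q_cdf hm (abs_le.1 a2), Q_cdf hm (abs_le.1 b2)]
  generalize Q m u = q at *
  generalize Q m u' = q' at *
  have e1 : cdf m q - cdf m q' = (q - q') * ((1 + q / 8 * m + (1 + q' / 8 * m)) / 4) := by
    unfold cdf; ring
  have e2 : al q m - al q' m = (q - q') * (1 / (8 * ((1 + q / 8 * m) * (1 + q' / 8 * m)))) := by
    unfold al
    have : 1 + q / 8 * m ≠ 0 := by linarith
    have : 1 + q' / 8 * m ≠ 0 := by linarith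
    rw [div_sub_div _ _ ‹_› ‹_›, mul_one_div, div_eq_div_iff (by positivity) (by positivity)]
    ring
  rw [e1, e2, abs_mul, abs_mul]
  refine mul_le_mul_of_nonneg_left ?_ (abs_nonneg _)
  generalize 1 + q / 8 * m = y at *
  generalize 1 + q' / 8 * m = y' at *
  have h3 : 7 / 8 * (7 / 8) ≤ y * y' := mul_le_mul c1 c2 (by norm_num) (by linarith)
  rw [abs_of_pos (by positivity), abs_of_pos (by linarith), div_le_iff₀ (by linarith)]
  nlinarith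

theorem measurable_al (m : ℝ) : Measurable fun u : I => al (Q m u) m := by
  unfold al; fun_prop

theorem rt_pow {z : ℝ} (hz : 0 ≤ z) : rt z ^ 8 = z := by
  rw [rt, ← Real.rpow_natCast, ← Real.rpow_mul hz]
  norm_num

theorem one_le_rt {z : ℝ} (hz : 1 ≤ z) : 1 ≤ rt z := by
  exact Real.one_le_rpow hz (by norm_num)

theorem rt_mono {z z' : ℝ} (hz : 0 ≤ z) (h : z ≤ z') : rt z ≤ rt z' := by
  exact Real.rpow_le_rpow hz h (by norm_num)

theorem one_le_Wg {z N : ℝ} (hz : 1 ≤ z) (hN : 0 ≤ N) : 1 ≤ Wg z N ∧ rt z ^ 3 * N ≤ Wg z N := by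
  have h1 := one_le_rt hz
  have h2 : (rt z)⁻¹ ≤ 1 := inv_le_one_of_one_le₀ h1
  have h3 : 0 ≤ rt z ^ 3 * N := by positivity
  unfold Wg
  constructor <;> linarith

theorem one_le_om (k : ℕ) : 1 ≤ om k := by
  exact one_le_rt (by simp)

theorem om_add {i j k : ℕ} (h : k ≤ i + j) : om k ≤ om i * om j := by
  have h1 : (k : ℝ) ≤ i + j := by exact_mod_cast h
  unfold om rt
  rw [← Real.mul_rpow (by positivity) (by positivity)]
  refine Real.rpow_le_rpow (by positivity) ?_ (by norm_num)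
  have : (0 : ℝ) ≤ i * j := by positivity
  nlinarith

theorem om_le (k : ℕ) : om k ≤ (11 / 10) ^ k := by
  refine le_of_pow_le_pow_left₀ (n := 8) (by norm_num) (by positivity) ?_
  rw [om, rt_pow (by positivity), ← pow_mul, mul_comm, pow_mul]
  have h1 := one_add_mul_le_pow (a := (1 : ℝ)) (by norm_num) k
  rw [mul_one] at h1
  exact h1.trans (pow_le_pow_left₀ (by norm_num) (by norm_num) k)

theorem tan_cube {s t : ℝ} (hs : 0 < s) (ht : 0 ≤ t) :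
    t ^ 3 ≤ s ^ 3 * (1 + 3 / 8 * ((t ^ 8 - s ^ 8) / s ^ 8)) := by
  have e : s ^ 3 * (1 + 3 / 8 * ((t ^ 8 - s ^ 8) / s ^ 8)) - t ^ 3 =
      (t - s) ^ 2 * (3 * t ^ 6 + 6 * t ^ 5 * s + 9 * t ^ 4 * s ^ 2 + 12 * t ^ 3 * s ^ 3 +
        15 * t ^ 2 * s ^ 4 + 10 * t * s ^ 5 + 5 * s ^ 6) / (8 * s ^ 5) := by
    field_simp; ring
  have : 0 ≤ (t - s) ^ 2 * (3 * t ^ 6 + 6 * t ^ 5 * s + 9 * t ^ 4 * s ^ 2 + 12 * t ^ 3 * s ^ 3 +
        15 * t ^ 2 * s ^ 4 + 10 * t * s ^ 5 + 5 * s ^ 6) / (8 * s ^ 5) := by positivity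
  linarith

theorem tan_inv {s t : ℝ} (hs : 0 < s) (ht : 0 < t) :
    -t⁻¹ ≤ -s⁻¹ + s⁻¹ / 8 * ((t ^ 8 - s ^ 8) / s ^ 8) := by
  have e : -s⁻¹ + s⁻¹ / 8 * ((t ^ 8 - s ^ 8) / s ^ 8) + t⁻¹ =
      (t - s) ^ 2 * (t ^ 7 + 2 * t ^ 6 * s + 3 * t ^ 5 * s ^ 2 + 4 * t ^ 4 * s ^ 3 +
        5 * t ^ 3 * s ^ 4 + 6 * t ^ 2 * s ^ 5 + 7 * t * s ^ 6 + 8 * s ^ 7) / (8 * s ^ 9 * t) := by
    field_simp; ring
  have : 0 ≤ (t - s) ^ 2 * (t ^ 7 + 2 * t ^ 6 * s + 3 * t ^ 5 * s ^ 2 + 4 * t ^ 4 * s ^ 3 +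
        5 * t ^ 3 * s ^ 4 + 6 * t ^ 2 * s ^ 5 + 7 * t * s ^ 6 + 8 * s ^ 7) / (8 * s ^ 9 * t) := by
    positivity
  linarith

theorem cross_le {x y e : ℝ} (hx : 0 ≤ x) (hy : 0 ≤ y) (h : e ^ 2 ≤ x * y) : 2 * |e| ≤ x + y := by
  refine abs_le_of_sq_le_sq' ?_ (by positivity) |>.2
  rw [mul_pow, sq_abs]
  nlinarith [sq_nonneg (x - y)]

theorem new_nonneg {N μ ν a : ℝ} (hN : 0 ≤ N) (hν : 0 ≤ ν) (hμ : μ ^ 2 ≤ N * ν) :
    0 ≤ N + 2 * a * μ + a ^ 2 * ν ∧ N + 2 * a * μ + a ^ 2 * ν ≤ 2 * N + 2 * (a ^ 2 * ν) ∧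
      N / 2 - a ^ 2 * ν ≤ N + 2 * a * μ + a ^ 2 * ν := by
  have h0 := mul_le_mul_of_nonneg_left hμ (sq_nonneg a)
  have h1 := cross_le (x := N) (y := a ^ 2 * ν) (e := a * μ) hN (by positivity) (by nlinarith)
  have h2 := cross_le (x := N / 2) (y := 2 * (a ^ 2 * ν)) (e := a * μ) (by positivity)
    (by positivity) (by nlinarith)
  have h3 := le_abs_self (a * μ)
  have h4 := neg_abs_le (a * μ)
  refine ⟨?_, ?_, ?_⟩ <;> nlinarith

/-- The tangent bound for the new weight, in normalised variables. -/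
theorem Wg_tan {z z' w N' : ℝ} (hz : 1 ≤ z) (z1 : 1 ≤ z') (z2 : z' ≤ z + w) (hN : 0 ≤ N') :
    2 - (rt z')⁻¹ ≤ 2 - (rt z)⁻¹ + (rt z)⁻¹ / 8 * (w / rt z ^ 8) ∧
    Wg z' N' ≤ 2 - (rt z)⁻¹ + (rt z)⁻¹ / 8 * (w / rt z ^ 8) +
      (1 + 3 / 8 * (w / rt z ^ 8)) * (rt z ^ 3 * N') := by
  have s1 := one_le_rt hz
  have t1 := one_le_rt z1
  have h1 := tan_cube (s := rt z) (t := rt z') (by linarith) (by linarith)
  have h2 := tan_inv (s := rt z) (t := rt z') (by linarith) (by linarith)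
  have h3 : (rt z' ^ 8 - rt z ^ 8) / rt z ^ 8 ≤ w / rt z ^ 8 := by
    refine div_le_div_of_nonneg_right ?_ (by positivity)
    rw [rt_pow (by linarith), rt_pow (by linarith)]; linarith
  have h4 := mul_le_mul_of_nonneg_left h3 (show 0 ≤ (rt z)⁻¹ / 8 by positivity)
  have h5 : rt z' ^ 3 ≤ rt z ^ 3 * (1 + 3 / 8 * (w / rt z ^ 8)) :=
    h1.trans (mul_le_mul_of_nonneg_left (by linarith) (by positivity))
  have h6 := mul_le_mul_of_nonneg_right h5 hN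
  unfold Wg
  constructor
  · linarith
  · nlinarith

theorem core_A {k n v e i A : ℝ} (n0 : 0 ≤ n) (v0 : 0 ≤ v) (he : e ^ 2 ≤ n * v) (i1 : i ≤ 1)
    (i0 : 0 ≤ i) (hA : A = k * i / 8 + 3 / 8 * k * n + 2 * e) :
    A ^ 2 ≤ 12 * ((2 - i + n) * (v + k ^ 2 * i ^ 2 + k ^ 2 * n)) := by
  obtain ⟨W, hW⟩ : ∃ W, W = 2 - i + n := ⟨_, rfl⟩
  have kn : 0 ≤ k ^ 2 * n := by positivity
  have ki : 0 ≤ k ^ 2 * i ^ 2 := by positivity
  have b1 : k ^ 2 * i ^ 2 ≤ W * (k ^ 2 * i ^ 2) := le_mul_of_one_le_left ki (by linarith)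
  have b2 : n * (k ^ 2 * n) ≤ W * (k ^ 2 * n) := mul_le_mul_of_nonneg_right (by linarith) kn
  have b3 : n * v ≤ W * v := mul_le_mul_of_nonneg_right (by linarith) v0
  have b4 : A ^ 2 ≤ 3 * ((k * i / 8) ^ 2 + (3 / 8 * k * n) ^ 2 + (2 * e) ^ 2) := by
    rw [hA]
    linarith [sq_nonneg (k * i / 8 - 3 / 8 * k * n), sq_nonneg (k * i / 8 - 2 * e),
      sq_nonneg (3 / 8 * k * n - 2 * e)]
  have b6 : 0 ≤ n * (k ^ 2 * n) := by positivity
  rw [← hW]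
  linarith

theorem core_W {k y n v e i a W' : ℝ} (hk : |k| ≤ 4) (y0 : 0 ≤ y) (y1 : y ≤ 1)
    (n0 : 0 ≤ n) (v0 : 0 ≤ v) (he : e ^ 2 ≤ n * v) (ha : |a| ≤ 1 / 7)
    (hW : W' ≤ 2 - i + i / 8 * (a * k - a ^ 2 * y) +
      (1 + 3 / 8 * (a * k - a ^ 2 * y)) * (n + 2 * a * e + a ^ 2 * v)) :
    W' ≤ 2 - i + n + a * (k * i / 8 + 3 / 8 * k * n + 2 * e) -
      a ^ 2 * (y * i / 8 + 3 / 16 * (y * n)) + a ^ 2 * (4 * v + 9 / 64 * (k ^ 2 * n)) := by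
  have a2 : a ^ 2 ≤ 1 / 49 := by rw [← sq_abs]; nlinarith [abs_nonneg a]
  obtain ⟨-, -, c1⟩ := new_nonneg (a := a) n0 v0 he
  have c2 := mul_le_mul_of_nonneg_left c1 (show 0 ≤ 3 / 8 * (a ^ 2 * y) by positivity)
  have c3 := cross_le (x := 9 / 64 * (k ^ 2 * n)) (y := v) (e := 3 / 8 * (k * e))
    (by positivity) v0 (by linarith [mul_le_mul_of_nonneg_left he (sq_nonneg k)])
  have c4 : 3 / 8 * k * (2 * e + a * v) + 3 / 8 * (a ^ 2 * y) * v + v ≤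
      4 * v + 9 / 64 * (k ^ 2 * n) := by
    have c5 : k * a ≤ 1 := by
      have : |k * a| ≤ 4 * (1 / 7) := by
        rw [abs_mul]; exact mul_le_mul hk ha (abs_nonneg _) (by norm_num)
      linarith [(abs_le.1 this).2]
    have c6 := mul_le_of_le_one_left v0 c5
    have c7 : a ^ 2 * y ≤ 1 := mul_le_one₀ (by linarith) y0 y1
    have c8 := mul_le_of_le_one_left v0 c7
    have c9 := le_abs_self (3 / 8 * (k * e))
    linarith
  have c5 := mul_le_mul_of_nonneg_left c4 (sq_nonneg a)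
  linarith

theorem core_fin {W A G R B v a δ β D W' : ℝ} (W1 : 1 ≤ W) (v0 : 0 ≤ v) (R0 : 0 ≤ R) (G0 : 0 ≤ G)
    (B0 : 0 ≤ B) (G1 : G ≤ W) (B1 : B ≤ 4 * R) (B2 : B ≤ 4 * (W + v)) (R1 : R ≤ 32 * (W + v))
    (A1 : A ^ 2 ≤ 12 * (W * R)) (ha : |a| ≤ 1 / 7) (hδ : |δ| ≤ β)
    (h1 : W' ≤ W + a * A - a ^ 2 * G + a ^ 2 * B) :
    (D + δ) ^ 2 * W' ≤ D ^ 2 * W + 2 * D * W * δ + D ^ 2 * A * a - D ^ 2 * G / 2 * a ^ 2 +
      (D ^ 2 * R + 6 * (W + v) * β ^ 2) := by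
  have a2 : a ^ 2 ≤ 1 / 49 := by rw [← sq_abs]; nlinarith [abs_nonneg a]
  have d2 : δ ^ 2 ≤ β ^ 2 := by rw [← sq_abs]; exact pow_le_pow_left₀ (abs_nonneg _) hδ 2
  have A2 : |A| ≤ 20 * (W + v) := by
    refine abs_le_of_sq_le_sq ?_ (by positivity)
    have b2 := mul_le_mul_of_nonneg_left R1 (show 0 ≤ W by linarith)
    have b3 : W * (W + v) ≤ (W + v) * (W + v) :=
      mul_le_mul_of_nonneg_right (by linarith) (by linarith)
    have b4 : 0 ≤ (W + v) * (W + v) := by positivity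
    linarith
  have h2 : 2 * D * δ * (a * A) ≤ 12 / 49 * (D ^ 2 * R) + W * β ^ 2 := by
    refine le_of_mul_le_mul_left ?_ (show 0 < W by linarith)
    have c1 : (a * A) ^ 2 ≤ 1 / 49 * (12 * (W * R)) := by
      rw [mul_pow]; exact mul_le_mul a2 A1 (sq_nonneg _) (by norm_num)
    have c2 := mul_le_mul_of_nonneg_left c1 (sq_nonneg D)
    have c3 := mul_le_mul_of_nonneg_left d2 (sq_nonneg W)
    linarith [sq_nonneg (D * (a * A) - W * δ)]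
  have h3 : δ ^ 2 * (a * A) ≤ β ^ 2 * (3 * (W + v)) := by
    have c1 : |a * A| ≤ 3 * (W + v) := by
      rw [abs_mul]
      have := mul_le_mul ha A2 (abs_nonneg _) (by norm_num)
      linarith
    exact (mul_le_mul_of_nonneg_left (le_abs_self _) (sq_nonneg _)).trans
      (mul_le_mul d2 c1 (abs_nonneg _) (sq_nonneg _))
  have h4 : a ^ 2 * G * (D ^ 2 / 2 - δ ^ 2) ≤ a ^ 2 * G * (D + δ) ^ 2 :=
    mul_le_mul_of_nonneg_left (by linarith [sq_nonneg (D + 2 * δ)]) (by positivity)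
  have h5 : a ^ 2 * G * δ ^ 2 ≤ 1 / 49 * W * β ^ 2 :=
    mul_le_mul (mul_le_mul a2 G1 G0 (by norm_num)) d2 (sq_nonneg _) (by positivity)
  have h6 : a ^ 2 * B * (D + δ) ^ 2 ≤ 1 / 49 * B * (2 * D ^ 2 + 2 * β ^ 2) :=
    mul_le_mul (mul_le_mul_of_nonneg_right a2 B0) (by linarith [sq_nonneg (D - δ)])
      (sq_nonneg _) (by positivity)
  have h7 := mul_le_mul_of_nonneg_left B1 (sq_nonneg D)
  have h8 := mul_le_mul_of_nonneg_left B2 (sq_nonneg β)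
  have h9 := mul_le_mul_of_nonneg_left d2 (show 0 ≤ W by linarith)
  have h10 := mul_le_mul_of_nonneg_left h1 (sq_nonneg (D + δ))
  have h11 : 0 ≤ D ^ 2 * R := by positivity
  have h12 : 0 ≤ W * β ^ 2 := by positivity
  have h13 : 0 ≤ v * β ^ 2 := by positivity
  linarith

theorem pair_core {k y n v e i a δ β D W' : ℝ} (hk : |k| ≤ 4) (y0 : 0 ≤ y) (y1 : y ≤ 1)
    (n0 : 0 ≤ n) (v0 : 0 ≤ v) (he : e ^ 2 ≤ n * v) (i0 : 0 ≤ i) (i1 : i ≤ 1) (ha : |a| ≤ 1 / 7)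
    (hδ : |δ| ≤ β)
    (hW : W' ≤ 2 - i + i / 8 * (a * k - a ^ 2 * y) +
      (1 + 3 / 8 * (a * k - a ^ 2 * y)) * (n + 2 * a * e + a ^ 2 * v)) :
    (D + δ) ^ 2 * W' ≤ D ^ 2 * (2 - i + n) + 2 * D * (2 - i + n) * δ +
      D ^ 2 * (k * i / 8 + 3 / 8 * k * n + 2 * e) * a -
      D ^ 2 * (y * i / 8 + 3 / 16 * (y * n)) / 2 * a ^ 2 +
      (D ^ 2 * (v + k ^ 2 * i ^ 2 + k ^ 2 * n) + 6 * (2 - i + n + v) * β ^ 2) := by
  have k2 : k ^ 2 ≤ 16 := by rw [← sq_abs]; nlinarith [abs_nonneg k]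
  have kn : 0 ≤ k ^ 2 * n := by positivity
  have ki : 0 ≤ k ^ 2 * i ^ 2 := by positivity
  have kn' : k ^ 2 * n ≤ 16 * n := mul_le_mul_of_nonneg_right k2 n0
  have ki' : k ^ 2 * i ^ 2 ≤ 16 * 1 :=
    mul_le_mul k2 (pow_le_one₀ i0 i1) (sq_nonneg _) (by norm_num)
  have g1 := mul_le_one₀ y1 i0 i1
  have g2 := mul_le_of_le_one_left n0 y1
  exact core_fin (B := 4 * v + 9 / 64 * (k ^ 2 * n)) (by linarith) v0 (by positivity)
    (by positivity) (by positivity) (by linarith) (by linarith) (by linarith) (by linarith)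
    (core_A n0 v0 he i1 i0 rfl) ha hδ (core_W hk y0 y1 n0 v0 he ha hW)

theorem integral_five {f g k : I → ℝ} (hf : Integrable f) (hg : Integrable g) (hk : Integrable k)
    (c₁ c₂ c₃ c₄ c₅ : ℝ) : Integrable (fun u => c₁ + c₂ * f u + c₃ * g u - c₄ * k u + c₅) ∧
      ∫ u, (c₁ + c₂ * f u + c₃ * g u - c₄ * k u + c₅) =
        c₁ + c₂ * (∫ u, f u) + c₃ * (∫ u, g u) - c₄ * (∫ u, k u) + c₅ := by
  have i1 : Integrable fun u => c₁ + c₂ * f u := (integrable_const _).add (hf.const_mul _)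
  have i2 : Integrable fun u => c₁ + c₂ * f u + c₃ * g u := i1.add (hg.const_mul _)
  have i3 : Integrable fun u => c₁ + c₂ * f u + c₃ * g u - c₄ * k u := i2.sub (hk.const_mul _)
  refine ⟨i3.add (integrable_const _), ?_⟩
  rw [integral_add i3 (integrable_const _), integral_sub i2 (hk.const_mul _),
    integral_add i1 (hg.const_mul _), integral_add (integrable_const _) (hf.const_mul _),
    integral_const_mul, integral_const_mul, integral_const_mul]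
  simp only [integral_const, probReal_univ, one_smul]

theorem Wg_new {z N κ υ μ ν a z' : ℝ} (hz : 1 ≤ z) (hN : 0 ≤ N) (hν : 0 ≤ ν) (hμ : μ ^ 2 ≤ N * ν)
    (υ0 : 0 ≤ υ) (hκ : |κ| ≤ 4 * z) (ha : |a| ≤ 1 / 7) (z1 : 1 ≤ z')
    (z2 : z' ≤ z + a * κ - a ^ 2 * υ) :
    Wg z' (N + 2 * a * μ + a ^ 2 * ν) ≤ 4 * (Wg z N + rt z ^ 3 * ν) := by
  obtain ⟨n1, n2, -⟩ := new_nonneg (a := a) hN hν hμ
  have s1 := one_le_rt hz
  have a2 : a ^ 2 ≤ 1 / 49 := by rw [← sq_abs]; nlinarith [abs_nonneg a]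
  have h0 : |a * κ| ≤ 1 / 7 * (4 * z) := by
    rw [abs_mul]; exact mul_le_mul ha hκ (abs_nonneg _) (by norm_num)
  have h1 := (Wg_tan (w := z) hz z1 (by
    have := le_abs_self (a * κ)
    have : 0 ≤ a ^ 2 * υ := by positivity
    linarith) n1).2
  rw [rt_pow (by linarith), div_self (by linarith)] at h1
  have h2 : (rt z)⁻¹ ≤ 1 := inv_le_one_of_one_le₀ s1
  have h3 : 0 ≤ (rt z)⁻¹ := by positivity
  have h4 := mul_le_mul_of_nonneg_left n2 (show 0 ≤ rt z ^ 3 by positivity)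
  have h5 : rt z ^ 3 * (a ^ 2 * ν) ≤ rt z ^ 3 * (1 / 49 * ν) := by gcongr
  have h6 : 0 ≤ rt z ^ 3 * N := by positivity
  have h7 : 0 ≤ rt z ^ 3 * ν := by positivity
  refine h1.trans ?_
  unfold Wg
  nlinarith

theorem event_single {z κ υ : ℝ} {a z' : I → ℝ} (hz : 1 ≤ z) (υ0 : 0 ≤ υ) (ma : Measurable a)
    (mz : Measurable z') (ha : ∀ u, |a u| ≤ 1 / 7) (a0 : ∫ u, a u = 0) (a2 : 1 / 400 ≤ ∫ u, a u ^ 2)
    (z1 : ∀ u, 1 ≤ z' u) (z2 : ∀ u, z' u ≤ z + a u * κ - a u ^ 2 * υ) :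
    ∫ u, (2 - (rt (z' u))⁻¹) ≤ 2 - (rt z)⁻¹ - 1 / 3200 * (υ / rt z ^ 9) := by
  have s1 := one_le_rt hz
  have ia := integrable_bd ma ha
  have ia2 : Integrable fun u => a u ^ 2 := integrable_bd (B := 1) (by fun_prop) fun u => by
    rw [abs_pow]; exact pow_le_one₀ (abs_nonneg _) ((ha u).trans (by norm_num))
  obtain ⟨i1, i2⟩ := integral_five ia ia ia2 (2 - (rt z)⁻¹) 0 (κ / (8 * rt z ^ 9))
    (υ / rt z ^ 9 / 8) 0
  have h1 := (integral_mono_of_nonneg (f := fun u => 2 - (rt (z' u))⁻¹) (ae_of_all _ fun u => by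
      have : (rt (z' u))⁻¹ ≤ 1 := inv_le_one_of_one_le₀ (one_le_rt (z1 u))
      simp only [Pi.zero_apply]
      linarith) i1 (ae_of_all _ fun u => by
      refine (Wg_tan (w := a u * κ - a u ^ 2 * υ) (N' := 0) hz (z1 u) (by linarith [z2 u])
        le_rfl).1.trans (le_of_eq ?_)
      field_simp
      ring)).trans i2.le
  rw [a0] at h1
  have h2 := mul_le_mul_of_nonneg_left a2 (show 0 ≤ υ / rt z ^ 9 / 8 by positivity)
  linarith

theorem event_pair : ∃ C : ℝ, 1 ≤ C ∧ ∀ {z N κ υ μ ν D β : ℝ} {a δ z' : I → ℝ}, 1 ≤ z → 0 ≤ N →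
    0 ≤ ν → μ ^ 2 ≤ N * ν → 0 ≤ υ → υ ≤ z → |κ| ≤ 4 * z → Measurable a → Measurable δ →
    Measurable z' → (∀ u, |a u| ≤ 1 / 7) → ∫ u, a u = 0 → 1 / 400 ≤ ∫ u, a u ^ 2 → ∫ u, δ u = 0 →
    (∀ u, |δ u| ≤ β) → (∀ u, 1 ≤ z' u) → (∀ u, z' u ≤ z + a u * κ - a u ^ 2 * υ) →
    ∫ u, (D + δ u) ^ 2 * Wg (z' u) (N + 2 * a u * μ + a u ^ 2 * ν) ≤
      D ^ 2 * Wg z N + D ^ 2 * (C * (rt z ^ 3 * ν + κ ^ 2 / rt z ^ 18 + κ ^ 2 * N / rt z ^ 13) -
        1 / 10000 * (υ / rt z ^ 9 + υ * N / rt z ^ 5)) + C * (Wg z N + rt z ^ 3 * ν) * β ^ 2 := by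
  refine ⟨6, by norm_num, ?_⟩
  intro z N κ υ μ ν D β a δ z' hz hN hν hμ υ0 υ1 hκ ma mδ mz ha a0 a2 δ0 hδ z1 z2
  have s1 := one_le_rt hz
  have s8 := rt_pow (z := z) (by linarith)
  have ia := integrable_bd ma ha
  have iδ := integrable_bd mδ hδ
  have ia2 : Integrable fun u => a u ^ 2 := integrable_bd (B := 1) (by fun_prop) fun u => by
    rw [abs_pow]; exact pow_le_one₀ (abs_nonneg _) ((ha u).trans (by norm_num))
  obtain ⟨k, hk⟩ : ∃ k, k = κ / rt z ^ 8 := ⟨_, rfl⟩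
  obtain ⟨y, hy⟩ : ∃ y, y = υ / rt z ^ 8 := ⟨_, rfl⟩
  have k1 : |k| ≤ 4 := by
    rw [hk, s8, abs_div, abs_of_pos (a := z) (by linarith), div_le_iff₀ (by linarith)]; exact hκ
  have y0 : 0 ≤ y := by rw [hy]; positivity
  have y1 : y ≤ 1 := by rw [hy, s8, div_le_one (by linarith)]; exact υ1
  have key := fun u => pair_core (n := rt z ^ 3 * N) (v := rt z ^ 3 * ν) (e := rt z ^ 3 * μ)
    (i := (rt z)⁻¹) (D := D) (W' := Wg (z' u) (N + 2 * a u * μ + a u ^ 2 * ν)) k1 y0 y1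
    (by positivity) (by positivity)
    (by nlinarith [mul_le_mul_of_nonneg_left hμ (sq_nonneg (rt z ^ 3))]) (by positivity)
    (inv_le_one_of_one_le₀ s1) (ha u) (hδ u)
    ((Wg_tan (w := a u * κ - a u ^ 2 * υ) hz (z1 u) (by linarith [z2 u])
      (new_nonneg hN hν hμ).1).2.trans (le_of_eq (by rw [hk, hy]; ring)))
  refine ((integral_mono_of_nonneg (ae_of_all _ fun u => ?_)
    (integral_five iδ ia ia2 _ _ _ _ _).1 (ae_of_all _ key)).trans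
      (integral_five iδ ia ia2 _ _ _ _ _).2.le).trans ?_
  · have := (one_le_Wg (z1 u) (new_nonneg (a := a u) hN hν hμ).1).1
    simp only [Pi.zero_apply]
    positivity
  rw [a0, δ0]
  have e1 : κ ^ 2 / rt z ^ 18 = k ^ 2 * (rt z)⁻¹ ^ 2 := by rw [hk]; field_simp
  have e2 : κ ^ 2 * N / rt z ^ 13 = k ^ 2 * (rt z ^ 3 * N) := by rw [hk]; field_simp
  have e3 : υ / rt z ^ 9 = y * (rt z)⁻¹ := by rw [hy]; field_simp
  have e4 : υ * N / rt z ^ 5 = y * (rt z ^ 3 * N) := by rw [hy]; field_simp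
  rw [e1, e2, e3, e4, Wg]
  have h1 : 0 ≤ D ^ 2 * (y * (rt z)⁻¹) := by positivity
  have h2 : 0 ≤ D ^ 2 * (y * (rt z ^ 3 * N)) := by positivity
  have h3 : 0 ≤ D ^ 2 * (rt z ^ 3 * ν + k ^ 2 * (rt z)⁻¹ ^ 2 + k ^ 2 * (rt z ^ 3 * N)) := by
    positivity
  have h4 := mul_le_mul_of_nonneg_left a2
    (show 0 ≤ D ^ 2 * (y * (rt z)⁻¹ / 8 + 3 / 16 * (y * (rt z ^ 3 * N))) / 2 by positivity)
  linarith

end Vale.Agent.P161.C
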