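import Vale.Agent.P161.C.Row
import Vale.Agent.P161.Main

/-!
Assembly: the critical free Ising state is a factor of IID.
-/

open MeasureTheory Function Finset Filter Topology
open scoped Classical unitInterval

namespace Vale.Agent.P161.C

variable {V : Type} {d : ℕ} {T : SimpleGraph V} {θ θc : ℝ}

def BM (f : (V × ℕ → I) → ℝ) : Prop := Measurable f ∧ ∀ ω, |f ω| ≤ 1

noncomputable def N2 (f g : (V × ℕ → I) → ℝ) : ℝ := ∫ ω, (f ω - g ω) ^ 2 ∂P143.iid (V × ℕ)

theorem sq_le_four {f g : (V × ℕ → I) → ℝ} (hf : BM f) (hg : BM g) (ω : V × ℕ → I) :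
    (f ω - g ω) ^ 2 ≤ 4 := by
  have := abs_le.1 (hf.2 ω)
  have := abs_le.1 (hg.2 ω)
  nlinarith

theorem int_bd {f : (V × ℕ → I) → ℝ} (hf : Measurable f) (b : ℝ) (h : ∀ ω, |f ω| ≤ b) :
    Integrable f (P143.iid (V × ℕ)) :=
  Integrable.of_bound hf.aestronglyMeasurable b (ae_of_all _ h)

theorem int_N2 {f g : (V × ℕ → I) → ℝ} (hf : BM f) (hg : BM g) :
    Integrable (fun ω => (f ω - g ω) ^ 2) (P143.iid (V × ℕ)) :=
  int_bd ((hf.1.sub hg.1).pow_const 2) 4 fun ω => by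
    rw [abs_of_nonneg (sq_nonneg _)]; exact sq_le_four hf hg ω

theorem N2_tri {f g h : (V × ℕ → I) → ℝ} (hf : BM f) (hg : BM g) (hh : BM h) :
    N2 f h ≤ 2 * N2 f g + 2 * N2 g h := by
  unfold N2
  rw [← integral_const_mul, ← integral_const_mul,
    ← integral_add ((int_N2 hf hg).const_mul _) ((int_N2 hg hh).const_mul _)]
  refine integral_mono (int_N2 hf hh)
    (((int_N2 hf hg).const_mul _).add ((int_N2 hg hh).const_mul _)) fun ω => ?_
  beta_reduce
  nlinarith [sq_nonneg (f ω - 2 * g ω + h ω)]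

theorem N2_comm (f g : (V × ℕ → I) → ℝ) : N2 f g = N2 g f :=
  integral_congr_ae (ae_of_all _ fun ω => by beta_reduce; ring)

theorem bm_Ym {E : Env V} (h : Ok d E) (Ev : Finset (V × ℕ)) (r : ℝ) (v : V) : BM (Ym E Ev r v) :=
  ⟨measurable_Ym, Ym_abs h⟩

theorem bm_Yb (P : Par2 T d θ) (c : V) (R L : ℕ) (r : ℝ) (v : V) : BM (Yb T θ c R L r v) :=
  bm_Ym (P.okb c R) _ r v

theorem card_ball (P : Par2 T d θ) (o x : V) (R : ℕ) : (ball T x R).card = (ball T o R).card := by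
  obtain ⟨g, h1, -⟩ := exists_swap P.tree P.reg o x
  rw [← h1, ball_map P.tree P.reg, card_map]

theorem ev_small (c : ℝ) {ε : ℝ} (hε : 0 < ε) : ∀ᶠ L : ℕ in atTop, 0 < L ∧ c / L ≤ ε :=
  (eventually_gt_atTop 0).and
    ((tendsto_const_div_atTop_nhds_zero_nat c).eventually (ge_mem_nhds hε))

variable [Countable V]

theorem var_small {E : Env V} (h : Ok d E) {L : ℕ} {r ε : ℝ} {v : V} (hr : 0 ≤ r) (hL : 0 < L)
    (h1 : E.D.card * r / L ≤ ε) (h2 : ∫ ω in alive E.D L r,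
      (1 - Ym E (E.D ×ˢ range L) r v ω ^ 2) ∂P143.iid (V × ℕ) ≤ ε) :
    ∫ ω, (1 - Ym E (E.D ×ˢ range L) r v ω ^ 2) ∂P143.iid (V × ℕ) ≤ 2 * ε := by
  have := integral_le_alive (F := fun ω => 1 - Ym E (E.D ×ˢ range L) r v ω ^ 2) (b := 1)
    ((measurable_Ym.pow_const 2).const_sub 1)
    (fun ω => by have := abs_le.1 (Ym_abs (Ev := E.D ×ˢ range L) (r := r) (v := v) h ω); nlinarith)
    (fun ω => by nlinarith [sq_nonneg (Ym E (E.D ×ˢ range L) r v ω)]) E.D hL hr
  linarith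

theorem good (P : Par2 T d θ) (hθ : θ ^ 2 * (d - 1) < 1) (o : V) {r ε : ℝ} (hr : 0 ≤ r)
    (hε : 0 < ε) : ∃ R L₁ : ℕ, 0 < L₁ ∧ (ball T o R).card * r / L₁ ≤ ε ∧ ∀ x D', Cvx T D' →
      ball T x R ⊆ D' → ∀ᶠ L in atTop,
        N2 (Yb T θ x R L₁ r x) (Ym ⟨T, θ, D'⟩ (D' ×ˢ range L) r x) ≤ ε := by
  obtain ⟨R, hR⟩ := vol P hθ hr (show 0 < ε / 8 by positivity)
  obtain ⟨L₁, l0, l1⟩ := (ev_small ((ball T o R).card * r) (show 0 < ε / 16 by positivity)).exists
  refine ⟨R, L₁, l0, by linarith, fun x D' hD' hs => ?_⟩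
  filter_upwards [ev_small (D'.card * r) (show 0 < ε / 32 by positivity), eventually_ge_atTop L₁]
    with L ⟨l2, l3⟩ l4
  have b1 := bm_Yb P x R L₁ r x
  have b2 := bm_Yb P x R L r x
  have b3 := bm_Ym (P.ok hD') (D' ×ˢ range L) r x
  have e1 := integral_le_alive ((b1.1.sub b2.1).pow_const 2) (fun ω => sq_nonneg _)
    (sq_le_four b1 b2) (ball T x R) l0 hr
  have e2 := integral_le_alive ((b2.1.sub b3.1).pow_const 2) (fun ω => sq_nonneg _)
    (sq_le_four b2 b3) D' l2 hr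
  have e3 := hR x (ball T x R) D' L (cvx_ball P.tree P.reg x R) hD' Subset.rfl hs
  have m : MeasurableSet (alive (ball T x R) L₁ r) :=
    (measurable_const.prodMk measurable_id) (measurable_alive (ball T x R) L₁)
  simp only [Pi.sub_apply] at e1 e2
  rw [setIntegral_congr_fun m (g := fun _ => 0) fun ω hω => by
    simp only [Yb, Ym_alive l4 hω, sub_self]; norm_num, integral_zero, card_ball P o x] at e1
  have := N2_tri b1 b2 b3
  unfold N2 at *
  unfold Yb at *
  linarith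

theorem exists_sub (P : Par2 T d θc) (hc : θc ^ 2 * (d - 1) = 1) {γ : ℝ} (hγ : 0 < γ) :
    ∃ θ, Par2 T d θ ∧ θ ^ 2 * (d - 1) < 1 ∧ |θ - θc| < γ := by
  have h3 : (3 : ℝ) ≤ d := by exact_mod_cast P.hd
  have p := P.pos
  obtain ⟨a, a0, a1, a2⟩ : ∃ a : ℝ, 0 < a ∧ a ≤ 1 / 4 ∧ a * θc < γ :=
    ⟨min (1 / 4) (γ / (2 * θc)), by positivity, min_le_left _ _, by
      have := mul_le_mul_of_nonneg_right (min_le_right (1 / 4) (γ / (2 * θc))) p.le
      have e : γ / (2 * θc) * θc = γ / 2 := by field_simp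
      linarith⟩
  have e : ((1 - a) * θc) ^ 2 * (d - 1) = (1 - a) ^ 2 := by rw [mul_pow, mul_assoc, hc, mul_one]
  refine ⟨(1 - a) * θc, ⟨P.tree, P.reg, P.hd, mul_pos (by linarith) p, ?_, ?_⟩, ?_, ?_⟩
  · rw [e]; nlinarith
  · rw [e]; nlinarith
  · rw [e]; nlinarith
  · rw [show (1 - a) * θc - θc = -(a * θc) by ring, abs_neg, abs_of_pos (by positivity)]
    exact a2

theorem exists_seq (P : Par2 T d θc) (hc : θc ^ 2 * (d - 1) = 1) (o : V) :
    ∃ (θ r : ℕ → ℝ) (R L : ℕ → ℕ), Tendsto θ atTop (𝓝 θc) ∧ (∀ j, Par2 T d (θ j)) ∧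
      (∀ j x, N2 (Yb T (θ j) x (R j) (L j) (r j) x)
        (Yb T (θ (j + 1)) x (R (j + 1)) (L (j + 1)) (r (j + 1)) x) ≤ 20 * (1 / 4) ^ j) ∧
      (∀ j x, ∫ ω, (1 - Yb T (θ j) x (R j) (L j) (r j) x ω ^ 2) ∂P143.iid (V × ℕ) ≤
        2 * (1 / 4) ^ j) ∧
      ∀ j D', Cvx T D' → ∀ x, ball T x (R j) ⊆ D' → ∀ᶠ L' in atTop,
        N2 (Yb T (θ j) x (R j) (L j) (r j) x) (Ym ⟨T, θ j, D'⟩ (D' ×ˢ range L') (r j) x) ≤
          (1 / 4) ^ j ∧ ∫ ω, (1 - Ym ⟨T, θ j, D'⟩ (D' ×ˢ range L') (r j) x ω ^ 2)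
            ∂P143.iid (V × ℕ) ≤ 2 * (1 / 4) ^ j := by
  have e0 : ∀ j : ℕ, (0 : ℝ) < (1 / 4) ^ j := fun j => by positivity
  choose r₀ r0 hr₀ using fun j => vdecay (V := V) (e0 j)
  obtain ⟨r, r1, r2⟩ : ∃ r : ℕ → ℝ, (∀ j, r₀ j ≤ r j) ∧ ∀ j, r j ≤ r (j + 1) :=
    ⟨fun j => ∑ i ∈ range (j + 1), r₀ i,
      fun j => single_le_sum (fun i _ => (r0 i).le) (self_mem_range_succ j),
      fun j => by simp only [sum_range_succ _ (j + 1)]; linarith [r0 (j + 1)]⟩
  have r3 : ∀ j, 0 < r j := fun j => (r0 j).trans_le (r1 j)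
  choose γ γ0 hγ using fun j => cauchy P o (r3 j) (e0 j)
  choose θ t1 t2 t3 using fun j : ℕ => exists_sub P hc
    (show 0 < min (min (γ j) (γ (j - 1))) (1 / ((j : ℝ) + 1)) from
      lt_min (lt_min (γ0 _) (γ0 _)) (by positivity))
  choose R L l0 l1 hg using fun j => good (t1 j) (t2 j) o (r3 j).le (e0 j)
  have vs : ∀ i j D', Cvx T D' → ∀ x ∈ D', ∀ᶠ L' in atTop,
      ∫ ω, (1 - Ym ⟨T, θ i, D'⟩ (D' ×ˢ range L') (r j) x ω ^ 2) ∂P143.iid (V × ℕ) ≤
        2 * (1 / 4) ^ j := fun i j D' hD' x hx => by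
    filter_upwards [ev_small (D'.card * r j) (e0 j)] with L' ⟨l2, l3⟩
    exact var_small ((t1 i).ok hD') (r3 j).le l2 l3 (hr₀ j _ (r1 j) ((t1 i).ok hD') x hx L')
  have self : ∀ x R, x ∈ ball T x R := fun x R => by simp [mem_ball P.tree P.reg]
  have mono : ∀ {x R R'}, R ≤ R' → ball T x R ⊆ ball T x R' := fun h u hu => by
    rw [mem_ball P.tree P.reg] at *; omega
  refine ⟨θ, r, R, L, ?_, t1, fun j x => ?_, fun j x => ?_, fun j D' hD' x hs => ?_⟩
  · rw [tendsto_iff_norm_sub_tendsto_zero]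
    exact squeeze_zero (fun _ => norm_nonneg _) (fun j => ((t3 j).trans_le (min_le_right _ _)).le)
      tendsto_one_div_add_atTop_nhds_zero_nat
  · obtain ⟨g, g1, -⟩ := exists_swap P.tree P.reg o x
    have b := fun i y => bm_Yb (t1 i) y (R i) (L i) (r i) y
    have e : N2 (Yb T (θ j) x (R j) (L j) (r j) x)
        (Yb T (θ (j + 1)) x (R (j + 1)) (L (j + 1)) (r (j + 1)) x) =
        N2 (Yb T (θ j) o (R j) (L j) (r j) o)
          (Yb T (θ (j + 1)) o (R (j + 1)) (L (j + 1)) (r (j + 1)) o) := by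
      unfold N2
      rw [← integral_map_aut g.symm.toEquiv (((b j x).1.fun_sub (b (j + 1) x).1).pow_const 2), ← g1]
      refine integral_congr_ae (ae_of_all _ fun ω => ?_)
      exact congrArg₂ (fun a b : ℝ => (a - b) ^ 2) (Yb_map P.tree P.reg g _ _ _ _ _ _ ω)
        (Yb_map P.tree P.reg g _ _ _ _ _ _ ω)
    rw [e]
    obtain ⟨R₀, h₀⟩ := hγ j _ _ (t1 j) (t1 (j + 1)) (t2 j) (t2 (j + 1))
      ((t3 j).trans_le ((min_le_left _ _).trans (min_le_left _ _)))
      ((t3 (j + 1)).trans_le ((min_le_left _ _).trans (min_le_right _ _)))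
    obtain ⟨R', s1, s2, s3⟩ : ∃ R', R₀ ≤ R' ∧ R j ≤ R' ∧ R (j + 1) ≤ R' :=
      ⟨R₀ + R j + R (j + 1), by omega, by omega, by omega⟩
    obtain ⟨L₀, h₁⟩ := h₀ R' s1
    have cb := cvx_ball P.tree P.reg o R'
    obtain ⟨L', a1, a2, a3, a4⟩ := ((hg j o _ cb (mono s2)).and ((hg (j + 1) o _ cb (mono s3)).and
      ((vs (j + 1) j _ cb o (self o R')).and (eventually_ge_atTop L₀)))).exists
    have a5 := h₁ L' a4
    have a6 := time_incr ((t1 (j + 1)).okb o R') L' (r2 j) o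
    have b1 := bm_Yb (t1 j) o R' L' (r j) o
    have b2 := bm_Yb (t1 (j + 1)) o R' L' (r j) o
    have b3 := bm_Yb (t1 (j + 1)) o R' L' (r (j + 1)) o
    have c1 := N2_tri (b j o) b2 (b (j + 1) o)
    have c2 := N2_tri (b j o) b1 b2
    have c3 := N2_tri b2 b3 (b (j + 1) o)
    rw [N2_comm] at a2
    rw [pow_succ] at a2
    have := e0 j
    unfold N2 at *
    unfold Yb at *
    linarith
  · exact var_small ((t1 j).okb x (R j)) (r3 j).le (l0 j)
      (by have := l1 j; rwa [← card_ball P o x] at this)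
      (hr₀ j _ (r1 j) ((t1 j).okb x (R j)) x (self x _) (L j))
  · exact (hg j x D' hD' hs).and (vs j j D' hD' x (hs (self x _)))

omit [Countable V] in
theorem abs_prod_sub (s : Finset V) {a b : V → ℝ} (ha : ∀ v, |a v| ≤ 1) (hb : ∀ v, |b v| ≤ 1) :
    |∏ v ∈ s, a v - ∏ v ∈ s, b v| ≤ ∑ v ∈ s, |a v - b v| := by
  induction s using Finset.induction_on with
  | empty => simp
  | insert v s hv ih =>
    rw [prod_insert hv, prod_insert hv, sum_insert hv]
    have h1 : |∏ v ∈ s, b v| ≤ 1 := by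
      rw [abs_prod]; exact prod_le_one (fun _ _ => abs_nonneg _) fun v _ => hb v
    rw [show a v * ∏ v ∈ s, a v - b v * ∏ v ∈ s, b v =
      (a v - b v) * ∏ v ∈ s, b v + a v * (∏ v ∈ s, a v - ∏ v ∈ s, b v) by ring]
    refine (abs_add_le _ _).trans (add_le_add ?_ ?_) <;> rw [abs_mul]
    · exact mul_le_of_le_one_right (abs_nonneg _) h1
    · exact (mul_le_of_le_one_left (abs_nonneg _) (ha v)).trans ih

theorem abs_half {b : Bool} {y : ℝ} (h : |y| ≤ 1) : |(1 + spin b * y) / 2| ≤ 1 := by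
  have := abs_le.1 h
  rw [abs_le]
  cases b <;> simp only [spin] <;> norm_num <;> constructor <;> linarith

omit [Countable V] in
theorem prod_close (s : Finset V) (η : V → Bool) {X Y : V → (V × ℕ → I) → ℝ} (hX : ∀ v, BM (X v))
    (hY : ∀ v, BM (Y v)) {c : ℝ} (c0 : 0 < c) (h : ∀ v ∈ s, N2 (X v) (Y v) ≤ c ^ 2) :
    |∫ ω, ∏ v ∈ s, (1 + spin (η v) * X v ω) / 2 ∂P143.iid (V × ℕ) -
      ∫ ω, ∏ v ∈ s, (1 + spin (η v) * Y v ω) / 2 ∂P143.iid (V × ℕ)| ≤ s.card * c := by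
  have i : ∀ {X : V → (V × ℕ → I) → ℝ}, (∀ v, BM (X v)) →
      Integrable (fun ω => ∏ v ∈ s, (1 + spin (η v) * X v ω) / 2) (P143.iid (V × ℕ)) := fun hX =>
    int_bd (Finset.measurable_prod _ fun v _ => (((hX v).1.const_mul _).const_add _).div_const _) 1
      fun ω => by
        rw [abs_prod]; exact prod_le_one (fun _ _ => abs_nonneg _) fun v _ => abs_half ((hX v).2 ω)
  have i2 : ∀ v ∈ s, Integrable (fun ω => c⁻¹ / 2 * (X v ω - Y v ω) ^ 2 + c / 2)
      (P143.iid (V × ℕ)) := fun v _ => ((int_N2 (hX v) (hY v)).const_mul _).add (integrable_const _)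
  rw [← integral_sub (i hX) (i hY)]
  refine (abs_integral_le_integral_abs).trans ((integral_mono ((i hX).sub (i hY)).abs
    (integrable_finset_sum s i2) fun ω => ?_).trans ?_)
  · refine (abs_prod_sub s (fun v => abs_half ((hX v).2 ω)) fun v => abs_half ((hY v).2 ω)).trans
      (sum_le_sum fun v _ => ?_)
    have e : |(1 + spin (η v) * X v ω) / 2 - (1 + spin (η v) * Y v ω) / 2| ≤ |X v ω - Y v ω| := by
      rw [show (1 + spin (η v) * X v ω) / 2 - (1 + spin (η v) * Y v ω) / 2 =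
        spin (η v) / 2 * (X v ω - Y v ω) by ring, abs_mul]
      refine mul_le_of_le_one_left (abs_nonneg _) ?_
      cases η v <;> simp only [spin] <;> norm_num [abs_le]
    refine e.trans (le_of_mul_le_mul_left ?_ c0)
    rw [mul_add, ← mul_assoc, ← mul_div_assoc, mul_inv_cancel₀ c0.ne', ← sq_abs]
    nlinarith [sq_nonneg (|X v ω - Y v ω| - c)]
  · rw [integral_finset_sum s i2, ← nsmul_eq_mul]
    refine sum_le_card_nsmul _ _ _ fun v hv => ?_
    rw [integral_add ((int_N2 (hX v) (hY v)).const_mul _) (integrable_const _), integral_const_mul]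
    have := mul_le_mul_of_nonneg_left (h v hv) (show 0 ≤ c⁻¹ / 2 by positivity)
    have e : c⁻¹ / 2 * c ^ 2 = c / 2 := by field_simp
    simp only [integral_const, probReal_univ, one_smul]
    unfold N2 at this
    linarith

omit [Countable V] in
theorem ae_spin {X : ℕ → (V × ℕ → I) → ℝ} (hX : ∀ j, BM (X j))
    (h1 : ∀ j, N2 (X j) (X (j + 1)) ≤ 20 * (1 / 4) ^ j)
    (h2 : ∀ j, ∫ ω, (1 - X j ω ^ 2) ∂P143.iid (V × ℕ) ≤ 2 * (1 / 4) ^ j) :
    ∀ᵐ ω ∂P143.iid (V × ℕ), Tendsto (fun j => X j ω) atTop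
      (𝓝 (spin (decide (0 < limsup (fun j => X j ω) atTop)))) := by
  have e : ((1 / 2 : ℝ) ^ 2) = 1 / 4 := by norm_num
  have b : ∀ j ω, 0 ≤ 1 - X j ω ^ 2 ∧ 1 - X j ω ^ 2 ≤ 1 := fun j ω => by
    have := abs_le.1 ((hX j).2 ω)
    constructor <;> nlinarith [sq_nonneg (X j ω)]
  have m : ∀ j, Measurable fun ω => 1 - X j ω ^ 2 := fun j => ((hX j).1.pow_const 2).const_sub 1
  have i : ∀ j, Integrable (fun ω => (1 - X j ω ^ 2) ^ 2) (P143.iid (V × ℕ)) := fun j =>
    int_bd ((m j).pow_const 2) 1 fun ω => by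
      rw [abs_of_nonneg (sq_nonneg _)]; nlinarith [b j ω]
  filter_upwards [ae_summable (X := fun j ω => X j ω - X (j + 1) ω) (C := 20) (q := 1 / 2)
      (fun j => (hX j).1.sub (hX _).1) (fun j => int_N2 (hX j) (hX _)) (by norm_num) (by norm_num)
      fun j => by rw [e]; exact h1 j,
    ae_summable (X := fun j ω => 1 - X j ω ^ 2) (C := 2) (q := 1 / 2) m i (by norm_num)
      (by norm_num) fun j => by
        rw [e]
        refine (integral_mono (i j) (int_bd (m j) 1 fun ω => ?_) fun ω => ?_).trans (h2 j)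
        · rw [abs_of_nonneg (b j ω).1]; exact (b j ω).2
        · beta_reduce; nlinarith [b j ω]] with ω s1 s2
  obtain ⟨l, hl⟩ := cauchySeq_tendsto_of_complete
    (cauchySeq_of_summable_dist (f := fun j => X j ω) (by simpa [dist_eq_norm] using s1))
  have l2 : 1 - l ^ 2 = 0 :=
    tendsto_nhds_unique ((hl.pow 2).const_sub 1) s2.of_norm.tendsto_atTop_zero
  rw [hl.limsup_eq]
  have : l = 1 ∨ l = -1 := by
    have : (l - 1) * (l + 1) = 0 := by linarith
    rcases mul_eq_zero.1 this with h | h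
    exacts [Or.inl (by linarith), Or.inr (by linarith)]
  rcases this with rfl | rfl <;> simpa [spin, zero_le_one.not_gt] using hl

theorem critical (P : Par2 T d θc) (hc : θc ^ 2 * (d - 1) = 1) :
    ∃ μ : Measure (V → Bool), IsFreeIsing T θc μ ∧ IsFactorOfIID T μ := by
  obtain ⟨o⟩ := P.tree.connected.nonempty
  obtain ⟨θ, r, R, L, t0, t1, h1, h2, h3⟩ := exists_seq P hc o
  obtain ⟨X, hX⟩ : ∃ X : ℕ → V → (V × ℕ → I) → ℝ,
    X = fun j x => Yb T (θ j) x (R j) (L j) (r j) x := ⟨_, rfl⟩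
  have b : ∀ j x, BM (X j x) := fun j x => by rw [hX]; exact bm_Yb (t1 j) _ _ _ _ _
  obtain ⟨Ψ, hΨ⟩ : ∃ Ψ : (V × ℕ → I) → V → Bool,
    Ψ = fun ω v => decide (0 < limsup (fun j => X j v ω) atTop) := ⟨_, rfl⟩
  have mΨ : Measurable Ψ := by
    rw [hΨ]
    refine measurable_pi_lambda _ fun v => measurable_to_bool ?_
    have := measurableSet_lt (measurable_const (a := (0 : ℝ)))
      (Measurable.limsup fun j => (b j v).1)
    refine (congrArg _ ?_).mp this
    ext x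
    simp
  have ms : Measurable (spread : (V → I) → V × ℕ → I) := measurable_pi_lambda _ measurable_spread
  have e0 : (iid V).map (Ψ ∘ spread) = (P143.iid (V × ℕ)).map Ψ := by
    rw [← map_spread, Measure.map_map mΨ ms]; rfl
  refine ⟨(P143.iid (V × ℕ)).map Ψ,
    ⟨Measure.isProbabilityMeasure_map mΨ.aemeasurable, fun D hD η => ?_⟩,
    Ψ ∘ spread, mΨ.comp ms, e0, fun g => ae_of_all _ fun U => funext fun v => ?_⟩
  · have hD₀ := cvx_of_connected P.tree hD
    have hne : D.Nonempty := let ⟨v⟩ := hD.nonempty; ⟨v.1, v.2⟩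
    have mS : MeasurableSet {ξ : V → Bool | ∀ v ∈ D, ξ v = η v} :=
      measurableSet_setOfPred.2 (Measurable.forall fun v => measurable_const.imp
        (measurableSet_setOfPred.1 (measurableSet_eq_fun (by fun_prop) measurable_const)))
    rw [Measure.real, Measure.map_apply mΨ mS, ← Measure.real, ← integral_indicator_one (mΨ mS)]
    have k1 : Tendsto (fun j => ∫ ω, ∏ v ∈ D, (1 + spin (η v) * X j v ω) / 2 ∂P143.iid (V × ℕ))
        atTop (𝓝 (∫ ω, (Ψ ⁻¹' {ξ | ∀ v ∈ D, ξ v = η v}).indicator 1 ω ∂P143.iid (V × ℕ))) := by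
      refine tendsto_integral_of_dominated_convergence (fun _ => 1)
        (fun j => (Finset.measurable_prod _ fun v _ =>
          (((b j v).1.const_mul _).const_add _).div_const _).aestronglyMeasurable)
        (integrable_const _) (fun j => ae_of_all _ fun ω => ?_) ?_
      · rw [Real.norm_eq_abs, abs_prod]
        exact prod_le_one (fun _ _ => abs_nonneg _) fun v _ => abs_half ((b j v).2 ω)
      · filter_upwards [ae_all_iff.2 fun v => ae_spin (X := fun j => X j v) (fun j => b j v)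
          (fun j => by rw [hX]; exact h1 j v) fun j => by rw [hX]; exact h2 j v] with ω hω
        have : (Ψ ⁻¹' {ξ | ∀ v ∈ D, ξ v = η v}).indicator (1 : (V × ℕ → I) → ℝ) ω =
            ∏ v ∈ D, (1 + spin (η v) * spin (Ψ ω v)) / 2 := by
          by_cases h : ∀ v ∈ D, Ψ ω v = η v
          · rw [Set.indicator_of_mem (by exact h)]
            refine (prod_eq_one fun v hv => ?_).symm
            rw [h v hv]
            cases η v <;> simp [spin]
          · rw [Set.indicator_of_notMem (by exact h)]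
            push Not at h
            obtain ⟨v, hv, h⟩ := h
            refine (prod_eq_zero hv ?_).symm
            revert h
            cases η v <;> cases Ψ ω v <;> simp [spin]
        rw [this, hΨ]
        exact tendsto_finset_prod _ fun v _ => (((hω v).const_mul _).const_add _).div_const _
    have k2 : Tendsto (fun j => 1 / 2 * ∏ e ∈ D.sym2 with e ∈ T.edgeSet,
        (1 + θ j * (e.map fun v => spin (η v)).mul) / 2) atTop (𝓝 (1 / 2 * ∏ e ∈ D.sym2 with
          e ∈ T.edgeSet, (1 + θc * (e.map fun v => spin (η v)).mul) / 2)) :=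
      (tendsto_finset_prod _ fun e _ => ((t0.mul_const _).const_add _).div_const _).const_mul _
    have k3 : Tendsto (fun j : ℕ => (D.card : ℝ) * (1 / 2) ^ j + D.card * (2 * (1 / 4) ^ j)) atTop
        (𝓝 0) := by
      simpa using ((tendsto_pow_atTop_nhds_zero_of_lt_one (r := (1 / 2 : ℝ)) (by norm_num)
        (by norm_num)).const_mul (D.card : ℝ)).add (((tendsto_pow_atTop_nhds_zero_of_lt_one
          (r := (1 / 4 : ℝ)) (by norm_num) (by norm_num)).const_mul 2).const_mul (D.card : ℝ))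
    refine sub_eq_zero.1 (abs_eq_zero.1 (le_antisymm
      (le_of_tendsto_of_tendsto' (k1.sub k2).abs k3 fun j => ?_) (abs_nonneg _)))
    have cb := cvx_ball P.tree P.reg o (D.sup (T.dist o) + R j)
    have s1 : ∀ x ∈ D, ball T x (R j) ⊆ ball T o (D.sup (T.dist o) + R j) := fun x hx u hu => by
      rw [mem_ball P.tree P.reg] at *
      have := P.tree.connected.dist_triangle (u := o) (v := x) (w := u)
      have := le_sup (f := T.dist o) hx
      omega
    obtain ⟨L', hL⟩ := ((eventually_all_finset D).2 fun x hx => h3 j _ cb x (s1 x hx)).exists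
    have c1 := prod_close D η (b j) (fun v => bm_Ym ((t1 j).ok cb) (_ ×ˢ range L') (r j) v)
      (c := (1 / 2) ^ j) (by positivity) fun v hv => by
        rw [← pow_mul, mul_comm, pow_mul, hX]; norm_num; exact (hL v hv).1
    have c2 := cyl ((t1 j).ok cb) hD₀
      (fun x hx => s1 x hx (by simp [mem_ball P.tree P.reg])) hne L' (r j) η
    have c3 := sum_le_card_nsmul D _ _ fun v hv => (hL v hv).2
    rw [nsmul_eq_mul] at c3
    exact (abs_sub_le _ _ _).trans (add_le_add c1 (c2.trans c3))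
  · have := fun j => Yb_map P.tree P.reg g (θ j) (g.symm v) (R j) (L j) (r j) (g.symm v) (spread U)
    simp only [RelIso.apply_symm_apply] at this
    simp only [hΨ, hX, comp, ← this]
    rfl

omit [Countable V] in
theorem fiid_of_le (hT : T.IsTree) (hreg : ∀ v, (T.neighborSet v).encard = d) (hd : 3 ≤ d)
    (h0 : 0 ≤ θ) (h1 : θ ^ 2 * (d - 1) ≤ 1) :
    ∃ μ : Measure (V → Bool), IsFreeIsing T θ μ ∧ IsFactorOfIID T μ := by
  have := countable_tree hT hreg
  rcases h1.eq_or_lt with h | h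
  · refine critical ⟨hT, hreg, hd, h0.lt_of_ne ?_, by linarith, h1⟩ h
    rintro rfl
    simp at h
  · obtain ⟨ε, l, P⟩ := exists_par hT hreg hd h0 h
    exact ⟨_, isFreeIsing P, Phi T _ ε, measurable_Phi, rfl,
      fun g => ae_of_all _ fun U => funext (Phi_map P g U)⟩

end Vale.Agent.P161.C
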