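import Vale.Agent.P161.C.Edge2

/-!
First order bound on the difference of the covariances of two tilts.

PLAN. `root_induction` from the root `a` on `w`, proving the sharper bound
`|ΔK(a,w)| ≤ 2c Σ_{y btw} g y Pr y a Pr y w - c g w Pr w a + C^(dist a w + 1) h²`, `g y = √(Nn y) |D y|`.
Base: `Δ(1 - M²) = -(M+M')D`, `|M'| ≤ |M| + h`. Step (`p` parent of `w`, `ψ = Pr p w`, `cv a w = cv a p * ψ`):
`ΔK(a,w) = ΔK(a,p) ψ + K(a,p) Δψ - ΔK(a,p) Δψ`. With `edge_data` for both tilts,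
`ψ = θ V_w ϰ`, `Pr w p = θ V_p ϰ`, `ϰ(a,m) = (1+θam)²/((1-θ²a²)(1-θ²m²)) ∈ [1/12, 12]`,
`|ϰ - ϰ'| ≤ C (|a|+|m|+|a'|+|m'|)(|a-a'|+|m-m'|)`; `P161.m_lip` gives `|m-m'|, |a-a'| ≤ 32(|D p|+|D w|)` and
(against the zero state) `|a|,|m| ≤ 32(|M p|+|M w|) ≤ 64 √(Nn y)` for `y = p, w`.
`Δψ = θϰ ΔV_w + θ V_w Δϰ - θ ΔV_w Δϰ`, `K(a,p) θ ϰ = Pr w a` (as `Pr w a = Pr w p * Pr p a`, `K(a,p) = V_p Pr p a`),
`K(a,p) θ V_w ≤ 12 K(a,w)`, `K(a,w) ≤ Pr w a`, `K(a,w) ≤ Pr p a * ψ`. A crude bound `|ΔK(a,p)| ≤ C^(dist+1) h`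
is proved alongside (`cv_lip`). The path sum splits by `btw_ch`.
-/

open Finset
open scoped Classical

namespace Vale.Agent.P161.C

variable {V : Type}

namespace First

theorem quot_lip {z z' y1 y2 y1' y2' σ : ℝ} (z1 : 0 < z) (z2 : z ≤ 2) (z3 : 0 < z') (z4 : z' ≤ 2)
    (a2 : 1 / 2 ≤ y1) (a3 : y1 ≤ 1) (m2 : 1 / 2 ≤ y2) (b2 : 1 / 2 ≤ y1')
    (b3 : y1' ≤ 1) (n2 : 1 / 2 ≤ y2') (n3 : y2' ≤ 1) (k1 : |z - z'| ≤ σ) (k2 : |y1' - y1| ≤ σ)
    (k3 : |y2' - y2| ≤ σ) : |z ^ 2 / (y1 * y2) - z' ^ 2 / (y1' * y2')| ≤ 192 * σ := by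
  have σ0 : 0 ≤ σ := (abs_nonneg _).trans k1
  have q1 : 0 < y1 := by linarith
  have q2 : 0 < y2 := by linarith
  have q3 : 0 < y1' := by linarith
  have q4 : 0 < y2' := by linarith
  have e : z ^ 2 / (y1 * y2) - z' ^ 2 / (y1' * y2') =
      ((z - z') * ((z + z') * (y1' * y2')) + (y1' - y1) * (z' ^ 2 * y2') +
        (y2' - y2) * (z' ^ 2 * y1)) / (y1 * y2 * (y1' * y2')) := by
    field_simp
    ring
  have d1 : 1 / 2 * (1 / 2) ≤ y1 * y2 := mul_le_mul a2 m2 (by norm_num) q1.le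
  have d2 : 1 / 2 * (1 / 2) ≤ y1' * y2' := mul_le_mul b2 n2 (by norm_num) q3.le
  have d3 : 1 / 2 * (1 / 2) * (1 / 2 * (1 / 2)) ≤ y1 * y2 * (y1' * y2') :=
    mul_le_mul d1 d2 (by norm_num) (by positivity)
  have d4 : y1' * y2' ≤ 1 := mul_le_one₀ b3 q4.le n3
  have d5 : z' ^ 2 ≤ 2 ^ 2 := pow_le_pow_left₀ z3.le z4 2
  have u1 : |(z - z') * ((z + z') * (y1' * y2'))| ≤ σ * (4 * 1) := by
    rw [abs_mul, abs_of_nonneg (show 0 ≤ (z + z') * (y1' * y2') by positivity)]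
    exact mul_le_mul k1 (mul_le_mul (by linarith) d4 (by positivity) (by norm_num))
      (by positivity) σ0
  have u2 : |(y1' - y1) * (z' ^ 2 * y2')| ≤ σ * (2 ^ 2 * 1) := by
    rw [abs_mul, abs_of_nonneg (show 0 ≤ z' ^ 2 * y2' by positivity)]
    exact mul_le_mul k2 (mul_le_mul d5 n3 q4.le (by norm_num)) (by positivity) σ0
  have u3 : |(y2' - y2) * (z' ^ 2 * y1)| ≤ σ * (2 ^ 2 * 1) := by
    rw [abs_mul, abs_of_nonneg (show 0 ≤ z' ^ 2 * y1 by positivity)]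
    exact mul_le_mul k3 (mul_le_mul d5 a3 q1.le (by norm_num)) (by positivity) σ0
  rw [e, abs_div, abs_of_pos (show 0 < y1 * y2 * (y1' * y2') by positivity),
    div_le_iff₀ (by positivity)]
  have u4 := abs_add_three ((z - z') * ((z + z') * (y1' * y2'))) ((y1' - y1) * (z' ^ 2 * y2'))
    ((y2' - y2) * (z' ^ 2 * y1))
  have u5 := mul_le_mul_of_nonneg_left d3 σ0
  linarith

theorem sq_lip {θ a a' σ δ : ℝ} (h1 : θ ^ 2 ≤ 1 / 2) (hσ : |a| + |a'| ≤ σ) (hδ : |a - a'| ≤ δ) :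
    |(1 - θ ^ 2 * a' ^ 2) - (1 - θ ^ 2 * a ^ 2)| ≤ σ * δ := by
  have e : (1 - θ ^ 2 * a' ^ 2) - (1 - θ ^ 2 * a ^ 2) = θ ^ 2 * ((a + a') * (a - a')) := by ring
  rw [e, abs_mul, abs_mul, abs_of_nonneg (sq_nonneg θ)]
  have := abs_add_le a a'
  have k : |a + a'| * |a - a'| ≤ σ * δ :=
    mul_le_mul (by linarith) hδ (abs_nonneg _) (by linarith [abs_nonneg (a + a')])
  have k2 := mul_le_mul_of_nonneg_right (show θ ^ 2 ≤ 1 by linarith)
    (mul_nonneg (abs_nonneg (a + a')) (abs_nonneg (a - a')))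
  linarith

theorem z_lip {θ a m a' m' : ℝ} (h0 : 0 ≤ θ) (t1 : θ ≤ 1) :
    |(1 + θ * a * m) - (1 + θ * a' * m')| ≤ (|a| + |m| + |a'| + |m'|) * (|a - a'| + |m - m'|) := by
  have p1 := abs_nonneg a
  have p2 := abs_nonneg m
  have p3 := abs_nonneg a'
  have p4 := abs_nonneg m'
  have p5 := abs_nonneg (a - a')
  have p6 := abs_nonneg (m - m')
  have e : (1 + θ * a * m) - (1 + θ * a' * m') = θ * (a * (m - m') + m' * (a - a')) := by ring
  rw [e, abs_mul, abs_of_nonneg h0]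
  have := abs_add_le (a * (m - m')) (m' * (a - a'))
  rw [abs_mul, abs_mul] at this
  have k2 := mul_le_mul_of_nonneg_right t1 (abs_nonneg (a * (m - m') + m' * (a - a')))
  have k3 := mul_le_mul_of_nonneg_right (show |a| ≤ |a| + |m| + |a'| + |m'| by linarith) p6
  have k4 := mul_le_mul_of_nonneg_right (show |m'| ≤ |a| + |m| + |a'| + |m'| by linarith) p5
  linarith

theorem kap_lip {θ a m a' m' : ℝ} (h0 : 0 ≤ θ) (h1 : θ ^ 2 ≤ 1 / 2) (ha : |a| ≤ 1) (hm : |m| ≤ 1)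
    (ha' : |a'| ≤ 1) (hm' : |m'| ≤ 1) :
    |(1 + θ * a * m) ^ 2 / ((1 - θ ^ 2 * a ^ 2) * (1 - θ ^ 2 * m ^ 2)) -
      (1 + θ * a' * m') ^ 2 / ((1 - θ ^ 2 * a' ^ 2) * (1 - θ ^ 2 * m' ^ 2))| ≤
      192 * ((|a| + |m| + |a'| + |m'|) * (|a - a'| + |m - m'|)) := by
  have t1 : θ ≤ 1 := by nlinarith
  obtain ⟨z1, z2⟩ := z_bound h0 h1 ha hm
  obtain ⟨z3, z4⟩ := z_bound h0 h1 ha' hm'
  obtain ⟨-, a2, a3, -⟩ := y_bound h1 ha
  obtain ⟨-, m2, m3, -⟩ := y_bound h1 hm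
  obtain ⟨-, b2, b3, -⟩ := y_bound h1 ha'
  obtain ⟨-, n2, n3, -⟩ := y_bound h1 hm'
  have p1 := abs_nonneg a
  have p2 := abs_nonneg m
  have p3 := abs_nonneg a'
  have p4 := abs_nonneg m'
  have p5 := abs_nonneg (a - a')
  have p6 := abs_nonneg (m - m')
  exact quot_lip z1 z2 z3 z4 a2 a3 m2 b2 b3 n2 n3 (z_lip h0 t1)
    (sq_lip h1 (by linarith) (by linarith)) (sq_lip h1 (by linarith) (by linarith))

theorem psi_eq {θ a m W : ℝ} (h0 : 0 ≤ θ) (h1 : θ ^ 2 ≤ 1 / 2) (ha : |a| ≤ 1) (hm : |m| ≤ 1)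
    (e2 : W * (1 + θ * a * m) = m + θ * a) :
    θ * (1 - m ^ 2) / (1 - θ ^ 2 * m ^ 2) =
      θ * (1 - W ^ 2) * ((1 + θ * a * m) ^ 2 / ((1 - θ ^ 2 * a ^ 2) * (1 - θ ^ 2 * m ^ 2))) := by
  obtain ⟨-, a2, -, -⟩ := y_bound h1 ha
  obtain ⟨-, m2, -, -⟩ := y_bound h1 hm
  have e : (1 - W ^ 2) * (1 + θ * a * m) ^ 2 = (1 - m ^ 2) * (1 - θ ^ 2 * a ^ 2) := by
    linear_combination (-(W * (1 + θ * a * m) + (m + θ * a))) * e2
  have q1 : 1 - θ ^ 2 * a ^ 2 ≠ 0 := by linarith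
  have q2 : 1 - θ ^ 2 * m ^ 2 ≠ 0 := by linarith
  rw [mul_assoc θ (1 - W ^ 2), ← mul_div_assoc, e]
  field_simp

theorem kap_ge {θ a m : ℝ} (h0 : 0 ≤ θ) (h1 : θ ^ 2 ≤ 1 / 2) (ha : |a| ≤ 1) (hm : |m| ≤ 1) :
    1 / 16 ≤ (1 + θ * a * m) ^ 2 / ((1 - θ ^ 2 * a ^ 2) * (1 - θ ^ 2 * m ^ 2)) := by
  obtain ⟨-, a2, a3, -⟩ := y_bound h1 ha
  obtain ⟨-, m2, m3, -⟩ := y_bound h1 hm
  have t1 : θ ≤ 3 / 4 := by nlinarith
  have : |a * m| ≤ 1 := by rw [abs_mul]; exact mul_le_one₀ ha (abs_nonneg _) hm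
  obtain ⟨b1, b2⟩ := abs_le.1 this
  have z : 1 / 4 ≤ 1 + θ * a * m := by nlinarith
  rw [le_div_iff₀ (by positivity)]
  have : (1 - θ ^ 2 * a ^ 2) * (1 - θ ^ 2 * m ^ 2) ≤ 1 := by nlinarith
  nlinarith

theorem dV {M M' h n : ℝ} (hn : |M| ≤ n) (hh : |M - M'| ≤ h) :
    |(1 - M ^ 2) - (1 - M' ^ 2)| ≤ 2 * (n * |M - M'|) + h ^ 2 := by
  have e : (1 - M ^ 2) - (1 - M' ^ 2) = -((2 * M - (M - M')) * (M - M')) := by ring
  rw [e, abs_neg, abs_mul]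
  have := abs_sub (2 * M) (M - M')
  rw [abs_mul, abs_two] at this
  have p := abs_nonneg (M - M')
  nlinarith [mul_le_mul_of_nonneg_right this p, mul_le_mul_of_nonneg_right hn p]

theorem dV' {M M' h : ℝ} (hM : |M| ≤ 1) (hM' : |M'| ≤ 1) (hh : |M - M'| ≤ h) :
    |(1 - M ^ 2) - (1 - M' ^ 2)| ≤ 2 * h := by
  have e : (1 - M ^ 2) - (1 - M' ^ 2) = -((M + M') * (M - M')) := by ring
  rw [e, abs_neg, abs_mul]
  have := abs_add_le M M'
  exact mul_le_mul (by linarith) hh (abs_nonneg _) (by norm_num)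

theorem step_core {θ κ κ' VP VW VW' R gp gw h : ℝ} (h0 : 0 ≤ θ) (t1 : θ ≤ 1) (kg : 1 / 16 ≤ κ)
    (VP0 : 0 ≤ VP) (VP1 : VP ≤ 1) (VW0 : 0 ≤ VW) (VW1 : VW ≤ 1) (R0 : 0 ≤ R) (R1 : R ≤ 1)
    (g1 : θ * VP * κ ≤ θ) (G1 : 0 ≤ gp) (G2 : 0 ≤ gw) (h00 : 0 ≤ h)
    (v1 : |VW - VW'| ≤ 2 * gw + h ^ 2) (v2 : |VW - VW'| ≤ 2 * h)
    (κ1 : |κ - κ'| ≤ 192 * 64 * 256 * (gp + gw + h ^ 2)) (κ2 : |κ - κ'| ≤ 192 * 4 * 128 * h) :
    VP * R * |θ * VW * κ - θ * VW' * κ'| ≤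
      2 ^ 26 * (gw * (θ * VP * κ * R) + gp * (R * (θ * VW * κ)) + h ^ 2) := by
  have e : θ * VW * κ - θ * VW' * κ' =
      θ * κ * (VW - VW') + θ * VW * (κ - κ') + -(θ * ((VW - VW') * (κ - κ'))) := by ring
  have κ0 : 0 ≤ κ := by linarith
  have u := abs_add_three (θ * κ * (VW - VW')) (θ * VW * (κ - κ')) (-(θ * ((VW - VW') * (κ - κ'))))
  simp only [abs_neg, abs_mul, abs_of_nonneg h0, abs_of_nonneg κ0, abs_of_nonneg VW0] at u
  rw [e]
  have K0 : 0 ≤ VP * R := mul_nonneg VP0 R0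
  have K1 : VP * R ≤ 1 := mul_le_one₀ VP1 R0 R1
  have g3 : θ * VP * κ * R ≤ 1 := mul_le_one₀ (g1.trans t1) R0 R1
  have g4 : 0 ≤ θ * VP * κ * R := by positivity
  have w1 : VP * R * (θ * κ * |VW - VW'|) ≤ 2 * (gw * (θ * VP * κ * R)) + h ^ 2 := by
    have b1 := mul_le_mul_of_nonneg_left v1 g4
    have b2 := mul_le_mul_of_nonneg_right g3 (sq_nonneg h)
    linarith
  have w2 : VP * R * (θ * VW * |κ - κ'|) ≤ 16 * (192 * 64 * 256) *
      (gw * (θ * VP * κ * R) + gp * (R * (θ * VW * κ)) + h ^ 2) := by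
    obtain ⟨Kw, hKw⟩ : ∃ Kw, Kw = VP * R * (θ * VW * κ) := ⟨_, rfl⟩
    have c0 : 0 ≤ VP * R * (θ * VW) := by positivity
    have c1 : VP * R * (θ * VW) ≤ 16 * Kw := by
      have := mul_le_mul_of_nonneg_left kg c0
      rw [hKw]; linarith
    have c2 : Kw ≤ θ * VP * κ * R := by
      have := mul_le_mul_of_nonneg_left VW1 g4
      rw [hKw]; linarith
    have c3 : Kw ≤ R * (θ * VW * κ) := by
      have := mul_le_mul_of_nonneg_left VP1 (show 0 ≤ R * (θ * VW * κ) by positivity)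
      rw [hKw]; linarith
    have c4 : Kw ≤ 1 := c2.trans g3
    have c5 : 0 ≤ Kw := by rw [hKw]; positivity
    have b1 : VP * R * (θ * VW) * |κ - κ'| ≤ 16 * Kw * (192 * 64 * 256 * (gp + gw + h ^ 2)) :=
      mul_le_mul c1 κ1 (abs_nonneg _) (by positivity)
    have b2 := mul_le_mul_of_nonneg_left c2 G2
    have b3 := mul_le_mul_of_nonneg_left c3 G1
    have b4 := mul_le_mul_of_nonneg_left c4 (sq_nonneg h)
    linarith
  have w3 : VP * R * (θ * (|VW - VW'| * |κ - κ'|)) ≤ 2 * (192 * 4 * 128) * h ^ 2 := by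
    have b1 : |VW - VW'| * |κ - κ'| ≤ 2 * h * (192 * 4 * 128 * h) :=
      mul_le_mul v2 κ2 (abs_nonneg _) (by positivity)
    have b2 : VP * R * θ ≤ 1 := mul_le_one₀ K1 h0 t1
    have b3 := mul_le_mul_of_nonneg_right b2 (show 0 ≤ |VW - VW'| * |κ - κ'| by positivity)
    linarith
  have b1 := mul_le_mul_of_nonneg_left u K0
  have b2 : 0 ≤ gw * (θ * VP * κ * R) := by positivity
  have b3 : 0 ≤ gp * (R * (θ * VW * κ)) := by positivity
  have b4 := sq_nonneg h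
  linarith

theorem kap_est {σ δ Δ n1 n2 p w h : ℝ} (kl : Δ ≤ 192 * (σ * δ)) (σ0 : 0 ≤ σ) (δ0 : 0 ≤ δ)
    (σ1 : σ ≤ 256 * n1 + 128 * h) (σ2 : σ ≤ 256 * n2 + 128 * h) (σ3 : σ ≤ 4)
    (δ1 : δ ≤ 64 * (p + w)) (p1 : 0 ≤ p) (p2 : 0 ≤ w) (hp : p ≤ h) (hw : w ≤ h) :
    Δ ≤ 192 * 64 * 256 * (n1 * p + n2 * w + h ^ 2) ∧ Δ ≤ 192 * 4 * 128 * h := by
  have h00 : 0 ≤ h := p1.trans hp
  constructor
  · have b1 := mul_le_mul_of_nonneg_left δ1 σ0
    have b2 := mul_le_mul_of_nonneg_right σ1 p1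
    have b3 := mul_le_mul_of_nonneg_right σ2 p2
    have b4 := mul_le_mul_of_nonneg_left hp h00
    have b5 := mul_le_mul_of_nonneg_left hw h00
    linarith
  · have b1 : σ * δ ≤ 4 * (128 * h) := mul_le_mul σ3 (by linarith) δ0 (by norm_num)
    linarith

theorem V_bd {P : ℝ} (hP : |P| ≤ 1) : 0 ≤ 1 - P ^ 2 ∧ 1 - P ^ 2 ≤ 1 := by
  have := abs_le.1 hP
  constructor <;> nlinarith

theorem step_real {θ a m a' m' P W P' W' n1 n2 h R : ℝ} (h0 : 0 ≤ θ) (h1 : θ ^ 2 ≤ 1 / 2)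
    (ha : |a| ≤ 1) (hm : |m| ≤ 1) (ha' : |a'| ≤ 1) (hm' : |m'| ≤ 1)
    (e1 : P * (1 + θ * a * m) = a + θ * m) (e2 : W * (1 + θ * a * m) = m + θ * a)
    (e3 : P' * (1 + θ * a' * m') = a' + θ * m') (e4 : W' * (1 + θ * a' * m') = m' + θ * a')
    (hP : |P| ≤ 1) (hW : |W| ≤ 1) (hW' : |W'| ≤ 1)
    (n1P : |P| ≤ n1) (n1W : |W| ≤ n1) (n2P : |P| ≤ n2) (n2W : |W| ≤ n2)
    (hhP : |P - P'| ≤ h) (hhW : |W - W'| ≤ h) (R0 : 0 ≤ R) (R1 : R ≤ 1) :
    (1 - P ^ 2) * R * |θ * (1 - m ^ 2) / (1 - θ ^ 2 * m ^ 2) - θ * (1 - m' ^ 2) / (1 - θ ^ 2 * m' ^ 2)| ≤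
      2 ^ 26 * (n2 * |W - W'| * (θ * (1 - a ^ 2) / (1 - θ ^ 2 * a ^ 2) * R) +
        n1 * |P - P'| * (R * (θ * (1 - m ^ 2) / (1 - θ ^ 2 * m ^ 2))) + h ^ 2) := by
  have t1 : θ ≤ 1 := by nlinarith
  have l1 := m_lip h0 h1 ha hm ha' hm' e1 e2 e3 e4
  have l2 := m_lip (a := m) (m := a) (a' := m') (m' := a') (P := W) (W := P) (P' := W') (W' := P')
    h0 h1 hm ha hm' ha' (by linear_combination e2) (by linear_combination e1)
    (by linear_combination e4) (by linear_combination e3)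
  have l3 := m_lip (a' := 0) (m' := 0) (P' := 0) (W' := 0) h0 h1 ha hm (by simp) (by simp) e1 e2
    (by simp) (by simp)
  have l4 := m_lip (a := m) (m := a) (a' := 0) (m' := 0) (P := W) (W := P) (P' := 0) (W' := 0)
    h0 h1 hm ha (by simp) (by simp) (by linear_combination e2) (by linear_combination e1)
    (by simp) (by simp)
  simp only [sub_zero] at l3 l4
  have kl := kap_lip h0 h1 ha hm ha' hm'
  have kg := kap_ge h0 h1 ha hm
  have f1 := psi_eq h0 h1 ha hm e2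
  have f2 := psi_eq h0 h1 ha' hm' e4
  have f3 := psi_eq (a := m) (m := a) (W := P) h0 h1 hm ha (by linear_combination e1)
  have f4 : (1 + θ * m * a) ^ 2 / ((1 - θ ^ 2 * m ^ 2) * (1 - θ ^ 2 * a ^ 2)) =
      (1 + θ * a * m) ^ 2 / ((1 - θ ^ 2 * a ^ 2) * (1 - θ ^ 2 * m ^ 2)) := by
    rw [mul_comm (1 - θ ^ 2 * m ^ 2), mul_right_comm θ m a]
  rw [f4] at f3
  have g1 := (psi_bound h0 h1 ha).2
  have v1 := dV n2W hhW
  have v2 := dV' hW hW' hhW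
  rw [f3] at g1
  rw [f1, f2, f3]
  have p1 := abs_nonneg (P - P')
  have p2 := abs_nonneg (W - W')
  have h00 : 0 ≤ h := p1.trans hhP
  have n10 : 0 ≤ n1 := (abs_nonneg _).trans n1P
  have n20 : 0 ≤ n2 := (abs_nonneg _).trans n2P
  have a1 : |a'| ≤ |a| + |a - a'| := by
    have := abs_sub a (a - a'); rwa [sub_sub_cancel] at this
  have a2 : |m'| ≤ |m| + |m - m'| := by
    have := abs_sub m (m - m'); rwa [sub_sub_cancel] at this
  obtain ⟨κ1, κ2⟩ := kap_est (n1 := n1) (n2 := n2) kl (by positivity) (by positivity)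
    (by linarith) (by linarith) (by linarith) (by linarith) p1 p2 hhP hhW
  exact step_core h0 t1 kg (V_bd hP).1 (V_bd hP).2 (V_bd hW).1 (V_bd hW).2 R0 R1 g1
    (by positivity) (by positivity) h00 v1 v2 κ1 κ2

variable {d : ℕ} {E : Env V}

theorem le_Nn (s : Finset (V × ℕ)) (x : V × ℕ → ℝ) {y v : V} (hv : v ∈ E.D)
    (h : E.T.dist y v ≤ 1) : |mg E s x v| ≤ √(Nn E s x y) :=
  Real.abs_le_sqrt (single_le_sum (f := fun v => mg E s x v ^ 2) (fun _ _ => sq_nonneg _)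
    (mem_filter.2 ⟨hv, h⟩))

theorem Pr_le_one (h : Ok d E) {s : Finset (V × ℕ)} {x : V × ℕ → ℝ} {y v : V} (hy : y ∈ E.D)
    (hv : v ∈ E.D) : Pr E s x y v ≤ 1 :=
  (Pr_le h hy hv).trans (pow_le_one₀ h.pos.le h.lt_one.le)

theorem Pr_lip (h : Ok d E) {s s' : Finset (V × ℕ)} {x x' : V × ℕ → ℝ} {r : ℝ}
    (hr : ∀ v ∈ E.D, |mg E s x v - mg E s' x' v| ≤ r) {p c : V} (hp : p ∈ E.D) (hc : c ∈ E.D)
    (ha : E.T.Adj p c) : |Pr E s x p c - Pr E s' x' p c| ≤ 512 * r := by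
  obtain ⟨a, m, a1, m1, e1, e2, e3, -⟩ := edge_data (s := s) (x := x) h hp hc ha
  obtain ⟨a', m', a1', m1', e1', e2', e3', -⟩ := edge_data (s := s') (x := x') h hp hc ha
  have l1 := m_lip h.pos.le h.half a1 m1 a1' m1' e1 e2 e1' e2'
  have l2 := psi_lip h.pos.le h.half m1 m1'
  rw [e3, e3']
  have l3 := mul_le_mul_of_nonneg_right h.lt_one.le (abs_nonneg (m - m'))
  linarith [hr p hp, hr c hc]

theorem cv_lip' (h : Ok d E) {s s' : Finset (V × ℕ)} {x x' : V × ℕ → ℝ} {r : ℝ}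
    (hr : ∀ v ∈ E.D, |mg E s x v - mg E s' x' v| ≤ r) {a : V} (ha : a ∈ E.D) : ∀ w ∈ E.D,
      |cv E s x a w - cv E s' x' a w| ≤ 514 ^ (E.T.dist a w + 1) * r := by
  have r0 : 0 ≤ r := (abs_nonneg _).trans (hr a ha)
  refine root_induction h.tree h.cvx ha ?_ ?_
  · rw [cv_eq h ha, cv_eq h ha, Pr_self h ha, Pr_self h ha, mul_one, mul_one,
      SimpleGraph.dist_self]
    have := dV' (mg_abs h) (mg_abs h) (hr a ha)
    rw [zero_add, pow_one]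
    linarith
  · intro p hp c hc ih
    obtain ⟨c1, c2, c3⟩ := mem_ch.1 hc
    have hb : Btw E.T a p c := (dist_ch h.tree hc (btw_right a c)).2.2
    rw [cv_mul h ha c1 hb, cv_mul h ha c1 hb, c3]
    have l := Pr_lip h hr hp c1 c2
    have e : cv E s x a p * Pr E s x p c - cv E s' x' a p * Pr E s' x' p c =
        (cv E s x a p - cv E s' x' a p) * Pr E s x p c +
          cv E s' x' a p * (Pr E s x p c - Pr E s' x' p c) := by ring
    rw [e]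
    refine (abs_add_le _ _).trans ?_
    rw [abs_mul, abs_mul, abs_of_nonneg (Pr_nonneg h hp c1), abs_of_nonneg (cv_nonneg h ha hp)]
    have b1 := mul_le_mul ih (Pr_le_one h (s := s) (x := x) hp c1) (Pr_nonneg h hp c1)
      (by positivity)
    have b2 := mul_le_mul ((cv_le_Pr h ha hp).trans (Pr_le_one h (s := s') (x := x') ha hp)) l
      (abs_nonneg _) zero_le_one
    have b3 : (1 : ℝ) ≤ 514 ^ (E.T.dist a p + 1) := one_le_pow₀ (by norm_num)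
    rw [pow_succ _ (E.T.dist a p + 1)]
    nlinarith [mul_le_mul_of_nonneg_right b3 r0]

end First

theorem cv_lip : ∃ C : ℝ, 1 ≤ C ∧ ∀ {d : ℕ} {E : Env V}, Ok d E →
    ∀ (s s' : Finset (V × ℕ)) (x x' : V × ℕ → ℝ) (h : ℝ),
      (∀ v ∈ E.D, |mg E s x v - mg E s' x' v| ≤ h) → ∀ a ∈ E.D, ∀ w ∈ E.D,
        |cv E s x a w - cv E s' x' a w| ≤ C ^ (E.T.dist a w + 1) * h := by
  exact ⟨514, by norm_num, fun h s s' x x' r hr a ha => First.cv_lip' h hr ha⟩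

theorem first_order : ∃ C : ℝ, 1 ≤ C ∧ ∀ {d : ℕ} {E : Env V}, Ok d E →
    ∀ (s s' : Finset (V × ℕ)) (x x' : V × ℕ → ℝ) (h : ℝ), h ≤ 1 →
      (∀ v ∈ E.D, |mg E s x v - mg E s' x' v| ≤ h) → ∀ a ∈ E.D, ∀ w ∈ E.D,
        |cv E s x a w - cv E s' x' a w| ≤
          C * ∑ y ∈ E.D with Btw E.T a y w, √(Nn E s x y) * |mg E s x y - mg E s' x' y| *
            (Pr E s x y a * Pr E s x y w) + C ^ (E.T.dist a w + 1) * h ^ 2 := by
  refine ⟨2 ^ 27, by norm_num, ?_⟩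
  intro d E h s s' x x' r _ hr a ha
  have r0 : 0 ≤ r := (abs_nonneg _).trans (hr a ha)
  have key : ∀ w ∈ E.D, |cv E s x a w - cv E s' x' a w| ≤
      2 ^ 27 * ∑ y ∈ E.D with Btw E.T a y w, √(Nn E s x y) * |mg E s x y - mg E s' x' y| *
        (Pr E s x y a * Pr E s x y w) -
        2 ^ 26 * (√(Nn E s x w) * |mg E s x w - mg E s' x' w| * Pr E s x w a) +
        (2 ^ 27) ^ (E.T.dist a w + 1) * r ^ 2 := by
    refine root_induction h.tree h.cvx ha ?_ ?_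
    · have e : (E.D.filter fun y => Btw E.T a y a) = {a} := by
        ext y
        simp only [mem_filter, mem_singleton]
        constructor
        · rintro ⟨-, h2⟩
          unfold Btw at h2
          rw [SimpleGraph.dist_self] at h2
          exact (h.tree.connected.dist_eq_zero_iff.1 (by omega : E.T.dist a y = 0)).symm
        · rintro rfl
          exact ⟨ha, btw_left _ _⟩
      rw [e, sum_singleton, cv_eq h ha, cv_eq h ha, Pr_self h ha, Pr_self h ha,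
        SimpleGraph.dist_self]
      have k1 := First.dV (First.le_Nn s x (y := a) ha (by simp)) (hr a ha)
      have k2 : 0 ≤ √(Nn E s x a) * |mg E s x a - mg E s' x' a| := by positivity
      have k3 := sq_nonneg r
      simp only [mul_one, zero_add, pow_one]
      linarith
    · intro p hp c hc ih
      obtain ⟨c1, c2, c3⟩ := mem_ch.1 hc
      have hb : Btw E.T a p c := (dist_ch h.tree hc (btw_right a c)).2.2
      have d1 : E.T.dist p c = 1 := SimpleGraph.dist_eq_one_iff_adj.2 c2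
      have d2 : E.T.dist c p = 1 := SimpleGraph.dist_eq_one_iff_adj.2 c2.symm
      have e : (E.D.filter fun y => Btw E.T a y c) = insert c (E.D.filter fun y => Btw E.T a y p) := by
        ext y
        simp only [mem_filter, mem_insert, btw_ch h.tree hc]
        constructor
        · rintro ⟨h1, h2 | h2⟩
          exacts [Or.inr ⟨h1, h2⟩, Or.inl h2]
        · rintro (rfl | ⟨h1, h2⟩)
          exacts [⟨c1, Or.inr rfl⟩, ⟨h1, Or.inl h2⟩]
      have e2 : ∑ y ∈ E.D with Btw E.T a y p, √(Nn E s x y) * |mg E s x y - mg E s' x' y| *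
          (Pr E s x y a * Pr E s x y c) = (∑ y ∈ E.D with Btw E.T a y p,
            √(Nn E s x y) * |mg E s x y - mg E s' x' y| * (Pr E s x y a * Pr E s x y p)) *
            Pr E s x p c := by
        rw [sum_mul]
        refine sum_congr rfl fun y hy => ?_
        obtain ⟨y1, y2⟩ := mem_filter.1 hy
        rw [Pr_mul h y1 c1 (btw_trans h.tree hb.symm y2.symm).1.symm]
        ring
      rw [e, sum_insert (by rw [mem_filter]; exact fun h1 => not_btw_ch hc h1.2), e2, Pr_self h c1,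
        cv_mul h ha c1 hb, cv_mul h ha c1 hb, c3]
      have l := First.Pr_lip h hr hp c1 c2
      have l2 := First.cv_lip' h hr ha p hp
      obtain ⟨α, m, a1, m1, e1, e2, e3, e4⟩ := edge_data (s := s) (x := x) h hp c1 c2
      obtain ⟨α', m', a1', m1', e1', e2', e3', -⟩ := edge_data (s := s') (x := x') h hp c1 c2
      have st := First.step_real h.pos.le h.half a1 m1 a1' m1' e1 e2 e1' e2' (mg_abs h) (mg_abs h)
        (mg_abs h) (First.le_Nn s x (y := p) hp (by simp)) (First.le_Nn s x (y := p) c1 d1.le)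
        (First.le_Nn s x (y := c) hp d2.le) (First.le_Nn s x (y := c) c1 (by simp))
        (hr p hp) (hr c c1) (Pr_nonneg h hp ha) (First.Pr_le_one h (s := s) (x := x) hp ha)
      rw [← e3, ← e3', ← e4, ← cv_eq h hp, ← Pr_mul h c1 ha hb.symm, cv_symm] at st
      have e5 : cv E s x a p * Pr E s x p c - cv E s' x' a p * Pr E s' x' p c =
          (cv E s x a p - cv E s' x' a p) * Pr E s x p c +
            cv E s x a p * (Pr E s x p c - Pr E s' x' p c) +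
            -((cv E s x a p - cv E s' x' a p) * (Pr E s x p c - Pr E s' x' p c)) := by ring
      rw [e5]
      refine (abs_add_three _ _ _).trans ?_
      rw [abs_neg, abs_mul, abs_mul, abs_mul, abs_of_nonneg (Pr_nonneg h hp c1),
        abs_of_nonneg (cv_nonneg h ha hp)]
      have ψ0 := Pr_nonneg (s := s) (x := x) h hp c1
      have ψ1 := First.Pr_le_one (s := s) (x := x) h hp c1
      have b1 := mul_le_mul_of_nonneg_right ih ψ0
      have b2 := mul_le_mul l2 l (abs_nonneg _) (by positivity)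
      have b3 : (514 : ℝ) ^ (E.T.dist a p + 1) ≤ (2 ^ 27) ^ (E.T.dist a p + 1) :=
        pow_le_pow_left₀ (by norm_num) (by norm_num) _
      have b4 : (1 : ℝ) ≤ (2 ^ 27) ^ (E.T.dist a p + 1) := one_le_pow₀ (by norm_num)
      rw [pow_succ _ (E.T.dist a p + 1)]
      generalize ((2 : ℝ) ^ 27) ^ (E.T.dist a p + 1) = B at *
      generalize (514 : ℝ) ^ (E.T.dist a p + 1) = B' at *
      have b5 := mul_le_mul_of_nonneg_right b3 (sq_nonneg r)
      have b6 := mul_le_mul_of_nonneg_right b4 (sq_nonneg r)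
      have b7 := mul_le_mul_of_nonneg_left ψ1 (show 0 ≤ B * r ^ 2 by positivity)
      nlinarith
  intro w hw
  have k1 := key w hw
  have k2 : 0 ≤ √(Nn E s x w) * |mg E s x w - mg E s' x' w| * Pr E s x w a :=
    mul_nonneg (by positivity) (Pr_nonneg h hw ha)
  linarith

end Vale.Agent.P161.C
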