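import Vale.Agent.P161.C.ShB
import Vale.Agent.P161.C.First

/-!
The generator inequalities.

PLAN. Constants: `C₁` from `upd`, `C₂` from `event_pair`, `C₃` from `first_order`; `c = 1/10000`. Choose `Z` with
`rt Z ^ 8 = Z ≥ 4 C₁ C₂ / c` (so `C₁C₂/s⁹, C₁C₂/s⁸ ≤ c/4`). For `v ∈ D` take `κ, υ` from `upd` at root `v`,
`H v = Σ υ`. For the event at `w` with label `u`: `a = al (Q m u) m`, `a' = al (Q m' u) m'`, by `mg_upd` the new
difference at `v` is `D v + δ`, `δ = a' (cv - cv') + (a - a') cv`, `∫ δ = 0`,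
`|δ| ≤ β = C₃ Σ_y γ y Pr y v Pr y w + C₃^(dist+1) h² + |D w| Pr w v` (`al_abs`, `al_lip`, `cv_symm`, `cv_le_Pr`),
`γ y = √(Nn y) |D y|`; the new `Nn v` is `N + 2aμ + a²ν`, `μ = Σ M cv`, `ν = Σ cv²` (Cauchy-Schwarz `μ² ≤ Nν`),
`ν ≤ 4d² lam^dist v w` (`near_cv_le`), `Σ_w ν ≤ 100 d² Lr v` (`near_cv`). Apply `event_pair`, `β² ≤ 3(..²+..²+..²)`,
sum over `v, w`; `schur` for the first part, `om_add` and the definition of `Sh w` for the third,
`sh_bound` (small `ε`) to absorb everything in the gain and `C * Wt` (`1 ≤ Wt`, `Nn ≤ sr³ Nn ≤ Wt`). The `h⁴` part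
has a constant depending on `E` (`Lr ≤ card D`).
`gen_single`: `event_single` and the second half of `sh_bound`. `gen_src`: `Wg_new`, `al_lip_u`.
`growth`: `cv_lip`, `al_lip`.
-/

open Finset Function MeasureTheory
open scoped Classical unitInterval

namespace Vale.Agent.P161.C

open Vale.Agent.P143 (Q)

variable {V : Type}

namespace GenI

variable {d : ℕ} {E : Env V} {s : Finset (V × ℕ)} {x x' : V × ℕ → ℝ} {u v w y : V} {k : ℕ} {Z : ℝ}

theorem Q_abs (h : Ok d E) (o : I) : |Q (mg E s x w) o| ≤ 1 := (P143.Q_spec (mg_abs h) o.2).2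

theorem a_abs (h : Ok d E) (o : I) : |al (Q (mg E s x w) o) (mg E s x w)| ≤ 1 / 7 :=
  al_abs (Q_abs h o) (mg_abs h)

theorem Pr_le_one (h : Ok d E) (hy : y ∈ E.D) (hv : v ∈ E.D) : Pr E s x y v ≤ 1 :=
  (Pr_le h hy hv).trans (pow_le_one₀ h.pos.le h.lt_one.le)

theorem Lr_le (h : Ok d E) (hy : y ∈ E.D) : Lr E s x y ≤ E.D.card := by
  have := sum_le_card_nsmul E.D (fun v => E.θ ^ E.T.dist y v * Pr E s x y v) 1 fun v hv =>
    mul_le_one₀ (pow_le_one₀ h.pos.le h.lt_one.le) (Pr_nonneg h hy hv) (Pr_le_one h hy hv)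
  rwa [nsmul_eq_mul, mul_one] at this

theorem sr3_le (h : Ok d E) (hZ : 1 ≤ Z) (hy : y ∈ E.D) : sr E Z s x y ^ 3 ≤ Z + E.D.card := by
  obtain ⟨a1, a2, -⟩ := sr_facts h hZ s x hy
  have := pow_le_pow_right₀ a1 (show 3 ≤ 8 by norm_num)
  linarith [Lr_le (s := s) (x := x) h hy]

theorem Wt_le (h : Ok d E) (hZ : 1 ≤ Z) (hy : y ∈ E.D) :
    Wt E Z s x y ≤ 2 + (Z + E.D.card) * (d + 1) := by
  obtain ⟨a1, -, -, a4⟩ := sr_facts h hZ s x hy
  obtain ⟨b1, b2⟩ := Nn_le (s := s) (x := x) (y := y) h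
  have := mul_le_mul (sr3_le (s := s) (x := x) h hZ hy) b2 b1 (by positivity)
  linarith

theorem Nn_le_Wt (h : Ok d E) (hZ : 1 ≤ Z) (hy : y ∈ E.D) : Nn E s x y ≤ Wt E Z s x y := by
  obtain ⟨a1, -⟩ := sr_facts h hZ s x hy
  have b1 := (Nn_le (s := s) (x := x) (y := y) h).1
  have h1 := (one_le_Lr h (s := s) (x := x) hy).1
  have a3 : sr E Z s x y ^ 3 * Nn E s x y ≤ Wt E Z s x y := (one_le_Wg (by linarith) b1).2
  have := mul_le_mul_of_nonneg_right (one_le_pow₀ (n := 3) a1) b1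
  linarith

theorem diff_sq (h : Ok d E) {s' : Finset (V × ℕ)} : (mg E s x v - mg E s' x' v) ^ 2 ≤ 4 := by
  obtain ⟨a1, a2⟩ := abs_le.1 (mg_abs (s := s) (x := x) (v := v) h)
  obtain ⟨b1, b2⟩ := abs_le.1 (mg_abs (s := s') (x := x') (v := v) h)
  nlinarith

/-- The cross term and the square term of the new local field energy. -/
noncomputable def mu (E : Env V) (s : Finset (V × ℕ)) (x : V × ℕ → ℝ) (v w : V) : ℝ :=
  ∑ y ∈ E.D with E.T.dist v y ≤ 1, mg E s x y * cv E s x y w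

noncomputable def nu (E : Env V) (s : Finset (V × ℕ)) (x : V × ℕ → ℝ) (v w : V) : ℝ :=
  ∑ y ∈ E.D with E.T.dist v y ≤ 1, cv E s x y w ^ 2

theorem nu_nonneg : 0 ≤ nu E s x v w := sum_nonneg fun _ _ => sq_nonneg _

theorem mu_sq : mu E s x v w ^ 2 ≤ Nn E s x v * nu E s x v w := sum_mul_sq_le_sq_mul_sq _ _ _

theorem Nn_upd (h : Ok d E) (he : (w, k) ∉ s) {o : ℝ} (ho : |o| ≤ 1) :
    Nn E (insert (w, k) s) (update x (w, k) o) v = Nn E s x v +
      2 * al o (mg E s x w) * mu E s x v w + al o (mg E s x w) ^ 2 * nu E s x v w := by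
  unfold Nn mu nu
  rw [mul_sum, mul_sum, ← sum_add_distrib, ← sum_add_distrib]
  exact sum_congr rfl fun y _ => by rw [mg_upd h he ho]; ring

theorem meas_upd (m : ℝ) : Measurable fun o : I => update x (w, k) (Q m o) :=
  (measurable_update x).comp (by fun_prop)

theorem G_le (h : Ok d E) (hZ : 1 ≤ Z) (hv : v ∈ E.D) (hw : w ∈ E.D) :
    Wt E Z s x v + sr E Z s x v ^ 3 * nu E s x v w ≤
      4 * d ^ 2 * (Wt E Z s x v + sr E Z s x v ^ 3 * (E.θ ^ 2) ^ E.T.dist v w) := by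
  obtain ⟨a1, -, a3, -⟩ := sr_facts h hZ s x hv
  have a4 : nu E s x v w ≤ 4 * d ^ 2 * (E.θ ^ 2) ^ E.T.dist v w := near_cv_le h hv hw
  have a5 := mul_le_mul_of_nonneg_left a4 (show 0 ≤ sr E Z s x v ^ 3 by positivity)
  have h3 : (3 : ℝ) ≤ d := by exact_mod_cast h.hd
  have a6 : 1 * Wt E Z s x v ≤ 4 * d ^ 2 * Wt E Z s x v :=
    mul_le_mul_of_nonneg_right (by nlinarith) (by linarith)
  linarith

/-- The bound for the jump of the difference at `v` caused by an event at `w`. -/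
theorem jump_le (h : Ok d E) (hv : v ∈ E.D) (hw : w ∈ E.D) (a b : I) :
    |al (Q (mg E s x w) a) (mg E s x w) * cv E s x v w -
      al (Q (mg E s x' w) b) (mg E s x' w) * cv E s x' v w| ≤ |cv E s x v w - cv E s x' v w| +
        (|mg E s x w - mg E s x' w| + |(a : ℝ) - b|) * Pr E s x w v := by
  have a1 := a_abs (s := s) (x := x') (w := w) h b
  have a2 := al_lip_u (mg_abs (s := s) (x := x) (v := w) h) a b
  have a3 := al_lip (mg_abs (s := s) (x := x) (v := w) h) (mg_abs (s := s) (x := x') (v := w) h) b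
  have a4 : cv E s x v w ≤ Pr E s x w v := by rw [cv_symm]; exact cv_le_Pr h hw hv
  have a5 := cv_nonneg (s := s) (x := x) h hv hw
  generalize al (Q (mg E s x w) a) (mg E s x w) = p at *
  generalize al (Q (mg E s x w) b) (mg E s x w) = q at *
  generalize al (Q (mg E s x' w) b) (mg E s x' w) = q' at *
  have e : p * cv E s x v w - q' * cv E s x' v w =
      q' * (cv E s x v w - cv E s x' v w) + (p - q') * cv E s x v w := by ring
  have b1 : |p - q'| ≤ |mg E s x w - mg E s x' w| + |(a : ℝ) - b| := by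
    have := abs_sub_le p q q'
    linarith
  rw [e]
  refine (abs_add_le _ _).trans (add_le_add ?_ ?_)
  · rw [abs_mul]
    exact mul_le_of_le_one_left (abs_nonneg _) (by linarith)
  · rw [abs_mul, abs_of_nonneg a5]
    exact mul_le_mul b1 a4 a5 (by positivity)

theorem term_integrable (h : Ok d E) (hZ : 1 ≤ Z) (hv : v ∈ E.D) (m m' : ℝ) :
    Integrable fun o : I => om (E.T.dist u v) *
      (mg E (insert (w, k) s) (update x (w, k) (Q m o)) v -
        mg E (insert (w, k) s) (update x' (w, k) (Q m' o)) v) ^ 2 *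
      Wt E Z (insert (w, k) s) (update x (w, k) (Q m o)) v := by
  refine integrable_bd (B := om (E.T.dist u v) * 4 * (2 + (Z + E.D.card) * (d + 1)))
    ((((((measurable_mg v).comp (meas_upd m)).sub ((measurable_mg v).comp (meas_upd m'))).pow_const
      2).const_mul _).mul ((measurable_Wt Z v).comp (meas_upd m))) fun o => ?_
  have a0 := one_le_om (E.T.dist u v)
  have a1 := (sr_facts h hZ (insert (w, k) s) (update x (w, k) (Q m o)) hv).2.2.1
  rw [abs_of_nonneg (by positivity)]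
  exact mul_le_mul (mul_le_mul_of_nonneg_left (diff_sq h) (by linarith)) (Wt_le h hZ hv)
    (by linarith) (by positivity)

theorem absorb {C₁ C₂ Z z H N K2 : ℝ} (h1 : 1 ≤ C₁) (h2 : 1 ≤ C₂) (hZ : 40000 * (C₁ * C₂) ≤ Z)
    (hz : Z ≤ z) (H0 : 0 ≤ H) (N0 : 0 ≤ N) (hK : K2 ≤ C₁ * (1 + H)) :
    C₂ * (K2 / rt z ^ 18 + K2 * N / rt z ^ 13) ≤
      1 / 40000 * (1 + N + H / rt z ^ 9 + H * N / rt z ^ 5) := by
  have c1 : 1 ≤ C₁ * C₂ := one_le_mul_of_one_le_of_one_le h1 h2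
  have s1 : 1 ≤ rt z := one_le_rt (by linarith)
  have s8 : rt z ^ 8 = z := rt_pow (by linarith)
  generalize rt z = t at *
  have t0 : 0 < t := by linarith
  have b1 : C₂ * K2 ≤ 1 / 40000 * t ^ 8 * (1 + H) := by
    have := mul_le_mul_of_nonneg_left hK (show 0 ≤ C₂ by linarith)
    have := mul_le_mul_of_nonneg_right (show C₁ * C₂ ≤ 1 / 40000 * t ^ 8 by linarith)
      (show 0 ≤ 1 + H by linarith)
    linarith
  have b2 : C₂ * (K2 / t ^ 18 + K2 * N / t ^ 13) = C₂ * K2 * (1 / t ^ 18 + N / t ^ 13) := by ring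
  have b3 : 1 / 40000 * t ^ 8 * (1 + H) * (1 / t ^ 18 + N / t ^ 13) =
      1 / 40000 * (1 / t ^ 10 + N / t ^ 5 + H / t ^ 10 + H * N / t ^ 5) := by
    field_simp
    ring
  have b4 : 1 / t ^ 10 ≤ 1 := (div_le_one (by positivity)).2 (one_le_pow₀ s1)
  have b5 : N / t ^ 5 ≤ N := div_le_self N0 (one_le_pow₀ s1)
  have b6 : H / t ^ 10 ≤ H / t ^ 9 :=
    div_le_div_of_nonneg_left H0 (by positivity) (pow_le_pow_right₀ s1 (by norm_num))
  rw [b2]
  refine (mul_le_mul_of_nonneg_right b1 (by positivity)).trans ?_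
  rw [b3]
  linarith

noncomputable def Df (E : Env V) (s : Finset (V × ℕ)) (x x' : V × ℕ → ℝ) (v : V) : ℝ :=
  mg E s x v - mg E s x' v

noncomputable def gam (E : Env V) (s : Finset (V × ℕ)) (x x' : V × ℕ → ℝ) (y : V) : ℝ :=
  √(Nn E s x y) * |Df E s x x' y|

noncomputable def Aw (E : Env V) (s : Finset (V × ℕ)) (x x' : V × ℕ → ℝ) (v w : V) : ℝ :=
  ∑ y ∈ E.D with Btw E.T v y w, gam E s x x' y * (Pr E s x y v * Pr E s x y w)

noncomputable def Gw (E : Env V) (Z : ℝ) (s : Finset (V × ℕ)) (x : V × ℕ → ℝ) (v w : V) : ℝ :=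
  Wt E Z s x v + sr E Z s x v ^ 3 * (E.θ ^ 2) ^ E.T.dist v w

noncomputable def Gm (d : ℕ) (E : Env V) (Z : ℝ) : ℝ :=
  2 + (Z + E.D.card) * (d + 1) + (Z + E.D.card)

theorem om0 (j : ℕ) : 0 ≤ om j := zero_le_one.trans (one_le_om j)

theorem Gw_bd (h : Ok d E) (hZ : 1 ≤ Z) (hv : v ∈ E.D) (w : V) :
    0 ≤ Gw E Z s x v w ∧ Gw E Z s x v w ≤ Gm d E Z := by
  obtain ⟨a1, -, a3, -⟩ := sr_facts h hZ s x hv
  have a4 := Wt_le (s := s) (x := x) h hZ hv
  have a5 := sr3_le (s := s) (x := x) h hZ hv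
  have a6 : (E.θ ^ 2) ^ E.T.dist v w ≤ 1 := pow_le_one₀ (sq_nonneg _) (by linarith [h.half])
  have a7 := mul_le_of_le_one_right (show 0 ≤ sr E Z s x v ^ 3 by positivity) a6
  unfold Gw Gm
  exact ⟨by positivity, by linarith⟩

/-- One vertex, one event. -/
theorem one_ev : ∃ C₂ C₃ : ℝ, 1 ≤ C₂ ∧ 1 ≤ C₃ ∧ ∀ {d : ℕ} {E : Env V}, Ok d E → ∀ {Z : ℝ}, 1 ≤ Z →
    ∀ (u : V) (s : Finset (V × ℕ)) (x x' : V × ℕ → ℝ) (k : ℕ) (η : ℝ), η ≤ 1 →
    (∀ v ∈ E.D, |mg E s x v - mg E s x' v| ≤ η) → ∀ v ∈ E.D, ∀ w ∈ E.D, (w, k) ∉ s → ∀ κ υ : ℝ,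
    0 ≤ υ → υ ≤ Lr E s x v → |κ| ≤ 4 * Lr E s x v →
    (∀ o : ℝ, |o| ≤ 1 → Lr E (insert (w, k) s) (update x (w, k) o) v ≤
      Lr E s x v + al o (mg E s x w) * κ - al o (mg E s x w) ^ 2 * υ) →
    ∫ o : I, om (E.T.dist u v) *
        (mg E (insert (w, k) s) (update x (w, k) (Q (mg E s x w) o)) v -
          mg E (insert (w, k) s) (update x' (w, k) (Q (mg E s x' w) o)) v) ^ 2 *
        Wt E Z (insert (w, k) s) (update x (w, k) (Q (mg E s x w) o)) v ≤
        om (E.T.dist u v) * Df E s x x' v ^ 2 * Wt E Z s x v +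
        om (E.T.dist u v) * Df E s x x' v ^ 2 *
          (C₂ * (sr E Z s x v ^ 3 * nu E s x v w + κ ^ 2 / sr E Z s x v ^ 18 +
            κ ^ 2 * Nn E s x v / sr E Z s x v ^ 13) -
          1 / 10000 * (υ / sr E Z s x v ^ 9 + υ * Nn E s x v / sr E Z s x v ^ 5)) +
        (12 * d ^ 2 * C₂ * C₃ ^ 2 * (om (E.T.dist u v) * Gw E Z s x v w * Aw E s x x' v w ^ 2) +
          12 * d ^ 2 * C₂ * η ^ 4 * (om (E.T.dist u v) * Gm d E Z * (C₃ ^ (E.T.dist v w + 1)) ^ 2) +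
          12 * d ^ 2 * C₂ *
            (om (E.T.dist u v) * Gw E Z s x v w * (Df E s x x' w ^ 2 * Pr E s x w v ^ 2))) := by
  obtain ⟨C₂, hC₂, hpair⟩ := event_pair
  obtain ⟨C₃, hC₃, hfirst⟩ := first_order (V := V)
  refine ⟨C₂, C₃, hC₂, hC₃, ?_⟩
  intro d E h Z hZ u s x x' k η η1 hη v hv w hw hk κ υ k1 k2 k3 k4
  have l1 := (one_le_Lr h (s := s) (x := x) hv).1
  have ia : ∀ x : V × ℕ → ℝ, Integrable fun o : I => al (Q (mg E s x w) o) (mg E s x w) :=
    fun x => integrable_bd (measurable_al _) (a_abs h)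
  have main := hpair (z := Z + Lr E s x v) (N := Nn E s x v) (κ := κ) (υ := υ)
    (μ := mu E s x v w) (ν := nu E s x v w) (D := Df E s x x' v)
    (β := C₃ * Aw E s x x' v w + C₃ ^ (E.T.dist v w + 1) * η ^ 2 + |Df E s x x' w| * Pr E s x w v)
    (a := fun o => al (Q (mg E s x w) o) (mg E s x w))
    (δ := fun o => al (Q (mg E s x w) o) (mg E s x w) * cv E s x v w -
      al (Q (mg E s x' w) o) (mg E s x' w) * cv E s x' v w)
    (z' := fun o => Z + Lr E (insert (w, k) s) (update x (w, k) (Q (mg E s x w) o)) v)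
    (by linarith) (Nn_le h).1 nu_nonneg mu_sq k1 (by linarith) (by linarith) (measurable_al _)
    (((measurable_al _).mul_const _).sub ((measurable_al _).mul_const _))
    (((measurable_Lr v).comp (meas_upd _)).const_add Z) (a_abs h) (integral_al (mg_abs h))
    (integral_al_sq (mg_abs h))
    (by rw [integral_sub ((ia x).mul_const _) ((ia x').mul_const _), integral_mul_const,
      integral_mul_const, integral_al (mg_abs h), integral_al (mg_abs h)]; simp)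
    (fun o => by
      have a1 := jump_le (s := s) (x := x) (x' := x') h hv hw o o
      have a2 := hfirst h s s x x' η η1 hη v hv w hw
      rw [sub_self, abs_zero, add_zero] at a1
      exact a1.trans (add_le_add a2 le_rfl))
    (fun o => by
      have := (one_le_Lr h (s := insert (w, k) s)
        (x := update x (w, k) (Q (mg E s x w) o)) hv).1
      linarith)
    (fun o => by
      have := k4 _ (Q_abs (s := s) (x := x) (w := w) h o)
      linarith)
  have e : ∀ o : I, om (E.T.dist u v) *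
      (mg E (insert (w, k) s) (update x (w, k) (Q (mg E s x w) o)) v -
        mg E (insert (w, k) s) (update x' (w, k) (Q (mg E s x' w) o)) v) ^ 2 *
      Wt E Z (insert (w, k) s) (update x (w, k) (Q (mg E s x w) o)) v =
      om (E.T.dist u v) * ((Df E s x x' v + (al (Q (mg E s x w) o) (mg E s x w) * cv E s x v w -
        al (Q (mg E s x' w) o) (mg E s x' w) * cv E s x' v w)) ^ 2 *
      Wg (Z + Lr E (insert (w, k) s) (update x (w, k) (Q (mg E s x w) o)) v)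
        (Nn E s x v + 2 * al (Q (mg E s x w) o) (mg E s x w) * mu E s x v w +
          al (Q (mg E s x w) o) (mg E s x w) ^ 2 * nu E s x v w)) := by
    intro o
    rw [mg_upd h hk (Q_abs h o), mg_upd h hk (Q_abs h o), Wt,
      Nn_upd h hk (Q_abs h o)]
    simp only [Df]
    ring
  simp only [e]
  rw [integral_const_mul]
  refine (mul_le_mul_of_nonneg_left main (om0 _)).trans ?_
  have g1 : Wg (Z + Lr E s x v) (Nn E s x v) + rt (Z + Lr E s x v) ^ 3 * nu E s x v w ≤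
      4 * d ^ 2 * Gw E Z s x v w := G_le h hZ hv hw
  have g2 : (C₃ * Aw E s x x' v w + C₃ ^ (E.T.dist v w + 1) * η ^ 2 + |Df E s x x' w| * Pr E s x w v) ^ 2 ≤
      3 * (C₃ ^ 2 * Aw E s x x' v w ^ 2 + (C₃ ^ (E.T.dist v w + 1)) ^ 2 * η ^ 4 +
        Df E s x x' w ^ 2 * Pr E s x w v ^ 2) := by
    rw [← sq_abs (Df E s x x' w)]
    nlinarith [sq_nonneg (C₃ * Aw E s x x' v w - C₃ ^ (E.T.dist v w + 1) * η ^ 2),
      sq_nonneg (C₃ * Aw E s x x' v w - |Df E s x x' w| * Pr E s x w v),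
      sq_nonneg (C₃ ^ (E.T.dist v w + 1) * η ^ 2 - |Df E s x x' w| * Pr E s x w v)]
  obtain ⟨g3, g4⟩ := Gw_bd (s := s) (x := x) h hZ hv w
  have g5 := mul_le_mul (mul_le_mul_of_nonneg_left g1 (show 0 ≤ C₂ by linarith)) g2
    (sq_nonneg _) (by positivity)
  have g6 := mul_le_mul_of_nonneg_left g5 (om0 (E.T.dist u v))
  have g7 := mul_le_mul_of_nonneg_left g4 (show 0 ≤ 12 * d ^ 2 * C₂ * (om (E.T.dist u v) *
    (C₃ ^ (E.T.dist v w + 1)) ^ 2 * η ^ 4) by have := om0 (E.T.dist u v); positivity)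
  unfold Wt sr
  linarith

theorem vertex_le {D C₂ C₃ C₄ K p9 p5 N W S L t Y n : ℝ} (hC₂ : 1 ≤ C₂) (hC₄ : 1 ≤ C₄) (K1 : 1 ≤ K)
    (D0 : 0 ≤ D) (K2 : 112 * D * C₂ ≤ K) (K3 : 960 * D * (C₂ * C₃ ^ 2) ≤ K) (q9 : 0 ≤ p9)
    (q5 : 0 ≤ p5) (N0 : 0 ≤ N) (NW : N ≤ W) (W1 : 1 ≤ W) (S0 : 0 ≤ S) (L0 : 0 ≤ L) (t0 : 0 ≤ t)
    (b1 : S ^ 2 + L ^ 2 ≤ 1 / 20000 / K * p5 + C₄) (b2 : S + L + t * L ≤ 1 / 20000 / K * p9 + C₄)
    (b3 : Y ≤ 1 / 40000 * (1 + N + p9 + p5 * N)) (b4 : n ≤ 100 * D * L) :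
    C₂ * t * n + Y - 1 / 10000 * (p9 + p5 * N) + 12 * D * C₂ * C₃ ^ 2 * 80 * (N * (S ^ 2 + L ^ 2)) +
      12 * D * C₂ * S ≤ (2 * (K * C₄) + 1) * W := by
  have b5 := mul_le_mul_of_nonneg_left b4 (show 0 ≤ C₂ * t by positivity)
  have sL : 0 ≤ t * L := by positivity
  have eK : K * (1 / 20000 / K) = 1 / 20000 := by field_simp
  have c1 : K * (S ^ 2 + L ^ 2) ≤ 1 / 20000 * p5 + K * C₄ := by
    have := mul_le_mul_of_nonneg_left b1 (show 0 ≤ K by linarith)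
    rw [mul_add K (_ * _), ← mul_assoc, eK] at this
    exact this
  have c2 : K * (S + L + t * L) ≤ 1 / 20000 * p9 + K * C₄ := by
    have := mul_le_mul_of_nonneg_left b2 (show 0 ≤ K by linarith)
    rw [mul_add K (_ * _), ← mul_assoc, eK] at this
    exact this
  have c3 := mul_le_mul_of_nonneg_right ((mul_le_mul_of_nonneg_right K3
    (show 0 ≤ S ^ 2 + L ^ 2 by positivity)).trans c1) N0
  have dC : 0 ≤ D * C₂ := by positivity
  have c4 : 100 * D * C₂ * (t * L) + 12 * D * C₂ * S ≤ 1 / 20000 * p9 + K * C₄ := by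
    have f0 := mul_le_mul_of_nonneg_right K2 (show 0 ≤ S + L + t * L by positivity)
    have f1 := mul_nonneg dC S0
    have f2 := mul_nonneg dC sL
    have f3 := mul_nonneg dC L0
    linarith
  have KC : 0 ≤ K * C₄ := by positivity
  have c5 := mul_le_mul_of_nonneg_left NW KC
  have c6 := mul_le_mul_of_nonneg_left W1 KC
  have c7 := mul_nonneg q5 N0
  linarith

theorem third_le (h : Ok d E) (hZ : 1 ≤ Z) :
    ∑ v ∈ E.D, ∑ w ∈ E.D, om (E.T.dist u v) * Gw E Z s x v w *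
      (Df E s x x' w ^ 2 * Pr E s x w v ^ 2) ≤
      ∑ w ∈ E.D, om (E.T.dist u w) * Df E s x x' w ^ 2 * Sh E Z s x w := by
  rw [sum_comm]
  refine sum_le_sum fun w hw => ?_
  unfold Sh
  rw [mul_sum]
  refine sum_le_sum fun v hv => ?_
  have a1 := om_add (h.tree.connected.dist_triangle (u := u) (v := w) (w := v))
  have a2 := mul_le_mul_of_nonneg_right a1 (mul_nonneg (Gw_bd (s := s) (x := x) h hZ hv w).1
    (mul_nonneg (sq_nonneg (Df E s x x' w)) (sq_nonneg (Pr E s x w v))))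
  unfold Gw at a2 ⊢
  rw [E.T.dist_comm (u := w) (v := v)] at a2 ⊢
  linarith

theorem swap_int (h : Ok d E) (hZ : 1 ≤ Z) (k : V → ℕ) :
    ∑ w ∈ E.D, ∫ o : I, Phi2 E Z u (insert (w, k w) s)
      (update x (w, k w) (Q (mg E s x w) o)) (update x' (w, k w) (Q (mg E s x' w) o)) =
      ∑ v ∈ E.D, ∑ w ∈ E.D, ∫ o : I, om (E.T.dist u v) *
      (mg E (insert (w, k w) s) (update x (w, k w) (Q (mg E s x w) o)) v -
        mg E (insert (w, k w) s) (update x' (w, k w) (Q (mg E s x' w) o)) v) ^ 2 *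
      Wt E Z (insert (w, k w) s) (update x (w, k w) (Q (mg E s x w) o)) v := by
  rw [sum_comm]
  refine sum_congr rfl fun w _ => ?_
  unfold Phi2
  exact integral_finsetSum _ fun v hv => term_integrable h hZ hv _ _

end GenI

open GenI in
theorem gen_ineq (d : ℕ) : ∃ Z C : ℝ, 1 ≤ Z ∧ 1 ≤ C ∧ ∀ {E : Env V}, Ok d E →
    (∃ CE : ℝ, 0 ≤ CE ∧ ∀ u ∈ E.D, ∀ (s : Finset (V × ℕ)) (x x' : V × ℕ → ℝ) (k : V → ℕ) (h : ℝ),
      h ≤ 1 → (∀ w ∈ E.D, (w, k w) ∉ s) → (∀ v ∈ E.D, |mg E s x v - mg E s x' v| ≤ h) →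
      ∑ w ∈ E.D, ∫ o : I, Phi2 E Z u (insert (w, k w) s) (update x (w, k w) (Q (mg E s x w) o))
          (update x' (w, k w) (Q (mg E s x' w) o)) ≤
        (E.D.card + C) * Phi2 E Z u s x x' + CE * h ^ 4) ∧
    (∀ u ∈ E.D, ∀ (s : Finset (V × ℕ)) (x : V × ℕ → ℝ) (k : ℕ) (a b : I), (u, k) ∉ s →
      Phi2 E Z u (insert (u, k) s) (update x (u, k) (Q (mg E s x u) a))
        (update x (u, k) (Q (mg E s x u) b)) ≤ C * ((a : ℝ) - b) ^ 2 * Sh E Z s x u) ∧
    (∀ y ∈ E.D, ∀ (s : Finset (V × ℕ)) (x : V × ℕ → ℝ) (k : V → ℕ), (∀ w ∈ E.D, (w, k w) ∉ s) →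
      (∑ w ∈ E.D, ∫ o : I,
          (2 - (sr E Z (insert (w, k w) s) (update x (w, k w) (Q (mg E s x w) o)) y)⁻¹)) +
        C⁻¹ * (Sh E Z s x y + Lr E s x y) ≤ E.D.card * (2 - (sr E Z s x y)⁻¹) + C) := by
  obtain ⟨C₁, hC₁, hupd⟩ := upd (V := V)
  obtain ⟨C₂, C₃, hC₂, hC₃, hone⟩ := one_ev (V := V)
  obtain ⟨Z, hZe⟩ : ∃ Z, Z = 40000 * (C₁ * C₂) := ⟨_, rfl⟩
  have c12 : 1 ≤ C₁ * C₂ := one_le_mul_of_one_le_of_one_le hC₁ hC₂
  have hZ : 1 ≤ Z := by linarith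
  obtain ⟨K, hKe⟩ : ∃ K : ℝ, K = 1000 * (d ^ 2 + 1) * (C₂ * C₃ ^ 2) := ⟨_, rfl⟩
  have c33 : 1 ≤ C₃ ^ 2 := one_le_pow₀ hC₃
  have c23 : C₂ ≤ C₂ * C₃ ^ 2 := le_mul_of_one_le_right (by linarith) c33
  have d2 : (0 : ℝ) ≤ d ^ 2 := by positivity
  have K1 : 1 ≤ K := by rw [hKe]; nlinarith
  have K2 : 112 * d ^ 2 * C₂ ≤ K := by rw [hKe]; nlinarith
  have K3 : 960 * d ^ 2 * (C₂ * C₃ ^ 2) ≤ K := by rw [hKe]; nlinarith
  obtain ⟨C₄, hC₄, hsh⟩ := sh_bound (V := V) d (ε := 1 / 20000 / K) hZ (by positivity) hC₁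
  have K4 : C₄ ≤ K * C₄ := le_mul_of_one_le_left (by linarith) K1
  refine ⟨Z, 2 * (K * C₄) + 1 + 16 * d ^ 2, hZ, by linarith, fun {E} h => ⟨?_, ?_, ?_⟩⟩
  · have Gm0 : 0 ≤ Gm d E Z := by unfold Gm; positivity
    have p0 : ∀ u v w, 0 ≤ om (E.T.dist u v) * Gm d E Z * (C₃ ^ (E.T.dist v w + 1)) ^ 2 :=
      fun u v w => mul_nonneg (mul_nonneg (om0 _) Gm0) (sq_nonneg _)
    have dC : 0 ≤ 12 * d ^ 2 * C₂ := by positivity
    refine ⟨12 * d ^ 2 * C₂ * ∑ u ∈ E.D, ∑ v ∈ E.D, ∑ w ∈ E.D,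
      om (E.T.dist u v) * Gm d E Z * (C₃ ^ (E.T.dist v w + 1)) ^ 2, mul_nonneg dC
        (sum_nonneg fun u _ => sum_nonneg fun v _ => sum_nonneg fun w _ => p0 u v w), ?_⟩
    intro u hu s x x' k η η1 hk hη
    choose! κ υ hκ hL hL2 hK using hupd h s x
    rw [swap_int h hZ]
    refine (sum_le_sum fun v hv => sum_le_sum fun w hw => hone h hZ u s x x' (k w) η η1 hη v hv w hw
      (hk w hw) (κ v w) (υ v w) (hκ v hv w hw).1 (hκ v hv w hw).2.1 (hκ v hv w hw).2.2.1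
      ((hκ v hv w hw).2.2.2 (k w) (hk w hw))).trans ?_
    have t1 : ∑ v ∈ E.D, ∑ w ∈ E.D, om (E.T.dist u v) * Df E s x x' v ^ 2 * Wt E Z s x v =
        E.D.card * Phi2 E Z u s x x' := by
      unfold Phi2
      rw [mul_sum]
      exact sum_congr rfl fun v _ => by rw [sum_const, nsmul_eq_mul]; rfl
    have t3 : ∑ v ∈ E.D, ∑ w ∈ E.D, om (E.T.dist u v) * Gw E Z s x v w * Aw E s x x' v w ^ 2 ≤ _ :=
      schur h hZ s x hu (γ := gam E s x x') fun y => by unfold gam; positivity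
    have t4 := single_le_sum (f := fun u => ∑ v ∈ E.D, ∑ w ∈ E.D,
      om (E.T.dist u v) * Gm d E Z * (C₃ ^ (E.T.dist v w + 1)) ^ 2) (fun u _ =>
      sum_nonneg fun v _ => sum_nonneg fun w _ => p0 u v w) hu
    have t5 := third_le (s := s) (x := x) (x' := x') (u := u) h hZ
    have t2 : ∀ v ∈ E.D, ∑ w ∈ E.D, om (E.T.dist u v) * Df E s x x' v ^ 2 *
        (C₂ * (sr E Z s x v ^ 3 * nu E s x v w + κ v w ^ 2 / sr E Z s x v ^ 18 +
            κ v w ^ 2 * Nn E s x v / sr E Z s x v ^ 13) -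
          1 / 10000 * (υ v w / sr E Z s x v ^ 9 + υ v w * Nn E s x v / sr E Z s x v ^ 5)) +
        12 * d ^ 2 * C₂ * C₃ ^ 2 * 80 * (om (E.T.dist u v) * gam E s x x' v ^ 2 *
          (Sh E Z s x v ^ 2 + Lr E s x v ^ 2)) +
        12 * d ^ 2 * C₂ * (om (E.T.dist u v) * Df E s x x' v ^ 2 * Sh E Z s x v) ≤
        (2 * (K * C₄) + 1) * (om (E.T.dist u v) * Df E s x x' v ^ 2 * Wt E Z s x v) := by
      intro v hv
      have H0 : 0 ≤ ∑ w ∈ E.D, υ v w := sum_nonneg fun w hw => (hκ v hv w hw).1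
      obtain ⟨b1, b2⟩ := hsh h s x v hv _ H0 (hL v hv) (hL2 v hv)
      obtain ⟨a1, -, a3, -⟩ := sr_facts h hZ s x hv
      have N0 := (Nn_le (s := s) (x := x) (y := v) h).1
      have l1 := (one_le_Lr h (s := s) (x := x) hv).1
      have b3 := absorb (z := Z + Lr E s x v) hC₁ hC₂ hZe.ge (by linarith) H0 N0 (hK v hv)
      rw [mul_div_right_comm (∑ w ∈ E.D, υ v w)] at b3
      have c8 := vertex_le hC₂ hC₄ K1 d2 K2 K3 (div_nonneg H0 (by positivity))
        (div_nonneg H0 (by positivity)) N0 (Nn_le_Wt h hZ hv) a3 (Sh_nonneg h hZ s x v)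
        (by linarith) (by positivity) b1 b2 b3 (near_cv h hv)
      have e1 : ∑ w ∈ E.D,
          (C₂ * (sr E Z s x v ^ 3 * nu E s x v w + κ v w ^ 2 / sr E Z s x v ^ 18 +
            κ v w ^ 2 * Nn E s x v / sr E Z s x v ^ 13) -
          1 / 10000 * (υ v w / sr E Z s x v ^ 9 + υ v w * Nn E s x v / sr E Z s x v ^ 5)) =
          C₂ * sr E Z s x v ^ 3 * (∑ w ∈ E.D, nu E s x v w) +
          C₂ * ((∑ w ∈ E.D, κ v w ^ 2) / sr E Z s x v ^ 18 +
            (∑ w ∈ E.D, κ v w ^ 2) * Nn E s x v / sr E Z s x v ^ 13) -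
          1 / 10000 * ((∑ w ∈ E.D, υ v w) / sr E Z s x v ^ 9 +
            (∑ w ∈ E.D, υ v w) / sr E Z s x v ^ 5 * Nn E s x v) := by
        simp only [sum_mul, sum_div, mul_sum, mul_add, ← sum_add_distrib, ← sum_sub_distrib]
        exact sum_congr rfl fun w _ => by ring
      have e2 : gam E s x x' v ^ 2 = Df E s x x' v ^ 2 * Nn E s x v := by
        unfold gam
        rw [mul_pow, Real.sq_sqrt N0, sq_abs]; ring
      rw [← mul_sum, e1, e2]
      refine le_trans (le_of_eq ?_) ((mul_le_mul_of_nonneg_left c8 (mul_nonneg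
        (om0 (E.T.dist u v)) (sq_nonneg (Df E s x x' v)))).trans (le_of_eq (by ring)))
      unfold nu sr
      ring
    have t6 := sum_le_sum t2
    rw [sum_add_distrib, sum_add_distrib, ← mul_sum, ← mul_sum, ← mul_sum] at t6
    have P0 : 0 ≤ Phi2 E Z u s x x' := sum_nonneg fun v hv => mul_nonneg
      (mul_nonneg (om0 _) (sq_nonneg _)) (by linarith [(sr_facts h hZ s x hv).2.2.1])
    have t7 : ∑ v ∈ E.D, om (E.T.dist u v) * Df E s x x' v ^ 2 * Wt E Z s x v =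
        Phi2 E Z u s x x' := rfl
    rw [t7] at t6
    have t8 := mul_le_mul_of_nonneg_left t3 (mul_nonneg dC (sq_nonneg C₃))
    have t9 := mul_le_mul_of_nonneg_left t4 (mul_nonneg dC (show 0 ≤ η ^ 4 by positivity))
    have t10 := mul_le_mul_of_nonneg_left t5 dC
    have t11 := mul_nonneg d2 P0
    simp only [sum_add_distrib]
    rw [t1]
    simp only [← mul_sum (a := 12 * (d : ℝ) ^ 2 * C₂ * C₃ ^ 2), ← mul_sum (a := 12 * (d : ℝ) ^ 2 * C₂ * η ^ 4),
      ← mul_sum (a := 12 * (d : ℝ) ^ 2 * C₂)]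
    linarith
  · intro u hu s x k a b hk
    have S0 := Sh_nonneg h hZ s x u
    have : Phi2 E Z u (insert (u, k) s) (update x (u, k) (Q (mg E s x u) a))
        (update x (u, k) (Q (mg E s x u) b)) ≤ 16 * d ^ 2 * ((a : ℝ) - b) ^ 2 * Sh E Z s x u := by
      unfold Phi2 Sh
      rw [mul_sum]
      refine sum_le_sum fun v hv => ?_
      obtain ⟨κ, υ, hκ, -⟩ := hupd h s x v hv
      obtain ⟨k1, -, k3, k4⟩ := hκ u hu
      have l1 := (one_le_Lr h (s := s) (x := x) hv).1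
      have l2 := (one_le_Lr h (s := insert (u, k) s) (x := update x (u, k) (Q (mg E s x u) a)) hv).1
      have w1 := Wg_new (z := Z + Lr E s x v) (N := Nn E s x v) (κ := κ u) (υ := υ u)
        (μ := mu E s x v u) (ν := nu E s x v u) (a := al (Q (mg E s x u) a) (mg E s x u))
        (z' := Z + Lr E (insert (u, k) s) (update x (u, k) (Q (mg E s x u) a)) v) (by linarith)
        (Nn_le h).1 nu_nonneg mu_sq k1 (by linarith) (a_abs h a) (by linarith)
        (by have := k4 k hk _ (Q_abs (s := s) (x := x) (w := u) h a); linarith)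
      rw [← Nn_upd h hk (Q_abs h a)] at w1
      have w2 : Wt E Z (insert (u, k) s) (update x (u, k) (Q (mg E s x u) a)) v ≤
          4 * (4 * d ^ 2 * (Wt E Z s x v + sr E Z s x v ^ 3 * (E.θ ^ 2) ^ E.T.dist v u)) :=
        w1.trans (mul_le_mul_of_nonneg_left (G_le h hZ hv hu) (by norm_num))
      have j1 := jump_le (s := s) (x := x) (x' := x) h hv hu a b
      rw [sub_self, sub_self, abs_zero, zero_add, zero_add] at j1
      have j2 := pow_le_pow_left₀ (abs_nonneg _) j1 2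
      rw [sq_abs, mul_pow, sq_abs] at j2
      have w0 := (sr_facts h hZ (insert (u, k) s) (update x (u, k) (Q (mg E s x u) a)) hv).2.2.1
      have j3 := mul_le_mul_of_nonneg_left (mul_le_mul j2 w2 (by linarith) (by positivity))
        (zero_le_one.trans (one_le_om (E.T.dist u v)))
      rw [E.T.dist_comm (u := v) (v := u)] at j3
      rw [mg_upd h hk (Q_abs h a), mg_upd h hk (Q_abs h b), add_sub_add_left_eq_sub]
      linarith
    refine this.trans (mul_le_mul_of_nonneg_right (mul_le_mul_of_nonneg_right ?_ (sq_nonneg _)) S0)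
    linarith
  · intro y hy s x k hk
    obtain ⟨κ, υ, hκ, hL, hL2, -⟩ := hupd h s x y hy
    have H0 : 0 ≤ ∑ w ∈ E.D, υ w := sum_nonneg fun w hw => (hκ w hw).1
    obtain ⟨-, b2⟩ := hsh h s x y hy _ H0 hL hL2
    have l1 := (one_le_Lr h (s := s) (x := x) hy).1
    obtain ⟨a1, -⟩ := sr_facts h hZ s x hy
    have one : ∀ w ∈ E.D, ∫ o : I,
        (2 - (sr E Z (insert (w, k w) s) (update x (w, k w) (Q (mg E s x w) o)) y)⁻¹) ≤
        2 - (sr E Z s x y)⁻¹ - 1 / 3200 * (υ w / sr E Z s x y ^ 9) := by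
      intro w hw
      obtain ⟨k1, -, -, k4⟩ := hκ w hw
      exact event_single (z := Z + Lr E s x y) (κ := κ w) (υ := υ w)
        (a := fun o => al (Q (mg E s x w) o) (mg E s x w))
        (z' := fun o => Z + Lr E (insert (w, k w) s) (update x (w, k w) (Q (mg E s x w) o)) y)
        (by linarith) k1 (measurable_al _) (((measurable_Lr y).comp (meas_upd _)).const_add Z)
        (a_abs h) (integral_al (mg_abs h)) (integral_al_sq (mg_abs h))
        (fun o => by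
          have := (one_le_Lr h (s := insert (w, k w) s)
            (x := update x (w, k w) (Q (mg E s x w) o)) hy).1
          linarith)
        (fun o => by
          have := k4 (k w) (hk w hw) _ (Q_abs (s := s) (x := x) (w := w) h o)
          linarith)
    have t1 := sum_le_sum one
    rw [sum_sub_distrib, sum_const, nsmul_eq_mul, ← mul_sum, ← sum_div] at t1
    have q9 : 0 ≤ (∑ w ∈ E.D, υ w) / sr E Z s x y ^ 9 := div_nonneg H0 (by positivity)
    have e1 : 1 / 20000 / K ≤ 1 / 3200 := (div_le_self (by norm_num) K1).trans (by norm_num)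
    have t2 := mul_le_mul_of_nonneg_right e1 q9
    have S0 := Sh_nonneg h hZ s x y
    have sL : 0 ≤ sr E Z s x y ^ 3 * Lr E s x y := by positivity
    have t3 : (2 * (K * C₄) + 1 + 16 * d ^ 2)⁻¹ * (Sh E Z s x y + Lr E s x y) ≤
        Sh E Z s x y + Lr E s x y :=
      mul_le_of_le_one_left (by linarith) (inv_le_one_of_one_le₀ (by linarith))
    linarith

/-- Crude bounds, with constants depending on the volume. -/
theorem growth {d : ℕ} {E : Env V} (h : Ok d E) : ∃ G : ℝ, 1 ≤ G ∧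
    ∀ (s : Finset (V × ℕ)) (x x' : V × ℕ → ℝ) (w : V) (k : ℕ) (a b : I) (η : ℝ), w ∈ E.D →
      (w, k) ∉ s → (∀ v ∈ E.D, |mg E s x v - mg E s x' v| ≤ η) → ∀ v ∈ E.D,
        |mg E (insert (w, k) s) (update x (w, k) (Q (mg E s x w) a)) v -
          mg E (insert (w, k) s) (update x' (w, k) (Q (mg E s x' w) b)) v| ≤
          G * η + |(a : ℝ) - b| := by
  obtain ⟨C, hC, hl⟩ := cv_lip (V := V)
  have p0 : ∀ v w, 0 ≤ C ^ (E.T.dist v w + 1) := fun v w => by positivity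
  have s0 : 0 ≤ ∑ v ∈ E.D, ∑ w ∈ E.D, C ^ (E.T.dist v w + 1) :=
    sum_nonneg fun v _ => sum_nonneg fun w _ => p0 v w
  refine ⟨2 + ∑ v ∈ E.D, ∑ w ∈ E.D, C ^ (E.T.dist v w + 1), by linarith, ?_⟩
  intro s x x' w k a b η hw hk hη v hv
  have η0 : 0 ≤ η := (abs_nonneg _).trans (hη v hv)
  have a1 := GenI.jump_le (s := s) (x := x) (x' := x') h hv hw a b
  have a2 := hl h s s x x' η hη v hv w hw
  have a3 : C ^ (E.T.dist v w + 1) ≤ ∑ v ∈ E.D, ∑ w ∈ E.D, C ^ (E.T.dist v w + 1) :=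
    (single_le_sum (fun w _ => p0 v w) hw).trans (single_le_sum
      (f := fun v => ∑ w ∈ E.D, C ^ (E.T.dist v w + 1)) (fun v _ => sum_nonneg fun w _ => p0 v w) hv)
  have a4 := mul_le_mul_of_nonneg_right a3 η0
  have a5 := mul_le_of_le_one_right (show 0 ≤ |mg E s x w - mg E s x' w| + |(a : ℝ) - b| by
    positivity) (GenI.Pr_le_one (s := s) (x := x) h hw hv)
  rw [mg_upd h hk (GenI.Q_abs h a), mg_upd h hk (GenI.Q_abs h b), add_sub_add_comm]
  refine (abs_add_le _ _).trans ?_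
  linarith [hη v hv, hη w hw]

theorem Phi2_bound {d : ℕ} {E : Env V} (h : Ok d E) {Z : ℝ} (hZ : 1 ≤ Z) (u : V) : ∃ B : ℝ,
    ∀ (s : Finset (V × ℕ)) (x x' : V × ℕ → ℝ), 0 ≤ Phi2 E Z u s x x' ∧ Phi2 E Z u s x x' ≤ B ∧
      ∑ v ∈ E.D, om (E.T.dist u v) * (mg E s x v - mg E s x' v) ^ 2 ≤ Phi2 E Z u s x x' := by
  refine ⟨∑ v ∈ E.D, om (E.T.dist u v) * 4 * (2 + (Z + E.D.card) * (d + 1)), fun s x x' =>
    ⟨sum_nonneg fun v hv => ?_, sum_le_sum fun v hv => ?_, sum_le_sum fun v hv => ?_⟩⟩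
  all_goals
    have a0 := one_le_om (E.T.dist u v)
    have a1 := (sr_facts h hZ s x hv).2.2.1
  · positivity
  · exact mul_le_mul (mul_le_mul_of_nonneg_left (GenI.diff_sq h) (by linarith)) (GenI.Wt_le h hZ hv)
      (by linarith) (by positivity)
  · exact le_mul_of_one_le_right (by positivity) a1

end Vale.Agent.P161.C
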