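import Vale.Agent.P161.Law
import Vale.Agent.P161.C.Sys
import Vale.Agent.P161.C.Event

/-!
The law of the observations, cylinder probabilities and the decay of the posterior variance.

PLAN. `law_eq`: as `P161.finite_law` (through `sequential_wt`), both sides equal
`Σ_{S ⊆ D} wt D S / 2 * ∫ g (rs s fun j => Q (sp S j.1) (ω (κ j)))`; pass from `D'` to `D` with `consistent`.
`cyl`: `F s x = mean (tl s (fld x)) (Π_{v∈D₀} (1 + spin (η v) sp S v)/2)` is a martingale (`mean_insert`,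
`integral_al`; `chain` for `F` and `1 - F` with the clocks frozen by `P143.lintegral_swap`), its value at `∅` comes
from `consistent`/`total`, and `|F - Π (1 + η M)/2| ≤ Σ mean |sp - M| / 2`, `mean |sp v - M v| = 1 - M v ²`.
`time_incr`: for frozen clocks `chain` with `F s x = (mg s x v - mg (s ∩ pre r) x v)² + (1 - mg s x v ²)`
(`mg_upd`, `integral_al`). `vdecay`: `dynkin` with `F = 1 - mg²`, `Gain = (2 ε' F)/400`, `Loss = ε'²/400`
(the event at `v` itself lowers the mean by `∫ al² * F²`), and `chain_alive` for monotonicity in time.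
-/

open MeasureTheory Function Finset
open scoped Classical unitInterval ENNReal

namespace Vale.Agent.P161.C

variable {V : Type} {d : ℕ} {T : SimpleGraph V} {θ : ℝ}

namespace L2

open Vale.Agent.P143 (Q Q_spec lik)

theorem R1_abs {E : Env V} (h : Ok d E) (e : V × ℕ) (s : Finset (V × ℕ)) (x : V × ℕ → ℝ) (u : I) :
    |R1 E e s x u| ≤ 1 := (Q_spec (mg_abs h) u.2).2

theorem law_one {K : Type} {D : Finset V} (h : Ok d ⟨T, θ, D⟩) (hne : D.Nonempty) {Ev s : Finset (V × ℕ)}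
    (hs : s ⊆ Ev) {t : V × ℕ → ℝ} (ht : Set.InjOn t Ev) {κ : V × ℕ → K} (hκ : Injective κ)
    {g : (V × ℕ → ℝ) → ℝ≥0∞} (hg : Measurable g) :
    ∫⁻ ω, g (rs s (gW (R1 ⟨T, θ, D⟩) Ev t fun i => ω (κ i))) ∂P143.iid K =
      ∑ S ∈ D.powerset, ENNReal.ofReal (wt T θ D S / 2) *
        ∫⁻ ω, g (rs s fun j => Q (sp S j.1) (ω (κ j))) ∂P143.iid K := by
  have h0 : 0 ≤ θ := h.pos.le
  have h1 : θ < 1 := h.lt_one
  have W1 : ∀ z i, |gW (R1 ⟨T, θ, D⟩) Ev t z i| ≤ 1 := fun z i => by rw [gW_eq]; exact R1_abs h _ _ _ _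
  have r1 : ∀ W : V × ℕ → ℝ, rs s (fun j => if j ∈ Ev then W j else 0) = rs s W := fun W =>
    rs_congr fun i hi => if_pos (hs hi)
  have key := sequential_wt (S := Ev) (key := t) ht hκ.injOn
    (T := D.powerset) ⟨∅, empty_mem_powerset D⟩
    (π := fun S => wt T θ D S / 2) (fun S => half_pos (wt_pos h0 h1 D S))
    (by rw [← sum_div, total h.tree h.cvx hne]; norm_num) (sg := fun S j => sp S j.1)
    (fun S j => (abs_sp S _).le)
    (W := fun ω => gW (R1 ⟨T, θ, D⟩) Ev t fun i => ω (κ i))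
    (m := fun ω j => mg ⟨T, θ, D⟩ (pre Ev t (t j)) (X (R1 ⟨T, θ, D⟩) Ev t (fun i => ω (κ i)) (t j)) j.1)
    (measurable_it mrule_R1 (τ := fun _ => t) (ζ := fun (ω : K → I) i => ω (κ i)) (fun _ => measurable_const)
      (fun j => measurable_pi_apply (κ j)) _)
    (fun ω j => mg_abs h) (fun ω j _ => by rw [gW_eq]; rfl) (fun ω j hj => ?_) (fun ω u j _ i _ hij => ?_)
    (g := fun x => g (rs s x)) (hg.comp (measurable_rs s fun e => measurable_pi_apply e))
  · simpa only [r1] using key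
  · have e : ∀ [DecidablePred fun i => t i < t j], Ev.filter (fun i => t i < t j) = pre Ev t (t j) := by
      intro _
      ext i
      rw [mem_pre, mem_filter]
    have e2 : ∀ S, lik (fun j => sp S j.1) (pre Ev t (t j)) (gW (R1 ⟨T, θ, D⟩) Ev t fun i => ω (κ i)) =
        tl (pre Ev t (t j)) (fld (X (R1 ⟨T, θ, D⟩) Ev t (fun i => ω (κ i)) (t j))) S := fun S =>
      prod_congr rfl fun i hi => by
        have : X (R1 ⟨T, θ, D⟩) Ev t (fun i => ω (κ i)) (t j) i = gW (R1 ⟨T, θ, D⟩) Ev t (fun i => ω (κ i)) i :=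
          if_pos hi
        rw [fld_of_abs (by rw [this]; exact W1 _ _), this]; ring
    have z := Zs_pos (T := T) h0 h1 D (tl_pos (s := pre Ev t (t j))
      (fld_abs (X (R1 ⟨T, θ, D⟩) Ev t (fun i => ω (κ i)) (t j))))
    simp only [e, e2, mg, mag, mean]
    generalize tl (pre Ev t (t j)) (fld (X (R1 ⟨T, θ, D⟩) Ev t (fun i => ω (κ i)) (t j))) = L at *
    have e3 : ∑ S ∈ D.powerset, wt T θ D S / 2 * L S = (Zs T θ D L fun _ => 1) / 2 := by
      rw [Zs, sum_div]; exact sum_congr rfl fun S _ => by ring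
    have e4 : ∑ S ∈ D.powerset, sp S j.1 * (wt T θ D S / 2 * L S) =
        (Zs T θ D L fun S => sp S j.1) / 2 := by
      rw [Zs, sum_div]; exact sum_congr rfl fun S _ => by ring
    rw [e3, e4]
    field_simp
  · have k : ∀ e, t e < t j → update ω (κ j) u (κ e) = ω (κ e) := fun e he =>
      update_of_ne (fun h2 => by rw [hκ h2] at he; exact lt_irrefl _ he) _ _
    rw [gW_eq, gW_eq (z := fun i => ω (κ i)), k i hij,
      X_congr (E' := Ev) (t' := t) (q' := t i) (z' := fun i => ω (κ i)) rfl (fun _ _ _ _ => Iff.rfl)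
        fun e he => k e ((mem_pre.1 he).2.trans hij)]

theorem sp_inter {D S : Finset V} {v : V} (hv : v ∈ D) : sp (S ∩ D) v = sp S v := by simp [sp, hv]

theorem sum_fib {D D' : Finset V} (h : Ok d ⟨T, θ, D⟩) (h' : Ok d ⟨T, θ, D'⟩) (hD : D ⊆ D') (hne : D.Nonempty)
    {G : Finset V → ℝ≥0∞} (hG : ∀ S, G (S ∩ D) = G S) :
    ∑ S ∈ D'.powerset, ENNReal.ofReal (wt T θ D' S / 2) * G S =
      ∑ S ∈ D.powerset, ENNReal.ofReal (wt T θ D S / 2) * G S := by
  rw [← sum_fiberwise_of_maps_to (t := D.powerset) (g := fun S => S ∩ D)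
    fun S _ => mem_powerset.2 inter_subset_right]
  refine sum_congr rfl fun S₀ hS₀ => ?_
  rw [sum_congr rfl (g := fun S => ENNReal.ofReal (wt T θ D' S / 2) * G S₀)
    fun S hS => by rw [← hG S, (mem_filter.1 hS).2], ← sum_mul,
    ← ENNReal.ofReal_sum_of_nonneg fun S _ => (half_pos (wt_pos h.pos.le h.lt_one D' S)).le, ← sum_div]
  congr 3
  have := consistent (θ := θ) h.tree h.cvx h'.cvx hD hne (f := fun S => if S ∩ D = S₀ then 1 else 0)
    fun S S' hS => by
      have : S ∩ D = S' ∩ D := by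
        ext v
        simp only [mem_inter, and_congr_left_iff]
        intro hv
        have := hS v hv
        unfold sp at this
        split_ifs at this with h1 h2 h2 <;> first | tauto | norm_num at this
      rw [this]
  simp only [mul_ite, mul_one, mul_zero] at this
  rw [sum_filter, this, sum_congr rfl (g := fun S => if S = S₀ then wt T θ D S else 0)
    fun S hS => by rw [inter_eq_left.2 (mem_powerset.1 hS)], sum_ite_eq' , if_pos hS₀]

theorem LF_real {Γ : Rule V ℝ} (hΓ : MRule Γ) {F : Finset (V × ℕ) → (V × ℕ → ℝ) → ℝ} (mF : ∀ s, Measurable (F s))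
    {B : ℝ} (bF : ∀ s x, 0 ≤ F s x ∧ F s x ≤ B) (e : V × ℕ) (s : Finset (V × ℕ)) (x : V × ℕ → ℝ) :
    LF Γ (fun s x => ENNReal.ofReal (F s x)) e s x =
      ENNReal.ofReal (∫ u : I, F (insert e s) (update x e (Γ e s x u))) := by
  have m : Measurable fun u : I => F (insert e s) (update x e (Γ e s x u)) :=
    (mF _).comp ((measurable_update x).comp ((hΓ e s).comp (measurable_prodMk_left (x := x))))
  exact (ofReal_integral_eq_lintegral_ofReal
    (integrable_bd m fun u => by rw [abs_of_nonneg (bF _ _).1]; exact (bF _ _).2)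
    (ae_of_all _ fun u => (bF _ _).1)).symm

theorem mart [Countable V] {E : Env V} (Ev : Finset (V × ℕ)) {q r B : ℝ} (hq : q ≤ r)
    {F : (V × ℕ → ℝ) → Finset (V × ℕ) → (V × ℕ → ℝ) → ℝ} {G1 G2 : (V × ℕ → I) → ℝ} (m1 : Measurable G1)
    (m2 : Measurable G2) (e1 : ∀ ω, G1 ω = F (tk ω) (pre Ev (tk ω) r) (X (R1 E) Ev (tk ω) (lb ω) r))
    (e2 : ∀ ω, G2 ω = F (tk ω) (pre Ev (tk ω) q) (X (R1 E) Ev (tk ω) (lb ω) q))
    (mF : ∀ t s, Measurable (F t s)) (bF : ∀ t s x, 0 ≤ F t s x ∧ F t s x ≤ B)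
    (step : ∀ t, ∀ e ∈ Ev, q ≤ t e → ∀ x, ∫ u : I, F t (insert e (pre Ev t (t e)))
      (update x e (R1 E e (pre Ev t (t e)) x u)) ≤ F t (pre Ev t (t e)) x) :
    ∫ ω, G1 ω ∂P143.iid (V × ℕ) ≤ ∫ ω, G2 ω ∂P143.iid (V × ℕ) := by
  have i1 : Integrable G1 (P143.iid (V × ℕ)) := Integrable.of_bound m1.aestronglyMeasurable B
    (ae_of_all _ fun ω => by rw [e1, Real.norm_of_nonneg (bF _ _ _).1]; exact (bF _ _ _).2)
  have i2 : Integrable G2 (P143.iid (V × ℕ)) := Integrable.of_bound m2.aestronglyMeasurable B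
    (ae_of_all _ fun ω => by rw [e2, Real.norm_of_nonneg (bF _ _ _).1]; exact (bF _ _ _).2)
  have p1 : ∀ ω, 0 ≤ G1 ω := fun ω => by rw [e1]; exact (bF _ _ _).1
  have p2 : ∀ ω, 0 ≤ G2 ω := fun ω => by rw [e2]; exact (bF _ _ _).1
  rw [← ENNReal.ofReal_le_ofReal_iff (integral_nonneg p2), ofReal_integral_eq_lintegral_ofReal i1 (ae_of_all _ p1),
    ofReal_integral_eq_lintegral_ofReal i2 (ae_of_all _ p2),
    P143.lintegral_swap (fun i => i ∈ Set.range kc) m1.ennreal_ofReal,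
    P143.lintegral_swap (fun i => i ∈ Set.range kc) m2.ennreal_ofReal]
  refine lintegral_mono_ae ?_
  filter_upwards [ae_tk_inj] with ω hω
  have a1 : ∀ ω' : V × ℕ → I, tk (fun i => if i ∈ Set.range kc then ω i else ω' i) = tk ω := fun ω' => by
    funext e
    simp [tk, tau]
  have a2 : ∀ ω' : V × ℕ → I, lb (fun i => if i ∈ Set.range kc then ω i else ω' i) = fun e => ω' (lc e) :=
    fun ω' => by
      funext e
      have : lc e ∉ Set.range kc := fun ⟨e', h⟩ => kc_ne_lc e' e h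
      simp only [lb, this, if_false]
  simp only [e1, e2, a1, a2]
  exact chain mrule_R1 hω.injOn lc_inj (F := fun s x => ENNReal.ofReal (F (tk ω) s x))
    (fun s => (mF _ s).ennreal_ofReal) hq fun e he h1 _ x => by
      rw [LF_real mrule_R1 (mF _) (bF _)]
      exact ENNReal.ofReal_le_ofReal (step _ e he h1 x)

theorem int_lin {E : Env V} (h : Ok d E) (s : Finset (V × ℕ)) (x : V × ℕ → ℝ) (w : V) (a b : ℝ) :
    ∫ u : I, (a + al (Q (mg E s x w) u) (mg E s x w) * b) = a := by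
  rw [integral_add (integrable_const _) ((integrable_bd (measurable_al _)
    fun u => al_abs (Q_spec (mg_abs h) u.2).2 (mg_abs h)).mul_const _), integral_mul_const,
    integral_al (mg_abs h)]
  simp

theorem mn_le {E : Env V} (h : Ok d E) (s : Finset (V × ℕ)) (x : V × ℕ → ℝ) {f g : Finset V → ℝ}
    (hf : ∀ S, f S ≤ g S) : mn E s x f ≤ mn E s x g :=
  div_le_div_of_nonneg_right (sum_le_sum fun S _ => mul_le_mul_of_nonneg_left
    (mul_le_mul_of_nonneg_left (hf S) (tl_pos (fld_abs x) S).le) (wt_pos h.pos.le h.lt_one _ S).le)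
    (Zs_pos h.pos.le h.lt_one _ (tl_pos (fld_abs x))).le

theorem mn_lin {E : Env V} (h : Ok d E) (s : Finset (V × ℕ)) (x : V × ℕ → ℝ) (a : ℝ) (D₀ : Finset V)
    (c : V → ℝ) : mn E s x (fun S => a + ∑ v ∈ D₀, c v * sp S v) = a + ∑ v ∈ D₀, c v * mg E s x v := by
  have z := Zs_pos (T := E.T) h.pos.le h.lt_one E.D (tl_pos (s := s) (fld_abs x))
  unfold mn mg mag mean
  simp only [← mul_div_assoc]
  rw [← sum_div, div_eq_iff z.ne', add_mul, div_mul_cancel₀ _ z.ne']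
  unfold Zs
  simp only [mul_sum]
  rw [sum_comm, ← sum_add_distrib]
  refine sum_congr rfl fun S _ => ?_
  rw [mul_add, mul_add, mul_sum, mul_sum]
  congr 1
  · ring
  · exact sum_congr rfl fun v _ => by ring

theorem prod_diff (D₀ : Finset V) {a b : V → ℝ} (ha : ∀ v, |a v| ≤ 1) (hb : ∀ v, |b v| ≤ 1) :
    |∏ v ∈ D₀, a v - ∏ v ∈ D₀, b v| ≤ ∑ v ∈ D₀, |a v - b v| := by
  induction D₀ using Finset.induction_on with
  | empty => simp
  | insert w s hw ih =>
    rw [prod_insert hw, prod_insert hw, sum_insert hw]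
    have h1 : |∏ v ∈ s, a v| ≤ 1 := by
      rw [abs_prod]; exact prod_le_one (fun _ _ => abs_nonneg _) fun v _ => ha v
    rw [show a w * ∏ v ∈ s, a v - b w * ∏ v ∈ s, b v
      = (a w - b w) * ∏ v ∈ s, a v + b w * (∏ v ∈ s, a v - ∏ v ∈ s, b v) by ring]
    refine (abs_add_le _ _).trans ?_
    rw [abs_mul, abs_mul]
    have := mul_le_mul_of_nonneg_left h1 (abs_nonneg (a w - b w))
    have := mul_le_mul_of_nonneg_right (hb w) (abs_nonneg (∏ v ∈ s, a v - ∏ v ∈ s, b v))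
    linarith

theorem spin_cases (b : Bool) : spin b = 1 ∨ spin b = -1 := by cases b <;> simp [spin]

theorem half_mem (b : Bool) {m : ℝ} (hm : |m| ≤ 1) : 0 ≤ (1 + spin b * m) / 2 ∧ (1 + spin b * m) / 2 ≤ 1 := by
  obtain ⟨h1, h2⟩ := abs_le.1 hm
  rcases spin_cases b with h | h <;> rw [h] <;> constructor <;> linarith

theorem mn_close {E : Env V} (h : Ok d E) (s : Finset (V × ℕ)) (x : V × ℕ → ℝ) (D₀ : Finset V) (η : V → Bool) :
    |∏ v ∈ D₀, (1 + spin (η v) * mg E s x v) / 2 - mn E s x fun S => ∏ v ∈ D₀, (1 + spin (η v) * sp S v) / 2| ≤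
      ∑ v ∈ D₀, (1 - mg E s x v ^ 2) := by
  have k : ∀ S, |∏ v ∈ D₀, (1 + spin (η v) * mg E s x v) / 2 - ∏ v ∈ D₀, (1 + spin (η v) * sp S v) / 2| ≤
      D₀.card + ∑ v ∈ D₀, -mg E s x v * sp S v := fun S => by
    refine (prod_diff D₀ (fun v => ?_) fun v => ?_).trans ?_
    · have := half_mem (η v) (mg_abs (s := s) (x := x) (v := v) h)
      rw [abs_of_nonneg this.1]; exact this.2
    · have := half_mem (η v) (abs_sp S v).le
      rw [abs_of_nonneg this.1]; exact this.2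
    · rw [card_eq_sum_ones, Nat.cast_sum, ← sum_add_distrib]
      refine sum_le_sum fun v _ => ?_
      obtain ⟨h1, h2⟩ := abs_le.1 (mg_abs (s := s) (x := x) (v := v) h)
      rw [abs_le]
      unfold sp
      rcases spin_cases (η v) with h3 | h3 <;> rw [h3] <;> split_ifs <;> push_cast <;> constructor <;> linarith
  obtain ⟨c, hc⟩ : ∃ c, c = ∏ v ∈ D₀, (1 + spin (η v) * mg E s x v) / 2 := ⟨_, rfl⟩
  rw [← hc] at k ⊢
  have a1 := mn_le h s x (f := fun S => ∏ v ∈ D₀, (1 + spin (η v) * sp S v) / 2)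
    (g := fun S => (c + D₀.card) + ∑ v ∈ D₀, -mg E s x v * sp S v) fun S => by linarith [(abs_le.1 (k S)).1]
  have a2 := mn_le h s x (g := fun S => ∏ v ∈ D₀, (1 + spin (η v) * sp S v) / 2)
    (f := fun S => (c - D₀.card) + ∑ v ∈ D₀, mg E s x v * sp S v) fun S => by
      have := (abs_le.1 (k S)).2
      simp only [neg_mul, sum_neg_distrib] at this
      linarith
  rw [mn_lin h] at a1 a2
  simp only [neg_mul, sum_neg_distrib] at a1
  rw [sum_sub_distrib, sum_const, nsmul_eq_mul, mul_one]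
  simp only [sq]
  exact abs_le.2 ⟨by linarith, by linarith⟩

theorem pre_neg (Ev : Finset (V × ℕ)) (ω : V × ℕ → I) {q : ℝ} (hq : q ≤ 0) : pre Ev (tk ω) q = ∅ := by
  refine eq_empty_of_forall_notMem fun e he => ?_
  have h1 := tau_mono ω e.1 (Nat.zero_le (e.2 + 1))
  have h2 := (mem_pre.1 he).2
  have h3 : tau ω e.1 0 = 0 := by simp [tau]
  unfold tk at h2
  linarith

theorem var_step {E : Env V} (h : Ok d E) {s : Finset (V × ℕ)} {e : V × ℕ} (he : e ∉ s) (x : V × ℕ → ℝ) (v : V) :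
    ∫ u : I, (1 - mg E (insert e s) (update x e (R1 E e s x u)) v ^ 2) ≤
      1 - mg E s x v ^ 2 - cv E s x v e.1 ^ 2 / 400 := by
  have ia : Integrable fun u : I => al (Q (mg E s x e.1) u) (mg E s x e.1) := integrable_bd (measurable_al _)
    fun u => al_abs (Q_spec (mg_abs h) u.2).2 (mg_abs h)
  have ia2 : Integrable fun u : I => al (Q (mg E s x e.1) u) (mg E s x e.1) ^ 2 :=
    integrable_bd (B := 1) ((measurable_al _).pow_const 2) fun u => by
      rw [abs_pow]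
      exact pow_le_one₀ (abs_nonneg _) ((al_abs (Q_spec (mg_abs h) u.2).2 (mg_abs h)).trans (by norm_num))
  have e1 : ∀ u : I, 1 - mg E (insert e s) (update x e (R1 E e s x u)) v ^ 2 =
      (1 - mg E s x v ^ 2 + al (Q (mg E s x e.1) u) (mg E s x e.1) * (-2 * mg E s x v * cv E s x v e.1))
        - al (Q (mg E s x e.1) u) (mg E s x e.1) ^ 2 * cv E s x v e.1 ^ 2 := fun u => by
    rw [mg_upd (w := e.1) (k := e.2) h he (R1_abs h _ _ _ _)]
    unfold R1; ring
  simp only [e1]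
  have i3 : Integrable fun u : I => 1 - mg E s x v ^ 2 + al (Q (mg E s x e.1) u) (mg E s x e.1) *
      (-2 * mg E s x v * cv E s x v e.1) := (integrable_const _).add (ia.mul_const _)
  rw [integral_sub i3 (ia2.mul_const _), int_lin h, integral_mul_const]
  have := mul_le_mul_of_nonneg_right (integral_al_sq (mg_abs (s := s) (x := x) (v := e.1) h))
    (sq_nonneg (cv E s x v e.1))
  linarith

theorem var_bd {E : Env V} (h : Ok d E) (s : Finset (V × ℕ)) (x : V × ℕ → ℝ) (v : V) :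
    0 ≤ 1 - mg E s x v ^ 2 ∧ 1 - mg E s x v ^ 2 ≤ 1 := by
  obtain ⟨h1, h2⟩ := abs_le.1 (mg_abs (s := s) (x := x) (v := v) h)
  constructor <;> nlinarith

end L2

theorem law_eq {K : Type} {D D' : Finset V} (h : Ok d ⟨T, θ, D⟩) (h' : Ok d ⟨T, θ, D'⟩)
    (hD : D ⊆ D') (hne : D.Nonempty) {Ev Ev' s : Finset (V × ℕ)} (hE : ∀ e ∈ Ev, e.1 ∈ D)
    (hE' : ∀ e ∈ Ev', e.1 ∈ D') (hs : s ⊆ Ev) (hs' : s ⊆ Ev') {t t' : V × ℕ → ℝ}
    (ht : Set.InjOn t Ev) (ht' : Set.InjOn t' Ev') {κ : V × ℕ → K} (hκ : Injective κ)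
    {g : (V × ℕ → ℝ) → ℝ≥0∞} (hg : Measurable g) :
    ∫⁻ ω, g (rs s (gW (R1 ⟨T, θ, D⟩) Ev t fun i => ω (κ i))) ∂P143.iid K =
      ∫⁻ ω, g (rs s (gW (R1 ⟨T, θ, D'⟩) Ev' t' fun i => ω (κ i))) ∂P143.iid K := by
  rw [L2.law_one h hne hs ht hκ hg, L2.law_one h' (hne.mono hD) hs' ht' hκ hg]
  refine (L2.sum_fib h h' hD hne fun S => ?_).symm
  congr 1; funext ω
  rw [rs_congr fun i hi => by rw [L2.sp_inter (hE i (hs hi))]]

/-- Tilts supported in `D` give the same means in a larger convex volume. -/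
theorem mg_consistent {D D' : Finset V} (h : Ok d ⟨T, θ, D⟩) (h' : Ok d ⟨T, θ, D'⟩) (hD : D ⊆ D')
    {s : Finset (V × ℕ)} (hs : ∀ e ∈ s, e.1 ∈ D) (x : V × ℕ → ℝ) {v w : V} (hv : v ∈ D) (hw : w ∈ D) :
    mg ⟨T, θ, D'⟩ s x v = mg ⟨T, θ, D⟩ s x v ∧ cv ⟨T, θ, D'⟩ s x v w = cv ⟨T, θ, D⟩ s x v w := by
  have k : ∀ f : Finset V → ℝ, (∀ S S', (∀ v ∈ D, sp S v = sp S' v) → f S = f S') →
      Zs T θ D' (tl s (fld x)) f = Zs T θ D (tl s (fld x)) f := fun f hf =>
    consistent h.tree h.cvx h'.cvx hD ⟨v, hv⟩ fun S S' hS => by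
      rw [hf S S' hS]
      congr 1
      exact prod_congr rfl fun j hj => by rw [hS _ (hs j hj)]
  have k1 := k (fun _ => 1) fun _ _ _ => rfl
  have k2 := k (fun S => sp S v) fun _ _ hS => hS v hv
  have k3 := k (fun S => sp S w) fun _ _ hS => hS w hw
  have k4 := k (fun S => sp S v * sp S w) fun _ _ hS => by rw [hS v hv, hS w hw]
  simp only [mg, cv, cov, mag, mean, k1, k2, k3, k4, and_self]

theorem cyl [Countable V] {D D₀ : Finset V} (h : Ok d ⟨T, θ, D⟩) (h₀ : Cvx T D₀) (hD : D₀ ⊆ D)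
    (hne : D₀.Nonempty) (L : ℕ) (r : ℝ) (η : V → Bool) :
    |∫ ω, ∏ v ∈ D₀, (1 + spin (η v) * Ym ⟨T, θ, D⟩ (D ×ˢ range L) r v ω) / 2 ∂P143.iid (V × ℕ) -
        1 / 2 * ∏ e ∈ D₀.sym2 with e ∈ T.edgeSet, (1 + θ * (e.map fun v => spin (η v)).mul) / 2| ≤
      ∑ v ∈ D₀, ∫ ω, (1 - Ym ⟨T, θ, D⟩ (D ×ˢ range L) r v ω ^ 2) ∂P143.iid (V × ℕ) := by
  obtain ⟨f, hf⟩ : ∃ f : Finset V → ℝ, f = fun S => ∏ v ∈ D₀, (1 + spin (η v) * sp S v) / 2 := ⟨_, rfl⟩
  have f0 : ∀ S, 0 ≤ f S ∧ f S ≤ 1 := fun S => by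
    rw [hf]
    exact ⟨prod_nonneg fun v _ => (L2.half_mem _ (abs_sp S v).le).1,
      prod_le_one (fun v _ => (L2.half_mem _ (abs_sp S v).le).1) fun v _ => (L2.half_mem _ (abs_sp S v).le).2⟩
  have c0 : ∀ s x (a : ℝ), mn ⟨T, θ, D⟩ s x (fun _ => a) = a := fun s x a => by
    simpa using L2.mn_lin h s x a ∅ fun _ => 0
  have b0 : ∀ s x, 0 ≤ mn ⟨T, θ, D⟩ s x f ∧ mn ⟨T, θ, D⟩ s x f ≤ 1 := fun s x =>
    ⟨(c0 s x 0).symm.le.trans (L2.mn_le h s x fun S => (f0 S).1), (L2.mn_le h s x fun S => (f0 S).2).trans (c0 s x 1).le⟩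
  obtain ⟨G, hG⟩ : ∃ G : (V × ℕ → I) → ℝ, G = fun ω => mn ⟨T, θ, D⟩ (pre (D ×ˢ range L) (tk ω) r)
    (X (R1 ⟨T, θ, D⟩) (D ×ˢ range L) (tk ω) (lb ω) r) f := ⟨_, rfl⟩
  have mG : Measurable G := by
    rw [hG]
    exact measurable_state mrule_R1 (fun e => measurable_tau _ _) (fun e => measurable_pi_apply _) measurable_const
      (F := fun s x => mn ⟨T, θ, D⟩ s x f) fun s => measurable_mn f
  have st : ∀ (s : Finset (V × ℕ)) e, e ∉ s → ∀ x, ∀ u : I,
      mn ⟨T, θ, D⟩ (insert e s) (update x e (R1 ⟨T, θ, D⟩ e s x u)) f = mn ⟨T, θ, D⟩ s x f +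
        al (P143.Q (mg ⟨T, θ, D⟩ s x e.1) u) (mg ⟨T, θ, D⟩ s x e.1) * Kc ⟨T, θ, D⟩ s x f e.1 :=
    fun s e he x u => mn_upd (w := e.1) (k := e.2) h he (L2.R1_abs h _ _ _ _) f
  have x0 : ∀ ω, X (R1 ⟨T, θ, D⟩) (D ×ˢ range L) (tk ω) (lb ω) (min r 0) = 0 := fun ω => by
    rw [X, L2.pre_neg _ ω (min_le_right _ _), rs_empty]
  have a1 := L2.mart (E := ⟨T, θ, D⟩) (D ×ˢ range L) (min_le_left r 0) (B := 1)
    (F := fun _ s x => mn ⟨T, θ, D⟩ s x f) (G1 := G) (G2 := fun _ => mn ⟨T, θ, D⟩ ∅ 0 f) mG measurable_const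
    (fun ω => by rw [hG]) (fun ω => by rw [x0, L2.pre_neg _ ω (min_le_right _ _)])
    (fun _ _ => measurable_mn f) (fun _ => b0) fun t e _ _ x => by
      simp only [st _ e (not_mem_pre_self e)]
      exact (L2.int_lin h _ _ _ _ _).le
  have a2 := L2.mart (E := ⟨T, θ, D⟩) (D ×ˢ range L) (min_le_left r 0) (B := 1)
    (F := fun _ s x => 1 - mn ⟨T, θ, D⟩ s x f) (G1 := fun ω => 1 - G ω) (G2 := fun _ => 1 - mn ⟨T, θ, D⟩ ∅ 0 f)
    (mG.const_sub 1) measurable_const
    (fun ω => by rw [hG]) (fun ω => by rw [x0, L2.pre_neg _ ω (min_le_right _ _)])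
    (fun _ _ => (measurable_mn f).const_sub 1) (fun _ s x => ⟨by linarith [(b0 s x).2], by linarith [(b0 s x).1]⟩)
    fun t e _ _ x => by
      refine le_of_eq ((integral_congr_ae (ae_of_all _ fun u => ?_)).trans (L2.int_lin h
        (pre (D ×ˢ range L) t (t e)) x e.1 _ (-Kc ⟨T, θ, D⟩ (pre (D ×ˢ range L) t (t e)) x f e.1)))
      beta_reduce
      rw [st _ e (not_mem_pre_self e)]
      ring
  have iG : Integrable G (P143.iid (V × ℕ)) := Integrable.of_bound mG.aestronglyMeasurable 1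
    (ae_of_all _ fun ω => by rw [hG, Real.norm_of_nonneg (b0 _ _).1]; exact (b0 _ _).2)
  rw [integral_sub (integrable_const _) iG] at a2
  simp only [integral_const, probReal_univ, smul_eq_mul, one_mul] at a1 a2
  have a3 : mn ⟨T, θ, D⟩ ∅ 0 f =
      1 / 2 * ∏ e ∈ D₀.sym2 with e ∈ T.edgeSet, (1 + θ * (e.map fun v => spin (η v)).mul) / 2 := by
    have t1 := total (θ := θ) h.tree h.cvx (hne.mono hD)
    have t2 := consistent (θ := θ) h.tree h₀ h.cvx hD hne (f := f) fun S S' hS => by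
      rw [hf]; exact prod_congr rfl fun v hv => by rw [hS v hv]
    have s1 : ∀ v ∈ D₀, sp (D₀.filter fun v => η v = true) v = spin (η v) := fun v hv => by simp [sp, spin, hv]
    have t3 : ∑ S ∈ D₀.powerset, wt T θ D₀ S * f S = wt T θ D₀ (D₀.filter fun v => η v = true) := by
      rw [sum_eq_single_of_mem (D₀.filter fun v => η v = true) (mem_powerset.2 (filter_subset _ _))]
      · rw [hf]
        beta_reduce
        rw [prod_eq_one, mul_one]
        intro v hv
        rw [s1 v hv]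
        rcases L2.spin_cases (η v) with h3 | h3 <;> rw [h3] <;> norm_num
      · intro S hS hne'
        obtain ⟨v, hv⟩ := not_forall.1 fun h3 => hne' (Finset.ext h3)
        have hv2 : v ∈ D₀ := by
          by_contra h4
          exact hv ⟨fun h5 => absurd (mem_powerset.1 hS h5) h4, fun h5 => absurd (mem_filter.1 h5).1 h4⟩
        rw [hf]
        beta_reduce
        rw [prod_eq_zero hv2, mul_zero]
        simp only [mem_filter, hv2, true_and] at hv
        unfold sp spin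
        split_ifs with h5 h6 h6 <;> first | tauto | norm_num
    simp only [mn, mean, Zs, tl, prod_empty, one_mul, mul_one, t1, t2, t3]
    rw [div_eq_inv_mul, one_div]
    congr 1
    refine prod_congr rfl fun e he => ?_
    induction e with
    | h u v =>
      obtain ⟨h1, h2⟩ := mk_mem_sym2_iff.1 (mem_filter.1 he).1
      simp only [Sym2.map_mk, Sym2.mul_mk, s1 u h1, s1 v h2]
  have iY : ∀ v, Integrable (fun ω => 1 - Ym ⟨T, θ, D⟩ (D ×ˢ range L) r v ω ^ 2) (P143.iid (V × ℕ)) := fun v =>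
    Integrable.of_bound ((measurable_Ym.pow_const 2).const_sub 1).aestronglyMeasurable 1
      (ae_of_all _ fun ω => by
        have := L2.var_bd h (pre (D ×ˢ range L) (tk ω) r) (X (R1 ⟨T, θ, D⟩) (D ×ˢ range L) (tk ω) (lb ω) r) v
        rw [Real.norm_eq_abs, abs_le]; unfold Ym; constructor <;> linarith [this.1, this.2])
  have iP : Integrable (fun ω => ∏ v ∈ D₀, (1 + spin (η v) * Ym ⟨T, θ, D⟩ (D ×ˢ range L) r v ω) / 2)
      (P143.iid (V × ℕ)) :=
    Integrable.of_bound (Finset.measurable_prod _ fun v _ =>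
      ((measurable_Ym.const_mul _).const_add 1).div_const 2).aestronglyMeasurable 1
      (ae_of_all _ fun ω => by
        rw [Real.norm_of_nonneg (prod_nonneg fun v _ => (L2.half_mem _ (Ym_abs h ω)).1)]
        exact prod_le_one (fun v _ => (L2.half_mem _ (Ym_abs h ω)).1) fun v _ => (L2.half_mem _ (Ym_abs h ω)).2)
  rw [← a3, ← le_antisymm a1 (by linarith), ← integral_sub iP iG, ← integral_finset_sum _ fun v _ => iY v]
  refine (abs_integral_le_integral_abs).trans (integral_mono (iP.sub iG).abs (integrable_finset_sum _ fun v _ => iY v)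
    fun ω => ?_)
  rw [hG, hf]
  exact L2.mn_close h _ _ D₀ η

theorem time_incr [Countable V] {E : Env V} (h : Ok d E) (L : ℕ) {r r' : ℝ} (hr : r ≤ r') (v : V) :
    ∫ ω, (Ym E (E.D ×ˢ range L) r v ω - Ym E (E.D ×ˢ range L) r' v ω) ^ 2 ∂P143.iid (V × ℕ) ≤
      ∫ ω, (1 - Ym E (E.D ×ˢ range L) r v ω ^ 2) ∂P143.iid (V × ℕ) := by
  have mY := fun q => measurable_Ym (E := E) (Ev := E.D ×ˢ range L) (r := q) (v := v)
  have a1 := L2.mart (E := E) (E.D ×ˢ range L) hr (B := 5)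
    (F := fun t s x => (mg E (pre (E.D ×ˢ range L) t r) x v - mg E s x v) ^ 2 + (1 - mg E s x v ^ 2))
    (G1 := fun ω => (Ym E (E.D ×ˢ range L) r v ω - Ym E (E.D ×ˢ range L) r' v ω) ^ 2
      + (1 - Ym E (E.D ×ˢ range L) r' v ω ^ 2)) (G2 := fun ω => 1 - Ym E (E.D ×ˢ range L) r v ω ^ 2)
    ((((mY r).sub (mY r')).pow_const 2).add (((mY r').pow_const 2).const_sub 1)) (((mY r).pow_const 2).const_sub 1)
    (fun ω => by
      have : Ym E (E.D ×ˢ range L) r v ω = mg E (pre (E.D ×ˢ range L) (tk ω) r)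
          (X (R1 E) (E.D ×ˢ range L) (tk ω) (lb ω) r') v := by
        unfold Ym mg
        rw [mg_congr fun i hi => ?_]
        have : i ∈ pre (E.D ×ˢ range L) (tk ω) r' := mem_pre.2 ⟨(mem_pre.1 hi).1, (mem_pre.1 hi).2.trans_le hr⟩
        simp only [X, rs, hi, this, if_true]
      rw [this]; rfl)
    (fun ω => by simp [Ym])
    (fun _ _ => (((measurable_mg v).sub (measurable_mg v)).pow_const 2).add
      (((measurable_mg v).pow_const 2).const_sub 1))
    (fun t s x => by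
      obtain ⟨h1, h2⟩ := abs_le.1 (mg_abs (s := s) (x := x) (v := v) h)
      obtain ⟨h3, h4⟩ := abs_le.1 (mg_abs (s := pre (E.D ×ˢ range L) t r) (x := x) (v := v) h)
      constructor <;> nlinarith)
    fun t e _ he x => by
      have e1 : ∀ o, mg E (pre (E.D ×ˢ range L) t r) (update x e o) v = mg E (pre (E.D ×ˢ range L) t r) x v :=
        fun o => by
          have hne : ∀ i ∈ pre (E.D ×ˢ range L) t r, i ≠ e := fun i hi h2 => by
            rw [h2] at hi
            linarith [(mem_pre.1 hi).2]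
          unfold mg
          rw [mg_congr (x := update x e o) (x' := x) fun i hi => update_of_ne (hne i hi) _ _]
      have e2 := fun u : I => mg_upd (s := pre (E.D ×ˢ range L) t (t e)) (x := x) (w := e.1) (k := e.2) h
        (not_mem_pre_self e) (L2.R1_abs h e (pre (E.D ×ˢ range L) t (t e)) x u) v
      refine le_of_eq ((integral_congr_ae (ae_of_all _ fun u => ?_)).trans (L2.int_lin h
        (pre (E.D ×ˢ range L) t (t e)) x e.1 _ (-2 * mg E (pre (E.D ×ˢ range L) t r) x v *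
          cv E (pre (E.D ×ˢ range L) t (t e)) x v e.1)))
      beta_reduce
      rw [e1, e2]
      unfold R1; ring
  refine le_trans (integral_mono_of_nonneg (ae_of_all _ fun ω => sq_nonneg _) ?_ (ae_of_all _ fun ω => ?_)) a1
  · refine Integrable.of_bound ((((mY r).sub (mY r')).pow_const 2).add
      (((mY r').pow_const 2).const_sub 1)).aestronglyMeasurable 5 (ae_of_all _ fun ω => ?_)
    obtain ⟨h1, h2⟩ := abs_le.1 (Ym_abs (Ev := E.D ×ˢ range L) (r := r) (v := v) h ω)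
    obtain ⟨h3, h4⟩ := abs_le.1 (Ym_abs (Ev := E.D ×ˢ range L) (r := r') (v := v) h ω)
    rw [Real.norm_eq_abs, abs_le]; constructor <;> nlinarith
  · obtain ⟨h3, h4⟩ := abs_le.1 (Ym_abs (Ev := E.D ×ˢ range L) (r := r') (v := v) h ω)
    beta_reduce; nlinarith

theorem vdecay [Countable V] {ε : ℝ} (hε : 0 < ε) : ∃ r₀ : ℝ, 0 < r₀ ∧ ∀ r, r₀ ≤ r →
    ∀ {d : ℕ} {E : Env V}, Ok d E → ∀ v ∈ E.D, ∀ L : ℕ,
      ∫ ω in alive E.D L r, (1 - Ym E (E.D ×ˢ range L) r v ω ^ 2) ∂P143.iid (V × ℕ) ≤ ε := by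
  refine ⟨400 / ε ^ 2, by positivity, fun r hr d E h v hv L => ?_⟩
  have r0 : 0 < r := lt_of_lt_of_le (by positivity) hr
  obtain ⟨F, hF⟩ : ∃ F : Finset (V × ℕ) → (V × ℕ → ℝ) → ℝ≥0∞,
    F = fun s x => ENNReal.ofReal (1 - mg E s x v ^ 2) := ⟨_, rfl⟩
  have mR : ∀ s, Measurable fun x => 1 - mg E s x v ^ 2 := fun s => ((measurable_mg v).pow_const 2).const_sub 1
  have mF : ∀ s, Measurable (F s) := fun s => by rw [hF]; exact (mR s).ennreal_ofReal
  have l1 : ∀ e s x, e ∉ s → LF (R1 E) F e s x ≤ ENNReal.ofReal (1 - mg E s x v ^ 2 - cv E s x v e.1 ^ 2 / 400) :=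
    fun e s x he => by
      rw [hF, L2.LF_real mrule_R1 mR fun s x => L2.var_bd h s x v]
      exact ENNReal.ofReal_le_ofReal (L2.var_step h he x v)
  have l2 : ∀ e s x, e ∉ s → LF (R1 E) F e s x ≤ F s x := fun e s x he => by
    refine (l1 e s x he).trans ?_
    rw [hF]; exact ENNReal.ofReal_le_ofReal (sub_le_self _ (by positivity))
  have b1 : ∀ s x, F s x ≤ 1 := fun s x => by rw [hF]; exact ENNReal.ofReal_le_one.2 (L2.var_bd h s x v).2
  have dy := dynkin mrule_R1 (F := F) (Gain := fun s x => ENNReal.ofReal (ε / 200) * F s x)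
    (Loss := fun _ _ => ENNReal.ofReal (ε ^ 2 / 400)) mF (fun s => (mF s).const_mul _) (fun _ => measurable_const)
    ENNReal.one_ne_top b1 E.D L r fun ω _ q _ k hk => by
      generalize St E.D L q ω = s at *
      generalize Xs (R1 E) E.D L q ω = x
      rw [← add_sum_erase _ _ hv, ← card_erase_add_one hv]
      have c1 : ∑ w ∈ E.D.erase v, LF (R1 E) F (w, k w) s x ≤ (E.D.erase v).card * F s x := by
        rw [← nsmul_eq_mul]
        exact sum_le_card_nsmul _ _ _ fun w hw => l2 _ _ _ (hk w (mem_of_mem_erase hw)).2.1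
      have c2 : LF (R1 E) F (v, k v) s x + ENNReal.ofReal (ε / 200) * F s x ≤
          F s x + ENNReal.ofReal (ε ^ 2 / 400) := by
        refine (add_le_add_left (l1 _ _ _ (hk v hv).2.1) _).trans ?_
        obtain ⟨v0, v1⟩ := L2.var_bd h s x v
        rw [hF, cv_self h]
        beta_reduce
        rw [← ENNReal.ofReal_mul (by positivity), ← ENNReal.ofReal_add (by nlinarith) (by positivity),
          ← ENNReal.ofReal_add v0 (by positivity)]
        exact ENNReal.ofReal_le_ofReal (by nlinarith [sq_nonneg (1 - mg E s x v ^ 2 - ε)])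
      push_cast
      calc _ = ∑ w ∈ E.D.erase v, LF (R1 E) F (w, k w) s x +
            (LF (R1 E) F (v, k v) s x + ENNReal.ofReal (ε / 200) * F s x) := by ring
        _ ≤ (E.D.erase v).card * F s x + (F s x + ENNReal.ofReal (ε ^ 2 / 400)) := add_le_add c1 c2
        _ = _ := by ring
  obtain ⟨φ, hφ⟩ : ∃ φ, φ = ∫⁻ ω in alive E.D L r, F (St E.D L r ω) (Xs (R1 E) E.D L r ω) ∂P143.iid (V × ℕ) :=
    ⟨_, rfl⟩
  have g1 : ENNReal.ofReal (ε / 200) * φ * ENNReal.ofReal r ≤ ∫⁻ q in Set.Ioo 0 r, ∫⁻ ω in alive E.D L q,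
      ENNReal.ofReal (ε / 200) * F (St E.D L q ω) (Xs (R1 E) E.D L q ω) ∂P143.iid (V × ℕ) := by
    have : ENNReal.ofReal (ε / 200) * φ * ENNReal.ofReal r = ∫⁻ _q in Set.Ioo 0 r, ENNReal.ofReal (ε / 200) * φ := by
      simp
    rw [this]
    refine setLIntegral_mono' measurableSet_Ioo fun q hq => ?_
    rw [lintegral_const_mul' _ _ ENNReal.ofReal_ne_top, hφ]
    exact mul_le_mul_right (chain_alive mrule_R1 mF E.D L hq.2.le fun e s x _ he => l2 e s x he) _
  have g2 : ∫⁻ q in Set.Ioo 0 r, ∫⁻ _ω in alive E.D L q, ENNReal.ofReal (ε ^ 2 / 400) ∂P143.iid (V × ℕ) ≤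
      ENNReal.ofReal (ε ^ 2 / 400) * ENNReal.ofReal r := by
    have : ENNReal.ofReal (ε ^ 2 / 400) * ENNReal.ofReal r = ∫⁻ _q in Set.Ioo 0 r, ENNReal.ofReal (ε ^ 2 / 400) := by
      simp
    rw [this]
    refine lintegral_mono fun q => ?_
    rw [setLIntegral_const]
    exact mul_le_of_le_one_right' prob_le_one
  have g3 : ENNReal.ofReal (ε / 200) * φ * ENNReal.ofReal r ≤ 1 + ENNReal.ofReal (ε ^ 2 / 400) * ENNReal.ofReal r :=
    g1.trans (le_add_self.trans (dy.trans (add_le_add (b1 _ _) g2)))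
  have p0 : ∀ ω, 0 ≤ 1 - Ym E (E.D ×ˢ range L) r v ω ^ 2 ∧ 1 - Ym E (E.D ×ˢ range L) r v ω ^ 2 ≤ 1 :=
    fun ω => L2.var_bd h _ _ v
  have g4 : φ = ENNReal.ofReal (∫ ω in alive E.D L r, (1 - Ym E (E.D ×ˢ range L) r v ω ^ 2) ∂P143.iid (V × ℕ)) := by
    rw [ofReal_integral_eq_lintegral_ofReal (Integrable.of_bound
      ((measurable_Ym.pow_const 2).const_sub 1).aestronglyMeasurable 1
      (ae_of_all _ fun ω => by rw [Real.norm_of_nonneg (p0 ω).1]; exact (p0 ω).2)) (ae_of_all _ fun ω => (p0 ω).1),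
      hφ, hF]
    rfl
  have p1 : 0 ≤ ∫ ω in alive E.D L r, (1 - Ym E (E.D ×ˢ range L) r v ω ^ 2) ∂P143.iid (V × ℕ) :=
    integral_nonneg fun ω => (p0 ω).1
  rw [g4, ← ENNReal.ofReal_mul (by positivity), ← ENNReal.ofReal_mul (by positivity),
    ← ENNReal.ofReal_mul (by positivity), ← ENNReal.ofReal_one, ← ENNReal.ofReal_add (by positivity) (by positivity),
    ENNReal.ofReal_le_ofReal_iff (by positivity)] at g3
  rw [div_le_iff₀ (by positivity)] at hr
  apply le_of_mul_le_mul_left _ (by positivity : 0 < ε / 200 * r)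
  nlinarith

end Vale.Agent.P161.C
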