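import Vale.Agent.P161.Tree

/-!
An automorphism of the regular tree exchanging two given vertices.

PLAN. Zorn on relations `s : Set (V × V)` containing the reversed geodesic
`{(q.getVert i, q.getVert (n - i)) | i ≤ n}` (q a shortest walk from o to u, n its length) with
(i) isometry: `dist a b = dist a' b'` for `(a,a'), (b,b') ∈ s`;
(ii) every `(a,a') ∈ s` with `a ≠ o` has `(p,p') ∈ s` with `Adj p a`, `dist o p < dist o a`.
Both pass to unions of chains. Key lemma: if a set `A ∋ o` has (ii), `p ∈ A`, `Adj p v`, `v ∉ A`, then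
`dist v a = dist p a + 1` for all `a ∈ A` (use `cross`). If the domain of a maximal `s` misses a vertex,
take `v` missing with `dist o v` minimal, `p` its parent, `(p,p') ∈ s`; by counting neighbours
(`encard = d`, isometry makes the relation injective and adjacency preserving) some neighbour `w` of `p'`
is not in the range; add `(v,w)`. A total isometry is onto by counting neighbours and connectedness.
-/

namespace Vale.Agent.P161.C

variable {V : Type} {T : SimpleGraph V} {d : ℕ}

/-- Partial isometries whose domain is closed under taking parents. -/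
def SwGood (T : SimpleGraph V) (o u : V) (s : Set (V × V)) : Prop :=
  (o, u) ∈ s ∧ (∀ a ∈ s, ∀ b ∈ s, T.dist a.1 b.1 = T.dist a.2 b.2) ∧
    ∀ a ∈ s, a.1 ≠ o → ∃ p ∈ s, T.Adj p.1 a.1 ∧ T.dist o p.1 < T.dist o a.1

theorem SwGood.swap (hT : T.IsTree) {o u : V} {s : Set (V × V)} (h : SwGood T o u s) :
    SwGood T u o (Prod.swap ⁻¹' s) := by
  obtain ⟨h1, h2, h3⟩ := h
  refine ⟨h1, fun a ha b hb => (h2 _ ha _ hb).symm, fun a ha hne => ?_⟩
  have e1 := h2 _ h1 _ ha
  simp only [Prod.fst_swap, Prod.snd_swap] at e1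
  have hne' : a.2 ≠ o := by
    intro h4
    rw [h4, SimpleGraph.dist_self] at e1
    exact hne (hT.connected.dist_eq_zero_iff.1 e1.symm).symm
  obtain ⟨p, hp, h4, h5⟩ := h3 _ ha hne'
  have e2 := h2 _ hp _ ha
  have e3 := h2 _ h1 _ hp
  simp only [Prod.fst_swap, Prod.snd_swap] at e2 e3 h4 h5
  refine ⟨p.swap, by simpa using hp, ?_, ?_⟩
  · rw [SimpleGraph.dist_eq_one_iff_adj.2 h4] at e2
    exact SimpleGraph.dist_eq_one_iff_adj.1 e2.symm
  · simp only [Prod.fst_swap]; omega

theorem SwGood.key (hT : T.IsTree) {o u : V} {s : Set (V × V)} (h : SwGood T o u s)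
    {p : V × V} (hp : p ∈ s) {v : V} (hv : T.Adj p.1 v) (hn : ∀ a ∈ s, a.1 ≠ v) :
    ∀ a ∈ s, T.dist v a.1 = T.dist p.1 a.1 + 1 := by
  obtain ⟨h1, h2, h3⟩ := h
  have k : ∀ n, ∀ a ∈ s, T.dist o a.1 = n →
      (T.dist v a.1 < T.dist p.1 a.1 ↔ T.dist v o < T.dist p.1 o) := by
    intro n
    induction n using Nat.strong_induction_on with
    | _ n ih =>
      intro a ha hn'
      by_cases hao : a.1 = o
      · rw [hao]
      obtain ⟨b, hb, h4, h5⟩ := h3 a ha hao
      rw [← ih _ (hn' ▸ h5) b hb rfl]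
      constructor
      · intro h6
        by_contra h7
        exact hn a ha (cross hT hv h4 h7 h6).2
      · intro h6
        by_contra h7
        exact hn b hb (cross hT hv h4.symm h7 h6).2
  intro a ha
  have d1 := SimpleGraph.dist_eq_one_iff_adj.2 hv.symm
  have k1 := k _ a ha rfl
  have k2 := k _ p hp rfl
  rw [SimpleGraph.dist_self] at k2
  have k3 : ¬ T.dist v a.1 < T.dist p.1 a.1 := fun h6 => by
    have := k2.2 (k1.1 h6); omega
  have k4 := hT.dist_ne_of_adj a.1 hv
  rw [T.dist_comm (u := a.1), T.dist_comm (u := a.1)] at k4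
  have k5 := hT.connected.dist_triangle (u := v) (v := p.1) (w := a.1)
  omega

theorem SwGood.step (hT : T.IsTree) (hreg : ∀ v, (T.neighborSet v).encard = d) {o u : V}
    {s : Set (V × V)} (h : SwGood T o u s) (hm : ∃ v, ∀ a ∈ s, a.1 ≠ v) :
    ∃ c, c ∉ s ∧ SwGood T o u (insert c s) := by
  classical
  have hex : ∃ n, ∃ v, (∀ a ∈ s, a.1 ≠ v) ∧ T.dist o v = n := by
    obtain ⟨v, hv⟩ := hm; exact ⟨_, v, hv, rfl⟩
  obtain ⟨v, hv, hn⟩ := Nat.find_spec hex
  have hov : o ≠ v := hv _ h.1
  obtain ⟨p1, hp, h1⟩ := exists_parent hT hov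
  obtain ⟨p, hps, rfl⟩ : ∃ p ∈ s, p.1 = p1 := by
    by_contra h2
    push Not at h2
    exact Nat.find_min hex (m := T.dist o p1) (by omega) ⟨p1, h2, rfl⟩
  obtain ⟨w, hw, hw'⟩ : ∃ w, T.Adj p.2 w ∧ ∀ a ∈ s, a.2 ≠ w := by
    by_contra h2
    push Not at h2
    choose! f hf1 hf2 using h2
    have h3 : (T.neighborSet p.2).encard ≤ (T.neighborSet p.1 \ {v}).encard := by
      refine Set.encard_le_encard_of_injOn (f := fun w => (f w).1) (fun w hw => ⟨?_, ?_⟩) ?_
      · have e := h.2.1 _ hps _ (hf1 w hw)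
        rw [hf2 w hw, SimpleGraph.dist_eq_one_iff_adj.2 hw] at e
        exact SimpleGraph.dist_eq_one_iff_adj.1 e
      · exact hv _ (hf1 w hw)
      · intro w hw w' hw' e
        have e1 := h.2.1 _ (hf1 w hw) _ (hf1 w' hw')
        simp only at e
        rw [e, SimpleGraph.dist_self, hf2 w hw, hf2 w' hw'] at e1
        exact hT.connected.dist_eq_zero_iff.1 e1.symm
    have h4 := Set.encard_sdiff_singleton_add_one (s := T.neighborSet p.1) (a := v) hp
    rw [hreg] at h3 h4
    have h5 : (d : ℕ∞) + 1 ≤ d := by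
      calc (d : ℕ∞) + 1 ≤ _ + 1 := add_le_add_left h3 1
        _ = d := h4
    have h6 : d + 1 ≤ d := by exact_mod_cast h5
    omega
  have k1 := h.key hT hps hp hv
  have k2 := (h.swap hT).key hT (p := p.swap) (by simpa using hps) (v := w) hw
    fun a ha => hw' _ ha
  have k3 : ∀ a ∈ s, T.dist v a.1 = T.dist w a.2 := fun a ha => by
    have := k2 a.swap (by simpa using ha)
    simp only [Prod.fst_swap] at this
    rw [k1 a ha, this, h.2.1 _ hps _ ha]
  refine ⟨(v, w), fun h2 => hv _ h2 rfl, Or.inr h.1, ?_, ?_⟩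
  · rintro a (rfl | ha) b (rfl | hb)
    · simp
    · exact k3 b hb
    · rw [T.dist_comm, T.dist_comm (u := a.2)]; exact k3 a ha
    · exact h.2.1 a ha b hb
  · rintro a (rfl | ha) hne
    · exact ⟨p, Or.inr hps, hp, by simp only; omega⟩
    · obtain ⟨b, hb, h2⟩ := h.2.2 a ha hne
      exact ⟨b, Or.inr hb, h2⟩

theorem SwGood.extend (hT : T.IsTree) (hreg : ∀ v, (T.neighborSet v).encard = d) {o u : V}
    {s : Set (V × V)} (h : SwGood T o u s) : ∃ g : T ≃g T, ∀ a ∈ s, g a.1 = a.2 := by
  obtain ⟨m, hsm, hm⟩ := zorn_subset_nonempty {t | SwGood T o u t} (fun c hc hch hne => by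
    refine ⟨⋃₀ c, ⟨?_, ?_, ?_⟩, fun t ht => Set.subset_sUnion_of_mem ht⟩
    · obtain ⟨t, ht⟩ := hne
      exact ⟨t, ht, (hc ht).1⟩
    · rintro a ⟨t, ht, ha⟩ b ⟨t', ht', hb⟩
      rcases hch.total ht ht' with h1 | h1
      · exact (hc ht').2.1 a (h1 ha) b hb
      · exact (hc ht).2.1 a ha b (h1 hb)
    · rintro a ⟨t, ht, ha⟩ hne'
      obtain ⟨p, hp, h1⟩ := (hc ht).2.2 a ha hne'
      exact ⟨p, ⟨t, ht, hp⟩, h1⟩) s h
  have hg : SwGood T o u m := hm.prop
  have t1 : ∀ v, ∃ a ∈ m, a.1 = v := by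
    by_contra h1
    push Not at h1
    obtain ⟨c, hc, h2⟩ := hg.step hT hreg h1
    exact hc (hm.le_of_ge h2 (Set.subset_insert _ _) (Set.mem_insert _ _))
  have t2 : ∀ v, ∃ a ∈ m, a.2 = v := by
    by_contra h1
    push Not at h1
    obtain ⟨v, hv⟩ := h1
    obtain ⟨c, hc, h2⟩ := (hg.swap hT).step hT hreg ⟨v, fun a ha => hv _ ha⟩
    have h3 := h2.swap hT
    refine hc (hm.le_of_ge h3 (fun a ha => Or.inr (by simpa using ha)) (a := c.swap) ?_)
    exact Or.inl (by simp)
  choose f hf1 hf2 using t1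
  have e : ∀ a b, T.dist (f a).2 (f b).2 = T.dist a b := fun a b => by
    rw [← hg.2.1 _ (hf1 a) _ (hf1 b), hf2, hf2]
  have e2 : ∀ a ∈ m, (f a.1).2 = a.2 := fun a ha => by
    have := hg.2.1 _ (hf1 a.1) _ ha
    rw [hf2, SimpleGraph.dist_self] at this
    exact hT.connected.dist_eq_zero_iff.1 this.symm
  have hb : Function.Bijective fun v => (f v).2 := by
    constructor
    · intro a b hab
      have := e a b
      simp only at hab
      rw [hab, SimpleGraph.dist_self] at this
      exact hT.connected.dist_eq_zero_iff.1 this.symm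
    · intro w
      obtain ⟨a, ha, rfl⟩ := t2 w
      exact ⟨a.1, e2 a ha⟩
  refine ⟨⟨Equiv.ofBijective _ hb, fun {a b} => ?_⟩, fun a ha => e2 a (hsm ha)⟩
  show T.Adj (f a).2 (f b).2 ↔ _
  rw [← SimpleGraph.dist_eq_one_iff_adj, e, SimpleGraph.dist_eq_one_iff_adj]

theorem exists_swap (hT : T.IsTree) (hreg : ∀ v, (T.neighborSet v).encard = d) (o u : V) :
    ∃ g : T ≃g T, g o = u ∧ g u = o := by
  obtain ⟨q, hq⟩ := hT.connected.exists_walk_length_eq_dist o u
  have g0 := q.getVert_zero
  have gn := q.getVert_length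
  have k1 : ∀ k i, i + k ≤ q.length → T.dist (q.getVert i) (q.getVert (i + k)) ≤ k := by
    intro k i
    induction k with
    | zero => simp
    | succ k ih =>
      intro h
      have h1 := SimpleGraph.dist_eq_one_iff_adj.2 (q.adj_getVert_succ (i := i + k) (by omega))
      have h2 := hT.connected.dist_triangle (u := q.getVert i) (v := q.getVert (i + k))
        (w := q.getVert (i + k + 1))
      have h3 := ih (by omega)
      rw [← add_assoc]
      omega
  have k2 : ∀ i j, i ≤ j → j ≤ q.length → T.dist (q.getVert i) (q.getVert j) = j - i := by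
    intro i j hij hj
    have a1 := k1 i 0 (by omega)
    have a2 := k1 (j - i) i (by omega)
    have a3 := k1 (q.length - j) j (by omega)
    rw [zero_add, g0] at a1
    rw [show i + (j - i) = j by omega] at a2
    rw [show j + (q.length - j) = q.length by omega, gn] at a3
    have a4 := hT.connected.dist_triangle (u := o) (v := q.getVert i) (w := u)
    have a5 := hT.connected.dist_triangle (u := q.getVert i) (v := q.getVert j) (w := u)
    omega
  have hg : SwGood T o u {a | ∃ i ≤ q.length, a = (q.getVert i, q.getVert (q.length - i))} := by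
    refine ⟨⟨0, by omega, by simp⟩, ?_, ?_⟩
    · rintro _ ⟨i, hi, rfl⟩ _ ⟨j, hj, rfl⟩
      rcases le_total i j with h | h
      · simp only
        rw [k2 i j h hj, T.dist_comm, k2 _ _ (by omega) (by omega)]
        omega
      · simp only
        rw [T.dist_comm, k2 j i h hi, k2 _ _ (by omega) (by omega)]
        omega
    · rintro _ ⟨i, hi, rfl⟩ hne
      cases i with
      | zero => exact absurd g0 hne
      | succ i =>
        refine ⟨_, ⟨i, by omega, rfl⟩, q.adj_getVert_succ (by omega), ?_⟩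
        have a1 := k2 0 i (by omega) (by omega)
        have a2 := k2 0 (i + 1) (by omega) hi
        rw [g0] at a1 a2
        simp only
        omega
  obtain ⟨g, hg'⟩ := hg.extend hT hreg
  exact ⟨g, hg' (o, u) hg.1, hg' (u, o) ⟨q.length, le_rfl, by simp⟩⟩

end Vale.Agent.P161.C
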