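import Vale.Agent.P161.C.Sys
import Vale.Agent.P161.C.Event
import Vale.Agent.P161.C.Column

/-!
Stability in the volume below the critical coupling.

PLAN. Choose `l > 1` with `l² θ² (d-1) < 1`. Pair rule on the events `D' × range L`:
`R3 e s x o = (if e.1 ∈ D then Q (mg ⟨T,θ,D⟩ (s.filter (·.1 ∈ D)) (fst ∘ x) e.1) o else 0, Q (mg ⟨T,θ,D'⟩ s (snd ∘ x) e.1) o)`;
`X_unique`/`X_congr` identify the components. View the first copy in the volume `D'` as well (`P161.consistent`,
or `mg_consistent` of Law2) so that `P161.cov_lip` applies in `D'`. For `v ∈ D'` let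
`φ v q = E[(M v - M' v)² ; alive q]`. `dynkin` for each `v` (`mg_upd`, `integral_al`, `al_lip`, `al_abs`): an event
at `w ∈ D` adds at most `2 (Δcv)² + 2 θ^(2 dist v w) (ΔM w)²`, an event at `w ∉ D` at most `θ^(2 dist v w)`.
With `a v = (l²)^dist x v`: `Σ_w Σ_y c_{v,w} y a y ≤ C a v` (`cov_lip`, `sum_pow_dist`, triangle inequality) and the
source is `≤ r C (l²)^(-R) a v`. `gronwall`. See `P161.stability` in Stab.lean for the same computation.
-/

open MeasureTheory Function Finset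
open scoped Classical unitInterval

namespace Vale.Agent.P161.C

variable {V : Type} [Countable V] {d : ℕ} {T : SimpleGraph V} {θ : ℝ}

/-- The rule for two copies, the first of which ignores the events outside `D`. -/
noncomputable def R3 (E : Env V) (D : Finset V) : Rule V (ℝ × ℝ) := fun e s x o =>
  (if e.1 ∈ D then P143.Q (mg E s (fun i => (x i).1) e.1) o else 0,
    P143.Q (mg E s (fun i => (x i).2) e.1) o)

section Aux

omit [Countable V]

theorem mrule_R3 (E : Env V) (D : Finset V) : MRule (R3 E D) := by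
  intro e s
  refine Measurable.prodMk ?_
    (P143.measurable_Q ((measurable_mg e.1).comp (measurable_snd'.comp measurable_fst))
      (measurable_subtype_coe.comp measurable_snd))
  split_ifs
  · exact P143.measurable_Q ((measurable_mg e.1).comp (measurable_fst'.comp measurable_fst))
      (measurable_subtype_coe.comp measurable_snd)
  · exact measurable_const

theorem snd_X3 (E : Env V) (D : Finset V) (Ev : Finset (V × ℕ)) (t : V × ℕ → ℝ) (z : V × ℕ → I)
    (q : ℝ) : (fun i => (X (R3 E D) Ev t z q i).2) = X (R1 E) Ev t z q := by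
  have k : ∀ s, rs s (fun i => (gW (R3 E D) Ev t z i).2) =
      fun i => (rs s (gW (R3 E D) Ev t z) i).2 := by
    intro s
    funext i
    unfold rs
    split_ifs <;> rfl
  rw [← X_unique (W := fun i => (gW (R3 E D) Ev t z i).2), k]
  · rfl
  · intro e _
    rw [gW_eq, k]
    rfl

theorem mg_restrict (hT : T.IsTree) {D D' : Finset V} (hD : Cvx T D) (hD' : Cvx T D') (h : D ⊆ D')
    (L : ℕ) (t : V × ℕ → ℝ) (q : ℝ) {W : V × ℕ → ℝ} (hW : ∀ i, i.1 ∉ D → W i = 0) {v : V}
    (hv : v ∈ D) :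
    mg ⟨T, θ, D'⟩ (pre (D' ×ˢ range L) t q) (rs (pre (D' ×ˢ range L) t q) W) v =
      mg ⟨T, θ, D⟩ (pre (D ×ˢ range L) t q) (rs (pre (D ×ˢ range L) t q) W) v := by
  have hs : pre (D ×ˢ range L) t q ⊆ pre (D' ×ˢ range L) t q :=
    filter_subset_filter _ (product_subset_product_left h)
  have e : tl (pre (D' ×ˢ range L) t q) (fld (rs (pre (D' ×ˢ range L) t q) W)) =
      tl (pre (D ×ˢ range L) t q) (fld (rs (pre (D ×ˢ range L) t q) W)) := by
    funext S
    unfold tl
    rw [← prod_subset hs]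
    · refine prod_congr rfl fun i hi => ?_
      simp [fld, rs, hi, hs hi]
    · intro i hi hi'
      have : W i = 0 := hW i fun h3 => hi' (mem_pre.2
        ⟨mem_product.2 ⟨h3, (mem_product.1 (mem_pre.1 hi).1).2⟩, (mem_pre.1 hi).2⟩)
      simp [fld, rs, this]
  have k : ∀ S S', (∀ v ∈ D, sp S v = sp S' v) →
      tl (pre (D ×ˢ range L) t q) (fld (rs (pre (D ×ˢ range L) t q) W)) S =
      tl (pre (D ×ˢ range L) t q) (fld (rs (pre (D ×ˢ range L) t q) W)) S' :=
    fun S S' h => prod_congr rfl fun i hi => by rw [h _ (mem_product.1 (mem_pre.1 hi).1).1]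
  simp only [mg, e, mag, mean, Zs]
  rw [consistent hT hD hD' h ⟨_, hv⟩ fun S S' h => by rw [k S S' h, h _ hv],
    consistent hT hD hD' h ⟨_, hv⟩ fun S S' h => by rw [k S S' h]]

theorem fst_X3 (hT : T.IsTree) {D D' : Finset V} (hD : Cvx T D) (hD' : Cvx T D') (h : D ⊆ D')
    (L : ℕ) (t : V × ℕ → ℝ) (z : V × ℕ → I) (q : ℝ) {v : V} (hv : v ∈ D) :
    mg ⟨T, θ, D'⟩ (pre (D' ×ˢ range L) t q)
        (fun i => (X (R3 ⟨T, θ, D'⟩ D) (D' ×ˢ range L) t z q i).1) v =
      mg ⟨T, θ, D⟩ (pre (D ×ˢ range L) t q) (X (R1 ⟨T, θ, D⟩) (D ×ˢ range L) t z q) v := by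
  have k : ∀ q, (fun i => (X (R3 ⟨T, θ, D'⟩ D) (D' ×ˢ range L) t z q i).1) =
      rs (pre (D' ×ˢ range L) t q) fun i => (gW (R3 ⟨T, θ, D'⟩ D) (D' ×ˢ range L) t z i).1 := by
    intro q
    funext i
    unfold X rs
    split_ifs <;> rfl
  have hW : ∀ i : V × ℕ, i.1 ∉ D → (gW (R3 ⟨T, θ, D'⟩ D) (D' ×ˢ range L) t z i).1 = 0 := by
    intro i hi
    rw [gW_eq, R3, if_neg hi]
  rw [k, mg_restrict hT hD hD' h L t q hW hv,
    X_unique (Γ := R1 ⟨T, θ, D⟩) (z := z) fun e he => ?_]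
  have he' := (mem_product.1 (mem_pre.1 he).1).1
  rw [gW_eq, R3, if_pos he', k, mg_restrict hT hD hD' h L t _ hW he']
  rfl

theorem sq_stepR {J : I → ℝ} (mJ : Measurable J) {b B : ℝ} (h0 : ∫ u, J u = 0)
    (hB : ∀ u, J u ^ 2 ≤ B) : ∫ u, (b + J u) ^ 2 ≤ b ^ 2 + B := by
  have iJ : Integrable J := integrable_bd mJ (B := B + 1) fun u => by
    nlinarith [hB u, sq_abs (J u), sq_nonneg (|J u| - 1)]
  have e : ∫ u, (b ^ 2 + B + 2 * b * J u) = b ^ 2 + B := by
    rw [integral_add (integrable_const _) (iJ.const_mul _), integral_const_mul, h0]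
    simp
  rw [← e]
  exact integral_mono_of_nonneg (ae_of_all _ fun u => sq_nonneg _)
    ((integrable_const _).add (iJ.const_mul _)) (ae_of_all _ fun u => by
      beta_reduce
      nlinarith [hB u])

theorem vol_event {E : Env V} (h : Ok d E) (D : Finset V) {s : Finset (V × ℕ)}
    (x : V × ℕ → ℝ × ℝ) {v w : V} {k : ℕ} (hv : v ∈ E.D) (hw : w ∈ E.D) (he : (w, k) ∉ s) {b : ℝ}
    (hb : (cv E s (fun i => (x i).1) v w - cv E s (fun i => (x i).2) v w) ^ 2 ≤ b) :
    ∫ o : I, (mg E (insert (w, k) s) (fun i => (update x (w, k) (R3 E D (w, k) s x o) i).1) v -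
        mg E (insert (w, k) s) (fun i => (update x (w, k) (R3 E D (w, k) s x o) i).2) v) ^ 2 ≤
      (mg E s (fun i => (x i).1) v - mg E s (fun i => (x i).2) v) ^ 2 + (2 * b +
        2 * (E.θ ^ 2) ^ E.T.dist v w *
          (mg E s (fun i => (x i).1) w - mg E s (fun i => (x i).2) w) ^ 2 +
        if w ∈ D then 0 else (E.θ ^ 2) ^ E.T.dist v w) := by
  simp only [fst_update, snd_update, R3]
  generalize (fun i => (x i).1) = x₁ at *
  generalize (fun i => (x i).2) = x₂ at *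
  have m1 := mg_abs (s := s) (x := x₁) (v := w) h
  have m2 := mg_abs (s := s) (x := x₂) (v := w) h
  have b0 := (sq_nonneg _).trans hb
  have cb : cv E s x₂ v w ^ 2 ≤ (E.θ ^ 2) ^ E.T.dist v w := by
    rw [← pow_mul, mul_comm, pow_mul]
    exact pow_le_pow_left₀ (cv_nonneg h hv hw) ((cv_le_Pr h hv hw).trans (Pr_le h hv hw)) 2
  have ia : ∀ m, |m| ≤ 1 → Integrable fun u : I => al (P143.Q m u) m := fun m hm =>
    integrable_bd (measurable_al m) fun u => al_abs (P143.Q_spec hm u.2).2 hm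
  have a2 : ∀ m, |m| ≤ 1 → ∀ u : I, al (P143.Q m u) m ^ 2 ≤ 1 := fun m hm u => by
    rw [sq_le_one_iff_abs_le_one]
    linarith [al_abs (P143.Q_spec hm u.2).2 hm]
  by_cases hD : w ∈ D
  · simp only [if_pos hD]
    refine le_trans (le_of_eq (integral_congr_ae (ae_of_all _ fun u => ?_))) (sq_stepR
      (J := fun u => cv E s x₁ v w * al (P143.Q (mg E s x₁ w) u) (mg E s x₁ w) -
        cv E s x₂ v w * al (P143.Q (mg E s x₂ w) u) (mg E s x₂ w))
      (((measurable_al _).const_mul _).sub ((measurable_al _).const_mul _)) ?_ fun u => ?_)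
    · beta_reduce
      rw [mg_upd h he (P143.Q_spec m1 u.2).2, mg_upd h he (P143.Q_spec m2 u.2).2]
      ring
    · rw [integral_sub ((ia _ m1).const_mul _) ((ia _ m2).const_mul _), integral_const_mul,
        integral_const_mul, integral_al m1, integral_al m2]
      simp
    · have b4 := pow_le_pow_left₀ (abs_nonneg _) (al_lip m1 m2 u) 2
      rw [sq_abs, sq_abs] at b4
      have b5 := mul_le_mul hb (a2 _ m1 u) (sq_nonneg _) b0
      have b6 := mul_le_mul cb b4 (sq_nonneg _) (by positivity)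
      generalize al (P143.Q (mg E s x₁ w) u) (mg E s x₁ w) = g at *
      generalize al (P143.Q (mg E s x₂ w) u) (mg E s x₂ w) = g' at *
      generalize cv E s x₁ v w = C at *
      generalize cv E s x₂ v w = C' at *
      nlinarith [sq_nonneg ((C - C') * g - C' * (g - g'))]
  · simp only [if_neg hD]
    refine le_trans (le_of_eq (integral_congr_ae (ae_of_all _ fun u => ?_))) (sq_stepR
      (J := fun u => -cv E s x₂ v w * al (P143.Q (mg E s x₂ w) u) (mg E s x₂ w))
      ((measurable_al _).const_mul _) ?_ fun u => ?_)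
    · beta_reduce
      rw [mg_upd h he (by simp), mg_upd h he (P143.Q_spec m2 u.2).2]
      simp only [al, zero_div, zero_mul]
      ring
    · rw [integral_const_mul, integral_al m2, mul_zero]
    · have b5 := mul_le_mul cb (a2 _ m2 u) (sq_nonneg _) (by positivity)
      have : 0 ≤ 2 * (E.θ ^ 2) ^ E.T.dist v w * (mg E s x₁ w - mg E s x₂ w) ^ 2 := by positivity
      rw [mul_pow, neg_sq]
      linarith

end Aux

theorem vol (P : Par2 T d θ) (hθ : θ ^ 2 * (d - 1) < 1) {r ε : ℝ} (hr : 0 ≤ r) (hε : 0 < ε) :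
    ∃ R₀ : ℕ, ∀ (x : V) (D D' : Finset V) (L : ℕ), Cvx T D → Cvx T D' → ball T x R₀ ⊆ D → D ⊆ D' →
      ∫ ω in alive D' L r, (Ym ⟨T, θ, D⟩ (D ×ˢ range L) r x ω -
        Ym ⟨T, θ, D'⟩ (D' ×ˢ range L) r x ω) ^ 2 ∂P143.iid (V × ℕ) ≤ ε := by
  have hd : (3 : ℝ) ≤ d := by exact_mod_cast P.hd
  obtain ⟨ρ, hρ⟩ : ∃ ρ, ρ = θ ^ 2 * ((d : ℝ) - 1) := ⟨_, rfl⟩
  have ρ0 : 0 < ρ := by rw [hρ]; linarith [P.lo]
  rw [← hρ] at hθ
  obtain ⟨l, hl, hl'⟩ : ∃ l : ℝ, 1 < l ∧ l ^ 2 * θ ^ 2 * (d - 1) < 1 := by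
    refine ⟨2 / (1 + ρ), by rw [lt_div_iff₀ (by linarith)]; linarith, ?_⟩
    rw [mul_assoc, ← hρ, div_pow, div_mul_eq_mul_div, div_lt_one (by positivity)]
    nlinarith [sq_pos_of_pos (by linarith : 0 < 1 - ρ)]
  have l2 : 1 < l ^ 2 := by nlinarith
  obtain ⟨S, hS⟩ : ∃ S, S = 2 / (1 - l ^ 2 * θ ^ 2 * (d - 1)) := ⟨_, rfl⟩
  obtain ⟨B, hB⟩ : ∃ B, B = 2 ^ 18 * (l / (l - 1)) ^ 2 := ⟨_, rfl⟩
  have S0 : 0 < S := by rw [hS]; exact div_pos two_pos (by linarith)
  have B0 : 0 ≤ B := by rw [hB]; positivity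
  obtain ⟨R₀, hR⟩ := pow_unbounded_of_one_lt
    (2 * (r * S) * Real.exp (2 * ((2 * B + 2) * S) * r) / ε) l2
  refine ⟨R₀, fun x D D' L hD hD' hx hDD => ?_⟩
  have h : Ok d ⟨T, θ, D'⟩ := P.ok hD'
  have xD : x ∈ D := hx ((mem_ball P.tree P.reg).2 (by simp))
  have sS : ∀ v, ∑ w ∈ D', (l ^ 2 * θ ^ 2) ^ T.dist v w ≤ S := fun v =>
    hS ▸ sum_pow_dist P.tree P.reg (by have := P.hd; omega) (by positivity) hl' D' v
  have tri : ∀ v w, (l ^ 2) ^ T.dist x w ≤ (l ^ 2) ^ T.dist x v * (l ^ 2) ^ T.dist v w :=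
    fun v w => by
      rw [← pow_add]
      exact pow_le_pow_right₀ l2.le P.tree.connected.dist_triangle
  have hc : ∀ v w, ∃ c : V → ℝ, (∀ y, 0 ≤ c y) ∧ (v ∈ D' → w ∈ D' →
      ∑ y ∈ D', c y * (l ^ 2) ^ T.dist v y ≤ B * (l ^ 2 * θ ^ 2) ^ T.dist v w ∧
      ∀ (s : Finset (V × ℕ)) (x x' : V × ℕ → ℝ),
        (cv ⟨T, θ, D'⟩ s x v w - cv ⟨T, θ, D'⟩ s x' v w) ^ 2 ≤
          ∑ y ∈ D', c y * (mg ⟨T, θ, D'⟩ s x y - mg ⟨T, θ, D'⟩ s x' y) ^ 2) := by
    intro v w
    by_cases hvw : v ∈ D' ∧ w ∈ D'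
    · obtain ⟨c, c0, c1, c2⟩ := cov_lip P.tree P.pos.le h.half hl hD' hvw.1 hvw.2
      exact ⟨c, c0, fun _ _ => ⟨hB ▸ c1, fun s x x' => c2 s s _ _ (fld_abs x) (fld_abs x')⟩⟩
    · exact ⟨fun _ => 0, fun _ => le_rfl, fun hv hw => absurd ⟨hv, hw⟩ hvw⟩
  choose c c0 c1 using hc
  let F : V → Finset (V × ℕ) → (V × ℕ → ℝ × ℝ) → ℝ := fun v s x =>
    (mg ⟨T, θ, D'⟩ s (fun i => (x i).1) v - mg ⟨T, θ, D'⟩ s (fun i => (x i).2) v) ^ 2
  have mF : ∀ v s, Measurable (F v s) := fun v s =>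
    (((measurable_mg v).comp measurable_fst').sub
      ((measurable_mg v).comp measurable_snd')).pow_const 2
  have bF : ∀ v s x, F v s x ≤ 4 := fun v s x => by
    have h1 := abs_le.1 (mg_abs (s := s) (x := fun i => (x i).1) (v := v) h)
    have h2 := abs_le.1 (mg_abs (s := s) (x := fun i => (x i).2) (v := v) h)
    simp only [F]
    nlinarith
  have F0 : ∀ v s x, 0 ≤ F v s x := fun v s x => sq_nonneg _
  let γ : V → V → ℝ := fun v y => 2 * ∑ w ∈ D', c v w y + 2 * (θ ^ 2) ^ T.dist v y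
  have γ0 : ∀ v y, 0 ≤ γ v y := fun v y =>
    add_nonneg (mul_nonneg zero_le_two (sum_nonneg fun w _ => c0 v w y)) (by positivity)
  let src : V → ℝ := fun v => ∑ w ∈ D', if w ∈ D then 0 else (θ ^ 2) ^ T.dist v w
  have src0 : ∀ v, 0 ≤ src v := fun v => sum_nonneg fun w _ => by positivity
  have gr := gronwall D' (φ := fun v q => ∫⁻ ω in alive D' L q,
      ENNReal.ofReal (F v (St D' L q ω) (Xs (R3 ⟨T, θ, D'⟩ D) D' L q ω)) ∂P143.iid (V × ℕ))
    (a := fun v => (l ^ 2) ^ T.dist x v) (c := γ) (A := r * S / (l ^ 2) ^ R₀)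
    (C := (2 * B + 2) * S) (r₀ := r) (B := ENNReal.ofReal 4) ENNReal.ofReal_ne_top ?_
    (fun _ => by positivity) γ0 (by positivity) (by positivity) ?_ ?_ x (hDD xD) r hr le_rfl
  · rw [integral_eq_lintegral_of_nonneg_ae (ae_of_all _ fun ω => sq_nonneg _)
      ((measurable_Ym.fun_sub measurable_Ym).pow_const 2).aestronglyMeasurable]
    refine ENNReal.toReal_le_of_le_ofReal hε.le (le_trans (le_of_eq ?_)
      (gr.trans (ENNReal.ofReal_le_ofReal ?_)))
    · refine lintegral_congr fun ω => ?_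
      simp only [F, Ym, St, Xs, snd_X3, fst_X3 P.tree hD hD' hDD L _ _ _ xD]
    · rw [div_lt_iff₀ hε] at hR
      rw [SimpleGraph.dist_self, pow_zero, mul_one, ← mul_div_assoc, div_mul_eq_mul_div,
        div_le_iff₀ (by positivity)]
      linarith
  · intro v q
    refine (lintegral_mono fun ω => ENNReal.ofReal_le_ofReal (bF _ _ _)).trans ?_
    rw [setLIntegral_const]
    exact mul_le_of_le_one_right' prob_le_one
  · intro v hv
    refine (sum_le_sum fun y _ => mul_le_mul_of_nonneg_left (tri v y) (γ0 v y)).trans ?_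
    have e : ∑ y ∈ D', γ v y * ((l ^ 2) ^ T.dist x v * (l ^ 2) ^ T.dist v y) =
        (2 * ∑ w ∈ D', ∑ y ∈ D', c v w y * (l ^ 2) ^ T.dist v y +
          2 * ∑ y ∈ D', (l ^ 2 * θ ^ 2) ^ T.dist v y) * (l ^ 2) ^ T.dist x v := by
      rw [sum_comm, mul_sum, mul_sum, ← sum_add_distrib, sum_mul]
      refine sum_congr rfl fun y _ => ?_
      rw [← sum_mul, mul_pow]
      ring
    rw [e]
    refine mul_le_mul_of_nonneg_right ?_ (by positivity)
    have b1 := sum_le_sum fun w hw => (c1 v w hv hw).1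
    rw [← mul_sum] at b1
    have b2 := mul_le_mul_of_nonneg_left (sS v) B0
    linarith [sS v]
  · intro v hv r' r0 r1
    have dy := dynkinR (mrule_R3 ⟨T, θ, D'⟩ D) (F := F v) (Gain := fun _ _ => 0)
      (Loss := fun s x => src v + ∑ y ∈ D', γ v y * F y s x) (mF v) (fun _ => measurable_const)
      (fun s => (Finset.measurable_sum _ fun y _ => (mF y s).const_mul _).const_add _)
      (F0 v) (bF v) (fun _ _ => le_rfl)
      (fun s x => add_nonneg (src0 v) (sum_nonneg fun y _ => mul_nonneg (γ0 v y) (F0 y s x)))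
      D' L r' fun ω _ q _ k hk => ?_
    · have P0 : F v ∅ 0 = 0 := by simp [F]
      rw [P0, ENNReal.ofReal_zero, zero_add] at dy
      refine (le_self_add.trans dy).trans ((lintegral_mono (g := fun q => ENNReal.ofReal (src v) +
        ∑ y ∈ D', ENNReal.ofReal (γ v y) * ∫⁻ ω in alive D' L q,
          ENNReal.ofReal (F y (St D' L q ω) (Xs (R3 ⟨T, θ, D'⟩ D) D' L q ω)) ∂P143.iid (V × ℕ))
        fun q => ?_).trans ?_)
      · beta_reduce
        simp only [ENNReal.ofReal_add (src0 v) (sum_nonneg fun y _ => mul_nonneg (γ0 v y) (F0 y _ _)),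
          ENNReal.ofReal_sum_of_nonneg fun y _ => mul_nonneg (γ0 v y) (F0 y _ _),
          ENNReal.ofReal_mul (γ0 v _)]
        rw [lintegral_add_left measurable_const, lintegral_finset_sum _ fun y _ =>
          (measurable_st (mrule_R3 _ D) (mF y) D' L q).ennreal_ofReal.const_mul _, setLIntegral_const]
        simp only [lintegral_const_mul' _ _ ENNReal.ofReal_ne_top]
        exact add_le_add (mul_le_of_le_one_right' prob_le_one) le_rfl
      · rw [lintegral_add_left measurable_const, setLIntegral_const, Real.volume_Ioo, sub_zero,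
          ← ENNReal.ofReal_mul (src0 v)]
        refine add_le_add (ENNReal.ofReal_le_ofReal ?_) le_rfl
        have b1 : src v * (l ^ 2) ^ R₀ ≤ S * (l ^ 2) ^ T.dist x v := by
          refine le_trans ?_ (mul_le_mul_of_nonneg_right (sS v) (by positivity))
          rw [sum_mul, sum_mul]
          refine sum_le_sum fun w _ => ?_
          split_ifs with hw
          · rw [zero_mul]; positivity
          · have b2 : R₀ ≤ T.dist x w := by
              by_contra h3
              exact hw (hx ((mem_ball P.tree P.reg).2 (by omega)))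
            have b3 := (pow_le_pow_right₀ l2.le b2).trans (tri v w)
            have b4 := mul_le_mul_of_nonneg_left b3 (by positivity : 0 ≤ (θ ^ 2) ^ T.dist v w)
            rw [mul_pow]
            linarith
        rw [div_mul_eq_mul_div, le_div_iff₀ (by positivity)]
        have b5 := mul_le_mul b1 r1 r0 (by positivity)
        linarith
    · have b1 := sum_le_sum fun w hw => vol_event h D (Xs (R3 ⟨T, θ, D'⟩ D) D' L q ω) hv hw
        (hk w hw).2.1 ((c1 v w hv hw).2 _ _ _)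
      rw [add_zero]
      refine b1.trans (le_of_eq ?_)
      simp only [sum_add_distrib, sum_const, nsmul_eq_mul, γ, add_mul, src, F]
      rw [← mul_sum, sum_comm]
      simp only [mul_assoc, ← mul_sum, ← sum_mul]
      ring

end Vale.Agent.P161.C
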