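import Vale.Agent.P161.C.Weak
import Vale.Agent.P161.C.Vol
import Vale.Agent.P161.C.ES
import Vale.Agent.P161.C.Swap

/-!
Approximation of the magnetisation by a test function, uniformly in the subcritical coupling; the Cauchy property.

PLAN for `row`. `C` from `column`. Choose `ρ` with `C / om (ρ+1)` small, `N₀` with `card (ball ρ) r / N₀` small,
`δ` small (`δ (card In + 1) ≤ 1/2`, `card In ² C δ²` small), `Λ = 2/δ`. Given `θ`: `R₀ ≥ ρ` from `vol`, `L₁ ≥ N₀` with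
`card (ball R₀) r / L₁` small, `A₀ = (ball R₀ \ ball ρ) × range L₁`, `Y₀ = Ym ⟨ball R₀⟩ (In ∪ A₀)`,
`B₀ = (ball R × range L) \ (In ∪ A₀)`; apply `approx` with the images under `lc` (`Ym_dep`, `Ym_events`).
For `e = (u,k) ∈ A₀`: swap `o, u` (`exists_swap`, `Yb_map`, `integral_map_aut`) to turn the influence of `(u,k)` on
`Yb o R o` into that of `(o,k)` on `Yb u R u`; compare `Yb u R u` with `Yb o (R+R₀) u` by `vol` with accuracy
`ε / card A₀` (after integrating over `a`, `P143.resample` removes the update); `column` in `ball o (R+R₀)` bounds the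
sum by `C / om (ρ+1)`; `integral_le_alive` with `L` large. For `e ∈ In`, `column` in `ball o R` directly.
PLAN for `cauchy`. `ρ,N₀,Λ` from `row`, `R₁` from `weak`, `L₁` with `card (ball R₁) r / L₁` small, `Ym_cont` at `θc` for
`(ball R₁, L₁)`, `Ym_alive`. With `Y ≈ φ`, `Y' ≈ φ'`:
`E (Y-Y')² = E (Y-Y')(Y-φ) - E (Y-Y')(Y'-φ') + E (Y-Y')φ - E (Y-Y')φ'`.
-/

open MeasureTheory Function Finset
open scoped Classical unitInterval

namespace Vale.Agent.P161.C

namespace Row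

open ES

section

variable {X : Type*} [MeasurableSpace X] {F G H : X → ℝ}

theorem bm_add (h : BM F) (h' : BM G) : BM fun x => F x + G x := by
  obtain ⟨m, C, hC⟩ := h
  obtain ⟨m', C', hC'⟩ := h'
  exact ⟨m.add m', C + C', fun x => (abs_add_le _ _).trans (add_le_add (hC x) (hC' x))⟩

theorem bm_mul (h : BM F) (h' : BM G) : BM fun x => F x * G x := by
  obtain ⟨m, C, hC⟩ := h
  obtain ⟨m', C', hC'⟩ := h'
  exact ⟨m.mul m', C * C', fun x => by
    rw [abs_mul]; exact mul_le_mul (hC x) (hC' x) (abs_nonneg _) ((abs_nonneg _).trans (hC x))⟩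

theorem int_le3 (μ : Measure X) [IsProbabilityMeasure μ] {K : X → ℝ} {a b c : ℝ} (hK : BM K)
    (h : BM F) (h' : BM G) (h'' : BM H) (hl : ∀ x, K x ≤ a * F x + b * G x + c * H x) :
    ∫ x, K x ∂μ ≤ a * ∫ x, F x ∂μ + b * ∫ x, G x ∂μ + c * ∫ x, H x ∂μ := by
  have i1 := (h.int μ).const_mul a
  have i2 := (h'.int μ).const_mul b
  have i3 := (h''.int μ).const_mul c
  have i4 : Integrable (fun x => a * F x + b * G x) μ := i1.add i2
  rw [← integral_const_mul, ← integral_const_mul, ← integral_const_mul, ← integral_add i1 i2,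
    ← integral_add i4 i3]
  exact integral_mono (hK.int μ) (i4.add i3) hl

theorem tri3 (μ : Measure X) [IsProbabilityMeasure μ] {K : X → ℝ} (h : BM F) (h' : BM G)
    (h'' : BM H) (hK : BM K) : ∫ x, (F x - K x) ^ 2 ∂μ ≤
      3 * ∫ x, (F x - G x) ^ 2 ∂μ + 3 * ∫ x, (G x - H x) ^ 2 ∂μ + 3 * ∫ x, (H x - K x) ^ 2 ∂μ :=
  int_le3 μ (h.sub hK).sq (h.sub h').sq (h'.sub h'').sq (h''.sub hK).sq fun x => by
    nlinarith [sq_nonneg (F x - G x - (G x - H x)), sq_nonneg (F x - G x - (H x - K x)),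
      sq_nonneg (G x - H x - (H x - K x))]

theorem sq_symm (μ : Measure X) : ∫ x, (F x - G x) ^ 2 ∂μ = ∫ x, (G x - F x) ^ 2 ∂μ := by
  congr 1; funext x; ring

theorem lin (μ : Measure X) [IsProbabilityMeasure μ] (h : BM F) (h' : BM G) (mH : Measurable H)
    (bH : ∀ x, |H x| ≤ 1) {s : ℝ} (hs : 0 < s) (hb : ∫ x, (F x - G x) ^ 2 ∂μ ≤ 36 * s ^ 2) :
    ∫ x, F x * H x ∂μ - ∫ x, G x * H x ∂μ ≤ 19 * s := by
  have bh : BM H := ⟨mH, 1, bH⟩
  rw [← integral_sub ((bm_mul h bh).int μ) ((bm_mul h' bh).int μ)]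
  have k := int_le3 μ (a := 1 / (2 * s)) (b := s / 2) (c := 0) ((bm_mul h bh).sub (bm_mul h' bh))
    (h.sub h').sq (BM.const 1) (BM.const 0) fun x => by
      have h1 : H x ^ 2 ≤ 1 := by have := abs_le.1 (bH x); nlinarith
      have h2 : 0 ≤ 1 / (2 * s) * (F x - G x - s * H x) ^ 2 := by positivity
      have h3 : 1 / (2 * s) * (F x - G x - s * H x) ^ 2 =
          1 / (2 * s) * (F x - G x) ^ 2 - (F x * H x - G x * H x) + s / 2 * H x ^ 2 := by
        field_simp; ring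
      nlinarith
  have k2 : 1 / (2 * s) * ∫ x, (F x - G x) ^ 2 ∂μ ≤ 1 / (2 * s) * (36 * s ^ 2) :=
    mul_le_mul_of_nonneg_left hb (by positivity)
  have k3 : 1 / (2 * s) * (36 * s ^ 2) = 18 * s := by field_simp; ring
  simp only [integral_const, probReal_univ, smul_eq_mul, mul_one, zero_mul, add_zero] at k
  linarith

end

section

variable {K : Type} [DecidableEq K]

theorem bm_pair (e : K) {W : (K → I) → ℝ} (h : BM W) : BM fun p : I × I =>
    ∫ ω, (W (update ω e p.1) - W (update ω e p.2)) ^ 2 ∂P143.iid K := by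
  have b : BM fun q : (I × I) × (K → I) => (W (update q.2 e q.1.1) - W (update q.2 e q.1.2)) ^ 2 :=
    ((h.comp ((m_upd e).comp (measurable_snd.prodMk measurable_fst.fst))).sub
      (h.comp ((m_upd e).comp (measurable_snd.prodMk measurable_fst.snd)))).sq
  exact b.prod _

theorem tri (e : K) {Z W : (K → I) → ℝ} (hZ : BM Z) (hW : BM W) :
    ∫ a : I, ∫ b : I, ∫ ω, (Z (update ω e a) - Z (update ω e b)) ^ 2 ∂P143.iid K ≤
      6 * ∫ ω, (Z ω - W ω) ^ 2 ∂P143.iid K +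
        3 * ∫ a : I, ∫ b : I, ∫ ω, (W (update ω e a) - W (update ω e b)) ^ 2 ∂P143.iid K := by
  have b0 : BM fun q : I × (K → I) => (Z (update q.2 e q.1) - W (update q.2 e q.1)) ^ 2 :=
    ((hZ.sub hW).sq).comp ((m_upd e).comp (measurable_snd.prodMk measurable_fst))
  have bA : BM fun a : I => ∫ ω, (Z (update ω e a) - W (update ω e a)) ^ 2 ∂P143.iid K := b0.prod _
  have eA : ∫ a : I, ∫ ω, (Z (update ω e a) - W (update ω e a)) ^ 2 ∂P143.iid K =
      ∫ ω, (Z ω - W ω) ^ 2 ∂P143.iid K := by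
    rw [resI e (hZ.sub hW).sq]
    exact ES.swap b0 _ _
  have pZ := bm_pair e hZ
  have pW := bm_pair e hW
  have mu : ∀ a : I, Measurable fun ω : K → I => update ω e a := fun a =>
    (m_upd e).comp (measurable_id.prodMk measurable_const)
  have k1 : ∀ a : I, ∫ b : I, ∫ ω, (Z (update ω e a) - Z (update ω e b)) ^ 2 ∂P143.iid K ≤
      3 * ∫ ω, (Z (update ω e a) - W (update ω e a)) ^ 2 ∂P143.iid K +
      3 * (∫ b : I, ∫ ω, (W (update ω e a) - W (update ω e b)) ^ 2 ∂P143.iid K) +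
      3 * ∫ ω, (Z ω - W ω) ^ 2 ∂P143.iid K := by
    intro a
    have k := int_le3 (volume : Measure I) (a := 3) (b := 3) (c := 3)
      (pZ.comp (measurable_prodMk_left (x := a)))
      (BM.const (∫ ω, (Z (update ω e a) - W (update ω e a)) ^ 2 ∂P143.iid K))
      (pW.comp (measurable_prodMk_left (x := a))) bA fun b => by
        have := tri3 (P143.iid K) (hZ.comp (mu a)) (hW.comp (mu a)) (hW.comp (mu b))
          (hZ.comp (mu b))
        rw [sq_symm (F := fun ω => W (update ω e b))] at this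
        exact this
    rw [eA] at k
    simpa only [integral_const, probReal_univ, smul_eq_mul, one_mul] using k
  have k := int_le3 (volume : Measure I) (a := 3) (b := 3) (c := 3) (pZ.prod volume) bA
    (pW.prod volume) (BM.const (∫ ω, (Z ω - W ω) ^ 2 ∂P143.iid K)) k1
  rw [eA] at k
  simp only [integral_const, probReal_univ, smul_eq_mul, one_mul] at k
  linarith

theorem sum_le {ι : Type} (s : Finset ι) {G : ι → I × I → ℝ} (h : ∀ i ∈ s, BM (G i)) {c : ℝ}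
    (hc : ∀ a b, ∑ i ∈ s, G i (a, b) ≤ c) : ∑ i ∈ s, ∫ a : I, ∫ b : I, G i (a, b) ≤ c := by
  rw [← integral_finset_sum _ fun i hi => ((h i hi).prod volume).int _]
  have k : ∀ a : I, ∑ i ∈ s, ∫ b : I, G i (a, b) ≤ c := by
    intro a
    have hi : ∀ i ∈ s, Integrable (fun b : I => G i (a, b)) := fun i hi =>
      ((h i hi).comp (measurable_prodMk_left (x := a))).int _
    rw [← integral_finset_sum _ hi]
    have := integral_mono (integrable_finset_sum _ hi) (integrable_const c) (hc a)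
    simpa using this
  have := integral_mono (integrable_finset_sum _ fun i hi => ((h i hi).prod volume).int
    (volume : Measure I)) (integrable_const c) k
  simpa using this

end

theorem exists_L (c : ℝ) {t : ℝ} (ht : 0 < t) :
    ∃ L₀ : ℕ, 0 < L₀ ∧ ∀ L : ℕ, L₀ ≤ L → c / L ≤ t := by
  obtain ⟨n, hn⟩ := exists_nat_ge (c / t)
  refine ⟨n + 1, Nat.succ_pos n, fun L hL => ?_⟩
  have h1 : (n : ℝ) + 1 ≤ L := by exact_mod_cast hL
  have h2 : (0 : ℝ) ≤ n := Nat.cast_nonneg n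
  rw [div_le_iff₀ ht] at hn
  rw [div_le_iff₀ (by linarith)]
  nlinarith

theorem exists_om (c : ℝ) : ∃ ρ : ℕ, ∀ k, ρ < k → c ≤ om k := by
  obtain ⟨n, hn⟩ := exists_nat_ge (c ^ 8)
  refine ⟨n, fun k hk => ?_⟩
  have h1 : (n : ℝ) ≤ k := by exact_mod_cast hk.le
  have h2 : om k ^ 8 = 1 + k := rt_pow (by positivity)
  exact le_of_pow_le_pow_left₀ (n := 8) (by norm_num) (by linarith [one_le_om k]) (by linarith)

variable {V : Type} {d : ℕ} {E E' : Env V} {Ev Ev' : Finset (V × ℕ)} {r : ℝ} {v v' : V}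

theorem bm_Ym (h : Ok d E) : BM (Ym E Ev r v) := ⟨measurable_Ym, 1, Ym_abs h⟩

theorem sq_le4 {a b : ℝ} (ha : |a| ≤ 1) (hb : |b| ≤ 1) : (a - b) ^ 2 ≤ 4 := by
  have := abs_le.1 ha
  have := abs_le.1 hb
  nlinarith

theorem le_alive {F G : (V × ℕ → I) → ℝ} (mF : Measurable F) (mG : Measurable G)
    (bF : ∀ ω, |F ω| ≤ 1) (bG : ∀ ω, |G ω| ≤ 1) (D : Finset V) {L : ℕ} (hL : 0 < L) (hr : 0 ≤ r) :
    ∫ ω, (F ω - G ω) ^ 2 ∂P143.iid (V × ℕ) ≤
      ∫ ω in alive D L r, (F ω - G ω) ^ 2 ∂P143.iid (V × ℕ) + 4 * (D.card * r / L) :=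
  integral_le_alive ((mF.sub mG).pow_const 2) (fun _ => sq_nonneg _)
    (fun ω => sq_le4 (bF ω) (bG ω)) D hL hr

theorem zero_alive {F G : (V × ℕ → I) → ℝ} (mF : Measurable F) (mG : Measurable G)
    (bF : ∀ ω, |F ω| ≤ 1) (bG : ∀ ω, |G ω| ≤ 1) (D : Finset V) {L : ℕ} (hL : 0 < L) (hr : 0 ≤ r)
    (h : ∀ ω ∈ alive D L r, F ω = G ω) :
    ∫ ω, (F ω - G ω) ^ 2 ∂P143.iid (V × ℕ) ≤ 4 * (D.card * r / L) := by
  have k := le_alive mF mG bF bG D hL hr
  rw [setIntegral_eq_zero_of_forall_eq_zero fun ω hω => by rw [h ω hω]; simp, zero_add] at k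
  exact k

theorem ball_mono {T : SimpleGraph V} (hT : T.IsTree)
    (hreg : ∀ v, (T.neighborSet v).encard = d) {o u : V} {R R' : ℕ} (h : T.dist o u + R ≤ R') :
    ball T u R ⊆ ball T o R' := by
  intro v hv
  rw [mem_ball hT hreg] at *
  have := hT.connected.dist_triangle (u := o) (v := u) (w := v)
  omega

theorem m_upd' (e : V × ℕ) (a : I) : Measurable fun ω : V × ℕ → I => update ω e a :=
  (m_upd e).comp (measurable_id.prodMk measurable_const)

theorem swap_inf {T : SimpleGraph V} {θ : ℝ} (P : Par2 T d θ) (o u : V) (R L k : ℕ) (a b : I) :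
    ∫ ω, (Yb T θ o R L r o (update ω (lc (u, k)) a) - Yb T θ o R L r o (update ω (lc (u, k)) b)) ^ 2
      ∂P143.iid (V × ℕ) =
    ∫ ω, (Yb T θ u R L r u (update ω (lc (o, k)) a) - Yb T θ u R L r u (update ω (lc (o, k)) b)) ^ 2
      ∂P143.iid (V × ℕ) := by
  obtain ⟨g, g1, g2⟩ := exists_swap P.tree P.reg o u
  have mY : Measurable (Yb T θ o R L r o) := measurable_Ym
  have mF : Measurable fun ω => (Yb T θ o R L r o (update ω (lc (u, k)) a) -
      Yb T θ o R L r o (update ω (lc (u, k)) b)) ^ 2 :=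
    ((mY.comp (m_upd' _ a)).sub (mY.comp (m_upd' _ b))).pow_const 2
  rw [← integral_map_aut g.symm.toEquiv mF]
  have k : ∀ (ω : V × ℕ → I) (c : I),
      Yb T θ o R L r o (update (fun j => ω (g.symm.toEquiv j.1, j.2)) (lc (u, k)) c) =
        Yb T θ u R L r u (update ω (lc (o, k)) c) := by
    intro ω c
    rw [← Yb_map P.tree P.reg g θ u R L r u, g2]
    congr 1
    funext j
    by_cases hj : j = lc (u, k)
    · subst hj
      have : (g.symm (lc (u, k)).1, (lc (u, k)).2) = lc (o, k) := by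
        simp only [lc, ← g1, RelIso.symm_apply_apply]
      rw [this, update_self, update_self]
    · have : (g.symm j.1, j.2) ≠ lc (o, k) := by
        intro h1
        apply hj
        simp only [lc, Prod.mk.injEq] at h1
        refine Prod.ext ?_ h1.2
        have := congrArg g h1.1
        rw [RelIso.apply_symm_apply, g1] at this
        exact this
      rw [update_of_ne hj, update_of_ne this]
      rfl
  simp only [k]

theorem infl [Countable V] {T : SimpleGraph V} {θ : ℝ} (P : Par2 T d θ) (o : V) (hr : 0 < r)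
    {C t ε : ℝ} (C1 : 1 ≤ C) (ht : 0 < t)
    (hC : ∀ {E : Env V}, Ok d E → ∀ u ∈ E.D, ∀ (L : ℕ) (a b : I),
      ∑ k ∈ range L, ∑ v ∈ E.D, om (E.T.dist u v) *
      ∫ ω in alive E.D L r, (Ym E (E.D ×ˢ range L) r v (update ω (lc (u, k)) a) -
        Ym E (E.D ×ˢ range L) r v (update ω (lc (u, k)) b)) ^ 2 ∂P143.iid (V × ℕ) ≤
      C * ((a : ℝ) - b) ^ 2) {ρ : ℕ} (hρ : ∀ k, ρ < k → C / t ≤ om k) {R₂ : ℕ}
    (hR₂ : ∀ (x : V) (D D' : Finset V) (L : ℕ), Cvx T D → Cvx T D' → ball T x R₂ ⊆ D → D ⊆ D' →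
      ∫ ω in alive D' L r, (Ym ⟨T, θ, D⟩ (D ×ˢ range L) r x ω -
        Ym ⟨T, θ, D'⟩ (D' ×ˢ range L) r x ω) ^ 2 ∂P143.iid (V × ℕ) ≤ ε) {R R₀ L L₁ : ℕ}
    (hR2 : R₂ ≤ R) (hL1 : L₁ ≤ L) (L0 : 0 < L) :
    ∑ e ∈ ((ball T o R₀ \ ball T o ρ) ×ˢ range L₁).image lc, ∫ a : I, ∫ b : I,
      ∫ ω, (Yb T θ o R L r o (update ω e a) - Yb T θ o R L r o (update ω e b)) ^ 2
        ∂P143.iid (V × ℕ) ≤
      (((ball T o R₀ \ ball T o ρ) ×ˢ range L₁).card : ℝ) *
        (6 * (ε + 4 * (((ball T o (R + R₀)).card : ℝ) * r / L))) +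
        3 * (t + (((ball T o R₀ \ ball T o ρ) ×ˢ range L₁).card : ℝ) *
          (4 * (((ball T o (R + R₀)).card : ℝ) * r / L))) := by
  have hT := P.tree
  have hreg := P.reg
  have bm := fun {u v : V} {a b : ℕ} (h : T.dist u v + a ≤ b) => Row.ball_mono hT hreg h
  have bs : ∀ {u : V} {a b : ℕ}, a ≤ b → ball T u a ⊆ ball T u b := fun h => bm (by simpa using h)
  have ok := fun c R => P.okb c R
  have oo : ∀ R, o ∈ ball T o R := fun R => (mem_ball hT hreg).2 (by simp)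
  set A₀ := (ball T o R₀ \ ball T o ρ) ×ˢ range L₁ with hA₀
  set q : ℝ := ((ball T o (R + R₀)).card : ℝ) * r / L with hqd
  rw [sum_image fun a _ b _ h => lc_inj h]
  have okD := ok o (R + R₀)
  have k1 : ∀ e ∈ A₀, ∫ a : I, ∫ b : I, ∫ ω, (Yb T θ o R L r o (update ω (lc e) a) -
      Yb T θ o R L r o (update ω (lc e) b)) ^ 2 ∂P143.iid (V × ℕ) ≤
      6 * (ε + 4 * q) + 3 * ∫ a : I, ∫ b : I,
        ∫ ω, (Yb T θ o (R + R₀) L r e.1 (update ω (lc (o, e.2)) a) -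
          Yb T θ o (R + R₀) L r e.1 (update ω (lc (o, e.2)) b)) ^ 2 ∂P143.iid (V × ℕ) := by
    rintro ⟨u, k⟩ he
    have hu : T.dist o u ≤ R₀ := (mem_ball hT hreg).1 (mem_sdiff.1 (mem_product.1 he).1).1
    simp only [Row.swap_inf P o u R L k]
    have b1 := Row.tri (lc (o, k)) (Z := Yb T θ u R L r u) (W := Yb T θ o (R + R₀) L r u)
      (Row.bm_Ym (ok u R)) (Row.bm_Ym okD)
    have b2 := Row.le_alive (r := r) (F := Yb T θ u R L r u) (G := Yb T θ o (R + R₀) L r u)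
      measurable_Ym measurable_Ym (Ym_abs (ok u R)) (Ym_abs okD) (ball T o (R + R₀)) L0 hr.le
    have b3 := hR₂ u (ball T u R) (ball T o (R + R₀)) L (cvx_ball hT hreg _ _)
      (cvx_ball hT hreg _ _) (bs hR2) (bm (by omega))
    simp only [Yb] at b1 b2 ⊢
    linarith
  refine (sum_le_sum k1).trans ?_
  rw [sum_add_distrib, sum_const, nsmul_eq_mul, ← mul_sum]
  refine add_le_add le_rfl (mul_le_mul_of_nonneg_left ?_ (by norm_num))
  refine Row.sum_le A₀ (G := fun e p => ∫ ω, (Yb T θ o (R + R₀) L r e.1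
    (update ω (lc (o, e.2)) p.1) - Yb T θ o (R + R₀) L r e.1 (update ω (lc (o, e.2)) p.2)) ^ 2
      ∂P143.iid (V × ℕ)) (fun e _ => Row.bm_pair _ (Row.bm_Ym okD)) fun a b => ?_
  have k2 := hC okD o (oo _) L a b
  obtain ⟨J, hJ⟩ : ∃ J : V → ℕ → ℝ, J = fun v k => ∫ ω in alive (ball T o (R + R₀)) L r,
      (Yb T θ o (R + R₀) L r v (update ω (lc (o, k)) a) -
        Yb T θ o (R + R₀) L r v (update ω (lc (o, k)) b)) ^ 2 ∂P143.iid (V × ℕ) := ⟨_, rfl⟩
  have J0 : ∀ v k, 0 ≤ J v k := fun v k => by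
    rw [hJ]; exact integral_nonneg fun _ => sq_nonneg _
  have k3 : ∑ k ∈ range L, ∑ v ∈ ball T o (R + R₀), om (T.dist o v) * J v k ≤
      C * ((a : ℝ) - b) ^ 2 := by rw [hJ]; exact k2
  have k4 : ∀ e ∈ A₀, ∫ ω, (Yb T θ o (R + R₀) L r e.1 (update ω (lc (o, e.2)) a) -
      Yb T θ o (R + R₀) L r e.1 (update ω (lc (o, e.2)) b)) ^ 2 ∂P143.iid (V × ℕ) ≤
      J e.1 e.2 + 4 * q := by
    intro e _
    have mY : Measurable (Yb T θ o (R + R₀) L r e.1) := measurable_Ym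
    rw [hJ]
    exact Row.le_alive (mY.comp (Row.m_upd' (lc (o, e.2)) a))
      (mY.comp (Row.m_upd' (lc (o, e.2)) b)) (fun ω => Ym_abs okD _)
      (fun ω => Ym_abs okD _) _ L0 hr.le
  refine (sum_le_sum k4).trans ?_
  rw [sum_add_distrib, sum_const, nsmul_eq_mul]
  refine add_le_add ?_ le_rfl
  have k5 : ∑ e ∈ A₀, C / t * J e.1 e.2 ≤
      ∑ e ∈ ball T o (R + R₀) ×ˢ range L, om (T.dist o e.1) * J e.1 e.2 := by
    refine le_trans (sum_le_sum fun e he => ?_) (sum_le_sum_of_subset_of_nonneg (s := A₀) ?_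
      fun e _ _ => mul_nonneg (by linarith [one_le_om (T.dist o e.1)]) (J0 _ _))
    · refine mul_le_mul_of_nonneg_right (hρ _ ?_) (J0 _ _)
      have := (mem_sdiff.1 (mem_product.1 he).1).2
      rw [mem_ball hT hreg] at this
      omega
    · intro e he
      obtain ⟨h1, h2⟩ := mem_product.1 he
      exact mem_product.2 ⟨bs (by omega) (mem_sdiff.1 h1).1,
        mem_range.2 (by have := mem_range.1 h2; omega)⟩
  rw [← mul_sum, sum_product_right (ball T o (R + R₀))] at k5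
  have k6 : ((a : ℝ) - b) ^ 2 ≤ 1 := by
    have := a.2.1; have := a.2.2; have := b.2.1; have := b.2.2
    nlinarith
  have k7 : C / t * ∑ e ∈ A₀, J e.1 e.2 ≤ C / t * t := by
    have := mul_le_mul_of_nonneg_left k6 (show 0 ≤ C by linarith)
    have e : C / t * t = C := by field_simp
    linarith
  exact le_of_mul_le_mul_left k7 (by positivity)

theorem fin {a b t q m n c ε : ℝ} (v1 : a ≤ 3 * (t + 4 * q) + 3 * (4 * t) + 3 * (4 * t))
    (v2 : b ≤ m * (6 * (t / (m + 1) + 4 * q)) + 3 * (t + m * (4 * q))) (ht' : 1000 * t = ε)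
    (m0 : 0 ≤ m) (q0 : 0 ≤ q) (ht : 0 < t) (hq : q * (m + n ^ 2 + 1) ≤ t) (δ2 : n ^ 2 * c ≤ t) :
    3 * b + 12 * a + 6 * n ^ 2 * (c + 4 * q) ≤ ε := by
  have w1 : m * (t / (m + 1)) ≤ t := by
    rw [← mul_div_assoc, div_le_iff₀ (by positivity)]
    nlinarith
  have w2 : 0 ≤ q * m := by positivity
  have w3 : 0 ≤ q * n ^ 2 := by positivity
  linarith

end Row

variable {V : Type} [Countable V] {d : ℕ} {T : SimpleGraph V}

theorem row (hT : T.IsTree) (hreg : ∀ v, (T.neighborSet v).encard = d) (o : V) {r ε : ℝ}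
    (hr : 0 < r) (hε : 0 < ε) : ∃ (ρ N₀ : ℕ) (Λ : ℝ), 0 ≤ Λ ∧ ∀ θ, Par2 T d θ →
      θ ^ 2 * (d - 1) < 1 → ∃ R₀ : ℕ, ∀ R, R₀ ≤ R → ∃ L₀ : ℕ, ∀ L, L₀ ≤ L →
        ∃ φ, Test (ball T o ρ ×ˢ range N₀) Λ φ ∧
          ∫ ω, (Yb T θ o R L r o ω - φ ω) ^ 2 ∂P143.iid (V × ℕ) ≤ ε := by
  obtain ⟨C, C1, hC⟩ := column (V := V) d hr.le
  obtain ⟨t, ht, ht'⟩ : ∃ t : ℝ, 0 < t ∧ 1000 * t = ε := ⟨ε / 1000, by positivity, by ring⟩
  obtain ⟨ρ, hρ⟩ := Row.exists_om (C / t)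
  obtain ⟨N₀, N0, hN⟩ := Row.exists_L ((ball T o ρ).card * r) ht
  have hN := hN N₀ le_rfl
  set In := ball T o ρ ×ˢ range N₀ with hIn
  set n : ℝ := ((In.image lc).card : ℝ) with hn
  have n0 : 0 ≤ n := Nat.cast_nonneg _
  obtain ⟨δ, δ0, δ1, δ2⟩ : ∃ δ : ℝ, 0 < δ ∧ δ * (n + 1) ≤ 1 / 2 ∧ n ^ 2 * (C * δ ^ 2) ≤ t := by
    have s0 : 0 < min (1 / 2) (t / C) := lt_min (by norm_num) (by positivity)
    have s1 := min_le_left (1 / 2) (t / C)
    have s2 := min_le_right (1 / 2) (t / C)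
    generalize min (1 / 2) (t / C) = s at *
    rw [le_div_iff₀ (by positivity)] at s2
    have e : s / (n + 1) * (n + 1) = s := by field_simp
    refine ⟨s / (n + 1), by positivity, by linarith, ?_⟩
    have p : 0 < s / (n + 1) := by positivity
    generalize s / (n + 1) = δ at *
    have k1 : n * δ ≤ s := by nlinarith
    have k2 : (n * δ) ^ 2 ≤ s ^ 2 := pow_le_pow_left₀ (by positivity) k1 2
    have k3 : s ^ 2 ≤ s := by nlinarith
    nlinarith
  refine ⟨ρ, N₀, 2 / δ, by positivity, fun θ P hθ => ?_⟩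
  obtain ⟨R', hR'⟩ := vol P hθ hr.le ht
  set R₀ := max ρ R' with hR₀
  obtain ⟨L', L0', hL'⟩ := Row.exists_L ((ball T o R₀).card * r) ht
  set L₁ := max N₀ L' with hL₁
  have hL' := hL' L₁ (le_max_right _ _)
  have NL : N₀ ≤ L₁ := le_max_left _ _
  set A₀ := (ball T o R₀ \ ball T o ρ) ×ˢ range L₁ with hA₀
  set m : ℝ := (A₀.card : ℝ) with hm
  have m0 : 0 ≤ m := Nat.cast_nonneg _
  obtain ⟨R₂, hR₂⟩ := vol P hθ hr.le (show 0 < t / (m + 1) by positivity)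
  refine ⟨max R₀ R₂, fun R hR => ?_⟩
  have hR0 : R₀ ≤ R := (le_max_left _ _).trans hR
  have hR2 : R₂ ≤ R := (le_max_right _ _).trans hR
  have bm := fun {u v : V} {a b : ℕ} (h : T.dist u v + a ≤ b) => Row.ball_mono hT hreg h
  have bs : ∀ {u : V} {a b : ℕ}, a ≤ b → ball T u a ⊆ ball T u b := fun h => bm (by simpa using h)
  obtain ⟨L₂, L2', hL₂⟩ := Row.exists_L ((ball T o (R + R₀)).card * r)
    (show 0 < t / (m + n ^ 2 + 1) by positivity)
  refine ⟨max L₁ L₂, fun L hL => ?_⟩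
  have hL1 : L₁ ≤ L := (le_max_left _ _).trans hL
  have L0 : 0 < L := by omega
  have hq := hL₂ L ((le_max_right _ _).trans hL)
  have hq' : ((ball T o R).card : ℝ) * r / L ≤ (ball T o (R + R₀)).card * r / L := by
    have : ((ball T o R).card : ℝ) ≤ (ball T o (R + R₀)).card := by
      exact_mod_cast card_le_card (bs (Nat.le_add_right _ _))
    gcongr
  set q : ℝ := ((ball T o (R + R₀)).card : ℝ) * r / L with hqd
  have q0 : 0 ≤ q := by positivity
  rw [le_div_iff₀ (by positivity)] at hq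
  set B₀ := (ball T o R ×ˢ range L) \ (In ∪ A₀) with hB₀
  have dj : ∀ {S S' : Finset (V × ℕ)}, Disjoint S S' → Disjoint (S.image lc) (S'.image lc) :=
    fun h => (disjoint_image lc_inj).2 h
  have dA : Disjoint In A₀ := by
    rw [disjoint_left]
    intro e h1 h2
    exact (mem_sdiff.1 (mem_product.1 h2).1).2 (mem_product.1 h1).1
  have dB : Disjoint In B₀ := by
    rw [disjoint_left]
    intro e h1 h2
    exact (mem_sdiff.1 h2).2 (mem_union_left _ h1)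
  have ok := fun c R => P.okb c R
  have oo : ∀ R, o ∈ ball T o R := fun R => (mem_ball hT hreg).2 (by simp)
  obtain ⟨φ, φ1, φ2, φ3, φ4, φ5⟩ := approx (Y := Yb T θ o R L r o)
    (Y₀ := Ym ⟨T, θ, ball T o R₀⟩ (In ∪ A₀) r o) measurable_Ym (Ym_abs (ok o R)) measurable_Ym
    (Ym_abs (ok o R₀)) (In.image lc) (A₀.image lc) (B₀.image lc) (dj dA) (dj dB)
    (η := C * δ ^ 2 + 4 * q) δ0 δ1
    (by
      intro e he ω u
      obtain ⟨e, he', rfl⟩ := mem_image.1 he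
      refine Ym_dep fun i hi => update_of_ne ?_ _ _
      rintro rfl
      rcases hi with ⟨j, hj⟩ | ⟨j, hj, hj'⟩
      · exact kc_ne_lc _ _ hj
      · rw [lc_inj hj'] at hj
        exact (mem_sdiff.1 he').2 hj)
    (by
      intro e he a b hab
      obtain ⟨⟨u, k⟩, he', rfl⟩ := mem_image.1 he
      obtain ⟨hu, hk⟩ := mem_product.1 he'
      have hu' : u ∈ ball T o R := bs (by omega) hu
      have mY : Measurable (Yb T θ o R L r o) := measurable_Ym
      have k1 := Row.le_alive (mY.comp (Row.m_upd' (lc (u, k)) a))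
        (mY.comp (Row.m_upd' (lc (u, k)) b)) (fun ω => Ym_abs (ok o R) _)
        (fun ω => Ym_abs (ok o R) _) (ball T o R) L0 hr.le
      have k2 := hC (ok o R) u hu' L a b
      have p : ∀ k v, 0 ≤ om (T.dist u v) * ∫ ω in alive (ball T o R) L r,
          (Ym ⟨T, θ, ball T o R⟩ (ball T o R ×ˢ range L) r v (update ω (lc (u, k)) a) -
            Ym ⟨T, θ, ball T o R⟩ (ball T o R ×ˢ range L) r v (update ω (lc (u, k)) b)) ^ 2
              ∂P143.iid (V × ℕ) := fun k v =>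
        mul_nonneg (by linarith [one_le_om (T.dist u v)]) (integral_nonneg fun _ => sq_nonneg _)
      have k3 := (single_le_sum (fun v _ => p k v) (oo R)).trans
        ((single_le_sum (fun k _ => sum_nonneg fun v _ => p k v)
          (show k ∈ range L from mem_range.2 (by have := mem_range.1 hk; omega))).trans k2)
      have k4 : ((a : ℝ) - b) ^ 2 ≤ δ ^ 2 := by
        rw [← sq_abs]; exact pow_le_pow_left₀ (abs_nonneg _) hab 2
      have k5 := mul_le_mul_of_nonneg_left k4 (show 0 ≤ C by linarith)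
      have k6 := le_mul_of_one_le_left (integral_nonneg (μ := (P143.iid (V × ℕ)).restrict
        (alive (ball T o R) L r)) fun ω => sq_nonneg
          (Ym ⟨T, θ, ball T o R⟩ (ball T o R ×ˢ range L) r o (update ω (lc (u, k)) a) -
            Ym ⟨T, θ, ball T o R⟩ (ball T o R ×ˢ range L) r o (update ω (lc (u, k)) b)))
        (one_le_om (T.dist u o))
      simp only [Function.comp, Yb] at k1 ⊢
      linarith)
  refine ⟨φ, ⟨φ1, φ2, (φ3 _ Ym_dep).mono ?_, fun e he => φ4 _ (mem_image_of_mem _ he)⟩,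
    φ5.trans ?_⟩
  · rintro i ⟨hi | ⟨j, hj, rfl⟩, hi'⟩
    · exact Or.inl hi
    · refine Or.inr ⟨j, ?_, rfl⟩
      by_contra h1
      apply hi'
      by_cases h2 : j ∈ A₀
      · exact Or.inl (mem_coe.2 (mem_image_of_mem _ h2))
      · refine Or.inr (mem_coe.2 (mem_image_of_mem _ (mem_sdiff.2 ⟨hj, fun h3 => ?_⟩)))
        rcases mem_union.1 h3 with h3 | h3
        exacts [h1 h3, h2 h3]
  -- the volume term
  have v1 : ∫ ω, (Yb T θ o R L r o ω - Ym ⟨T, θ, ball T o R₀⟩ (In ∪ A₀) r o ω) ^ 2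
      ∂P143.iid (V × ℕ) ≤ 3 * (t + 4 * q) + 3 * (4 * t) + 3 * (4 * t) := by
    have k0 := Row.tri3 (P143.iid (V × ℕ))
      (Row.bm_Ym (Ev := ball T o R ×ˢ range L) (r := r) (v := o) (ok o R))
      (Row.bm_Ym (Ev := ball T o R₀ ×ˢ range L) (r := r) (v := o) (ok o R₀))
      (Row.bm_Ym (Ev := ball T o R₀ ×ˢ range L₁) (r := r) (v := o) (ok o R₀))
      (Row.bm_Ym (Ev := In ∪ A₀) (r := r) (v := o) (ok o R₀))
    have k1 := Row.le_alive (r := r)
      (measurable_Ym (E := ⟨T, θ, ball T o R₀⟩) (Ev := ball T o R₀ ×ˢ range L) (r := r) (v := o))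
      (measurable_Ym (E := ⟨T, θ, ball T o R⟩) (Ev := ball T o R ×ˢ range L) (r := r) (v := o))
      (Ym_abs (ok o R₀)) (Ym_abs (ok o R)) (ball T o R) L0 hr.le
    have k2 := hR' o (ball T o R₀) (ball T o R) L (cvx_ball hT hreg _ _) (cvx_ball hT hreg _ _)
      (bs (le_max_right _ _)) (bs hR0)
    have k3 := Row.zero_alive (r := r)
      (measurable_Ym (E := ⟨T, θ, ball T o R₀⟩) (Ev := ball T o R₀ ×ˢ range L) (r := r) (v := o))
      (measurable_Ym (E := ⟨T, θ, ball T o R₀⟩) (Ev := ball T o R₀ ×ˢ range L₁) (r := r) (v := o))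
      (Ym_abs (ok o R₀)) (Ym_abs (ok o R₀)) (ball T o R₀) (L := L₁) (by omega) hr.le
      fun ω hω => (Ym_alive hL1 hω).symm
    have k4 := Row.zero_alive (r := r)
      (measurable_Ym (E := ⟨T, θ, ball T o R₀⟩) (Ev := ball T o R₀ ×ˢ range L₁) (r := r) (v := o))
      (measurable_Ym (E := ⟨T, θ, ball T o R₀⟩) (Ev := In ∪ A₀) (r := r) (v := o))
      (Ym_abs (ok o R₀)) (Ym_abs (ok o R₀)) (ball T o ρ) N0 hr.le
      fun ω hω => (Ym_events (by
        intro e he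
        rcases mem_union.1 he with he | he
        · obtain ⟨h1, h2⟩ := mem_product.1 he
          exact mem_product.2 ⟨bs (le_max_left _ _) h1,
            mem_range.2 (by have := mem_range.1 h2; omega)⟩
        · obtain ⟨h1, h2⟩ := mem_product.1 he
          exact mem_product.2 ⟨(mem_sdiff.1 h1).1, h2⟩) (by
        intro e he hlt
        obtain ⟨h1, h2⟩ := mem_product.1 he
        by_cases h3 : e.1 ∈ ball T o ρ
        · refine mem_union_left _ (mem_product.2 ⟨h3, mem_range.2 ?_⟩)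
          by_contra h4
          have h5 := tau_mono ω e.1 (show N₀ ≤ e.2 + 1 by omega)
          have h6 := hω e.1 h3
          unfold tk at hlt
          linarith
        · exact mem_union_right _ (mem_product.2 ⟨mem_sdiff.2 ⟨h1, h3⟩, h2⟩))).symm
    rw [Row.sq_symm] at k1
    simp only [Yb]
    linarith
  have v2 := Row.infl (R₀ := R₀) P o hr C1 ht (fun h => hC h) hρ hR₂ hR2 hL1 L0
  rw [← hA₀, ← hm, ← hqd] at v2
  rw [← hn]
  exact Row.fin v1 v2 ht' m0 q0 ht hq δ2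

theorem cauchy {θc : ℝ} (P : Par2 T d θc) (o : V) {r ε : ℝ} (hr : 0 < r) (hε : 0 < ε) :
    ∃ γ : ℝ, 0 < γ ∧ ∀ θ θ', Par2 T d θ → Par2 T d θ' → θ ^ 2 * (d - 1) < 1 →
      θ' ^ 2 * (d - 1) < 1 → |θ - θc| < γ → |θ' - θc| < γ →
      ∃ R₀ : ℕ, ∀ R, R₀ ≤ R → ∃ L₀ : ℕ, ∀ L, L₀ ≤ L →
        ∫ ω, (Yb T θ o R L r o ω - Yb T θ' o R L r o ω) ^ 2 ∂P143.iid (V × ℕ) ≤ ε := by
  obtain ⟨s, s0, s1, s2⟩ : ∃ s : ℝ, 0 < s ∧ s ≤ 1 ∧ 100 * s ≤ ε :=
    ⟨min 1 (ε / 100), lt_min one_pos (by positivity), min_le_left _ _,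
      by linarith [min_le_right 1 (ε / 100)]⟩
  have ss : 0 < s ^ 2 := by positivity
  have s3 : s ^ 2 ≤ s := by nlinarith
  obtain ⟨ρ, N₀, Λ, Λ0, hrow⟩ := row P.tree P.reg o hr ss
  obtain ⟨R₁, hweak⟩ := weak P.tree P.reg o ρ N₀ Λ0 hr ss
  obtain ⟨L₁, L0, hL₁⟩ := Row.exists_L ((ball T o R₁).card * r) ss
  have hL₁ := hL₁ L₁ le_rfl
  have hc := Ym_cont T (ball T o R₁) (ball T o R₁ ×ˢ range L₁) r o P.pos (P.okb o R₁).lt_one
  obtain ⟨γ, γ0, hγ⟩ := Metric.eventually_nhds_iff.1 ((tendsto_order.1 hc).2 _ ss)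
  refine ⟨γ, γ0, fun θ θ' Q Q' h h' g g' => ?_⟩
  obtain ⟨Ra, hRa⟩ := hrow θ Q h
  obtain ⟨Rb, hRb⟩ := hrow θ' Q' h'
  refine ⟨max R₁ (max Ra Rb), fun R hR => ?_⟩
  obtain ⟨La, hLa⟩ := hRa R (by omega)
  obtain ⟨Lb, hLb⟩ := hRb R (by omega)
  obtain ⟨Lc, hLc⟩ := hweak θ Q R (by omega)
  obtain ⟨Ld, hLd⟩ := hweak θ' Q' R (by omega)
  refine ⟨max (max L₁ La) (max Lb (max Lc Ld)), fun L hL => ?_⟩
  obtain ⟨φ, t1, t2⟩ := hLa L (by omega)
  obtain ⟨φ', t1', t2'⟩ := hLb L (by omega)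
  have a1 := abs_le.1 (hLc L (by omega) φ t1)
  have a2 := abs_le.1 (hLc L (by omega) φ' t1')
  have a3 := abs_le.1 (hLd L (by omega) φ t1)
  have a4 := abs_le.1 (hLd L (by omega) φ' t1')
  have bY : ∀ {θ}, Par2 T d θ → ∀ R L, ES.BM (Yb T θ o R L r o) :=
    fun Q R L => Row.bm_Ym (Q.okb o R)
  have za : ∀ {θ}, Par2 T d θ → ∫ ω, (Yb T θ o R₁ L r o ω - Yb T θ o R₁ L₁ r o ω) ^ 2
      ∂P143.iid (V × ℕ) ≤ 4 * s ^ 2 := fun Q => by
    have := Row.zero_alive (bY Q R₁ L).1 (bY Q R₁ L₁).1 (Ym_abs (Q.okb o R₁))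
      (Ym_abs (Q.okb o R₁)) (ball T o R₁) L0 hr.le fun ω hω => (Ym_alive (by omega) hω).symm
    linarith
  have c1 : ∫ ω, (Yb T θ o R₁ L₁ r o ω - Yb T θc o R₁ L₁ r o ω) ^ 2 ∂P143.iid (V × ℕ) < s ^ 2 :=
    hγ (show dist θ θc < γ from g)
  have c2 : ∫ ω, (Yb T θ' o R₁ L₁ r o ω - Yb T θc o R₁ L₁ r o ω) ^ 2 ∂P143.iid (V × ℕ) < s ^ 2 :=
    hγ (show dist θ' θc < γ from g')
  have c3 := Row.int_le3 (P143.iid (V × ℕ)) (a := 2) (b := 2) (c := 0)
    ((bY Q R₁ L₁).sub (bY Q' R₁ L₁)).sq ((bY Q R₁ L₁).sub (bY P R₁ L₁)).sq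
    ((bY Q' R₁ L₁).sub (bY P R₁ L₁)).sq (ES.BM.const 0) fun ω => by
      nlinarith [sq_nonneg (Yb T θ o R₁ L₁ r o ω - Yb T θc o R₁ L₁ r o ω +
        (Yb T θ' o R₁ L₁ r o ω - Yb T θc o R₁ L₁ r o ω))]
  have c4 := Row.tri3 (P143.iid (V × ℕ)) (bY Q R₁ L) (bY Q R₁ L₁) (bY Q' R₁ L₁) (bY Q' R₁ L)
  have c5 := za Q
  have c6 := za Q'
  rw [Row.sq_symm] at c6
  have c7 : ∫ ω, (Yb T θ o R₁ L r o ω - Yb T θ' o R₁ L r o ω) ^ 2 ∂P143.iid (V × ℕ) ≤
      36 * s ^ 2 := by linarith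
  have l1 := Row.lin _ (bY Q R₁ L) (bY Q' R₁ L) t1.meas t1.bd s0 c7
  rw [Row.sq_symm] at c7
  have l2 := Row.lin _ (bY Q' R₁ L) (bY Q R₁ L) t1'.meas t1'.bd s0 c7
  have bφ : ES.BM φ := ⟨t1.meas, 1, t1.bd⟩
  have bφ' : ES.BM φ' := ⟨t1'.meas, 1, t1'.bd⟩
  have b1 := Row.bm_mul (bY Q R L) bφ
  have b2 := Row.bm_mul (bY Q' R L) bφ
  have b3 := Row.bm_mul (bY Q' R L) bφ'
  have b4 := Row.bm_mul (bY Q R L) bφ'
  have f := Row.int_le3 (P143.iid (V × ℕ)) (a := 2) (b := 2) (c := 2)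
    ((bY Q R L).sub (bY Q' R L)).sq ((bY Q R L).sub bφ).sq ((bY Q' R L).sub bφ').sq
    (Row.bm_add (b1.sub b2) (b3.sub b4)) fun ω => by
      nlinarith [sq_nonneg (Yb T θ o R L r o ω - Yb T θ' o R L r o ω - 2 * (Yb T θ o R L r o ω - φ ω)),
        sq_nonneg (Yb T θ o R L r o ω - Yb T θ' o R L r o ω + 2 * (Yb T θ' o R L r o ω - φ' ω))]
  rw [integral_add ((b1.sub b2).int _) ((b3.sub b4).int _), integral_sub (b1.int _) (b2.int _),
    integral_sub (b3.int _) (b4.int _)] at f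
  linarith [a1.2, a2.1, a3.1, a4.2]

end Vale.Agent.P161.C
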