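import Vale.Agent.P161.C.Carl
import Vale.Agent.P161.C.Event

/-!
The transported weight `Sh` is dominated by the gain, and the Schur test.

PLAN for `sh_bound`. Let `k = (1+H)^(1/24) ≥ 1`, so `Lr ≤ C k⁸`, `L2 ≤ C k¹⁶`, `sr y ≤ C k` (constants depend on
`Z, C₀`). `Wt v ≤ 2 + sr v³ Nn v`. For `t ≥ 1`: `om j ≤ t + (1+j)/t⁷` and
`om j * sr v³ ≤ t⁴ + ((1+j) + (Z + Lr v))/t⁴` (compare `max (om j) (sr v)` with `t`; `om j ^ 8 = 1 + j`).
With `t = k`: `Σ om Pr² ≤ k Lr + L2/k⁷ ≤ C k⁹` (`Pr² ≤ θ^dist Pr`). With `t = k²`, `carleson`, `Nn_le`, `transport`: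
`Σ om sr³ (Nn + lam^dist) Pr² ≤ C k⁸ + (d+2)(L2 + Z Lr + 10 L2)/k⁸ ≤ C k⁸`. So `Sh ≤ C k⁹`. Finally
`H / sr⁵ ≥ c (k¹⁹ - 1)`, `H / sr⁹ ≥ c (k¹⁵ - 1)` and `C k¹⁸ ≤ ε' k¹⁹ + C'`, `C k¹¹ ≤ ε' k¹⁵ + C'`.

PLAN for `schur`. For fixed `v, w`: `(Σ_y A y)² ≤ 2 Σ_{y} Σ_{y' btw y w} A y A y'` (`btw_total`), and for
`y btw v w`, `y' btw y w`: `Pr y' v = Pr y' y Pr y v`, `Pr y w = Pr y y' Pr y' w`, so
`A y A y' ≤ γ y γ y' Pr y v² lam^dist y y' Pr y' w²`; `lam^dist v w ≤ lam^dist y v`,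
`om (dist u v) ≤ om (dist u y) om (dist y v)`. Summing freely over `v, w`:
`≤ 2 Σ_{y,y'} lam^dist y y' om (dist u y) (γ y Sh y)(γ y' Lr y')`. Then
`2ab ≤ a² θ^dist u y' / θ^dist u y + b² θ^dist u y / θ^dist u y'`, `om (dist u y) ≤ om (dist u y') (11/10)^dist y y'`
and `schur_sum` with root `u`.
-/

open Finset
open scoped Classical

namespace Vale.Agent.P161.C

variable {V : Type}

theorem shb_absorb {K e : ℝ} (hK : 0 ≤ K) (he : 0 < e) (n : ℕ) : ∃ C : ℝ, 1 ≤ C ∧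
    ∀ k : ℝ, 1 ≤ k → K * k ^ n ≤ e * (k ^ (n + 1) - 1) + C := by
  refine ⟨1 + e + K * (K / e) ^ n, by have : 0 ≤ K * (K / e) ^ n := by positivity
                                      linarith, fun k hk => ?_⟩
  have h0 : 0 ≤ K * (K / e) ^ n := by positivity
  have h1 : 0 ≤ e * k ^ (n + 1) := by positivity
  rcases le_total k (K / e) with h | h
  · have : K * k ^ n ≤ K * (K / e) ^ n := by gcongr
    linarith
  · rw [div_le_iff₀ he] at h
    have : K * k ^ n ≤ k * e * k ^ n := by gcongr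
    rw [pow_succ] at *
    nlinarith

theorem shb_gain {H B k r : ℝ} (hk : 1 ≤ k) (hH : k ^ 24 = 1 + H) (hr : 1 ≤ r) (hB : r ≤ B * k)
    {j n : ℕ} (h : j + n = 24) : (k ^ n - 1) / B ^ j ≤ H / r ^ j := by
  have hB0 : 0 < B := by nlinarith
  have h1 : 1 ≤ k ^ j := one_le_pow₀ hk
  have h2 : 1 ≤ k ^ n := one_le_pow₀ hk
  have h3 : k ^ j * k ^ n = 1 + H := by rw [← pow_add, h, hH]
  have h4 : r ^ j ≤ B ^ j * k ^ j := by rw [← mul_pow]; gcongr
  rw [div_le_div_iff₀ (by positivity) (by positivity)]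
  calc (k ^ n - 1) * r ^ j ≤ (k ^ n - 1) * (B ^ j * k ^ j) := by gcongr
    _ = (k ^ j * k ^ n - k ^ j) * B ^ j := by ring
    _ ≤ H * B ^ j := by gcongr; linarith

theorem shb_one {a t : ℝ} (ht : 1 ≤ t) : a ≤ t + a ^ 8 / t ^ 7 := by
  have h0 : 0 ≤ a ^ 8 / t ^ 7 := by positivity
  rcases le_total a t with h | h
  · linarith
  · have : a ≤ a ^ 8 / t ^ 7 := by
      rw [le_div_iff₀ (by positivity)]
      calc a * t ^ 7 ≤ a * a ^ 7 := by gcongr; linarith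
        _ = a ^ 8 := by ring
    linarith

theorem shb_two {a b t : ℝ} (ha : 0 ≤ a) (hb : 0 ≤ b) (ht : 1 ≤ t) :
    a * b ^ 3 ≤ t ^ 4 + (a ^ 8 + b ^ 8) / t ^ 4 := by
  have k : ∀ M : ℝ, 0 ≤ M → M ^ 8 ≤ a ^ 8 + b ^ 8 → M ^ 4 ≤ t ^ 4 + (a ^ 8 + b ^ 8) / t ^ 4 := by
    intro M hM h1
    have h0 : 0 ≤ (a ^ 8 + b ^ 8) / t ^ 4 := by positivity
    rcases le_total M t with h | h
    · have : M ^ 4 ≤ t ^ 4 := by gcongr
      linarith
    · have : M ^ 4 ≤ (a ^ 8 + b ^ 8) / t ^ 4 := by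
        rw [le_div_iff₀ (by positivity)]
        calc M ^ 4 * t ^ 4 ≤ M ^ 4 * M ^ 4 := by gcongr
          _ = M ^ 8 := by ring
          _ ≤ _ := h1
      have : 0 ≤ t ^ 4 := by positivity
      linarith
  rcases le_total a b with h | h
  · refine le_trans ?_ (k b hb (by have : 0 ≤ a ^ 8 := by positivity
                                   linarith))
    calc a * b ^ 3 ≤ b * b ^ 3 := by gcongr
      _ = _ := by ring
  · refine le_trans ?_ (k a ha (by have : 0 ≤ b ^ 8 := by positivity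
                                   linarith))
    calc a * b ^ 3 ≤ a * a ^ 3 := by gcongr
      _ = _ := by ring

theorem om_pow (j : ℕ) : om j ^ 8 = 1 + j := rt_pow (by positivity)

theorem sr_facts {d : ℕ} {E : Env V} (h : Ok d E) {Z : ℝ} (hZ : 1 ≤ Z) (s : Finset (V × ℕ))
    (x : V × ℕ → ℝ) {v : V} (hv : v ∈ E.D) : 1 ≤ sr E Z s x v ∧
      sr E Z s x v ^ 8 = Z + Lr E s x v ∧ 1 ≤ Wt E Z s x v ∧
      Wt E Z s x v ≤ 2 + sr E Z s x v ^ 3 * Nn E s x v := by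
  have h1 := (one_le_Lr h (s := s) (x := x) hv).1
  have h2 : 1 ≤ sr E Z s x v := one_le_rt (by linarith)
  refine ⟨h2, rt_pow (by linarith), (one_le_Wg (by linarith) (Nn_le h).1).1, ?_⟩
  have h3 : 0 ≤ (sr E Z s x v)⁻¹ := by positivity
  show 2 - (sr E Z s x v)⁻¹ + sr E Z s x v ^ 3 * Nn E s x v ≤ _
  linarith

theorem Sh_le {d : ℕ} {E : Env V} (h : Ok d E) {Z : ℝ} (hZ : 1 ≤ Z) (s : Finset (V × ℕ))
    (x : V × ℕ → ℝ) {y : V} (hy : y ∈ E.D) {k : ℝ} (hk : 1 ≤ k) :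
    Sh E Z s x y ≤ 2 * (k * Lr E s x y + L2 E s x y / k ^ 7) + (k ^ 2) ^ 4 * (1000 * d) +
      (d + 2) / (k ^ 2) ^ 4 * (L2 E s x y + Z * Lr E s x y + 10 * L2 E s x y) := by
  have hθ := h.pos
  have hk2 : 1 ≤ k ^ 2 := one_le_pow₀ hk
  have c1 := carleson h (s := s) (x := x) hy
  have c2 := transport h (s := s) (x := x) hy
  have c3 := (one_le_Lr h (s := s) (x := x) hy).2.2
  have key : ∀ v ∈ E.D, om (E.T.dist y v) *
      (Wt E Z s x v + sr E Z s x v ^ 3 * (E.θ ^ 2) ^ E.T.dist y v) * Pr E s x y v ^ 2 ≤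
      2 * (k * Pr E s x y v ^ 2 +
        (1 + (E.T.dist y v : ℝ)) * (E.θ ^ E.T.dist y v * Pr E s x y v) / k ^ 7) +
      (k ^ 2) ^ 4 * (Pr E s x y v ^ 2 * (Nn E s x v + (E.θ ^ 2) ^ E.T.dist y v)) +
      (d + 2) / (k ^ 2) ^ 4 * ((1 + (E.T.dist y v : ℝ)) * (E.θ ^ E.T.dist y v * Pr E s x y v) +
        Z * Pr E s x y v ^ 2 + Pr E s x y v ^ 2 * Lr E s x v) := by
    intro v hv
    obtain ⟨a1, a2, a3, a4⟩ := sr_facts h hZ s x hv
    have p0 := Pr_nonneg h (s := s) (x := x) hy hv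
    have p1 := Pr_le h (s := s) (x := x) hy hv
    have o1 := one_le_om (E.T.dist y v)
    have o2 := shb_one (a := om (E.T.dist y v)) hk
    have o3 := shb_two (a := om (E.T.dist y v)) (b := sr E Z s x v) (by linarith) (by linarith) hk2
    rw [om_pow] at o2 o3
    rw [a2] at o3
    obtain ⟨n0, n1⟩ := Nn_le h (s := s) (x := x) (y := v)
    have l0 : 0 ≤ (E.θ ^ 2) ^ E.T.dist y v := by positivity
    have l1 : (E.θ ^ 2) ^ E.T.dist y v ≤ 1 := pow_le_one₀ (by positivity) (by linarith [h.half])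
    have hL := (one_le_Lr h (s := s) (x := x) hv).1
    generalize Pr E s x y v = P at *
    generalize om (E.T.dist y v) = o at *
    generalize sr E Z s x v = r at *
    generalize Wt E Z s x v = W at *
    generalize Nn E s x v = N at *
    generalize (E.θ ^ 2) ^ E.T.dist y v = l at *
    generalize E.θ ^ E.T.dist y v = q at *
    generalize Lr E s x v = L at *
    have j0 : (0 : ℝ) ≤ E.T.dist y v := Nat.cast_nonneg _
    generalize (E.T.dist y v : ℝ) = j at *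
    have pp : P ^ 2 ≤ q * P := by nlinarith
    have b1 : o * P ^ 2 ≤ k * P ^ 2 + (1 + j) * (q * P) / k ^ 7 := by
      calc o * P ^ 2 ≤ (k + (1 + j) / k ^ 7) * P ^ 2 := by gcongr
        _ = k * P ^ 2 + (1 + j) * P ^ 2 / k ^ 7 := by ring
        _ ≤ _ := by gcongr
    have b2 : o * r ^ 3 * (P ^ 2 * (N + l)) ≤ (k ^ 2) ^ 4 * (P ^ 2 * (N + l)) +
        (d + 2) / (k ^ 2) ^ 4 * ((1 + j) * (q * P) + Z * P ^ 2 + P ^ 2 * L) := by
      calc _ ≤ ((k ^ 2) ^ 4 + (1 + j + (Z + L)) / (k ^ 2) ^ 4) * (P ^ 2 * (N + l)) := by gcongr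
        _ = (k ^ 2) ^ 4 * (P ^ 2 * (N + l)) +
            (N + l) / (k ^ 2) ^ 4 * ((1 + j) * P ^ 2 + Z * P ^ 2 + P ^ 2 * L) := by ring
        _ ≤ _ := by
          have nl : N + l ≤ d + 2 := by linarith
          have : (0 : ℝ) ≤ d + 2 := by positivity
          generalize N + l = M at *
          generalize (d : ℝ) + 2 = M' at *
          gcongr
    calc o * (W + r ^ 3 * l) * P ^ 2 ≤ o * (2 + r ^ 3 * N + r ^ 3 * l) * P ^ 2 := by gcongr
      _ = 2 * (o * P ^ 2) + o * r ^ 3 * (P ^ 2 * (N + l)) := by ring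
      _ ≤ _ := by linarith
  refine (sum_le_sum key).trans ?_
  simp only [sum_add_distrib, ← mul_sum, ← sum_div]
  have e : ∑ v ∈ E.D, (1 + (E.T.dist y v : ℝ)) * (E.θ ^ E.T.dist y v * Pr E s x y v) =
    L2 E s x y := rfl
  rw [e]
  gcongr

theorem Sh_nonneg {d : ℕ} {E : Env V} (h : Ok d E) {Z : ℝ} (hZ : 1 ≤ Z) (s : Finset (V × ℕ))
    (x : V × ℕ → ℝ) (y : V) : 0 ≤ Sh E Z s x y := by
  refine sum_nonneg fun v hv => ?_
  obtain ⟨a1, -, a3, -⟩ := sr_facts h hZ s x hv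
  have o1 := one_le_om (E.T.dist y v)
  positivity

theorem sh_bound (d : ℕ) {Z ε C₀ : ℝ} (hZ : 1 ≤ Z) (hε : 0 < ε) (hC : 1 ≤ C₀) : ∃ C : ℝ, 1 ≤ C ∧
    ∀ {E : Env V}, Ok d E → ∀ (s : Finset (V × ℕ)) (x : V × ℕ → ℝ), ∀ y ∈ E.D, ∀ H : ℝ, 0 ≤ H →
      Lr E s x y ^ 3 ≤ C₀ * (1 + H) → L2 E s x y ^ 3 ≤ C₀ * (1 + H) ^ 2 →
      Sh E Z s x y ^ 2 + Lr E s x y ^ 2 ≤ ε * (H / sr E Z s x y ^ 5) + C ∧
        Sh E Z s x y + Lr E s x y + sr E Z s x y ^ 3 * Lr E s x y ≤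
          ε * (H / sr E Z s x y ^ 9) + C := by
  set B := Z + C₀ with hB
  have B1 : 1 ≤ B := by linarith
  set K := 4 * C₀ + 1000 * d + (d + 2) * ((11 + Z) * C₀) with hK
  have K0 : 0 ≤ K := by positivity
  obtain ⟨C1, c1, k1⟩ := shb_absorb (K := K ^ 2 + C₀ ^ 2) (e := ε / B ^ 5) (by positivity)
    (by positivity) 18
  obtain ⟨C2, c2, k2⟩ := shb_absorb (K := K + C₀ + B ^ 3 * C₀) (e := ε / B ^ 9) (by positivity)
    (by positivity) 14
  refine ⟨C1 + C2, by linarith, fun {E} h s x y hy H H0 h1 h2 => ?_⟩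
  obtain ⟨k, hk, e⟩ : ∃ k : ℝ, 1 ≤ k ∧ k ^ 24 = 1 + H :=
    ⟨(1 + H) ^ ((24 : ℕ) : ℝ)⁻¹, Real.one_le_rpow (by linarith) (by positivity),
      Real.rpow_inv_natCast_pow (by linarith) (by norm_num)⟩
  have C3 : C₀ ≤ C₀ ^ 3 := le_self_pow₀ hC (by norm_num)
  obtain ⟨l1, l2, -⟩ := one_le_Lr h (s := s) (x := x) hy
  have a1 : Lr E s x y ≤ C₀ * k ^ 8 := by
    refine le_of_pow_le_pow_left₀ (n := 3) (by norm_num) (by positivity) (h1.trans ?_)
    rw [← e, mul_pow, ← pow_mul]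
    gcongr
  have a2 : L2 E s x y ≤ C₀ * k ^ 16 := by
    refine le_of_pow_le_pow_left₀ (n := 3) (by norm_num) (by positivity) (h2.trans ?_)
    rw [← e, mul_pow, ← pow_mul, ← pow_mul]
    gcongr
  obtain ⟨s1, s2, -, -⟩ := sr_facts h hZ s x hy
  have k8 : 1 ≤ k ^ 8 := one_le_pow₀ hk
  have a3 : sr E Z s x y ≤ B * k := by
    refine le_of_pow_le_pow_left₀ (n := 8) (by norm_num) (by positivity) ?_
    have : B ≤ B ^ 8 := le_self_pow₀ B1 (by norm_num)
    rw [s2, mul_pow]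
    calc Z + Lr E s x y ≤ B * k ^ 8 := by rw [hB]; nlinarith
      _ ≤ _ := by gcongr
  have a4 : Sh E Z s x y ≤ K * k ^ 9 := by
    refine (Sh_le h hZ s x hy hk).trans ?_
    have k89 : k ^ 8 ≤ k ^ 9 := pow_le_pow_right₀ hk (by norm_num)
    have b1 : k * Lr E s x y ≤ C₀ * k ^ 9 := by
      calc _ ≤ k * (C₀ * k ^ 8) := by gcongr
        _ = _ := by ring
    have b2 : L2 E s x y / k ^ 7 ≤ C₀ * k ^ 9 := by
      rw [div_le_iff₀ (by positivity)]
      exact a2.trans (le_of_eq (by ring))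
    have b3 : (k ^ 2) ^ 4 * (1000 * d) ≤ 1000 * d * k ^ 9 := by
      rw [← pow_mul, mul_comm]; gcongr
    have b4 : (d + 2) / (k ^ 2) ^ 4 * (L2 E s x y + Z * Lr E s x y + 10 * L2 E s x y) ≤
        (d + 2) * ((11 + Z) * C₀) * k ^ 9 := by
      rw [div_mul_eq_mul_div, div_le_iff₀ (by positivity)]
      have k17 : k ^ 16 ≤ k ^ 17 := pow_le_pow_right₀ hk (by norm_num)
      calc _ ≤ (d + 2) * ((11 + Z) * L2 E s x y) := by
            have : Z * Lr E s x y ≤ Z * L2 E s x y := by gcongr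
            gcongr; linarith
        _ ≤ (d + 2) * ((11 + Z) * (C₀ * k ^ 17)) := by
            have : L2 E s x y ≤ C₀ * k ^ 17 := a2.trans (by gcongr)
            gcongr
        _ = _ := by ring
    rw [hK]
    linarith
  have S0 := Sh_nonneg h hZ s x y
  have g1 := shb_gain hk e s1 a3 (j := 5) (n := 19) rfl
  have g2 := shb_gain hk e s1 a3 (j := 9) (n := 15) rfl
  have m1 := k1 k hk
  have m2 := k2 k hk
  constructor
  · have b1 : Sh E Z s x y ^ 2 ≤ K ^ 2 * k ^ 18 := by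
      calc _ ≤ (K * k ^ 9) ^ 2 := by gcongr
        _ = _ := by ring
    have b2 : Lr E s x y ^ 2 ≤ C₀ ^ 2 * k ^ 18 := by
      calc _ ≤ (C₀ * k ^ 8) ^ 2 := by gcongr
        _ = C₀ ^ 2 * k ^ 16 := by ring
        _ ≤ _ := by gcongr; norm_num
    have b3 : ε / B ^ 5 * (k ^ (18 + 1) - 1) ≤ ε * (H / sr E Z s x y ^ 5) := by
      calc _ = ε * ((k ^ 19 - 1) / B ^ 5) := by ring
        _ ≤ _ := by gcongr
    linarith
  · have b1 : Sh E Z s x y ≤ K * k ^ 14 := a4.trans (by gcongr; norm_num)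
    have b2 : Lr E s x y ≤ C₀ * k ^ 14 := a1.trans (by gcongr; norm_num)
    have b4 : sr E Z s x y ^ 3 * Lr E s x y ≤ B ^ 3 * C₀ * k ^ 14 := by
      calc _ ≤ (B * k) ^ 3 * (C₀ * k ^ 8) := by gcongr
        _ = B ^ 3 * C₀ * k ^ 11 := by ring
        _ ≤ _ := by gcongr; norm_num
    have b3 : ε / B ^ 9 * (k ^ (14 + 1) - 1) ≤ ε * (H / sr E Z s x y ^ 9) := by
      calc _ = ε * ((k ^ 15 - 1) / B ^ 9) := by ring
        _ ≤ _ := by gcongr
    linarith

theorem sq_sum_le {ι : Type*} (F : Finset ι) (R : ι → ι → Prop) {A : ι → ℝ} (hA : ∀ y ∈ F, 0 ≤ A y)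
    (hR : ∀ y ∈ F, ∀ y' ∈ F, R y y' ∨ R y' y) :
    (∑ y ∈ F, A y) ^ 2 ≤ 2 * ∑ y ∈ F, ∑ y' ∈ F, if R y y' then A y * A y' else 0 := by
  have e : ∑ y ∈ F, ∑ y' ∈ F, (if R y' y then A y * A y' else 0) =
      ∑ y ∈ F, ∑ y' ∈ F, if R y y' then A y * A y' else 0 := by
    rw [sum_comm]
    exact sum_congr rfl fun y _ => sum_congr rfl fun y' _ => by rw [mul_comm]
  rw [two_mul]
  nth_rewrite 2 [← e]
  rw [sq, sum_mul_sum, ← sum_add_distrib]
  refine sum_le_sum fun y hy => ?_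
  rw [← sum_add_distrib]
  refine sum_le_sum fun y' hy' => ?_
  have := mul_nonneg (hA y hy) (hA y' hy')
  rcases hR y hy y' hy' with h | h <;> split_ifs <;> linarith

theorem schur {d : ℕ} {E : Env V} (h : Ok d E) {Z : ℝ} (hZ : 1 ≤ Z) (s : Finset (V × ℕ))
    (x : V × ℕ → ℝ) {u : V} (hu : u ∈ E.D) {γ : V → ℝ} (hγ : ∀ y, 0 ≤ γ y) :
    ∑ v ∈ E.D, ∑ w ∈ E.D, om (E.T.dist u v) *
        (Wt E Z s x v + sr E Z s x v ^ 3 * (E.θ ^ 2) ^ E.T.dist v w) *
        (∑ y ∈ E.D with Btw E.T v y w, γ y * (Pr E s x y v * Pr E s x y w)) ^ 2 ≤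
      80 * ∑ y ∈ E.D, om (E.T.dist u y) * γ y ^ 2 * (Sh E Z s x y ^ 2 + Lr E s x y ^ 2) := by
  have hθ := h.pos
  have hT := h.tree
  have l1 : E.θ ^ 2 ≤ 1 := by linarith [h.half]
  -- the free term
  let G : V → V → V → V → ℝ := fun v w y y' =>
    (E.θ ^ 2) ^ E.T.dist y y' * om (E.T.dist u y) *
      (γ y * (om (E.T.dist y v) * (Wt E Z s x v + sr E Z s x v ^ 3 * (E.θ ^ 2) ^ E.T.dist y v) *
        Pr E s x y v ^ 2)) * (γ y' * Pr E s x y' w ^ 2)
  have G0 : ∀ v ∈ E.D, ∀ w y y', 0 ≤ G v w y y' := by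
    intro v hv w y y'
    obtain ⟨a1, -, a3, -⟩ := sr_facts h hZ s x hv
    have := one_le_om (E.T.dist u y)
    have := one_le_om (E.T.dist y v)
    have := hγ y
    have := hγ y'
    positivity
  have s1 : ∀ v ∈ E.D, ∀ w ∈ E.D, om (E.T.dist u v) *
        (Wt E Z s x v + sr E Z s x v ^ 3 * (E.θ ^ 2) ^ E.T.dist v w) *
        (∑ y ∈ E.D with Btw E.T v y w, γ y * (Pr E s x y v * Pr E s x y w)) ^ 2 ≤
      2 * ∑ y ∈ E.D, ∑ y' ∈ E.D, G v w y y' := by
    intro v hv w hw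
    obtain ⟨a1, -, a3, -⟩ := sr_facts h hZ s x hv
    have o1 := one_le_om (E.T.dist u v)
    have q := sq_sum_le (E.D.filter fun y => Btw E.T v y w) (fun y y' => Btw E.T y y' w)
      (A := fun y => γ y * (Pr E s x y v * Pr E s x y w))
      (fun y hy => mul_nonneg (hγ y) (mul_nonneg (Pr_nonneg h (mem_filter.1 hy).1 hv)
        (Pr_nonneg h (mem_filter.1 hy).1 hw)))
      (fun y hy y' hy' => (btw_total hT (mem_filter.1 hy).2 (mem_filter.1 hy').2).imp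
        And.right And.right)
    refine (mul_le_mul_of_nonneg_left q (by positivity)).trans ?_
    rw [mul_left_comm, mul_sum]
    refine mul_le_mul_of_nonneg_left ?_ zero_le_two
    refine (sum_le_sum fun y hy => ?_).trans (sum_le_sum_of_subset_of_nonneg (filter_subset _ _)
      fun y _ _ => sum_nonneg fun y' _ => G0 v hv w y y')
    rw [mul_sum]
    refine (sum_le_sum fun y' hy' => ?_).trans (sum_le_sum_of_subset_of_nonneg (filter_subset _ _)
      fun y' _ _ => G0 v hv w y y')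
    obtain ⟨y1, y2⟩ := mem_filter.1 hy
    obtain ⟨y3, y4⟩ := mem_filter.1 hy'
    split_ifs with hb
    · have e1 := Pr_mul h (s := s) (x := x) y3 hv (btw_trans hT y2 hb).1.symm
      have e2 := Pr_mul h (s := s) (x := x) y1 hw hb
      have p1 := Pr_le h (s := s) (x := x) y1 y3
      have p2 := Pr_le h (s := s) (x := x) y3 y1
      have p3 := Pr_nonneg h (s := s) (x := x) y1 y3
      have p4 := Pr_nonneg h (s := s) (x := x) y3 y1
      rw [E.T.dist_comm] at p2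
      have p5 : Pr E s x y y' * Pr E s x y' y ≤ (E.θ ^ 2) ^ E.T.dist y y' := by
        rw [← pow_mul, mul_comm 2, pow_mul, sq]; gcongr
      have o2 : om (E.T.dist u v) ≤ om (E.T.dist u y) * om (E.T.dist y v) :=
        om_add hT.connected.dist_triangle
      have o3 : (E.θ ^ 2) ^ E.T.dist v w ≤ (E.θ ^ 2) ^ E.T.dist y v := by
        refine pow_le_pow_of_le_one (by positivity) l1 ?_
        have : E.T.dist v y + E.T.dist y w = E.T.dist v w := y2
        rw [E.T.dist_comm]; omega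
      have := hγ y
      have := hγ y'
      have := one_le_om (E.T.dist u y)
      have := one_le_om (E.T.dist y v)
      rw [e1, e2]
      calc _ = Pr E s x y y' * Pr E s x y' y * (om (E.T.dist u v) *
            (Wt E Z s x v + sr E Z s x v ^ 3 * (E.θ ^ 2) ^ E.T.dist v w)) *
            (γ y * Pr E s x y v ^ 2 * (γ y' * Pr E s x y' w ^ 2)) := by ring
        _ ≤ (E.θ ^ 2) ^ E.T.dist y y' * (om (E.T.dist u y) * om (E.T.dist y v) *
            (Wt E Z s x v + sr E Z s x v ^ 3 * (E.θ ^ 2) ^ E.T.dist y v)) *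
            (γ y * Pr E s x y v ^ 2 * (γ y' * Pr E s x y' w ^ 2)) := by gcongr
        _ = _ := by simp only [G]; ring
    · rw [mul_zero]; exact G0 v hv w y y'
  have s2 : ∑ v ∈ E.D, ∑ w ∈ E.D, 2 * ∑ y ∈ E.D, ∑ y' ∈ E.D, G v w y y' =
      ∑ y ∈ E.D, ∑ y' ∈ E.D, (E.θ ^ 2) ^ E.T.dist y y' * om (E.T.dist u y) *
        (2 * ((γ y * Sh E Z s x y) * (γ y' * ∑ w ∈ E.D, Pr E s x y' w ^ 2))) := by
    simp only [mul_sum]
    rw [sum_congr rfl fun v _ => sum_comm, sum_comm]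
    refine sum_congr rfl fun y _ => ?_
    rw [sum_congr rfl fun v _ => sum_comm, sum_comm]
    refine sum_congr rfl fun y' _ => ?_
    rw [sum_comm]
    refine sum_congr rfl fun w _ => ?_
    simp only [Sh, mul_sum, sum_mul]
    exact sum_congr rfl fun v _ => by simp only [G]; ring
  refine (sum_le_sum fun v hv => sum_le_sum fun w hw => s1 v hv w hw).trans (s2.le.trans ?_)
  have s3 : ∀ y ∈ E.D, ∀ y' ∈ E.D, (E.θ ^ 2) ^ E.T.dist y y' * om (E.T.dist u y) *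
        (2 * ((γ y * Sh E Z s x y) * (γ y' * ∑ w ∈ E.D, Pr E s x y' w ^ 2))) ≤
      om (E.T.dist u y) * (γ y * Sh E Z s x y) ^ 2 / E.θ ^ E.T.dist u y *
        ((11 / 10 * E.θ ^ 2) ^ E.T.dist y y' * E.θ ^ E.T.dist u y') +
      om (E.T.dist u y') * (γ y' * Lr E s x y') ^ 2 / E.θ ^ E.T.dist u y' *
        ((11 / 10 * E.θ ^ 2) ^ E.T.dist y' y * E.θ ^ E.T.dist u y) := by
    intro y hy y' hy'
    have c3 := (one_le_Lr h (s := s) (x := x) hy').2.2
    have S0 := mul_nonneg (hγ y) (Sh_nonneg h hZ s x y)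
    have g' := hγ y'
    have o1 := one_le_om (E.T.dist u y)
    have o4 := one_le_om (E.T.dist u y')
    have o2 : om (E.T.dist u y) ≤ om (E.T.dist u y') * (11 / 10) ^ E.T.dist y y' := by
      refine (om_add (hT.connected.dist_triangle (u := u) (v := y') (w := y))).trans ?_
      rw [E.T.dist_comm (u := y')]
      exact mul_le_mul_of_nonneg_left (om_le _) (by linarith)
    have o3 : (1 : ℝ) ≤ (11 / 10) ^ E.T.dist y y' := one_le_pow₀ (by norm_num)
    rw [E.T.dist_comm (u := y'), mul_pow (11 / 10 : ℝ)]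
    have t1 : 0 < E.θ ^ E.T.dist u y := by positivity
    have t2 : 0 < E.θ ^ E.T.dist u y' := by positivity
    have l0 : 0 ≤ (E.θ ^ 2) ^ E.T.dist y y' := by positivity
    generalize γ y * Sh E Z s x y = a at *
    generalize E.θ ^ E.T.dist u y = t at *
    generalize E.θ ^ E.T.dist u y' = t' at *
    generalize (E.θ ^ 2) ^ E.T.dist y y' = l at *
    generalize ((11 : ℝ) / 10) ^ E.T.dist y y' = q at *
    have am : 2 * (a * (γ y' * Lr E s x y')) ≤
        a ^ 2 * (t' / t) + (γ y' * Lr E s x y') ^ 2 * (t / t') := by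
      generalize γ y' * Lr E s x y' = b
      have : a ^ 2 * (t' / t) + b ^ 2 * (t / t') - 2 * (a * b) = (a * t' - b * t) ^ 2 / (t * t') := by
        field_simp; ring
      have h2 : 0 ≤ (a * t' - b * t) ^ 2 / (t * t') := by positivity
      linarith
    calc _ ≤ l * om (E.T.dist u y) * (2 * (a * (γ y' * Lr E s x y'))) := by gcongr
      _ ≤ l * om (E.T.dist u y) * (a ^ 2 * (t' / t) + (γ y' * Lr E s x y') ^ 2 * (t / t')) := by
          gcongr
      _ = l * (1 * om (E.T.dist u y)) * (a ^ 2 * (t' / t)) +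
          l * om (E.T.dist u y) * ((γ y' * Lr E s x y') ^ 2 * (t / t')) := by ring
      _ ≤ l * (q * om (E.T.dist u y)) * (a ^ 2 * (t' / t)) +
          l * (om (E.T.dist u y') * q) * ((γ y' * Lr E s x y') ^ 2 * (t / t')) := by gcongr
      _ = _ := by ring
  refine (sum_le_sum fun y hy => sum_le_sum fun y' hy' => s3 y hy y' hy').trans ?_
  simp only [sum_add_distrib]
  rw [sum_comm (f := fun y y' => om (E.T.dist u y') * (γ y' * Lr E s x y') ^ 2 /
    E.θ ^ E.T.dist u y' * ((11 / 10 * E.θ ^ 2) ^ E.T.dist y' y * E.θ ^ E.T.dist u y)),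
    ← sum_add_distrib, mul_sum]
  refine sum_le_sum fun y hy => ?_
  rw [← mul_sum, ← mul_sum, ← add_mul]
  have q := schur_sum hT h.reg h.hd h.cvx hu hy hθ h.hi
  have o1 := one_le_om (E.T.dist u y)
  have t1 : 0 < E.θ ^ E.T.dist u y := by positivity
  refine (mul_le_mul_of_nonneg_left q (by positivity)).trans ?_
  have : 0 ≤ om (E.T.dist u y) * γ y ^ 2 * (Sh E Z s x y ^ 2 + Lr E s x y ^ 2) := by positivity
  calc _ = 40 * (om (E.T.dist u y) * γ y ^ 2 * (Sh E Z s x y ^ 2 + Lr E s x y ^ 2)) := by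
        field_simp
    _ ≤ _ := by linarith

end Vale.Agent.P161.C
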