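import Vale.Agent.P161.C.Edge2
import Vale.Agent.P161.C.Bell

/-!
How `Lr r` moves under one observation, and the size of the gain.

PLAN. Fix the root `r`. Let `med v w` be the median of `r, v, w` (`exists_med`, in `D` by convexity), `par m` the
parent, `u m = Pr (par m) m / θ ∈ [0,1]`, `μ v = θ^dist r v * Pr r v`, `lam = θ²`. For `med ≠ r`:
`Pr' r v = Pr' r m * Pr' m v` (`Pr_mul`), `Pr_upd_far`, `Pr_upd_path`; for `med = r` `Pr_upd_far` alone. Put
`cc v w = if med v w = r then 0 else u (med) * Pr (med) w ^ 2`, `υ w = Σ_v μ v * cc v w / 24`,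
`κ w = -2 Σ_{v, med ≠ r} μ v Δ(v,w) Pr (med) w`. Apply `bell_main` with `ch = ch T D r`, `G m = m ∈ D ∧ m ≠ r`,
`ht m = D.sup (dist r) - dist r m`, `L m = Σ_{v∈Bel m} θ^dist m v Pr m v`, `S m = Σ_{Bel m} Pr m v ^2`,
`L2 m = Σ_{Bel m} (1 + dist m v) θ^.. Pr m v`, `Tt m = Σ_{v,w∈Bel m} θ^dist m v Pr m v * cc v w`,
`H m = Σ_c lam u c Tt c`, `Jn m = Σ_{m'∈Bel m} θ^dist m m' * (θ^dist m m' Pr m m') * L m' ^3`; recursions from
`sum_Bel`, `dist_ch`, `Pr_mul`; pairs `(v,w)` below `m` not below one child have `med = m` (`med_eq`), so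
`Σ υ = H r / 24` (or `≥`, with `≤` not needed). `|κ w| ≤ 4 Σ_{m btw r w} μ m L m Pr m w` (fibres of `med · w` lie in
`Bel m`), Cauchy-Schwarz with weights `θ^dist r m` (`sum_path_pow`), `Pr r m ≤ θ^dist`, `S ≤ L` give
`Σ κ² ≤ 64 Jn r`.
-/

open Finset Function
open scoped Classical

namespace Vale.Agent.P161.C

variable {V : Type}

theorem one_le_Lr {d : ℕ} {E : Env V} (h : Ok d E) {s : Finset (V × ℕ)} {x : V × ℕ → ℝ} {r : V}
    (hr : r ∈ E.D) : 1 ≤ Lr E s x r ∧ Lr E s x r ≤ L2 E s x r ∧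
      ∑ v ∈ E.D, Pr E s x r v ^ 2 ≤ Lr E s x r := by
  have hθ := h.pos.le
  have h0 : ∀ v ∈ E.D, 0 ≤ E.θ ^ E.T.dist r v * Pr E s x r v := fun v hv =>
    mul_nonneg (pow_nonneg hθ _) (Pr_nonneg h hr hv)
  refine ⟨?_, ?_, ?_⟩
  · have := single_le_sum h0 hr
    rwa [SimpleGraph.dist_self, pow_zero, Pr_self h hr, one_mul] at this
  · refine sum_le_sum fun v hv => ?_
    have := mul_nonneg (Nat.cast_nonneg (α := ℝ) (E.T.dist r v)) (h0 v hv)
    linarith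
  · refine sum_le_sum fun v hv => ?_
    rw [sq]
    exact mul_le_mul_of_nonneg_right (Pr_le h hr hv) (Pr_nonneg h hr hv)

namespace Upd

theorem tl_k {s : Finset (V × ℕ)} {x : V × ℕ → ℝ} {w : V} {k k' : ℕ} (he : (w, k) ∉ s)
    (he' : (w, k') ∉ s) (o : ℝ) : tl (insert (w, k) s) (fld (update x (w, k) o)) =
      tl (insert (w, k') s) (fld (update x (w, k') o)) := by
  funext S
  unfold tl
  rw [prod_insert he, prod_insert he']
  congr 1
  · simp [fld]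
  · refine prod_congr rfl fun j hj => ?_
    have h1 : j ≠ (w, k) := fun e => he (e ▸ hj)
    have h2 : j ≠ (w, k') := fun e => he' (e ▸ hj)
    simp [fld, update_of_ne h1, update_of_ne h2]

variable {d : ℕ} {E : Env V} {s : Finset (V × ℕ)} {x : V × ℕ → ℝ} {p c m r v w : V}

theorem path' (h : Ok d E) (hw : w ∈ E.D) (hr : r ∈ E.D) (hp : p ∈ E.D)
    (hm : m ∈ ch E.T E.D r p) (hb : Btw E.T r m w) : ∃ Δ : ℝ, |Δ| ≤ 2 ∧ ∀ k, (w, k) ∉ s →
      ∀ o : ℝ, |o| ≤ 1 → Pr E (insert (w, k) s) (update x (w, k) o) r m ≤ Pr E s x r m *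
        (1 - 2 * al o (mg E s x w) * Δ * Pr E s x m w -
          al o (mg E s x w) ^ 2 * Pr E s x m w ^ 2 * (Pr E s x p m / E.θ) / 24) := by
  by_cases hk : ∃ k, (w, k) ∉ s
  · obtain ⟨k₀, hk₀⟩ := hk
    obtain ⟨Δ, h1, h2⟩ := Pr_upd_path (x := x) h hk₀ hw hr hp hm hb
    refine ⟨Δ, h1, fun k hk o ho => ?_⟩
    have e : Pr E (insert (w, k) s) (update x (w, k) o) r m =
        Pr E (insert (w, k₀) s) (update x (w, k₀) o) r m := by
      unfold Pr cv mg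
      rw [tl_k hk hk₀]
    rw [e]
    exact h2 o ho
  · exact ⟨0, by norm_num, fun k hk' => absurd ⟨k, hk'⟩ hk⟩

theorem par_eq {T : SimpleGraph V} (hT : T.IsTree) {D : Finset V} {p' : V} (h : c ∈ ch T D r p)
    (h' : c ∈ ch T D r p') : p = p' := by
  obtain ⟨-, a1, a2⟩ := mem_ch.1 h
  obtain ⟨-, b1, b2⟩ := mem_ch.1 h'
  have a3 := SimpleGraph.dist_eq_one_iff_adj.2 a1
  have b3 := SimpleGraph.dist_eq_one_iff_adj.2 b1
  exact btw_inj hT (x := r) (w := c) (by unfold Btw; omega) (by unfold Btw; omega) (by omega)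

theorem exists_u (h : Ok d E) (hr : r ∈ E.D) (s : Finset (V × ℕ)) (x : V × ℕ → ℝ) :
    ∃ u : V → ℝ, u r = 0 ∧ (∀ m ∈ E.D, 0 ≤ u m ∧ u m ≤ 1) ∧
      ∀ p ∈ E.D, ∀ c ∈ ch E.T E.D r p, u c = Pr E s x p c / E.θ := by
  let u : V → ℝ := fun c =>
    if hc : ∃ p, c ∈ ch E.T E.D r p then Pr E s x hc.choose c / E.θ else 0
  have key : ∀ p, ∀ c ∈ ch E.T E.D r p, u c = Pr E s x p c / E.θ := by
    intro p c hc
    have hc' : ∃ p, c ∈ ch E.T E.D r p := ⟨p, hc⟩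
    simp only [u, dif_pos hc']
    rw [par_eq h.tree hc'.choose_spec hc]
  have u0 : u r = 0 := by
    have hc : ¬∃ p, r ∈ ch E.T E.D r p := fun ⟨p, hp⟩ => ch_ne hp rfl
    simp only [u, dif_neg hc]
  refine ⟨u, u0, fun m hm => ?_, fun p _ => key p⟩
  by_cases hne : m = r
  · rw [hne, u0]; norm_num
  obtain ⟨p, hp, hc⟩ := exists_par' h.tree h.cvx hr hm hne
  rw [key p m hc]
  have h1 := Pr_le (s := s) (x := x) h hp hm
  rw [SimpleGraph.dist_eq_one_iff_adj.2 (mem_ch.1 hc).2.1, pow_one] at h1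
  exact ⟨div_nonneg (Pr_nonneg h hp hm) h.pos.le, (div_le_one h.pos).2 h1⟩

theorem sum_pair {T : SimpleGraph V} (hT : T.IsTree) {D : Finset V} (hD : Cvx T D) (hm : m ∈ D)
    (F : V → V → ℝ) (hF : ∀ v ∈ Bel T D r m, ∀ w ∈ Bel T D r m,
      (∀ c ∈ ch T D r m, ¬(Btw T r c v ∧ Btw T r c w)) → F v w = 0) :
    ∑ v ∈ Bel T D r m, ∑ w ∈ Bel T D r m, F v w =
      ∑ c ∈ ch T D r m, ∑ v ∈ Bel T D r c, ∑ w ∈ Bel T D r c, F v w := by
  rw [sum_Bel hT hD hm]
  have h0 : ∑ w ∈ Bel T D r m, F m w = 0 := sum_eq_zero fun w hw =>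
    hF m (mem_Bel.2 ⟨hm, btw_right _ _⟩) w hw fun c hc hh => not_btw_ch hc hh.1
  rw [h0, zero_add]
  refine sum_congr rfl fun c hc => sum_congr rfl fun v hv => ?_
  have sub : Bel T D r c ⊆ Bel T D r m := fun y hy =>
    mem_Bel.2 ⟨(mem_Bel.1 hy).1, (dist_ch hT hc (mem_Bel.1 hy).2).2.2⟩
  refine (sum_subset sub fun w hw hw' => hF v (sub hv) w hw fun c' hc' hh => hw' ?_).symm
  have e : c' = c := btw_inj hT hh.1 (mem_Bel.1 hv).2
    ((mem_ch.1 hc').2.2.trans (mem_ch.1 hc).2.2.symm)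
  exact mem_Bel.2 ⟨(mem_Bel.1 hw).1, e ▸ hh.2⟩

end Upd

open Upd in
theorem upd : ∃ C : ℝ, 1 ≤ C ∧ ∀ {d : ℕ} {E : Env V}, Ok d E → ∀ (s : Finset (V × ℕ))
    (x : V × ℕ → ℝ), ∀ r ∈ E.D, ∃ κ υ : V → ℝ,
      (∀ w ∈ E.D, 0 ≤ υ w ∧ υ w ≤ Lr E s x r ∧ |κ w| ≤ 4 * Lr E s x r ∧
        ∀ k, (w, k) ∉ s → ∀ o : ℝ, |o| ≤ 1 → Lr E (insert (w, k) s) (update x (w, k) o) r ≤
          Lr E s x r + al o (mg E s x w) * κ w - al o (mg E s x w) ^ 2 * υ w) ∧
      Lr E s x r ^ 3 ≤ C * (1 + ∑ w ∈ E.D, υ w) ∧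
      L2 E s x r ^ 3 ≤ C * (1 + ∑ w ∈ E.D, υ w) ^ 2 ∧
      ∑ w ∈ E.D, κ w ^ 2 ≤ C * (1 + ∑ w ∈ E.D, υ w) := by
  obtain ⟨C₀, hC₀, hB⟩ := bell_main
  refine ⟨1536 * C₀, by linarith, fun {d E} h s x r hr => ?_⟩
  have hT := h.tree
  have hD := h.cvx
  have hθ := h.pos
  obtain ⟨u, u0, u01, uc⟩ := exists_u h hr s x
  choose med m1 m2 m3 using exists_med hT r
  have mD : ∀ v ∈ E.D, ∀ w, med v w ∈ E.D := fun v hv w => hD r hr v hv _ (m1 v w)
  set P : V → V → ℝ := Pr E s x with hP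
  have P0 : ∀ y ∈ E.D, ∀ v ∈ E.D, 0 ≤ P y v := fun y hy v hv => Pr_nonneg h hy hv
  have P1 : ∀ y ∈ E.D, ∀ v ∈ E.D, P y v ≤ E.θ ^ E.T.dist y v := fun y hy v hv => Pr_le h hy hv
  have P2 : ∀ y ∈ E.D, ∀ v ∈ E.D, P y v ≤ 1 := fun y hy v hv =>
    (P1 y hy v hv).trans (pow_le_one₀ hθ.le h.lt_one.le)
  have Ps : ∀ y ∈ E.D, P y y = 1 := fun y hy => Pr_self h hy
  set μ : V → V → ℝ := fun m v => E.θ ^ E.T.dist m v * P m v with hμ
  have μ0 : ∀ y ∈ E.D, ∀ v ∈ E.D, 0 ≤ μ y v := fun y hy v hv =>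
    mul_nonneg (pow_nonneg hθ.le _) (P0 y hy v hv)
  have μs : ∀ y ∈ E.D, μ y y = 1 := fun y hy => by
    simp only [hμ, SimpleGraph.dist_self, pow_zero, Ps y hy, mul_one]
  have μm : ∀ y ∈ E.D, ∀ v ∈ E.D, ∀ m, Btw E.T y m v → μ y v = μ y m * μ m v := by
    intro y hy v hv m hb
    have e1 : P y v = P y m * P m v := Pr_mul h hy hv hb
    have e2 : E.T.dist y m + E.T.dist m v = E.T.dist y v := hb
    simp only [hμ]
    rw [e1, ← e2, pow_add]; ring
  -- one step down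
  have st : ∀ m ∈ E.D, ∀ c ∈ ch E.T E.D r m, ∀ v ∈ Bel E.T E.D r c,
      E.T.dist m v = E.T.dist c v + 1 ∧ P m v = E.θ * u c * P c v ∧
        μ m v = E.θ ^ 2 * u c * μ c v := by
    intro m hm c hc v hv
    obtain ⟨a1, a2, -⟩ := dist_ch hT hc (mem_Bel.1 hv).2
    have e1 : P m v = P m c * P c v := Pr_mul h hm (mem_Bel.1 hv).1 a2
    have e2 : P m c = E.θ * u c := by rw [uc m hm c hc]; field_simp
    refine ⟨a1, by rw [e1, e2], ?_⟩
    simp only [hμ]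
    rw [e1, e2, a1]; ring
  -- the choice of the drifts
  have hΔ : ∀ m w, ∃ Δ : ℝ, |Δ| ≤ 2 ∧ (m ∈ E.D → w ∈ E.D → Btw E.T r m w → ∀ k, (w, k) ∉ s →
      ∀ o : ℝ, |o| ≤ 1 → Pr E (insert (w, k) s) (update x (w, k) o) r m ≤ P r m *
        (1 - 2 * al o (mg E s x w) * Δ * P m w - al o (mg E s x w) ^ 2 * P m w ^ 2 * u m / 24)) := by
    intro m w
    by_cases hh : m ∈ E.D ∧ w ∈ E.D ∧ Btw E.T r m w
    · obtain ⟨hm, hw, hb⟩ := hh
      by_cases hne : m = r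
      · refine ⟨0, by norm_num, fun _ _ _ k hk o ho => ?_⟩
        rw [hne, Pr_self h hr, Ps r hr, u0]
        simp
      obtain ⟨p, hp, hc⟩ := exists_par' hT hD hr hm hne
      obtain ⟨Δ, h1, h2⟩ := path' (s := s) (x := x) h hw hr hp hc hb
      refine ⟨Δ, h1, fun _ _ _ k hk o ho => ?_⟩
      rw [uc p hp m hc]
      exact h2 k hk o ho
    · exact ⟨0, by norm_num, fun a b c => absurd ⟨a, b, c⟩ hh⟩
  choose Δ Δ2 hΔ using hΔ
  set cc : V → V → ℝ := fun v w => u (med v w) * P (med v w) w ^ 2 with hcc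
  have cc01 : ∀ v ∈ E.D, ∀ w ∈ E.D, 0 ≤ cc v w ∧ cc v w ≤ 1 := by
    intro v hv w hw
    obtain ⟨a1, a2⟩ := u01 _ (mD v hv w)
    have a3 := P0 _ (mD v hv w) w hw
    have a4 := P2 _ (mD v hv w) w hw
    exact ⟨mul_nonneg a1 (sq_nonneg _), mul_le_one₀ a2 (sq_nonneg _) (pow_le_one₀ a3 a4)⟩
  set L : V → ℝ := fun m => ∑ v ∈ Bel E.T E.D r m, μ m v with hL
  set S : V → ℝ := fun m => ∑ v ∈ Bel E.T E.D r m, P m v ^ 2 with hS
  set M2 : V → ℝ := fun m => ∑ v ∈ Bel E.T E.D r m, (1 + (E.T.dist m v : ℝ)) * μ m v with hM2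
  set Tt : V → ℝ := fun m => ∑ v ∈ Bel E.T E.D r m, ∑ w ∈ Bel E.T E.D r m, μ m v * cc v w with hTt
  set H : V → ℝ := fun m => ∑ c ∈ ch E.T E.D r m, E.θ ^ 2 * u c * Tt c with hH
  set Jn : V → ℝ := fun m => ∑ v ∈ Bel E.T E.D r m, E.θ ^ E.T.dist m v * μ m v * L v ^ 3 with hJn
  have Lc : ∀ m ∈ E.D, ∀ c ∈ ch E.T E.D r m,
      ∑ v ∈ Bel E.T E.D r c, μ m v = E.θ ^ 2 * u c * L c := by
    intro m hm c hc
    simp only [hL]
    rw [mul_sum]
    exact sum_congr rfl fun v hv => (st m hm c hc v hv).2.2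
  have Sc : ∀ m ∈ E.D, ∀ c ∈ ch E.T E.D r m,
      ∑ v ∈ Bel E.T E.D r c, P m v ^ 2 = E.θ ^ 2 * u c ^ 2 * S c := by
    intro m hm c hc
    simp only [hS]
    rw [mul_sum]
    exact sum_congr rfl fun v hv => by rw [(st m hm c hc v hv).2.1]; ring
  have rL : ∀ m ∈ E.D, L m = 1 + ∑ c ∈ ch E.T E.D r m, E.θ ^ 2 * u c * L c := by
    intro m hm
    have := sum_Bel (r := r) hT hD hm (μ m)
    rw [μs m hm, sum_congr rfl (Lc m hm)] at this
    exact this
  have rS : ∀ m ∈ E.D, S m = 1 + ∑ c ∈ ch E.T E.D r m, E.θ ^ 2 * u c ^ 2 * S c := by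
    intro m hm
    have := sum_Bel (r := r) hT hD hm fun v => P m v ^ 2
    rw [Ps m hm, one_pow, sum_congr rfl (Sc m hm)] at this
    exact this
  have rM : ∀ m ∈ E.D, M2 m = L m + ∑ c ∈ ch E.T E.D r m, E.θ ^ 2 * u c * M2 c := by
    intro m hm
    have := sum_Bel (r := r) hT hD hm fun v => (1 + (E.T.dist m v : ℝ)) * μ m v
    have e : ∀ c ∈ ch E.T E.D r m, ∑ v ∈ Bel E.T E.D r c, (1 + (E.T.dist m v : ℝ)) * μ m v =
        E.θ ^ 2 * u c * L c + E.θ ^ 2 * u c * M2 c := by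
      intro c hc
      simp only [hL, hM2]
      rw [mul_sum, mul_sum, ← sum_add_distrib]
      refine sum_congr rfl fun v hv => ?_
      obtain ⟨a1, -, a3⟩ := st m hm c hc v hv
      rw [a3, a1]; push_cast; ring
    rw [sum_congr rfl e, sum_add_distrib, μs m hm, SimpleGraph.dist_self] at this
    rw [rL m hm]
    simp only [hM2] at this ⊢
    rw [this]; push_cast; ring
  have rT : ∀ m ∈ E.D, Tt m = u m * (L m * S m -
      ∑ c ∈ ch E.T E.D r m, E.θ ^ 2 * u c * L c * (E.θ ^ 2 * u c ^ 2 * S c)) + H m := by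
    intro m hm
    have := sum_pair (r := r) hT hD hm (fun v w => μ m v * cc v w - u m * (μ m v * P m w ^ 2)) (by
      intro v hv w hw hh
      have e : med v w = m := med_eq hT hD hm (mem_Bel.1 hv).1 (mem_Bel.1 hv).2 (mem_Bel.1 hw).2 hh
        (m1 v w) (m2 v w) (m3 v w)
      simp only [hcc, e]; ring)
    have e1 : ∑ v ∈ Bel E.T E.D r m, ∑ w ∈ Bel E.T E.D r m,
        (μ m v * cc v w - u m * (μ m v * P m w ^ 2)) = Tt m - u m * (L m * S m) := by
      simp only [hTt, hL, hS]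
      rw [sum_mul_sum, mul_sum, ← sum_sub_distrib]
      refine sum_congr rfl fun v _ => ?_
      rw [mul_sum, ← sum_sub_distrib]
    have e2 : ∀ c ∈ ch E.T E.D r m, ∑ v ∈ Bel E.T E.D r c, ∑ w ∈ Bel E.T E.D r c,
        (μ m v * cc v w - u m * (μ m v * P m w ^ 2)) =
        E.θ ^ 2 * u c * Tt c - u m * (E.θ ^ 2 * u c * L c * (E.θ ^ 2 * u c ^ 2 * S c)) := by
      intro c hc
      rw [← Lc m hm c hc, ← Sc m hm c hc, sum_mul_sum]
      simp only [hTt]
      rw [mul_sum, mul_sum, ← sum_sub_distrib]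
      refine sum_congr rfl fun v hv => ?_
      rw [mul_sum, mul_sum, ← sum_sub_distrib]
      refine sum_congr rfl fun w _ => ?_
      rw [(st m hm c hc v hv).2.2]; ring
    rw [e1, sum_congr rfl e2, sum_sub_distrib, ← mul_sum] at this
    simp only [hH]
    linarith
  have rJ : ∀ m ∈ E.D, Jn m = L m ^ 3 + E.θ * ∑ c ∈ ch E.T E.D r m, E.θ ^ 2 * u c * Jn c := by
    intro m hm
    have := sum_Bel (r := r) hT hD hm fun v => E.θ ^ E.T.dist m v * μ m v * L v ^ 3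
    have e : ∀ c ∈ ch E.T E.D r m, ∑ v ∈ Bel E.T E.D r c, E.θ ^ E.T.dist m v * μ m v * L v ^ 3 =
        E.θ * (E.θ ^ 2 * u c * Jn c) := by
      intro c hc
      simp only [hJn]
      rw [mul_sum, mul_sum]
      refine sum_congr rfl fun v hv => ?_
      obtain ⟨a1, -, a3⟩ := st m hm c hc v hv
      rw [a3, a1]; ring
    rw [sum_congr rfl e, ← mul_sum, μs m hm, SimpleGraph.dist_self, pow_zero, one_mul,
      one_mul] at this
    exact this
  have inD : ∀ m, m = r ∨ (m ∈ E.D ∧ m ≠ r) → m ∈ E.D := by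
    rintro m (rfl | hm)
    · exact hr
    · exact hm.1
  obtain ⟨b1, b2, b3⟩ := hB r (ch E.T E.D r) (fun m => m ∈ E.D ∧ m ≠ r)
    (fun m => E.D.sup (E.T.dist r) - E.T.dist r m) (E.θ ^ 2) E.θ u L S M2 H Tt Jn (sq_nonneg _)
    h.half hθ.le h.le34 (fun m _ c hc => ⟨(mem_ch.1 hc).1, ch_ne hc⟩) (fun m _ c hc => ch_ht hc)
    (fun m hm => by
      have h3 : ((ch E.T E.D r m).card : ℝ) + 1 ≤ d := by exact_mod_cast card_ch hT h.reg hm.2
      nlinarith [h.hi, sq_nonneg E.θ])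
    (by
      have h3 : ((ch E.T E.D r r).card : ℝ) ≤ d := by exact_mod_cast card_ch_root h.reg
      nlinarith [h.hi, h.half, sq_nonneg E.θ])
    (fun m hm => u01 m hm.1) (fun m hm => rL m (inD m hm)) (fun m hm => rS m (inD m hm))
    (fun m hm => rM m (inD m hm)) (fun m _ => rfl) (fun m hm => (rT m hm.1).ge)
    (fun m hm => (rJ m (inD m hm)).le)
  have eL : L r = Lr E s x r := by simp only [hL, Bel_root]; rfl
  have eM : M2 r = L2 E s x r := by simp only [hM2, Bel_root]; rfl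
  have eL' : ∑ v ∈ E.D, μ r v = Lr E s x r := rfl
  have eH : H r = 24 * ∑ w ∈ E.D, ∑ v ∈ E.D, μ r v * cc v w / 24 := by
    have := rT r hr
    rw [u0, zero_mul, zero_add] at this
    rw [← this]
    simp only [hTt, Bel_root]
    rw [sum_comm, mul_sum]
    refine sum_congr rfl fun w _ => ?_
    rw [mul_sum]
    exact sum_congr rfl fun v _ => by ring
  have kb : ∀ w ∈ E.D, |∑ v ∈ E.D, -2 * (μ r v * Δ (med v w) w * P (med v w) w)| ≤
      4 * ∑ v ∈ E.D, μ r v * P (med v w) w := by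
    intro w hw
    refine (abs_sum_le_sum_abs _ _).trans ?_
    rw [mul_sum]
    refine sum_le_sum fun v hv => ?_
    have a1 := μ0 r hr v hv
    have a2 := P0 _ (mD v hv w) w hw
    have a3 := mul_le_mul_of_nonneg_left (Δ2 (med v w) w) (mul_nonneg a1 a2)
    rw [abs_mul, abs_mul, abs_mul, abs_of_nonneg a1, abs_of_nonneg a2, abs_neg, abs_two]
    linarith
  have U0 : ∀ w ∈ E.D, 0 ≤ ∑ v ∈ E.D, μ r v * cc v w / 24 := fun w hw =>
    sum_nonneg fun v hv => div_nonneg (mul_nonneg (μ0 r hr v hv) (cc01 v hv w hw).1) (by norm_num)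
  have U1 : 0 ≤ ∑ w ∈ E.D, ∑ v ∈ E.D, μ r v * cc v w / 24 := sum_nonneg U0
  refine ⟨fun w => ∑ v ∈ E.D, -2 * (μ r v * Δ (med v w) w * P (med v w) w),
    fun w => ∑ v ∈ E.D, μ r v * cc v w / 24, fun w hw => ⟨U0 w hw, ?_, ?_, ?_⟩, ?_, ?_, ?_⟩
  · rw [← eL']
    refine sum_le_sum fun v hv => ?_
    have a1 := μ0 r hr v hv
    have a2 := mul_le_mul_of_nonneg_left (cc01 v hv w hw).2 a1
    linarith
  · refine (kb w hw).trans ?_
    rw [← eL']
    refine mul_le_mul_of_nonneg_left (sum_le_sum fun v hv => ?_) (by norm_num)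
    exact mul_le_of_le_one_right (μ0 r hr v hv) (P2 _ (mD v hv w) w hw)
  · intro k hk o ho
    rw [← eL', mul_sum, mul_sum, ← sum_add_distrib, ← sum_sub_distrib]
    refine sum_le_sum fun v hv => ?_
    have a0 := mD v hv w
    have a1 : Pr E (insert (w, k) s) (update x (w, k) o) r v =
        Pr E (insert (w, k) s) (update x (w, k) o) r (med v w) * P (med v w) v := by
      rw [Pr_mul h hr hv (m1 v w), Pr_upd_far h hk ho hw a0 hv (m3 v w)]
    have a2 := mul_le_mul_of_nonneg_right (hΔ _ w a0 hw (m2 v w) k hk o ho) (P0 _ a0 v hv)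
    have a3 : P r v = P r (med v w) * P (med v w) v := Pr_mul h hr hv (m1 v w)
    rw [← a1] at a2
    refine (mul_le_mul_of_nonneg_left a2 (pow_nonneg hθ.le _)).trans (le_of_eq ?_)
    simp only [hμ, hcc]
    rw [a3]; ring
  · rw [← eL]
    rw [eH] at b1
    nlinarith
  · rw [← eM]
    rw [eH] at b2
    refine b2.trans ?_
    set U := ∑ w ∈ E.D, ∑ v ∈ E.D, μ r v * cc v w / 24
    have : (1 + 24 * U) ^ 2 ≤ 1536 * (1 + U) ^ 2 := by nlinarith
    nlinarith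
  · have L0 : ∀ m ∈ E.D, 0 ≤ L m := fun m hm =>
      sum_nonneg fun v hv => μ0 m hm v (mem_Bel.1 hv).1
    have SL : ∀ m ∈ E.D, S m ≤ L m := fun m hm => sum_le_sum fun v hv => by
      rw [sq]
      exact mul_le_mul_of_nonneg_right (P1 m hm v (mem_Bel.1 hv).1) (P0 m hm v (mem_Bel.1 hv).1)
    have k1 : ∀ w ∈ E.D, ∑ v ∈ E.D, μ r v * P (med v w) w ≤
        ∑ m ∈ E.D with Btw E.T r m w, μ r m * L m * P m w := by
      intro w hw
      have e : ∀ m ∈ E.D.filter (fun m => Btw E.T r m w), μ r m * L m * P m w =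
          ∑ v ∈ E.D, if Btw E.T r m v then μ r v * P m w else 0 := by
        intro m _
        rw [← sum_filter]
        simp only [hL]
        rw [mul_sum, sum_mul]
        exact sum_congr rfl fun v hv => by
          rw [μm r hr v (mem_Bel.1 hv).1 m (mem_Bel.1 hv).2]
      rw [sum_congr rfl e, sum_comm]
      refine sum_le_sum fun v hv => ?_
      have := single_le_sum (f := fun m => if Btw E.T r m v then μ r v * P m w else 0)
        (s := E.D.filter fun m => Btw E.T r m w) (fun m hm => by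
          split_ifs
          · exact mul_nonneg (μ0 r hr v hv) (P0 m (mem_filter.1 hm).1 w hw)
          · exact le_rfl) (mem_filter.2 ⟨mD v hv w, m2 v w⟩)
      rwa [if_pos (m1 v w)] at this
    have k2 : ∀ w ∈ E.D, (∑ m ∈ E.D with Btw E.T r m w, μ r m * L m * P m w) ^ 2 ≤
        4 * ∑ m ∈ E.D with Btw E.T r m w, E.θ ^ E.T.dist r m * μ r m * L m ^ 2 * P m w ^ 2 := by
      intro w hw
      have g0 : ∀ m ∈ E.D.filter (fun m => Btw E.T r m w),
          0 ≤ μ r m * P r m * L m ^ 2 * P m w ^ 2 := fun m hm =>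
        mul_nonneg (mul_nonneg (mul_nonneg (μ0 r hr m (mem_filter.1 hm).1)
          (P0 r hr m (mem_filter.1 hm).1)) (sq_nonneg _)) (sq_nonneg _)
      have cs := sum_sq_le_sum_mul_sum_of_sq_eq_mul (E.D.filter fun m => Btw E.T r m w)
        (r := fun m => μ r m * L m * P m w) (f := fun m => E.θ ^ E.T.dist r m)
        (g := fun m => μ r m * P r m * L m ^ 2 * P m w ^ 2) (fun m _ => pow_nonneg hθ.le _) g0
        (fun m _ => by simp only [hμ]; ring)
      refine cs.trans ((mul_le_mul_of_nonneg_right (sum_path_pow hT hθ.le h.le34)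
        (sum_nonneg g0)).trans (mul_le_mul_of_nonneg_left (sum_le_sum fun m hm => ?_) (by norm_num)))
      have a1 := mul_le_mul_of_nonneg_left (P1 r hr m (mem_filter.1 hm).1)
        (μ0 r hr m (mem_filter.1 hm).1)
      have a2 := mul_le_mul_of_nonneg_right a1 (mul_nonneg (sq_nonneg (L m)) (sq_nonneg (P m w)))
      linarith
    have k3 : ∑ w ∈ E.D, ∑ m ∈ E.D with Btw E.T r m w,
        E.θ ^ E.T.dist r m * μ r m * L m ^ 2 * P m w ^ 2 ≤ Jn r := by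
      simp only [sum_filter]
      rw [sum_comm]
      simp only [hJn, Bel_root]
      refine sum_le_sum fun m hm => ?_
      rw [← sum_filter, ← mul_sum]
      have a1 := mul_le_mul_of_nonneg_left (SL m hm) (mul_nonneg (mul_nonneg
        (pow_nonneg hθ.le (E.T.dist r m)) (μ0 r hr m hm)) (sq_nonneg (L m)))
      refine a1.trans (le_of_eq ?_)
      ring
    have k4 : ∑ w ∈ E.D, (∑ v ∈ E.D, -2 * (μ r v * Δ (med v w) w * P (med v w) w)) ^ 2 ≤
        64 * ∑ w ∈ E.D, ∑ m ∈ E.D with Btw E.T r m w,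
          E.θ ^ E.T.dist r m * μ r m * L m ^ 2 * P m w ^ 2 := by
      rw [mul_sum]
      refine sum_le_sum fun w hw => ?_
      have a1 := (kb w hw).trans (mul_le_mul_of_nonneg_left (k1 w hw) (by norm_num))
      have a2 := pow_le_pow_left₀ (abs_nonneg _) a1 2
      rw [sq_abs, mul_pow] at a2
      linarith [k2 w hw]
    rw [eH] at b3
    refine k4.trans ?_
    nlinarith

end Vale.Agent.P161.C
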