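import Vale.Agent.P161.C.WeakAux

/-!
Weak stability in the volume, uniformly up to the critical coupling.

PLAN. `D₁ = ball o R₁ ⊆ D₂ = ball o R`, `Eᵢ = Dᵢ × range L`, `B = {y | dist o y = R₁}`,
`ℓ s x v = Σ_{y∈B} θ^dist v y cv ⟨D₁⟩ s x v y`.
`boundary` (frozen injective clocks `t`): for `s₂ = pre E₂ t q`, `s₁ = pre E₁ t q`, by `law_eq` replace the process on
`E₂` by the process on the event set `s₂` with keys `t' e = t e + (if e.1 ∈ D₁ then 0 else big)`; then `chain` over the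
outside events with `F s x = (mg ⟨D₂⟩ s x v - mg ⟨D₂⟩ s₁ x v)² + Σ_{y∈B} θ^dist v y cv ⟨D₂⟩ s x v y`: for an outside
event at `w` with gate `y ∈ B` (`Btw v y w`), `cv v w = cv w y Pr y v ≤ θ^dist cv y w`, so `mg_upd`, `cv_upd`,
`integral_al`, `cv_nonneg` give `LF ≤ F`; finish with `mg_consistent` and `law_eq` back to `E₁`.
`ℓ ≤ 2 Lr v/(R₁ - ρ + 1)` (`antichain`, `cv_le_Pr`), `ℓ` is a supermartingale (`cv_upd`, `chain`), and `lr_integral`
give `E[ℓ(St q'); alive q'] ≤ 2C(1+q₀)/(q₀ (R₁-ρ+1))` for `q' ≥ q₀`.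
`weak`: freeze the clocks (`P143.lintegral_swap` with `A = range kc`). For observations `w` put
`inn w e = projIcc (cdf (mg ⟨D₁⟩ (pre E₁ t (t e)) w e.1) (w e))`, `g w = mg ⟨D₁⟩ (pre E₁ t r) w o * φ (ω₀ with lc e := inn w e, e ∈ In)`.
On the `D₁` process `inn = lb` (`Q_spec`), so `E g = E[Y₁ φ]`; `law_eq` (for `g + 1`) moves it to the `D₂` process, where
`|g - Y₂ φ| ≤ |ΔM(o, r)| + Λ Σ_{e∈In} |ΔM(e.1, t e)|` (`cdf` is 1-Lipschitz in `m`). For each `e ∈ In` split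
`t e < q₀` (`tail_one`), not alive (`tail`), and the rest (`boundary` at time `t e ≥ q₀`; use the supermartingale
property from time `q₀` and `alive q₀`).
-/

open MeasureTheory Function Finset
open scoped Classical unitInterval ENNReal

namespace Vale.Agent.P161.C

variable {V : Type} [Countable V] {d : ℕ} {T : SimpleGraph V}

/-- Test functions: measurable, bounded, depending on the clocks and on the labels of `In`,
Lipschitz in the latter. -/
structure Test (In : Finset (V × ℕ)) (Λ : ℝ) (φ : (V × ℕ → I) → ℝ) : Prop where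
  meas : Measurable φ
  bd : ∀ ω, |φ ω| ≤ 1
  dep : DependsOn φ (Set.range kc ∪ lc '' (In : Set (V × ℕ)))
  lip : ∀ e ∈ In, ∀ ω (a b : I), |φ (update ω (lc e) a) - φ (update ω (lc e) b)| ≤ Λ * |(a : ℝ) - b|

theorem Test.neg {In : Finset (V × ℕ)} {Λ : ℝ} {φ : (V × ℕ → I) → ℝ} (h : Test In Λ φ) :
    Test In Λ fun ω => -φ ω :=
  ⟨h.meas.neg, fun ω => by rw [abs_neg]; exact h.bd ω, fun _ _ h' => congrArg Neg.neg (h.dep h'),
    fun e he ω a b => by rw [neg_sub_neg, abs_sub_comm]; exact h.lip e he ω a b⟩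

theorem Test.lip_sum {In : Finset (V × ℕ)} {Λ : ℝ} {φ : (V × ℕ → I) → ℝ} (h : Test In Λ φ)
    {ω ω' : V × ℕ → I} (hk : ∀ e, ω (kc e) = ω' (kc e)) :
    |φ ω - φ ω'| ≤ Λ * ∑ e ∈ In, |(ω (lc e) : ℝ) - ω' (lc e)| := by
  have k : ∀ S ⊆ In, ∀ ω : V × ℕ → I, (∀ e, ω (kc e) = ω' (kc e)) →
      (∀ e ∈ In, e ∉ S → ω (lc e) = ω' (lc e)) →
      |φ ω - φ ω'| ≤ Λ * ∑ e ∈ S, |(ω (lc e) : ℝ) - ω' (lc e)| := by
    intro S
    induction S using Finset.induction_on with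
    | empty =>
      intro _ ω h1 h2
      rw [h.dep (x := ω) (y := ω') (by
        rintro j (⟨e, rfl⟩ | ⟨e, he, rfl⟩)
        exacts [h1 e, h2 e he (notMem_empty e)])]
      simp
    | insert e S he ih =>
      intro hS ω h1 h2
      have a1 := h.lip e (hS (mem_insert_self _ _)) ω (ω (lc e)) (ω' (lc e))
      rw [update_eq_self] at a1
      have a2 := ih ((subset_insert _ _).trans hS) (update ω (lc e) (ω' (lc e)))
        (fun i => by rw [update_of_ne (kc_ne_lc i e), h1]) fun i hi hi' => by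
          by_cases h3 : i = e
          · rw [h3, update_self]
          · rw [update_of_ne (lc_inj.ne h3)]
            exact h2 i hi fun h4 => (mem_insert.1 h4).elim h3 hi'
      rw [sum_congr rfl (g := fun i => |(ω (lc i) : ℝ) - ω' (lc i)|) fun i hi => by
        rw [update_of_ne (lc_inj.ne (ne_of_mem_of_not_mem hi he))]] at a2
      rw [sum_insert he, mul_add]
      exact (abs_sub_le _ _ _).trans (add_le_add a1 a2)
  exact k In Subset.rfl ω hk fun e he he' => absurd he he'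

theorem measurable_St {γ : Type} [MeasurableSpace γ] (E : Env V) (D : Finset V) (L : ℕ) (q : ℝ)
    {F : Finset (V × ℕ) → (V × ℕ → ℝ) → γ} (hF : ∀ s, Measurable (F s)) :
    Measurable fun ω => F (St D L q ω) (Xs (R1 E) D L q ω) :=
  measurable_state mrule_R1 (fun e => measurable_tau e.1 (e.2 + 1))
    (fun _ => measurable_pi_apply _) measurable_const hF

theorem ell_mean (d : ℕ) : ∃ C : ℝ, 1 ≤ C ∧ ∀ {E : Env V}, Ok d E → ∀ B ⊆ E.D, ∀ v ∈ E.D, ∀ k : ℕ,
    (∀ y ∈ B, k ≤ E.T.dist v y) → (∀ y ∈ B, ∀ y' ∈ B, Btw E.T v y y' → y = y') →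
    ∀ L : ℕ, 0 < L → ∀ δ : ℝ, 0 < δ →
      ∫⁻ ω, ENNReal.ofReal (ell E B v (St E.D L δ ω) (Xs (R1 E) E.D L δ ω)) ∂P143.iid (V × ℕ) ≤
        ENNReal.ofReal (2 / (k + 1) * (C * (1 + δ)) / δ + E.D.card * (E.D.card * δ / L)) := by
  obtain ⟨C, C1, hC⟩ := lr_integral (V := V) d
  refine ⟨C, C1, fun {E} h B hB v hv k hk ha L hL δ δ0 => ?_⟩
  have mA : MeasurableSet (alive E.D L δ) := measurable_prodMk_left (measurable_alive E.D L)
  have k0 : (0 : ℝ) < k + 1 := by positivity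
  rw [← lintegral_add_compl _ mA, ENNReal.ofReal_add (by positivity) (by positivity)]
  refine add_le_add ?_ ?_
  · rw [ENNReal.ofReal_div_of_pos δ0, ENNReal.le_div_iff_mul_le (Or.inl (by simpa using δ0))
      (Or.inl ENNReal.ofReal_ne_top), ENNReal.ofReal_mul (by positivity)]
    refine le_trans ?_ (mul_le_mul_right (hC h v hv L δ δ0.le) _)
    rw [← lintegral_const_mul' _ _ ENNReal.ofReal_ne_top]
    refine le_trans (le_of_eq ?_) (setLIntegral_mono' (f := fun _ => ∫⁻ ω in alive E.D L δ,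
      ENNReal.ofReal (ell E B v (St E.D L δ ω) (Xs (R1 E) E.D L δ ω)) ∂P143.iid (V × ℕ))
      measurableSet_Ioo fun q hq => ?_)
    · rw [setLIntegral_const, Real.volume_Ioo, sub_zero]
    refine (chain_alive mrule_R1 (F := fun s x => ENNReal.ofReal (ell E B v s x))
      (fun _ => measurable_ell.ennreal_ofReal) E.D L hq.2.le fun e s x he hs =>
        LF_ell (w := e.1) (k := e.2) h hB hv he hs).trans ?_
    rw [← lintegral_const_mul' _ _ ENNReal.ofReal_ne_top]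
    refine lintegral_mono fun ω => ?_
    rw [← ENNReal.ofReal_mul (by positivity)]
    refine ENNReal.ofReal_le_ofReal ?_
    rw [div_mul_eq_mul_div, le_div_iff₀ k0, mul_comm]
    refine le_trans (mul_le_mul_of_nonneg_left (sum_le_sum fun y hy => ?_) k0.le)
      (antichain h hv hB hk ha)
    exact mul_le_mul_of_nonneg_left (cv_le_Pr h hv (hB hy)) (pow_nonneg h.pos.le _)
  · refine (lintegral_mono fun ω => ENNReal.ofReal_le_ofReal (ell_le h hB hv)).trans ?_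
    rw [setLIntegral_const, ENNReal.ofReal_mul (by positivity)]
    exact mul_le_mul_right (tail E.D hL δ0.le) _

theorem Er_mean {E : Env V} {B : Finset V} {v : V} {L : ℕ} {δ : ℝ} (δ0 : 0 < δ)
    {q : (V × ℕ → I) → ℝ} (mq : Measurable q)
    (hq : P143.iid (V × ℕ) {ω | q ω < δ} ≤ ENNReal.ofReal δ)
    (h : ∫⁻ ω, ENNReal.ofReal (ell E B v (St E.D L δ ω) (Xs (R1 E) E.D L δ ω)) ∂P143.iid (V × ℕ) ≤
      ENNReal.ofReal (δ ^ 2)) :
    Measurable (fun ω => Er E B δ v (q ω) (St E.D L δ ω) (Xs (R1 E) E.D L δ ω)) ∧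
    ∫⁻ ω, Er E B δ v (q ω) (St E.D L δ ω) (Xs (R1 E) E.D L δ ω) ∂P143.iid (V × ℕ) ≤
      ENNReal.ofReal (4 * δ) := by
  have mS := measurableSet_lt mq (measurable_const (a := δ))
  have m1 : Measurable fun ω => if q ω < δ then (2 : ℝ≥0∞) else 0 :=
    Measurable.ite mS measurable_const measurable_const
  unfold Er
  refine ⟨(m1.add_const _).add ((measurable_St E E.D L δ
    (F := fun s x => ENNReal.ofReal (ell E B v s x))
      fun _ => measurable_ell.ennreal_ofReal).const_mul _), ?_⟩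
  rw [lintegral_add_left (m1.add_const _), lintegral_add_left m1,
    lintegral_const_mul' _ _ ENNReal.ofReal_ne_top, lintegral_const, measure_univ, mul_one]
  have h1 : ∫⁻ ω, (if q ω < δ then (2 : ℝ≥0∞) else 0) ∂P143.iid (V × ℕ) ≤
      ENNReal.ofReal (2 * δ) := by
    refine (le_of_eq (lintegral_indicator_const mS 2)).trans ?_
    rw [ENNReal.ofReal_mul zero_le_two, ENNReal.ofReal_ofNat]
    exact mul_le_mul_right hq _
  refine (add_le_add (add_le_add h1 le_rfl) (mul_le_mul_right h _)).trans (le_of_eq ?_)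
  rw [← ENNReal.ofReal_mul (by positivity), ← ENNReal.ofReal_add (by positivity) δ0.le,
    ← ENNReal.ofReal_add (by positivity) (by positivity)]
  congr 1
  field_simp
  ring

theorem integral_le_of_lint {f g : (V × ℕ → I) → ℝ} (mf : Measurable f) (mg : Measurable g)
    (bf : ∀ ω, |f ω| ≤ 1) (bg : ∀ ω, |g ω| ≤ 1) {ε : ℝ} (hε : 0 ≤ ε)
    (h : ∫⁻ ω, ENNReal.ofReal (f ω + 1) ∂P143.iid (V × ℕ) ≤
      ∫⁻ ω, ENNReal.ofReal (g ω + 1) ∂P143.iid (V × ℕ) + ENNReal.ofReal ε) :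
    ∫ ω, f ω ∂P143.iid (V × ℕ) ≤ ∫ ω, g ω ∂P143.iid (V × ℕ) + ε := by
  have i1 : Integrable f (P143.iid (V × ℕ)) := .of_bound mf.aestronglyMeasurable 1 (ae_of_all _ bf)
  have i2 : Integrable g (P143.iid (V × ℕ)) := .of_bound mg.aestronglyMeasurable 1 (ae_of_all _ bg)
  have n : ∀ {f : (V × ℕ → I) → ℝ}, (∀ ω, |f ω| ≤ 1) → ∀ ω, 0 ≤ f ω + 1 := fun b ω => by
    linarith [(abs_le.1 (b ω)).1]
  rw [← ofReal_integral_eq_lintegral_ofReal (f := fun ω => f ω + 1) (i1.add (integrable_const _))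
      (ae_of_all _ (n bf)),
    ← ofReal_integral_eq_lintegral_ofReal (f := fun ω => g ω + 1) (i2.add (integrable_const _))
      (ae_of_all _ (n bg)), ← ENNReal.ofReal_add (integral_nonneg (n bg)) hε,
    ENNReal.ofReal_le_ofReal_iff (add_nonneg (integral_nonneg (n bg)) hε),
    integral_add i1 (integrable_const _), integral_add i2 (integrable_const _)] at h
  linarith

theorem one_sided {θ : ℝ} {D₁ D₂ B : Finset V} (h₁ : Ok d ⟨T, θ, D₁⟩) (h₂ : Ok d ⟨T, θ, D₂⟩)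
    (hD : D₁ ⊆ D₂) (hB : B ⊆ D₁) {o : V} (ho : o ∈ D₁)
    (hg : ∀ v ∈ D₁, ∀ w ∈ D₂, w ∉ D₁ → ∃ y ∈ B, Btw T v y w) {r δ Λ : ℝ} (δ0 : 0 < δ) (hr : δ ≤ r)
    (hΛ : 0 ≤ Λ) {L : ℕ} {In : Finset (V × ℕ)} (hIn : In ⊆ D₁ ×ˢ range L)
    (hl : ∀ v, v = o ∨ (∃ e ∈ In, e.1 = v) → ∫⁻ ω, ENNReal.ofReal (ell ⟨T, θ, D₁⟩ B v (St D₁ L δ ω)
      (Xs (R1 ⟨T, θ, D₁⟩) D₁ L δ ω)) ∂P143.iid (V × ℕ) ≤ ENNReal.ofReal (δ ^ 2))
    {φ : (V × ℕ → I) → ℝ} (hφ : Test In Λ φ) :
    ∫ ω, Ym ⟨T, θ, D₂⟩ (D₂ ×ˢ range L) r o ω * φ ω ∂P143.iid (V × ℕ) ≤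
      ∫ ω, Ym ⟨T, θ, D₁⟩ (D₁ ×ˢ range L) r o ω * φ ω ∂P143.iid (V × ℕ) +
        (1 + In.card * Λ) * (4 * δ) := by
  have b : ∀ {E : Env V}, Ok d E → ∀ Ev ω, |Ym E Ev r o ω * φ ω| ≤ 1 := fun h Ev ω => by
    rw [abs_mul]; exact mul_le_one₀ (Ym_abs h ω) (abs_nonneg _) (hφ.bd ω)
  have m : ∀ (E : Env V) Ev, Measurable fun ω => ENNReal.ofReal (Ym E Ev r o ω * φ ω + 1) :=
    fun E Ev => ((measurable_Ym.mul hφ.meas).add_const 1).ennreal_ofReal
  refine integral_le_of_lint (measurable_Ym.mul hφ.meas) (measurable_Ym.mul hφ.meas) (b h₂ _)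
    (b h₁ _) (by positivity) ?_
  obtain ⟨m1, e1⟩ := Er_mean (E := ⟨T, θ, D₁⟩) (B := B) (v := o) (L := L) δ0 (q := fun _ => r)
    measurable_const (by simp [hr.not_gt]) (hl o (Or.inl rfl))
  have e2 := fun e (he : e ∈ In) => Er_mean (E := ⟨T, θ, D₁⟩) (B := B) (v := e.1) (L := L) δ0
    (q := fun ω => tk ω e) (measurable_tau e.1 (e.2 + 1)) (tail_one e δ)
    (hl _ (Or.inr ⟨e, he, rfl⟩))
  have m2 := Finset.measurable_sum In fun e he => (e2 e he).1.const_mul (ENNReal.ofReal Λ)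
  have key : ∫⁻ ω, ENNReal.ofReal (Ym ⟨T, θ, D₂⟩ (D₂ ×ˢ range L) r o ω * φ ω + 1)
      ∂P143.iid (V × ℕ) ≤ ∫⁻ ω, (ENNReal.ofReal (Ym ⟨T, θ, D₁⟩ (D₁ ×ˢ range L) r o ω * φ ω + 1) +
        Er ⟨T, θ, D₁⟩ B δ o r (St D₁ L δ ω) (Xs (R1 ⟨T, θ, D₁⟩) D₁ L δ ω) +
        ∑ e ∈ In, ENNReal.ofReal Λ * Er ⟨T, θ, D₁⟩ B δ e.1 (tk ω e) (St D₁ L δ ω)
          (Xs (R1 ⟨T, θ, D₁⟩) D₁ L δ ω)) ∂P143.iid (V × ℕ) := by
    rw [P143.lintegral_swap (fun j => j ∈ Set.range kc) (m _ _),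
      P143.lintegral_swap (fun j => j ∈ Set.range kc) (((m _ _).fun_add m1).fun_add m2)]
    refine lintegral_mono_ae (ae_tk_inj.mono fun ω₀ ht => ?_)
    have nl : ∀ e : V × ℕ, ¬∃ a, lc a = kc e := fun e ⟨a, ha⟩ => kc_ne_lc e a ha.symm
    have a1 : ∀ ω : V × ℕ → I, tk (fun i => if i ∈ Set.range kc then ω₀ i else ω i) = tk ω₀ :=
      fun ω => funext fun e => by
        unfold tk tau
        exact sum_congr rfl fun i _ => by beta_reduce; rw [if_pos ⟨_, rfl⟩]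
    have a2 : ∀ ω : V × ℕ → I, lb (fun i => if i ∈ Set.range kc then ω₀ i else ω i) =
        fun i => ω (lc i) := fun ω => funext fun e => if_neg fun ⟨a, ha⟩ => kc_ne_lc a e ha
    have a3 : ∀ ω : V × ℕ → I, φ (fun i => if i ∈ Set.range kc then ω₀ i else ω i) =
        φ (extend lc (fun i => ω (lc i)) ω₀) := fun ω => hφ.dep (by
      rintro j (⟨e, rfl⟩ | ⟨e, -, rfl⟩)
      · rw [if_pos ⟨_, rfl⟩, extend_apply' _ _ _ (nl e)]
      · rw [if_neg fun ⟨a, ha⟩ => kc_ne_lc a e ha, lc_inj.extend_apply])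
    simp only [Ym, St, Xs, a1, a2, a3]
    refine frozen h₁ h₂ hD hB ho hg ht (fun e => ?_) δ0 hΛ hIn (ψ := fun z => φ (extend lc z ω₀))
      (hφ.meas.comp (measurable_pi_lambda _ fun j => ?_)) (fun _ => hφ.bd _) fun z z' => ?_
    · exact le_trans (by simp [tau]) (tau_mono ω₀ e.1 (Nat.zero_le (e.2 + 1)))
    · by_cases hj : ∃ a, lc a = j
      · obtain ⟨a, rfl⟩ := hj
        simp only [lc_inj.extend_apply]
        exact measurable_pi_apply a
      · simp only [extend_apply' _ _ _ hj]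
        exact measurable_const
    · have := hφ.lip_sum (ω := extend lc z ω₀) (ω' := extend lc z' ω₀) fun e => by
        rw [extend_apply' _ _ _ (nl e), extend_apply' _ _ _ (nl e)]
      simpa only [lc_inj.extend_apply] using this
  refine key.trans ?_
  rw [lintegral_add_left ((m _ _).fun_add m1), lintegral_add_left (m _ _),
    lintegral_finsetSum _ fun e he => (e2 e he).1.const_mul (ENNReal.ofReal Λ), add_assoc,
    add_mul, one_mul, ENNReal.ofReal_add (by positivity) (by positivity)]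
  refine add_le_add le_rfl (add_le_add e1 ?_)
  refine (sum_le_card_nsmul _ _ (ENNReal.ofReal Λ * ENNReal.ofReal (4 * δ)) fun e he => ?_).trans ?_
  · rw [lintegral_const_mul' _ _ ENNReal.ofReal_ne_top]
    exact mul_le_mul_right (e2 e he).2 _
  · rw [nsmul_eq_mul, mul_assoc, ENNReal.ofReal_mul (Nat.cast_nonneg _), ENNReal.ofReal_mul hΛ,
      ENNReal.ofReal_natCast]

theorem sphere_anti (hT : T.IsTree) {o v y y' : V} {R : ℕ} (hv : T.dist o v < R)
    (hy : T.dist o y = R) (hy' : T.dist o y' = R) (h : Btw T v y y') : y = y' := by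
  obtain ⟨m, a1, a2, a3⟩ := exists_med hT o v y'
  rcases btw_total hT h a3 with h1 | h1
  · have t1 := hT.connected.dist_triangle (u := o) (v := m) (w := y)
    have := h1.1
    unfold Btw at *
    rw [T.dist_comm (u := m) (v := y)] at t1
    rw [T.dist_comm (u := m) (v := v)] at a1
    omega
  · have := (btw_trans hT a2 h1.2).2
    unfold Btw at this
    exact hT.connected.dist_eq_zero_iff.1 (by omega)

theorem weak (hT : T.IsTree) (hreg : ∀ v, (T.neighborSet v).encard = d) (o : V) (ρ N₀ : ℕ)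
    {Λ r ε : ℝ} (hΛ : 0 ≤ Λ) (hr : 0 < r) (hε : 0 < ε) :
    ∃ R₁ : ℕ, ∀ θ, Par2 T d θ → ∀ R, R₁ ≤ R → ∃ L₀ : ℕ, ∀ L, L₀ ≤ L →
      ∀ φ, Test (ball T o ρ ×ˢ range N₀) Λ φ →
        |∫ ω, Yb T θ o R L r o ω * φ ω ∂P143.iid (V × ℕ) -
          ∫ ω, Yb T θ o R₁ L r o ω * φ ω ∂P143.iid (V × ℕ)| ≤ ε := by
  obtain ⟨C, C1, hC⟩ := ell_mean (V := V) d
  obtain ⟨n, hn⟩ : ∃ n : ℝ, n = 1 + (ball T o ρ ×ˢ range N₀).card * Λ := ⟨_, rfl⟩
  have n0 : 0 < n := by rw [hn]; positivity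
  obtain ⟨δ, hδ⟩ : ∃ δ, δ = min r (ε / (4 * n)) := ⟨_, rfl⟩
  have δ0 : 0 < δ := by rw [hδ]; positivity
  have δ1 : δ ≤ r := hδ ▸ min_le_left _ _
  have δ2 : n * (4 * δ) ≤ ε := by
    have : δ ≤ ε / (4 * n) := hδ ▸ min_le_right _ _
    rw [le_div_iff₀ (by positivity)] at this
    linarith
  obtain ⟨k, hk⟩ := exists_nat_ge (4 * (C * (1 + δ)) / δ ^ 3)
  refine ⟨ρ + k + 1, fun θ P R hR => ?_⟩
  obtain ⟨L₁, hL₁⟩ := exists_nat_ge (2 * ((ball T o (ρ + k + 1)).card : ℝ) ^ 2 / δ)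
  refine ⟨N₀ + L₁ + 1, fun L hL φ hφ => ?_⟩
  have key := fun φ (hφ : Test (ball T o ρ ×ˢ range N₀) Λ φ) => one_sided (P.okb o (ρ + k + 1))
    (P.okb o R) (B := (ball T o (ρ + k + 1)).filter fun y => T.dist o y = ρ + k + 1) (o := o)
    (L := L) (fun v hv => by rw [mem_ball hT hreg] at *; omega) (filter_subset _ _)
    (by rw [mem_ball hT hreg, SimpleGraph.dist_self]; omega)
    (fun v hv w _ hw => by
      rw [mem_ball hT hreg] at hv hw
      obtain ⟨y, h1, h2⟩ := exists_gate hT hv (le_of_not_ge hw)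
      exact ⟨y, mem_filter.2 ⟨(mem_ball hT hreg).2 h1.le, h1⟩, h2⟩) δ0 δ1 hΛ
    (product_subset_product (fun v hv => by rw [mem_ball hT hreg] at *; omega)
      (range_subset_range.2 (by omega)))
    (fun v hv => by
      have hv' : T.dist o v ≤ ρ := by
        rcases hv with rfl | ⟨e, he, rfl⟩
        · rw [SimpleGraph.dist_self]; omega
        · exact (mem_ball hT hreg).1 (mem_product.1 he).1
      refine (hC (P.okb o (ρ + k + 1)) _ (filter_subset _ _) v ((mem_ball hT hreg).2 (by omega)) k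
        (fun y hy => ?_) (fun y hy y' hy' h => sphere_anti hT (by omega) (mem_filter.1 hy).2
          (mem_filter.1 hy').2 h) L (by omega) δ δ0).trans (ENNReal.ofReal_le_ofReal ?_)
      · have h1 := (mem_filter.1 hy).2
        have h2 := hT.connected.dist_triangle (u := o) (v := v) (w := y)
        change k ≤ T.dist v y
        omega
      · have L0 : (0 : ℝ) < L := by exact_mod_cast (by omega : 0 < L)
        have L1 : (L₁ : ℝ) ≤ L := by exact_mod_cast (by omega : L₁ ≤ L)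
        rw [div_le_iff₀ (by positivity)] at hk
        rw [div_le_iff₀ δ0] at hL₁
        change _ + ((ball T o (ρ + k + 1)).card : ℝ) * ((ball T o (ρ + k + 1)).card * δ / L) ≤ _
        generalize ((ball T o (ρ + k + 1)).card : ℝ) = c at *
        have h1 : 2 / (k + 1 : ℝ) * (C * (1 + δ)) / δ ≤ δ ^ 2 / 2 := by
          rw [div_mul_eq_mul_div, div_div, div_le_iff₀ (by positivity)]
          nlinarith [pow_pos δ0 3]
        have h2 : c * (c * δ / L) ≤ δ ^ 2 / 2 := by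
          rw [← mul_div_assoc, div_le_iff₀ L0]
          nlinarith [mul_le_mul_of_nonneg_right hL₁ δ0.le,
            mul_le_mul_of_nonneg_right L1 (sq_nonneg δ)]
        linarith) hφ
  have k1 := key φ hφ
  have k2 := key _ hφ.neg
  simp only [mul_neg, integral_neg] at k2
  rw [← hn] at k1 k2
  unfold Yb
  rw [abs_le]
  constructor <;> linarith

end Vale.Agent.P161.C
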