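import Vale.Agent.P161.C.Column
import Vale.Agent.P161.C.Law2

/-!
Auxiliary results for the weak stability: the boundary estimate and the comparison for frozen clocks.
-/

open MeasureTheory Function Finset
open scoped Classical unitInterval ENNReal

namespace Vale.Agent.P161.C

open Vale.Agent.P143 (Q Q_spec cdf)

variable {V : Type} {d : ℕ} {T : SimpleGraph V} {θ : ℝ}

theorem lint_le {f a : I → ℝ} {F c : ℝ} (ia : Integrable a) (a0 : ∫ u, a u = 0)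
    (f0 : ∀ u, 0 ≤ f u) (h : ∀ u, f u ≤ F + c * a u) :
    ∫⁻ u, ENNReal.ofReal (f u) ≤ ENNReal.ofReal F := by
  have e : ∫ u, (F + c * a u) = F := by
    rw [integral_add (integrable_const _) (ia.const_mul _), integral_const_mul, a0]; simp
  rw [← e, ofReal_integral_eq_lintegral_ofReal (f := fun u => F + c * a u)
    ((integrable_const _).add (ia.const_mul _)) (ae_of_all _ fun u => (f0 u).trans (h u))]
  exact lintegral_mono fun u => ENNReal.ofReal_le_ofReal (h u)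

theorem exists_btw_dist (hT : T.IsTree) (o w : V) (k : ℕ) (hk : k ≤ T.dist o w) :
    ∃ y, Btw T o y w ∧ T.dist o y = k := by
  induction k with
  | zero => exact ⟨o, btw_left _ _, SimpleGraph.dist_self⟩
  | succ k ih =>
    obtain ⟨y, h1, h2⟩ := ih (by omega)
    obtain ⟨c, -, h3, h4, -⟩ := exists_step hT h1 (by rintro rfl; omega)
    exact ⟨c, h4, by omega⟩

theorem exists_gate (hT : T.IsTree) {o v w : V} {R : ℕ} (hv : T.dist o v ≤ R)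
    (hw : R ≤ T.dist o w) : ∃ y, T.dist o y = R ∧ Btw T v y w := by
  obtain ⟨y, h1, h2⟩ := exists_btw_dist hT o w R hw
  obtain ⟨m, a1, a2, a3⟩ := exists_med hT o v w
  refine ⟨y, h2, ?_⟩
  rcases btw_total hT a2 h1 with h3 | h3
  · exact (btw_trans hT a3 h3.2).2
  · have : y = m := hT.connected.dist_eq_zero_iff.1 (by
      have := h3.1
      unfold Btw at *
      omega)
    exact this ▸ a3

section

variable {E : Env V} {s s₁ : Finset (V × ℕ)} {x x' : V × ℕ → ℝ} {v w : V} {k : ℕ} {B : Finset V}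

theorem mg_cg (hx : ∀ i ∈ s, x i = x' i) : mg E s x v = mg E s x' v := by
  unfold mg; rw [mg_congr hx]

theorem cv_cg (hx : ∀ i ∈ s, x i = x' i) : cv E s x v w = cv E s x' v w := by
  unfold cv; rw [mg_congr hx]

theorem rs_of_mem {i : V × ℕ} (h : i ∈ s) : rs s x i = x i := if_pos h

/-- The boundary functional. -/
noncomputable def ell (E : Env V) (B : Finset V) (v : V) (s : Finset (V × ℕ)) (x : V × ℕ → ℝ) : ℝ :=
  ∑ y ∈ B, E.θ ^ E.T.dist v y * cv E s x v y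

theorem ell_nonneg (h : Ok d E) (hB : B ⊆ E.D) (hv : v ∈ E.D) : 0 ≤ ell E B v s x :=
  sum_nonneg fun _ hy => mul_nonneg (pow_nonneg h.pos.le _) (cv_nonneg h hv (hB hy))

theorem ell_le (h : Ok d E) (hB : B ⊆ E.D) (hv : v ∈ E.D) : ell E B v s x ≤ E.D.card := by
  have h1 := sum_le_card_nsmul B (fun y => E.θ ^ E.T.dist v y * cv E s x v y) 1 fun y hy =>
    mul_le_one₀ (pow_le_one₀ h.pos.le h.lt_one.le) (cv_nonneg h hv (hB hy))
      ((cv_le_Pr h hv (hB hy)).trans ((Pr_le h hv (hB hy)).trans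
        (pow_le_one₀ h.pos.le h.lt_one.le)))
  rw [nsmul_eq_mul, mul_one] at h1
  exact h1.trans (by exact_mod_cast card_le_card hB)

theorem measurable_ell : Measurable (ell E B v s) :=
  Finset.measurable_sum _ fun y _ => (measurable_cv v y).const_mul _

theorem ell_upd (h : Ok d E) (he : (w, k) ∉ s) : ∃ c : ℝ, ∀ o : ℝ, |o| ≤ 1 →
    ell E B v (insert (w, k) s) (update x (w, k) o) = ell E B v s x + c * al o (mg E s x w) -
      al o (mg E s x w) ^ 2 * (cv E s x v w * ∑ y ∈ B, E.θ ^ E.T.dist v y * cv E s x y w) := by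
  choose c hc using fun y => cv_upd (x := x) h he v y
  refine ⟨∑ y ∈ B, E.θ ^ E.T.dist v y * c y, fun o ho => ?_⟩
  simp only [ell, hc _ o ho, mul_sum, sum_mul, ← sum_add_distrib, ← sum_sub_distrib]
  exact sum_congr rfl fun y _ => by ring

theorem integrable_al {m : ℝ} (hm : |m| ≤ 1) : Integrable fun u : I => al (Q m u) m :=
  integrable_bd (measurable_al m) fun u => al_abs (Q_spec hm u.2).2 hm

theorem LF_ell (h : Ok d E) (hB : B ⊆ E.D) (hv : v ∈ E.D) (hw : w ∈ E.D) (he : (w, k) ∉ s) :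
    LF (R1 E) (fun s x => ENNReal.ofReal (ell E B v s x)) (w, k) s x ≤
      ENNReal.ofReal (ell E B v s x) := by
  obtain ⟨c, hc⟩ := ell_upd (B := B) (v := v) (x := x) h he
  have hm : |mg E s x w| ≤ 1 := mg_abs h
  refine lint_le (c := c) (integrable_al hm) (integral_al hm) (fun _ => ell_nonneg h hB hv)
    fun u => ?_
  have h1 : 0 ≤ cv E s x v w * ∑ y ∈ B, E.θ ^ E.T.dist v y * cv E s x y w :=
    mul_nonneg (cv_nonneg h hv hw) (sum_nonneg fun y hy =>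
      mul_nonneg (pow_nonneg h.pos.le _) (cv_nonneg h (hB hy) hw))
  have h2 := mul_nonneg (sq_nonneg (al (Q (mg E s x w) u) (mg E s x w))) h1
  have h3 := hc _ (Q_spec hm u.2).2
  exact h3.le.trans (by linarith)

theorem LF_bd (h : Ok d E) (hB : B ⊆ E.D) (hv : v ∈ E.D) (hw : w ∈ E.D) (he : (w, k) ∉ s)
    (he₁ : (w, k) ∉ s₁) (hy : ∃ y ∈ B, Btw E.T v y w) :
    LF (R1 E) (fun s x => ENNReal.ofReal ((mg E s x v - mg E s₁ x v) ^ 2 + ell E B v s x))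
      (w, k) s x ≤ ENNReal.ofReal ((mg E s x v - mg E s₁ x v) ^ 2 + ell E B v s x) := by
  obtain ⟨c, hc⟩ := ell_upd (B := B) (v := v) (x := x) h he
  obtain ⟨y, yB, hy⟩ := hy
  have hm : |mg E s x w| ≤ 1 := mg_abs h
  refine lint_le (c := c + 2 * (mg E s x v - mg E s₁ x v) * cv E s x v w) (integrable_al hm)
    (integral_al hm) (fun _ => add_nonneg (sq_nonneg _) (ell_nonneg h hB hv)) fun u => ?_
  have h0 : cv E s x v w ≤ ∑ y ∈ B, E.θ ^ E.T.dist v y * cv E s x y w := by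
    refine le_trans ?_ (single_le_sum (f := fun y => E.θ ^ E.T.dist v y * cv E s x y w)
      (fun y hy => mul_nonneg (pow_nonneg h.pos.le _) (cv_nonneg h (hB hy) hw)) yB)
    rw [cv_symm, cv_mul h hw hv hy.symm, mul_comm, cv_symm (v := w), E.T.dist_comm]
    exact mul_le_mul_of_nonneg_right (Pr_le h (hB yB) hv) (cv_nonneg h (hB yB) hw)
  have h1 := mul_le_mul_of_nonneg_left (mul_le_mul_of_nonneg_left h0
    (cv_nonneg (s := s) (x := x) h hv hw))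
    (sq_nonneg (al (Q (mg E s x w) u) (mg E s x w)))
  have h3 := hc _ (Q_spec hm u.2).2
  have h4 := mg_upd (x := x) h he (Q_spec hm u.2).2 v
  have h5 : mg E s₁ (update x (w, k) (Q (mg E s x w) u)) v = mg E s₁ x v :=
    mg_cg fun i hi => update_of_ne (ne_of_mem_of_not_mem hi he₁) _ _
  change (mg E (insert (w, k) s) (update x (w, k) (Q (mg E s x w) u)) v -
    mg E s₁ (update x (w, k) (Q (mg E s x w) u)) v) ^ 2 +
      ell E B v (insert (w, k) s) (update x (w, k) (Q (mg E s x w) u)) ≤ _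
  rw [h3, h4, h5]
  linarith

end

theorem measurable_gW {E : Env V} (Ev : Finset (V × ℕ)) (t : V × ℕ → ℝ) :
    Measurable fun ω : V × ℕ → I => gW (R1 E) Ev t fun i => ω (lc i) :=
  measurable_pi_lambda _ fun e => measurable_it (Ω := V × ℕ → I) mrule_R1 (τ := fun _ => t)
    (ζ := fun ω i => ω (lc i)) (fun _ => measurable_const) (fun _ => measurable_pi_apply _) _ e

theorem boundary {D₁ D₂ B : Finset V} (h₁ : Ok d ⟨T, θ, D₁⟩) (h₂ : Ok d ⟨T, θ, D₂⟩) (hD : D₁ ⊆ D₂)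
    (hB : B ⊆ D₁) {v : V} (hv : v ∈ D₁) (hg : ∀ w ∈ D₂, w ∉ D₁ → ∃ y ∈ B, Btw T v y w)
    {t : V × ℕ → ℝ} (ht : Injective t) (t0 : ∀ e, 0 ≤ t e) {q : ℝ} (hq : 0 ≤ q) (L : ℕ) :
    ∫⁻ ω, ENNReal.ofReal ((mg ⟨T, θ, D₂⟩ (pre (D₂ ×ˢ range L) t q)
        (gW (R1 ⟨T, θ, D₂⟩) (D₂ ×ˢ range L) t fun i => ω (lc i)) v -
      mg ⟨T, θ, D₁⟩ (pre (D₁ ×ˢ range L) t q)
        (gW (R1 ⟨T, θ, D₂⟩) (D₂ ×ˢ range L) t fun i => ω (lc i)) v) ^ 2) ∂P143.iid (V × ℕ) ≤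
    ∫⁻ ω, ENNReal.ofReal (ell ⟨T, θ, D₁⟩ B v (pre (D₁ ×ˢ range L) t q)
      (X (R1 ⟨T, θ, D₁⟩) (D₁ ×ˢ range L) t (fun i => ω (lc i)) q)) ∂P143.iid (V × ℕ) := by
  obtain ⟨s₁, hs₁⟩ : ∃ s, s = pre (D₁ ×ˢ range L) t q := ⟨_, rfl⟩
  obtain ⟨s₂, hs₂⟩ : ∃ s, s = pre (D₂ ×ˢ range L) t q := ⟨_, rfl⟩
  have m₁ : ∀ e, e ∈ s₁ ↔ (e.1 ∈ D₁ ∧ e.2 ∈ range L) ∧ t e < q := fun e => by
    rw [hs₁, mem_pre, mem_product]
  have m₂ : ∀ e, e ∈ s₂ ↔ (e.1 ∈ D₂ ∧ e.2 ∈ range L) ∧ t e < q := fun e => by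
    rw [hs₂, mem_pre, mem_product]
  have s12 : s₁ ⊆ s₂ := fun e he => (m₂ e).2 ⟨⟨hD ((m₁ e).1 he).1.1, ((m₁ e).1 he).1.2⟩,
    ((m₁ e).1 he).2⟩
  have i₁ : ∀ e ∈ s₁, e.1 ∈ D₁ := fun e he => ((m₁ e).1 he).1.1
  have i₂ : ∀ e ∈ s₂, e.1 ∈ D₂ := fun e he => ((m₂ e).1 he).1.1
  let t' : V × ℕ → ℝ := fun e => if e.1 ∈ D₁ then t e else t e + q
  have ht' : Set.InjOn t' s₂ := by
    intro a ha b hb e
    have a1 := ((m₂ a).1 ha).2
    have b1 := ((m₂ b).1 hb).2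
    have a2 := t0 a
    have b2 := t0 b
    simp only [t'] at e
    split_ifs at e
    · exact ht e
    · linarith
    · linarith
    · exact ht (by linarith)
  have p1 : pre s₂ t' q = s₁ := by
    ext e
    rw [mem_pre, m₁, m₂]
    have := t0 e
    simp only [t']
    split_ifs with h
    · exact ⟨fun h' => ⟨⟨h, h'.1.1.2⟩, h'.2⟩, fun h' => ⟨⟨⟨hD h, h'.1.2⟩, h'.2⟩, h'.2⟩⟩
    · exact ⟨fun h' => by linarith [h'.2], fun h' => absurd h'.1.1 h⟩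
  have p2 : pre s₂ t' (q + q) = s₂ := by
    refine filter_true_of_mem fun e he => ?_
    have := ((m₂ e).1 he).2
    simp only [t']
    split_ifs <;> linarith
  have mF : ∀ s, Measurable fun x => ENNReal.ofReal
      ((mg ⟨T, θ, D₂⟩ s x v - mg ⟨T, θ, D₂⟩ s₁ x v) ^ 2 + ell ⟨T, θ, D₂⟩ B v s x) := fun s =>
    ((((measurable_mg v).sub (measurable_mg v)).pow_const 2).add measurable_ell).ennreal_ofReal
  have c1 := chain (K := V × ℕ) (Γ := R1 ⟨T, θ, D₂⟩) mrule_R1 ht' lc_inj mF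
    (le_add_of_nonneg_right hq : q ≤ q + q) fun e he h1 _ x => by
      have h3 : e.1 ∉ D₁ := fun h3 => by
        have := ((m₂ e).1 he).2
        simp only [t', if_pos h3] at h1
        linarith
      exact LF_bd (w := e.1) (k := e.2) h₂ (hB.trans hD) (hD hv) (i₂ e he) (not_mem_pre_self e)
        (fun h4 => h3 (i₁ e h4)) (hg _ (i₂ e he) h3)
  have l1 := law_eq (K := V × ℕ) h₂ h₂ Subset.rfl ⟨v, hD hv⟩ (Ev := D₂ ×ˢ range L) (Ev' := s₂)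
    (s := s₂) (fun e he => (mem_product.1 he).1) i₂ (hs₂ ▸ filter_subset _ _) Subset.rfl
    ht.injOn ht' lc_inj (g := fun x => ENNReal.ofReal
      ((mg ⟨T, θ, D₂⟩ s₂ x v - mg ⟨T, θ, D₂⟩ s₁ x v) ^ 2))
    (((measurable_mg v).sub (measurable_mg v)).pow_const 2).ennreal_ofReal
  have l2 := law_eq (K := V × ℕ) h₁ h₂ hD ⟨v, hv⟩ (Ev := D₁ ×ˢ range L) (Ev' := s₂)
    (s := s₁) (fun e he => (mem_product.1 he).1) i₂ (hs₁ ▸ filter_subset _ _) s12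
    ht.injOn ht' lc_inj (g := fun x => ENNReal.ofReal (ell ⟨T, θ, D₁⟩ B v s₁ x))
    measurable_ell.ennreal_ofReal
  simp only [X, p1, p2, sub_self] at c1
  simp only [X, ← hs₁, ← hs₂]
  rw [l2]
  refine le_trans (le_of_eq (Eq.trans (lintegral_congr fun ω => ?_) l1))
    (le_trans (lintegral_mono fun ω => ?_) (c1.trans (le_of_eq (lintegral_congr fun ω => ?_))))
  · rw [← (mg_consistent h₁ h₂ hD i₁ _ hv hv).1, mg_cg (s := s₂) fun i hi => rs_of_mem hi,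
      mg_cg (s := s₁) fun i hi => rs_of_mem (s12 hi)]
  · exact ENNReal.ofReal_le_ofReal (le_add_of_nonneg_right
      (ell_nonneg h₂ (hB.trans hD) (hD hv)))
  · rw [zero_pow two_ne_zero, zero_add]
    congr 1
    exact sum_congr rfl fun y hy => by rw [(mg_consistent h₁ h₂ hD i₁ _ hv (hB hy)).2]

/-- The error functional. -/
noncomputable def Er (E : Env V) (B : Finset V) (δ : ℝ) (v : V) (q : ℝ) (s : Finset (V × ℕ))
    (x : V × ℕ → ℝ) : ℝ≥0∞ :=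
  (if q < δ then 2 else 0) + ENNReal.ofReal δ + ENNReal.ofReal δ⁻¹ * ENNReal.ofReal (ell E B v s x)

theorem measurable_Er {E : Env V} {B : Finset V} {δ : ℝ} {v : V} {q : ℝ} {s : Finset (V × ℕ)} :
    Measurable (Er E B δ v q s) :=
  measurable_const.add (measurable_ell.ennreal_ofReal.const_mul _)

theorem dM {D₁ D₂ B : Finset V} (h₁ : Ok d ⟨T, θ, D₁⟩) (h₂ : Ok d ⟨T, θ, D₂⟩) (hD : D₁ ⊆ D₂)
    (hB : B ⊆ D₁) {v : V} (hv : v ∈ D₁) (hg : ∀ w ∈ D₂, w ∉ D₁ → ∃ y ∈ B, Btw T v y w)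
    {t : V × ℕ → ℝ} (ht : Injective t) (t0 : ∀ e, 0 ≤ t e) {q δ : ℝ} (δ0 : 0 < δ) (L : ℕ) :
    ∫⁻ ω, ENNReal.ofReal |mg ⟨T, θ, D₂⟩ (pre (D₂ ×ˢ range L) t q)
        (gW (R1 ⟨T, θ, D₂⟩) (D₂ ×ˢ range L) t fun i => ω (lc i)) v -
      mg ⟨T, θ, D₁⟩ (pre (D₁ ×ˢ range L) t q)
        (gW (R1 ⟨T, θ, D₂⟩) (D₂ ×ˢ range L) t fun i => ω (lc i)) v| ∂P143.iid (V × ℕ) ≤
    ∫⁻ ω, Er ⟨T, θ, D₁⟩ B δ v q (pre (D₁ ×ˢ range L) t δ)
        (X (R1 ⟨T, θ, D₁⟩) (D₁ ×ˢ range L) t (fun i => ω (lc i)) δ) ∂P143.iid (V × ℕ) := by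
  unfold Er
  split_ifs with hq
  · refine lintegral_mono fun ω => le_add_right (le_add_right ?_)
    rw [← ENNReal.ofReal_ofNat]
    exact ENNReal.ofReal_le_ofReal ((abs_sub _ _).trans
      ((add_le_add (mg_abs h₂) (mg_abs h₁)).trans (by norm_num)))
  have hq' := not_lt.1 hq
  have c1 := chain (K := V × ℕ) (Γ := R1 ⟨T, θ, D₁⟩) (E := D₁ ×ˢ range L) mrule_R1 ht.injOn lc_inj
    (F := fun s x => ENNReal.ofReal (ell ⟨T, θ, D₁⟩ B v s x))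
    (fun _ => measurable_ell.ennreal_ofReal) hq' fun e he _ _ x =>
      LF_ell (w := e.1) (k := e.2) h₁ hB hv (mem_product.1 he).1 (not_mem_pre_self e)
  have c2 := (boundary h₁ h₂ hD hB hv hg ht t0 (δ0.le.trans hq') L).trans c1
  rw [zero_add, lintegral_add_left measurable_const,
    lintegral_const_mul' _ _ ENNReal.ofReal_ne_top]
  refine le_trans ?_ (add_le_add le_rfl (mul_le_mul_right c2 _))
  rw [← lintegral_const_mul' _ _ ENNReal.ofReal_ne_top, ← lintegral_add_left measurable_const]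
  refine lintegral_mono fun ω => ?_
  rw [← ENNReal.ofReal_mul (inv_pos.2 δ0).le, ← ENNReal.ofReal_add δ0.le (by positivity)]
  refine ENNReal.ofReal_le_ofReal ?_
  rw [← sq_abs]
  generalize |(_ : ℝ)| = a
  rw [← sub_nonneg, show δ + δ⁻¹ * a ^ 2 - a = δ⁻¹ * ((a - δ / 2) ^ 2 + 3 / 4 * δ ^ 2) by
    field_simp; ring]
  positivity

theorem cdf_lip {m m' w : ℝ} (hw : |w| ≤ 1) : |cdf m w - cdf m' w| ≤ |m - m'| := by
  have h1 : w ^ 2 ≤ 1 := by rw [← sq_abs]; exact pow_le_one₀ (abs_nonneg _) hw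
  rw [show cdf m w - cdf m' w = (m - m') * ((w ^ 2 - 1) / 32) by unfold cdf; ring, abs_mul]
  refine mul_le_of_le_one_right (abs_nonneg _) (abs_le.2 ⟨?_, ?_⟩) <;> linarith [sq_nonneg w]

theorem proj_lip (u : I) (c : ℝ) : |(u : ℝ) - Set.projIcc (0 : ℝ) 1 zero_le_one c| ≤ |u - c| := by
  have := Set.abs_projIcc_sub_projIcc (zero_le_one (α := ℝ)) (c := (u : ℝ)) (d := c)
  rwa [Set.projIcc_val] at this

theorem frozen {D₁ D₂ B : Finset V} (h₁ : Ok d ⟨T, θ, D₁⟩) (h₂ : Ok d ⟨T, θ, D₂⟩) (hD : D₁ ⊆ D₂)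
    (hB : B ⊆ D₁) {o : V} (ho : o ∈ D₁)
    (hg : ∀ v ∈ D₁, ∀ w ∈ D₂, w ∉ D₁ → ∃ y ∈ B, Btw T v y w)
    {t : V × ℕ → ℝ} (ht : Injective t) (t0 : ∀ e, 0 ≤ t e) {r δ Λ : ℝ} (δ0 : 0 < δ) (hΛ : 0 ≤ Λ)
    {L : ℕ} {In : Finset (V × ℕ)} (hIn : In ⊆ D₁ ×ˢ range L) {ψ : (V × ℕ → I) → ℝ}
    (mψ : Measurable ψ) (bψ : ∀ z, |ψ z| ≤ 1)
    (lψ : ∀ z z', |ψ z - ψ z'| ≤ Λ * ∑ e ∈ In, |(z e : ℝ) - z' e|) :
    ∫⁻ ω, ENNReal.ofReal (mg ⟨T, θ, D₂⟩ (pre (D₂ ×ˢ range L) t r)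
        (X (R1 ⟨T, θ, D₂⟩) (D₂ ×ˢ range L) t (fun i => ω (lc i)) r) o * ψ (fun i => ω (lc i)) + 1)
        ∂P143.iid (V × ℕ) ≤
    ∫⁻ ω, (ENNReal.ofReal (mg ⟨T, θ, D₁⟩ (pre (D₁ ×ˢ range L) t r)
        (X (R1 ⟨T, θ, D₁⟩) (D₁ ×ˢ range L) t (fun i => ω (lc i)) r) o * ψ (fun i => ω (lc i)) + 1) +
      Er ⟨T, θ, D₁⟩ B δ o r (pre (D₁ ×ˢ range L) t δ)
        (X (R1 ⟨T, θ, D₁⟩) (D₁ ×ˢ range L) t (fun i => ω (lc i)) δ) +
      ∑ e ∈ In, ENNReal.ofReal Λ * Er ⟨T, θ, D₁⟩ B δ e.1 (t e) (pre (D₁ ×ˢ range L) t δ)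
        (X (R1 ⟨T, θ, D₁⟩) (D₁ ×ˢ range L) t (fun i => ω (lc i)) δ)) ∂P143.iid (V × ℕ) := by
  let inn : (V × ℕ → ℝ) → V × ℕ → I := fun x e => Set.projIcc 0 1 zero_le_one
    (cdf (mg ⟨T, θ, D₁⟩ (pre (D₁ ×ˢ range L) t (t e)) x e.1) (x e))
  have mi : Measurable inn := measurable_pi_lambda _ fun e => by
    refine continuous_projIcc.measurable.comp ?_
    have := measurable_mg (E := ⟨T, θ, D₁⟩) (s := pre (D₁ ×ˢ range L) t (t e)) e.1
    unfold cdf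
    fun_prop
  let g : (V × ℕ → ℝ) → ℝ≥0∞ := fun x =>
    ENNReal.ofReal (mg ⟨T, θ, D₁⟩ (pre (D₁ ×ˢ range L) t r) x o * ψ (inn x) + 1)
  have mg' : Measurable g := (((measurable_mg o).mul (mψ.comp mi)).add_const 1).ennreal_ofReal
  have E12 : D₁ ×ˢ range L ⊆ D₂ ×ˢ range L := product_subset_product_left hD
  have law := law_eq (K := V × ℕ) h₁ h₂ hD ⟨o, ho⟩ (Ev := D₁ ×ˢ range L) (Ev' := D₂ ×ˢ range L)
    (s := D₁ ×ˢ range L) (fun e he => (mem_product.1 he).1) (fun e he => (mem_product.1 he).1)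
    Subset.rfl E12 ht.injOn ht.injOn lc_inj mg'
  have r1 : ∀ (E : Env V) (W : V × ℕ → ℝ) q v, mg E (pre (D₁ ×ˢ range L) t q)
      (rs (D₁ ×ˢ range L) W) v = mg E (pre (D₁ ×ˢ range L) t q) W v := fun E W q v =>
    mg_cg fun i hi => rs_of_mem (mem_pre.1 hi).1
  have r2 : ∀ (E : Env V) (Γ : Rule V ℝ) Ev z q v, mg E (pre Ev t q) (X Γ Ev t z q) v =
      mg E (pre Ev t q) (gW Γ Ev t z) v := fun E Γ Ev z q v => mg_cg fun i hi => rs_of_mem hi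
  have e1 : ∀ z, g (rs (D₁ ×ˢ range L) (gW (R1 ⟨T, θ, D₁⟩) (D₁ ×ˢ range L) t z)) =
      ENNReal.ofReal (mg ⟨T, θ, D₁⟩ (pre (D₁ ×ˢ range L) t r)
        (X (R1 ⟨T, θ, D₁⟩) (D₁ ×ˢ range L) t z r) o * ψ z + 1) := fun z => by
    have a1 := lψ (inn (rs (D₁ ×ˢ range L) (gW (R1 ⟨T, θ, D₁⟩) (D₁ ×ˢ range L) t z))) z
    rw [sum_eq_zero fun e he => by
      simp only [inn]
      rw [r1, rs_of_mem (hIn he), ← r2, gW_eq, R1, (Q_spec (mg_abs h₁) (z e).2).1,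
        Set.projIcc_val, sub_self, abs_zero], mul_zero, abs_nonpos_iff, sub_eq_zero] at a1
    simp only [g]
    rw [a1, r1, r2]
  have mΔ : ∀ q v, Measurable fun ω : V × ℕ → I => ENNReal.ofReal
      |mg ⟨T, θ, D₂⟩ (pre (D₂ ×ˢ range L) t q)
        (gW (R1 ⟨T, θ, D₂⟩) (D₂ ×ˢ range L) t fun i => ω (lc i)) v -
      mg ⟨T, θ, D₁⟩ (pre (D₁ ×ˢ range L) t q)
        (gW (R1 ⟨T, θ, D₂⟩) (D₂ ×ˢ range L) t fun i => ω (lc i)) v| := fun q v =>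
    (((measurable_mg v).comp (measurable_gW _ t)).sub
      ((measurable_mg v).comp (measurable_gW _ t))).abs.ennreal_ofReal
  have mE : ∀ q v, Measurable fun ω : V × ℕ → I => Er ⟨T, θ, D₁⟩ B δ v q (pre (D₁ ×ˢ range L) t δ)
      (X (R1 ⟨T, θ, D₁⟩) (D₁ ×ˢ range L) t (fun i => ω (lc i)) δ) := fun q v =>
    measurable_Er.comp (measurable_rs _ fun e => (measurable_pi_apply e).comp (measurable_gW _ t))
  have mG : ∀ (E : Env V) Ev, Measurable fun ω : V × ℕ → I =>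
      g (rs (D₁ ×ˢ range L) (gW (R1 E) Ev t fun i => ω (lc i))) := fun E Ev =>
    mg'.comp (measurable_rs _ fun e => (measurable_pi_apply e).comp (measurable_gW _ t))
  have e2 : ∀ z, ENNReal.ofReal (mg ⟨T, θ, D₂⟩ (pre (D₂ ×ˢ range L) t r)
      (X (R1 ⟨T, θ, D₂⟩) (D₂ ×ˢ range L) t z r) o * ψ z + 1) ≤
      g (rs (D₁ ×ˢ range L) (gW (R1 ⟨T, θ, D₂⟩) (D₂ ×ˢ range L) t z)) +
      ENNReal.ofReal |mg ⟨T, θ, D₂⟩ (pre (D₂ ×ˢ range L) t r)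
          (gW (R1 ⟨T, θ, D₂⟩) (D₂ ×ˢ range L) t z) o -
        mg ⟨T, θ, D₁⟩ (pre (D₁ ×ˢ range L) t r) (gW (R1 ⟨T, θ, D₂⟩) (D₂ ×ˢ range L) t z) o| +
      ∑ e ∈ In, ENNReal.ofReal Λ * ENNReal.ofReal |mg ⟨T, θ, D₂⟩ (pre (D₂ ×ˢ range L) t (t e))
          (gW (R1 ⟨T, θ, D₂⟩) (D₂ ×ˢ range L) t z) e.1 -
        mg ⟨T, θ, D₁⟩ (pre (D₁ ×ˢ range L) t (t e))
          (gW (R1 ⟨T, θ, D₂⟩) (D₂ ×ˢ range L) t z) e.1| := fun z => by
    have a1 := (lψ z (inn (rs (D₁ ×ˢ range L) (gW (R1 ⟨T, θ, D₂⟩) (D₂ ×ˢ range L) t z)))).trans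
      (mul_le_mul_of_nonneg_left (sum_le_sum (g := fun e =>
        |mg ⟨T, θ, D₂⟩ (pre (D₂ ×ˢ range L) t (t e))
          (gW (R1 ⟨T, θ, D₂⟩) (D₂ ×ˢ range L) t z) e.1 -
        mg ⟨T, θ, D₁⟩ (pre (D₁ ×ˢ range L) t (t e))
          (gW (R1 ⟨T, θ, D₂⟩) (D₂ ×ˢ range L) t z) e.1|) fun e he => by
        simp only [inn]
        have b1 := Q_spec (mg_abs (s := pre (D₂ ×ˢ range L) t (t e))
          (x := X (R1 ⟨T, θ, D₂⟩) (D₂ ×ˢ range L) t z (t e)) (v := e.1) h₂) (z e).2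
        rw [r1, rs_of_mem (hIn he), ← r2 ⟨T, θ, D₂⟩, gW_eq, R1]
        refine le_trans ?_ (cdf_lip b1.2)
        rw [b1.1]
        exact proj_lip _ _) hΛ)
    simp only [g, ← ENNReal.ofReal_mul hΛ]
    rw [← ENNReal.ofReal_sum_of_nonneg fun e _ => by positivity, ← mul_sum]
    refine le_trans (ENNReal.ofReal_le_ofReal ?_) (ENNReal.ofReal_add_le.trans
      (add_le_add ENNReal.ofReal_add_le le_rfl))
    rw [r1, r2]
    have a2 := bψ z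
    have a3 := mg_abs (s := pre (D₁ ×ˢ range L) t r) (x := gW (R1 ⟨T, θ, D₂⟩) (D₂ ×ˢ range L) t z)
      (v := o) h₁
    generalize mg ⟨T, θ, D₂⟩ (pre (D₂ ×ˢ range L) t r)
      (gW (R1 ⟨T, θ, D₂⟩) (D₂ ×ˢ range L) t z) o = a at *
    generalize mg ⟨T, θ, D₁⟩ (pre (D₁ ×ˢ range L) t r)
      (gW (R1 ⟨T, θ, D₂⟩) (D₂ ×ˢ range L) t z) o = b at *
    generalize ψ (inn _) = p' at *
    generalize ψ z = p at *
    have a4 : |(a - b) * p| ≤ |a - b| := by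
      rw [abs_mul]; exact mul_le_of_le_one_right (abs_nonneg _) a2
    have a5 : |b * (p - p')| ≤ |p - p'| := by
      rw [abs_mul]; exact mul_le_of_le_one_left (abs_nonneg _) a3
    linarith [le_abs_self ((a - b) * p), le_abs_self (b * (p - p'))]
  refine (lintegral_mono fun ω => e2 _).trans ?_
  simp only [← e1]
  rw [lintegral_add_left ((mG _ _).fun_add (mΔ _ _)), lintegral_add_left (mG _ _),
    lintegral_add_left ((mG _ _).fun_add (mE _ _)), lintegral_add_left (mG _ _), law,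
    lintegral_finsetSum _ fun e _ => (mΔ _ _).const_mul _,
    lintegral_finsetSum _ fun e _ => (mE _ _).const_mul _]
  refine add_le_add (add_le_add le_rfl (dM h₁ h₂ hD hB ho (hg o ho) ht t0 δ0 L))
    (sum_le_sum fun e he => ?_)
  have he' := (mem_product.1 (hIn he)).1
  rw [lintegral_const_mul' _ _ ENNReal.ofReal_ne_top, lintegral_const_mul' _ _ ENNReal.ofReal_ne_top]
  exact mul_le_mul_right (dM h₁ h₂ hD hB he' (hg _ he') ht t0 δ0 L) _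

end Vale.Agent.P161.C
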